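import Vale.Agent.P274.Base

/-! Several complex variables, part 1: Weierstrass convergence theorem, analyticity. -/

open Set Filter Topology Metric

namespace Vale.Agent.P274

variable {E F : Type*} [NormedAddCommGroup E] [NormedSpace ℂ E] [FiniteDimensional ℂ E]
  [NormedAddCommGroup F] [NormedSpace ℂ F] [CompleteSpace F]

namespace SCV1Aux

omit [CompleteSpace F] in
theorem unif_local {ι : Type*} {l : Filter ι} [l.NeBot] {f : ι → E → F} {g : E → F} {x : E}
    {r M : ℝ} (hr : 0 < r)
    (hb : ∀ᶠ j in l, DifferentiableOn ℂ (f j) (ball x r) ∧ ∀ y ∈ ball x r, ‖f j y‖ ≤ M)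
    (hp : ∀ y ∈ ball x r, Tendsto (fun j => f j y) l (𝓝 (g y))) :
    TendstoUniformlyOn f g l (ball x (r / 4)) := by
  haveI : ProperSpace E := FiniteDimensional.proper ℂ E
  have hM : 0 ≤ M := by
    obtain ⟨j, hj⟩ := hb.exists
    exact (norm_nonneg _).trans (hj.2 x (mem_ball_self hr))
  have hL : 0 ≤ 4 * M / r := by positivity
  have hlip : ∀ᶠ j in l, ∀ y ∈ ball x (r / 2), ∀ z ∈ ball x (r / 2),
      ‖f j y - f j z‖ ≤ 4 * M / r * ‖y - z‖ :=
    hb.mono fun j hj y hy z hz => norm_sub_le_of_bdd hr hj.1 hj.2 hy hz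
  generalize 4 * M / r = L at hL hlip
  have h2 : ball x (r / 2) ⊆ ball x r := ball_subset_ball (by linarith)
  have hg : ∀ y ∈ ball x (r / 2), ∀ z ∈ ball x (r / 2), ‖g y - g z‖ ≤ L * ‖y - z‖ :=
    fun y hy z hz => le_of_tendsto ((hp y (h2 hy)).sub (hp z (h2 hz))).norm
      (hlip.mono fun j hj => hj y hy z hz)
  have h4 : closedBall x (r / 4) ⊆ ball x (r / 2) := closedBall_subset_ball (by linarith)
  rw [Metric.tendstoUniformlyOn_iff]
  intro ε hε
  have hδ : 0 < ε / (3 * (L + 1)) := by positivity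
  obtain ⟨T, hT, hTf, hcov⟩ := (isCompact_closedBall x (r / 4)).finite_cover_balls hδ
  have hev : ∀ᶠ j in l, ∀ t ∈ T, dist (f j t) (g t) < ε / 3 :=
    (Filter.eventually_all_finite hTf).2 fun t ht =>
      Metric.tendsto_nhds.1 (hp t (h2 (h4 (hT ht)))) _ (by positivity)
  filter_upwards [hev, hlip] with j hj hjl y hy
  have hy' : y ∈ closedBall x (r / 4) := ball_subset_closedBall hy
  obtain ⟨t, ht, hyt⟩ := mem_iUnion₂.1 (hcov hy')
  rw [mem_ball, dist_eq_norm] at hyt
  have hLd : L * ‖y - t‖ ≤ ε / 3 := by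
    have h5 : L * ‖y - t‖ ≤ (L + 1) * (ε / (3 * (L + 1))) :=
      mul_le_mul (by linarith) hyt.le (norm_nonneg _) (by linarith)
    have h6 : (L + 1) * (ε / (3 * (L + 1))) = ε / 3 := by field_simp
    linarith
  have a1 := hg y (h4 hy') t (h4 (hT ht))
  have a2 := hjl y (h4 hy') t (h4 (hT ht))
  have a3 := hj t ht
  rw [← dist_eq_norm] at a1 a2
  have a4 := dist_triangle4 (g y) (g t) (f j t) (f j y)
  rw [dist_comm (g t), dist_comm (f j t) (f j y)] at a4
  linarith

theorem deriv_local {ι : Type*} {l : Filter ι} [l.NeBot] {f : ι → E → F} {g : E → F} {x : E}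
    {r M : ℝ} (hr : 0 < r)
    (hb : ∀ᶠ j in l, DifferentiableOn ℂ (f j) (ball x r) ∧ ∀ y ∈ ball x r, ‖f j y‖ ≤ M)
    (hp : ∀ y ∈ ball x r, Tendsto (fun j => f j y) l (𝓝 (g y))) :
    DifferentiableAt ℂ g x ∧
      TendstoUniformlyOn (fun j => fderiv ℂ (f j)) (fderiv ℂ g) l (ball x (r / 8)) := by
  have hu := unif_local hr hb hp
  have h8 : ball x (r / 8) ⊆ ball x r := ball_subset_ball (by linarith)
  have hC : UniformCauchySeqOn (fun j => fderiv ℂ (f j)) l (ball x (r / 8)) := by
    intro u hu'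
    obtain ⟨ε, hε, hεu⟩ := Metric.mem_uniformity_dist.1 hu'
    have hδ : 0 < ε * r / 64 := by positivity
    have hev := (Metric.tendstoUniformlyOn_iff.1 hu _ hδ).and hb
    filter_upwards [hev.prod_mk hev] with m hm y hy
    obtain ⟨⟨a1, a2, -⟩, b1, b2, -⟩ := hm
    apply hεu
    have hsub : ball y (r / 8) ⊆ ball x (r / 4) := by
      apply ball_subset_ball'
      have := mem_ball.1 hy
      linarith
    have hsub' : ball y (r / 8) ⊆ ball x r := hsub.trans (ball_subset_ball (by linarith))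
    have hyr : ball x r ∈ 𝓝 y := isOpen_ball.mem_nhds (h8 hy)
    have hd := norm_fderiv_le_of_bdd (f := fun z => f m.1 z - f m.2 z) (x := y) (r := r / 8)
      (M := 2 * (ε * r / 64)) (by positivity) ((a2.mono hsub').sub (b2.mono hsub'))
      (fun z hz => by
        have c1 := a1 z (hsub hz)
        have c2 := b1 z (hsub hz)
        have c3 := dist_triangle_left (f m.1 z) (f m.2 z) (g z)
        rw [← dist_eq_norm]
        linarith)
    rw [fderiv_fun_sub (a2.differentiableAt hyr) (b2.differentiableAt hyr)] at hd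
    rw [dist_eq_norm]
    have e : 2 * (2 * (ε * r / 64)) / (r / 8) = ε / 2 := by field_simp; ring
    rw [e] at hd
    linarith
  have hlim : ∀ y ∈ ball x (r / 8), Tendsto (fun j => fderiv ℂ (f j) y) l
      (𝓝 (limUnder l fun j => fderiv ℂ (f j) y)) := fun y hy =>
    tendsto_nhds_limUnder (CompleteSpace.complete (hC.cauchy_map hy))
  have hU := hC.tendstoUniformlyOn_of_tendsto hlim
  have hder : ∀ y ∈ ball x (r / 8),
      HasFDerivAt g (limUnder l fun j => fderiv ℂ (f j) y) y := by
    intro y hy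
    have hyn : ball x (r / 8) ∈ 𝓝 y := isOpen_ball.mem_nhds hy
    refine hasFDerivAt_of_tendstoUniformlyOnFilter (f := f) (f' := fun j => fderiv ℂ (f j))
      (g' := fun y => limUnder l fun j => fderiv ℂ (f j) y) (l := l) ?_ ?_ ?_
    · exact hU.tendstoUniformlyOnFilter.mono_right (le_principal_iff.2 hyn)
    · filter_upwards [hb.prod_mk (show ∀ᶠ z in 𝓝 y, z ∈ ball x (r / 8) from hyn)] with m hm
      exact (hm.1.1.differentiableAt (isOpen_ball.mem_nhds (h8 hm.2))).hasFDerivAt
    · filter_upwards [hyn] with z hz using hp z (h8 hz)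
  refine ⟨(hder x (mem_ball_self (by positivity))).differentiableAt, ?_⟩
  exact hU.congr_right fun y hy => (hder y hy).fderiv.symm

end SCV1Aux

/-- Pointwise convergence of locally bounded holomorphic maps is locally uniform, together with
the derivatives.
Sketch: near `x`, eventually all `f j` are Lipschitz on `ball x (r/2)` with one constant
(`norm_sub_le_of_bdd`), so is `g`; on the compact `closedBall x (r/4)` (`E` is proper) pointwise
convergence of equi-Lipschitz maps is uniform (finite net). The Cauchy estimate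
`norm_fderiv_le_of_bdd` applied to `f i - f j` shows that the derivatives are uniformly Cauchy near
`x` (`UniformCauchySeqOn`); `E →L[ℂ] F` is complete; conclude with
`hasFDerivAt_of_tendstoUniformlyOnFilter` or `hasFDerivAt_of_tendstoLocallyUniformlyOn`. -/
theorem weierstrass {ι : Type*} {l : Filter ι} [l.NeBot] {f : ι → E → F} {g : E → F} {V : Set E}
    (hV : IsOpen V)
    (hb : ∀ x ∈ V, ∃ r > 0, ∃ M, ∀ᶠ j in l,
      DifferentiableOn ℂ (f j) (ball x r) ∧ ∀ y ∈ ball x r, ‖f j y‖ ≤ M)
    (hp : ∀ x ∈ V, Tendsto (fun j => f j x) l (𝓝 (g x))) :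
    DifferentiableOn ℂ g V ∧ TendstoLocallyUniformlyOn f g l V ∧
      TendstoLocallyUniformlyOn (fun j => fderiv ℂ (f j)) (fderiv ℂ g) l V := by
  have key : ∀ x ∈ V, ∃ r > 0, ∃ M, (∀ᶠ j in l,
      DifferentiableOn ℂ (f j) (ball x r) ∧ ∀ y ∈ ball x r, ‖f j y‖ ≤ M) ∧
      ∀ y ∈ ball x r, Tendsto (fun j => f j y) l (𝓝 (g y)) := by
    intro x hx
    obtain ⟨r, hr, M, h⟩ := hb x hx
    obtain ⟨s, hs, hsV⟩ := Metric.isOpen_iff.1 hV x hx
    have h1 : ball x (min r s) ⊆ ball x r := ball_subset_ball (min_le_left _ _)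
    have h2 : ball x (min r s) ⊆ V := (ball_subset_ball (min_le_right _ _)).trans hsV
    exact ⟨min r s, lt_min hr hs, M, h.mono fun j hj => ⟨hj.1.mono h1, fun y hy => hj.2 y (h1 hy)⟩,
      fun y hy => hp y (h2 hy)⟩
  refine ⟨fun x hx => ?_, tendstoLocallyUniformlyOn_of_forall_exists_nhds fun x hx => ?_,
    tendstoLocallyUniformlyOn_of_forall_exists_nhds fun x hx => ?_⟩
  · obtain ⟨r, hr, M, h1, h2⟩ := key x hx
    exact (SCV1Aux.deriv_local hr h1 h2).1.differentiableWithinAt
  · obtain ⟨r, hr, M, h1, h2⟩ := key x hx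
    exact ⟨_, mem_nhdsWithin_of_mem_nhds (ball_mem_nhds x (by positivity)),
      SCV1Aux.unif_local hr h1 h2⟩
  · obtain ⟨r, hr, M, h1, h2⟩ := key x hx
    exact ⟨_, mem_nhdsWithin_of_mem_nhds (ball_mem_nhds x (by positivity)),
      (SCV1Aux.deriv_local hr h1 h2).2⟩

namespace SCV1Aux

omit [FiniteDimensional ℂ E] [CompleteSpace F] in
theorem exists_bdd {f : E → F} {V : Set E} (hV : IsOpen V) (hf : DifferentiableOn ℂ f V) {x : E}
    (hx : x ∈ V) : ∃ R > 0, ball x R ⊆ V ∧ ∃ M, ∀ y ∈ ball x R, ‖f y‖ ≤ M := by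
  have hc : ContinuousAt f x := (hf.differentiableAt (hV.mem_nhds hx)).continuousAt
  have h1 : ∀ᶠ y in 𝓝 x, ‖f y‖ < ‖f x‖ + 1 := hc.norm.eventually (gt_mem_nhds (by linarith))
  obtain ⟨R, hR, h⟩ := Metric.mem_nhds_iff.1 (inter_mem (hV.mem_nhds hx) h1)
  exact ⟨R, hR, fun y hy => (h hy).1, ‖f x‖ + 1, fun y hy => le_of_lt (h hy).2⟩

theorem fderiv_apply {f : E → F} {V : Set E} (hV : IsOpen V) (hf : DifferentiableOn ℂ f V)
    (v : E) : DifferentiableOn ℂ (fun y => fderiv ℂ f y v) V := by
  refine (weierstrass (l := 𝓝[≠] (0 : ℂ)) (f := fun (t : ℂ) y => t⁻¹ • (f (y + t • v) - f y)) hV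
    (fun x hx => ?_) (fun x hx => ?_)).1
  · obtain ⟨R, hR, hRV, M, hM⟩ := exists_bdd hV hf hx
    refine ⟨R / 4, by positivity, 4 * M / R * ‖v‖, ?_⟩
    have hc : Tendsto (fun t : ℂ => ‖t • v‖) (𝓝 0) (𝓝 0) := by
      have : Continuous fun t : ℂ => ‖t • v‖ := by fun_prop
      simpa using this.tendsto 0
    have h1 : ∀ᶠ t : ℂ in 𝓝[≠] 0, ‖t • v‖ < R / 4 :=
      mem_nhdsWithin_of_mem_nhds (hc.eventually (gt_mem_nhds (by positivity)))
    filter_upwards [h1, self_mem_nhdsWithin] with t ht ht0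
    have ht0' : t ≠ 0 := ht0
    have hin : ∀ y ∈ ball x (R / 4), y + t • v ∈ ball x (R / 2) := fun y hy => by
      rw [mem_ball, dist_eq_norm] at hy ⊢
      have e : y + t • v - x = y - x + t • v := by abel
      rw [e]
      linarith [norm_add_le (y - x) (t • v)]
    have h42 : ball x (R / 4) ⊆ ball x (R / 2) := ball_subset_ball (by linarith)
    have h2 : ball x (R / 2) ⊆ V := (ball_subset_ball (by linarith)).trans hRV
    constructor
    · refine DifferentiableOn.const_smul (DifferentiableOn.sub ?_ (hf.mono (h42.trans h2))) _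
      exact hf.comp (differentiableOn_id.add_const _) fun y hy => h2 (hin y hy)
    · intro y hy
      have h3 := norm_sub_le_of_bdd hR (hf.mono hRV) hM (hin y hy) (h42 hy)
      rw [add_sub_cancel_left, norm_smul] at h3
      have ht1 : 0 < ‖t‖ := norm_pos_iff.2 ht0'
      rw [norm_smul, norm_inv, inv_mul_le_iff₀ ht1]
      linarith
  · exact ((hf.differentiableAt (hV.mem_nhds hx)).hasFDerivAt.hasLineDerivAt v).tendsto_slope_zero

theorem cont_diff {V : Set E} (hV : IsOpen V) (n : ℕ) :
    ∀ {f : E → F}, DifferentiableOn ℂ f V → ContDiffOn ℂ n f V := by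
  induction n with
  | zero => intro f hf; exact contDiffOn_zero.2 hf.continuousOn
  | succ n ih =>
    intro f hf
    rw [Nat.cast_succ]
    refine contDiffOn_succ_of_fderiv_apply hf (fun h => absurd h (by simp)) fun v => ?_
    refine (ih (fderiv_apply hV hf v)).congr fun y hy => ?_
    rw [fderivWithin_of_isOpen hV hy]

theorem iter_diff {f : E → F} {V : Set E} (hV : IsOpen V) (hf : DifferentiableOn ℂ f V) (n : ℕ) :
    DifferentiableOn ℂ (iteratedFDeriv ℂ n f) V := fun x hx =>
  (((cont_diff hV (n + 1) hf).contDiffAt (hV.mem_nhds hx)).differentiableAt_iteratedFDeriv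
    (by exact_mod_cast Nat.lt_succ_self n)).differentiableWithinAt

theorem iter_bound {f : E → F} {x : E} {R M ρ : ℝ} (hf : DifferentiableOn ℂ f (ball x R))
    (hM : ∀ y ∈ ball x R, ‖f y‖ ≤ M) (hρ : 0 < ρ) (k : ℕ) :
    ∀ y, dist y x + k * ρ < R → ‖iteratedFDeriv ℂ k f y‖ ≤ M * (2 / ρ) ^ k := by
  induction k with
  | zero =>
    intro y hy
    rw [norm_iteratedFDeriv_zero, pow_zero, mul_one]
    exact hM y (by simpa using hy)
  | succ k ih =>
    intro y hy
    push_cast at hy
    have hk : 0 ≤ (k : ℝ) * ρ := by positivity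
    have hsub : ball y ρ ⊆ ball x R := ball_subset_ball' (by linarith)
    have h := norm_fderiv_le_of_bdd hρ ((iter_diff isOpen_ball hf k).mono hsub)
      (M := M * (2 / ρ) ^ k) fun z hz => ih z (by
        have := mem_ball.1 hz
        have := dist_triangle z y x
        linarith)
    rw [norm_fderiv_iteratedFDeriv] at h
    refine h.trans (le_of_eq ?_)
    rw [pow_succ]
    ring

theorem line_deriv {f : E → F} {V : Set E} (hV : IsOpen V) (hf : DifferentiableOn ℂ f V)
    {x y : E} {U : Set ℂ} (hU : IsOpen U) (hm : ∀ t ∈ U, x + t • y ∈ V) (n : ℕ) :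
    ∀ t ∈ U, iteratedDeriv n (fun t : ℂ => f (x + t • y)) t =
      iteratedFDeriv ℂ n f (x + t • y) fun _ => y := by
  induction n with
  | zero => intro t _; simp
  | succ n ih =>
    intro t ht
    rw [iteratedDeriv_succ, iteratedFDeriv_succ_apply_left]
    have he : iteratedDeriv n (fun t : ℂ => f (x + t • y)) =ᶠ[𝓝 t]
        fun t : ℂ => iteratedFDeriv ℂ n f (x + t • y) fun _ => y :=
      eventually_of_mem (hU.mem_nhds ht) ih
    rw [he.deriv_eq]
    have h1 : HasDerivAt (fun t : ℂ => x + t • y) y t := by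
      simpa using ((hasDerivAt_id t).smul_const y).const_add x
    have h2 := ((iter_diff hV hf n).differentiableAt
      (hV.mem_nhds (hm t ht))).hasFDerivAt.comp_hasDerivAt t h1
    have h3 := (ContinuousMultilinearMap.apply ℂ (fun _ : Fin n => E) F
      (fun _ => y)).hasFDerivAt.comp_hasDerivAt t h2
    exact h3.deriv

end SCV1Aux

/-- Holomorphic maps of several variables are analytic.
Sketch: (1) `y ↦ fderiv ℂ f y v` is the limit as `t → 0` of the locally bounded holomorphic
difference quotients `t⁻¹ • (f (y + t • v) - f y)` (bounded by `norm_sub_le_of_bdd`), hence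
differentiable by `weierstrass`; with a basis of `E`, `fderiv ℂ f` is differentiable on `V`.
(2) By induction on `n` (generalizing the target space; mind universes: either prove the statement
`DifferentiableOn ℂ (iteratedFDeriv ℂ n f) V` by induction using
`iteratedFDeriv_succ_eq_comp_left`, or lift universes) `f` is `ContDiffOn ℂ n` for all `n`, and
applying the Cauchy estimate `n` times with radius `R / n` gives
`‖iteratedFDeriv ℂ n f x‖ ≤ M (2 n / R) ^ n`, while `n ^ n / n! ≤ exp n`.
(3) The series `p n = (n!)⁻¹ • iteratedFDeriv ℂ n f x` has positive radius, and for small `v` the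
one-variable function `λ ↦ f (x + λ • v)` on `ball 0 2` has
`Complex.hasSum_taylorSeries_on_ball`, with `iteratedDeriv n (..) 0 = iteratedFDeriv ℂ n f x (v,…,v)`.
Any other proof is fine. -/
theorem analyticOnNhd_of_differentiableOn {f : E → F} {V : Set E} (hV : IsOpen V)
    (hf : DifferentiableOn ℂ f V) : AnalyticOnNhd ℂ f V := by
  intro x hx
  obtain ⟨R, hR, hRV, M, hM⟩ := SCV1Aux.exists_bdd hV hf hx
  have hM0 : 0 ≤ M := (norm_nonneg _).trans (hM x (mem_ball_self hR))
  let p : FormalMultilinearSeries ℂ E F := fun n => ((n.factorial : ℂ)⁻¹) • iteratedFDeriv ℂ n f x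
  let r : NNReal := ⟨R / 6, by positivity⟩
  have hr : (r : ℝ) = R / 6 := rfl
  refine ⟨p, r, p.le_radius_of_bound (3 * M) fun n => ?_, ?_, fun {y} hy => ?_⟩
  · have hn : (0 : ℝ) < (n : ℝ) + 1 := by positivity
    have h1 := SCV1Aux.iter_bound (hf.mono hRV) hM (ρ := R / (n + 1)) (by positivity) n x (by
      rw [dist_self, zero_add, ← mul_div_assoc, div_lt_iff₀ hn]
      linarith)
    have h2 : ((n : ℝ) + 1) ^ n / n.factorial ≤ 3 ^ (n + 1) := by
      refine (Real.pow_div_factorial_le_exp _ hn.le n).trans ?_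
      have e : Real.exp ((n : ℝ) + 1) = Real.exp 1 ^ (n + 1) := by
        rw [← Real.exp_nat_mul]
        simp
      rw [e]
      exact pow_le_pow_left₀ (Real.exp_pos _).le (by linarith [Real.exp_one_lt_d9]) _
    have h3 : ‖p n‖ = (n.factorial : ℝ)⁻¹ * ‖iteratedFDeriv ℂ n f x‖ := by
      simp only [p, norm_smul, norm_inv, Complex.norm_natCast]
    have h4 : (2 / (R / ((n : ℝ) + 1))) ^ n * (R / 6) ^ n = ((n : ℝ) + 1) ^ n / 3 ^ n := by
      rw [← mul_pow, ← div_pow]
      congr 1
      field_simp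
      ring
    calc ‖p n‖ * (r : ℝ) ^ n
        ≤ (n.factorial : ℝ)⁻¹ * (M * (2 / (R / ((n : ℝ) + 1))) ^ n) * (R / 6) ^ n := by
          rw [h3, hr]
          gcongr
      _ = M * (((n : ℝ) + 1) ^ n / n.factorial) / 3 ^ n := by
          rw [mul_assoc, mul_assoc, h4]
          ring
      _ ≤ M * 3 ^ (n + 1) / 3 ^ n := by gcongr
      _ = 3 * M := by
          rw [pow_succ]
          field_simp
  · have : 0 < r := by
      rw [← NNReal.coe_pos, hr]
      positivity
    exact_mod_cast this
  · rw [Metric.eball_coe, mem_ball, dist_zero_right, hr] at hy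
    have hm : ∀ t ∈ ball (0 : ℂ) 2, x + t • y ∈ V := fun t ht => by
      apply hRV
      rw [mem_ball, dist_zero_right] at ht
      rw [mem_ball, dist_eq_norm, add_sub_cancel_left, norm_smul]
      nlinarith [norm_nonneg t, norm_nonneg y]
    have hd : DifferentiableOn ℂ (fun t : ℂ => f (x + t • y)) (ball 0 2) :=
      hf.comp (by fun_prop) hm
    have hs := Complex.hasSum_taylorSeries_on_ball hd (z := 1) (by simp)
    simp only [sub_zero, one_pow, one_smul] at hs
    convert hs using 2 with n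
    rw [SCV1Aux.line_deriv hV hf isOpen_ball hm n 0 (by simp)]
    simp [p]

theorem holOn_of_differentiableOn {f : E → F} {V : Set E} (hV : IsOpen V)
    (hf : DifferentiableOn ℂ f V) : HolOn V f :=
  holOn_of_analyticOnNhd (analyticOnNhd_of_differentiableOn hV hf)

theorem analyticAt_of_eventually_differentiableAt {f : E → F} {x : E}
    (hf : ∀ᶠ y in 𝓝 x, DifferentiableAt ℂ f y) : AnalyticAt ℂ f x := by
  obtain ⟨V, hV, hVo, hx⟩ := _root_.eventually_nhds_iff.1 hf
  exact analyticOnNhd_of_differentiableOn hVo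
    (fun y hy => (hV y hy).differentiableWithinAt) x hx

theorem analyticOnNhd_of_differentiable {f : E → F} (hf : Differentiable ℂ f) :
    AnalyticOnNhd ℂ f univ :=
  analyticOnNhd_of_differentiableOn isOpen_univ hf.differentiableOn

end Vale.Agent.P274
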