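import Vale.Agent.P274.StB

open Set Filter Topology Metric MvPolynomial MeasureTheory

namespace Vale.Agent.P274

namespace AN0Aux

theorem null_of_rays {E : Type} [NormedAddCommGroup E] [NormedSpace ℝ E] [MeasurableSpace E]
    [BorelSpace E] [FiniteDimensional ℝ E] (μ : Measure E) [μ.IsAddHaarMeasure] {s : Set E}
    (hs : MeasurableSet s) (x₁ : E) (h : ∀ v, ∀ᵐ t : ℝ, x₁ + t • v ∈ s) : ∀ᵐ x ∂μ, x ∈ s := by
  have hm : MeasurableSet {p : E × ℝ | x₁ + p.2 • p.1 ∈ s} :=
    (by fun_prop : Continuous fun p : E × ℝ => x₁ + p.2 • p.1).measurable hs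
  have h1 := (Measure.ae_ae_comm (μ := μ) (ν := (volume : Measure ℝ))
    (p := fun v t => x₁ + t • v ∈ s) hm).1 (Eventually.of_forall h)
  have h2 : ∀ᵐ t : ℝ, t ≠ 0 := by simp [ae_iff]
  obtain ⟨t, ht, ht0⟩ := (h1.and h2).exists
  have h3 : μ ((t • ·) ⁻¹' ((fun v => x₁ + v) ⁻¹' sᶜ)) = 0 := ht
  rw [Measure.addHaar_preimage_smul μ ht0, measure_preimage_add, mul_eq_zero] at h3
  refine h3.resolve_left ?_
  have h4 : 0 < |(t ^ Module.finrank ℝ E)⁻¹| := abs_pos.2 (inv_ne_zero (pow_ne_zero _ ht0))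
  simpa using h4

theorem ae_ne {d : ℕ} {F : Type} [NormedAddCommGroup F] [NormedSpace ℝ F] {f : (Fin d → ℝ) → F}
    {B : Set (Fin d → ℝ)} (hB : IsOpen B) (hc : Convex ℝ B) (hf : AnalyticOnNhd ℝ f B)
    {x₁ : Fin d → ℝ} (h1 : x₁ ∈ B) (h2 : f x₁ ≠ 0) : ∀ᵐ x, x ∈ B → f x ≠ 0 := by
  have ho : IsOpen (B ∩ f ⁻¹' {0}ᶜ) :=
    hf.continuousOn.isOpen_inter_preimage hB isOpen_compl_singleton
  have key := null_of_rays (volume : Measure (Fin d → ℝ))
    (hB.measurableSet.compl.union ho.measurableSet) x₁ fun v => ?_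
  · filter_upwards [key] with x hx hxB
    rcases hx with hx | hx
    · exact absurd hxB hx
    · exact hx.2
  · have hl : Continuous fun t : ℝ => x₁ + t • v := by fun_prop
    have hI : IsOpen {t : ℝ | x₁ + t • v ∈ B} := hB.preimage hl
    have hI2 : Convex ℝ {t : ℝ | x₁ + t • v ∈ B} := by
      intro a ha b hb p q hp hq hpq
      have h3 := hc ha hb hp hq hpq
      have h4 : p • (x₁ + a • v) + q • (x₁ + b • v) = (p + q) • x₁ + (p • a + q • b) • v := by
        simp only [smul_eq_mul]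
        module
      rw [h4, hpq, one_smul] at h3
      exact h3
    have hg : AnalyticOnNhd ℝ (fun t : ℝ => f (x₁ + t • v)) {t : ℝ | x₁ + t • v ∈ B} :=
      fun t ht => AnalyticAt.comp (g := f) (f := fun t : ℝ => x₁ + t • v) (hf _ ht)
        (analyticAt_const.add (analyticAt_id.smul analyticAt_const))
    rcases hg.eqOn_zero_or_eventually_ne_zero_of_preconnected hI2.isPreconnected with h3 | h3
    · have h4 := h3 (x := 0) (by simpa using h1)
      exact absurd (by simpa using h4) h2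
    · have h4 := ae_restrict_le_codiscreteWithin (μ := (volume : Measure ℝ)) hI.measurableSet h3
      filter_upwards [(ae_restrict_iff' hI.measurableSet).1 h4] with t ht
      by_cases h5 : x₁ + t • v ∈ B
      · exact Or.inr ⟨h5, ht h5⟩
      · exact Or.inl h5

theorem eval_shift {m : ℕ} (D : MvPolynomial (Fin m) ℝ) (ξ v : Fin m → ℝ) :
    eval v (MvPolynomial.map (eval ξ)
      (aeval (fun i => C (X i) + X i) D : MvPolynomial (Fin m) (MvPolynomial (Fin m) ℝ))) =
      eval (ξ + v) D := by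
  induction D using MvPolynomial.induction_on with
  | C a => simp [MvPolynomial.algebraMap_apply]
  | add p q hp hq => simp only [map_add, hp, hq]
  | mul_X p i hp => simp only [map_mul, hp]; simp

theorem eval_sum {m : ℕ} (q : MvPolynomial (Fin m) ℝ) {S : Finset (Fin m →₀ ℕ)}
    (h : q.support ⊆ S) (v : Fin m → ℝ) :
    eval v q = ∑ α ∈ S, coeff α q * ∏ i, v i ^ α i := by
  rw [eval_eq']
  exact Finset.sum_subset h fun α _ hα => by rw [notMem_support_iff.1 hα, zero_mul]

theorem abs_prod_le {m : ℕ} (α : Fin m →₀ ℕ) (v : Fin m → ℝ) :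
    |∏ i, v i ^ α i| ≤ ‖v‖ ^ α.degree := by
  rw [Finsupp.degree_eq_sum, ← Finset.prod_pow_eq_pow_sum, Finset.abs_prod]
  refine Finset.prod_le_prod (fun i _ => abs_nonneg _) fun i _ => ?_
  rw [abs_pow]
  exact pow_le_pow_left₀ (abs_nonneg _) (norm_le_pi_norm v i) _

theorem term_small {X : Type} [TopologicalSpace X] {m μ : ℕ} (α : Fin m →₀ ℕ) {c : X → ℝ} {x : X}
    (hc : ContinuousAt c x) (h0 : α.degree < μ → ∀ᶠ y in 𝓝 x, c y = 0) :
    (fun p : X × (Fin m → ℝ) => (c p.1 - if α.degree = μ then c x else 0) * ∏ i, p.2 i ^ α i)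
      =o[𝓝 (x, 0)] fun p => ‖p.2‖ ^ μ := by
  have hf : Tendsto (fun p : X × (Fin m → ℝ) => p.1) (𝓝 (x, 0)) (𝓝 x) :=
    continuous_fst.tendsto (x, (0 : Fin m → ℝ))
  rcases lt_or_ge α.degree μ with h | h
  · refine (Asymptotics.isLittleO_zero _ _).congr' ?_ EventuallyEq.rfl
    filter_upwards [hf.eventually (h0 h)] with p hp
    rw [if_neg h.ne, hp, sub_zero, zero_mul]
  · have h1 : Tendsto (fun p : X × (Fin m → ℝ) =>
        |c p.1 - if α.degree = μ then c x else 0| * ‖p.2‖ ^ (α.degree - μ)) (𝓝 (x, 0)) (𝓝 0) := by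
      have h2 : ContinuousAt (fun p : X × (Fin m → ℝ) =>
          |c p.1 - if α.degree = μ then c x else 0| * ‖p.2‖ ^ (α.degree - μ)) (x, 0) :=
        ((ContinuousAt.comp (f := fun p : X × (Fin m → ℝ) => p.1) hc continuousAt_fst).sub
          continuousAt_const).abs.mul (continuousAt_snd.norm.pow _)
      refine h2.tendsto.trans (le_of_eq (congrArg 𝓝 ?_))
      by_cases h3 : α.degree = μ
      · simp [h3]
      · have h4 : α.degree - μ ≠ 0 := by omega
        simp [h4]
    refine Asymptotics.isLittleO_iff.2 fun ε hε => ?_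
    filter_upwards [h1.eventually (ge_mem_nhds hε)] with p hp
    rw [Real.norm_eq_abs, Real.norm_eq_abs, abs_mul, abs_of_nonneg (by positivity : 0 ≤ ‖p.2‖ ^ μ)]
    refine (mul_le_mul_of_nonneg_left (abs_prod_le α p.2) (abs_nonneg _)).trans ?_
    rw [← Nat.sub_add_cancel h, pow_add, ← mul_assoc, Nat.sub_add_cancel h]
    exact mul_le_mul_of_nonneg_right hp (by positivity)

theorem hom_close {V : Type} [NormedAddCommGroup V] [NormedSpace ℝ V] [FiniteDimensional ℝ V]
    {P : V → ℝ} {μ : ℕ} (hP : Continuous P) (hh : ∀ c : ℝ, 0 < c → ∀ v, P (c • v) = c ^ μ * P v)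
    (K : ℝ) {ε : ℝ} (hε : 0 < ε) : ∃ δ : ℝ, 0 < δ ∧ ∀ (a b : V) (t : ℝ), 0 ≤ t → ‖a‖ ≤ K * t →
      ‖b‖ ≤ K * t → ‖a - b‖ ≤ δ * t → |P a - P b| ≤ ε * t ^ μ := by
  haveI := FiniteDimensional.proper_real V
  obtain ⟨δ, hδ, h⟩ := Metric.uniformContinuousOn_iff_le.1
    ((isCompact_closedBall (0 : V) K).uniformContinuousOn_of_continuous hP.continuousOn) ε hε
  refine ⟨δ, hδ, fun a b t ht ha hb hab => ?_⟩
  rcases ht.eq_or_lt with rfl | ht
  · rw [mul_zero, norm_le_zero_iff, sub_eq_zero] at hab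
    rw [hab, sub_self, abs_zero]
    positivity
  · have e : ∀ (v : V) (c : ℝ), ‖v‖ ≤ c * t → ‖t⁻¹ • v‖ ≤ c := fun v c hv => by
      rw [norm_smul, norm_inv, Real.norm_of_nonneg ht.le, inv_mul_le_iff₀ ht, mul_comm]
      exact hv
    have h1 := h _ (mem_closedBall_zero_iff.2 (e a K ha)) _ (mem_closedBall_zero_iff.2 (e b K hb))
      (by rw [dist_eq_norm, ← smul_sub]; exact e _ _ hab)
    have h2 := hh t ht (t⁻¹ • a)
    have h3 := hh t ht (t⁻¹ • b)
    rw [smul_inv_smul₀ ht.ne'] at h2 h3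
    rw [h2, h3, ← mul_sub, abs_mul, abs_of_pos (pow_pos ht μ), mul_comm]
    exact mul_le_mul_of_nonneg_right h1 (pow_pos ht μ).le

end AN0Aux

open AN0Aux

/-- Sketch. Use `ae_of_local`/`measure_null_of_locally_null`: on a ball `B ⊆ N` either `f = 0` on `B`
or `f x₁ ≠ 0` for some `x₁`, and (Hahn-Banach, `exists_dual_vector`) it suffices to show that the zero
set in `B` of a real analytic `g` on `B`, not identically zero, is null. One way: every zero `x` of `g`
is a zero of some iterated partial derivative `g₁ = ∂_{i₁}…∂_{i_k} g` with `∂_i g₁ x ≠ 0` (otherwise all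
derivatives of `g` vanish at `x`, so `g = 0` near `x` and on `B`); countably many such sets; the
measurable set `{x ∈ B | g₁ x = 0 ∧ ∂_i g₁ x ≠ 0}` meets every line in direction `e_i` in a discrete,
hence countable set, so it is null by Fubini (`MeasureTheory.ae_mem_of_ae_add_linearMap_mem` in
`Mathlib/MeasureTheory/Measure/Haar/Disintegration.lean`, or
`measurePreserving_piFinSuccAbove`). Another way: induction on `d` with Fubini and the one-variable
isolated zeros theorem. -/
theorem AN0_pf : S_AN0 := by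
  intro d F _ _ f N hN hf
  refine ae_of_local (A := fun x => x ∈ N) (Eventually.of_forall fun x hx => ?_)
  obtain ⟨r, hr, hB⟩ := Metric.isOpen_iff.1 hN x hx
  refine ⟨ball x r, ball_mem_nhds x hr, ?_⟩
  by_cases h : ∀ y ∈ ball x r, f y = 0
  · exact Eventually.of_forall fun y hy _ => Or.inr (by
      filter_upwards [isOpen_ball.mem_nhds hy] with z hz using h z hz)
  · push Not at h
    obtain ⟨x₁, h1, h2⟩ := h
    filter_upwards [ae_ne isOpen_ball (convex_ball x r) (hf.mono hB) h1 h2] with y hy hyB _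
    exact Or.inl (hy hyB)

/-- Sketch. Write `D̂ = aeval (fun i => C (X i) + X i) D ∈ MvPolynomial _ (MvPolynomial _ ℝ)`, so
`eval (ξ + v) D = ∑ α ∈ support, eval ξ (coeff α D̂) * ∏ v i ^ α i`. Apply `S_AN0` to the finitely many
analytic functions `x ↦ eval (h x) (coeff α D̂)`. At a good `x` some coefficient is nonzero (`D ≠ 0`,
`MvPolynomial.funext`); let `μ` be the least degree of an `α` with nonzero coefficient at `h x`;
the coefficients of lower degree vanish near `x`. `P v = ∑ over |α| = μ`, the evaluation of a nonzero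
homogeneous polynomial (`dense_eval_ne`); `|∏ v i ^ α i| ≤ ‖v‖ ^ |α|`. -/
theorem Lead_pf (h : S_AN0) : S_Lead := by
  classical
  intro m d D hD g N hN hg
  obtain ⟨E, hE⟩ : ∃ E : MvPolynomial (Fin m) (MvPolynomial (Fin m) ℝ),
      ∀ ξ v, eval v (MvPolynomial.map (eval ξ) E) = eval (ξ + v) D := ⟨_, eval_shift D⟩
  have han : ∀ α, AnalyticOnNhd ℝ (fun x => eval (g x) (coeff α E)) N := fun α x hx =>
    AnalyticAt.comp (g := fun z => eval z (coeff α E)) (analyticAt_eval _ _) (hg x hx)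
  filter_upwards [ae_all_iff.2 fun α => h d ℝ _ N hN (han α)] with x hx hxN
  have hQ : MvPolynomial.map (eval (g x)) E ≠ 0 := fun h0 => hD (MvPolynomial.funext fun v => by
    have h1 := hE (g x) (v - g x)
    rw [h0, add_sub_cancel] at h1
    rw [← h1, map_zero, map_zero])
  obtain ⟨α₀, h1, h2⟩ := (MvPolynomial.map (eval (g x)) E).support.exists_min_image
    (fun α => α.degree) (support_nonempty.2 hQ)
  have hs : ∀ ξ : Fin m → ℝ, (MvPolynomial.map (eval ξ) E).support ⊆ E.support := fun ξ =>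
    support_map_subset _ _
  have hP : ∀ v, eval v (homogeneousComponent α₀.degree (MvPolynomial.map (eval (g x)) E)) =
      ∑ α ∈ E.support, (if α.degree = α₀.degree then eval (g x) (coeff α E) else 0) *
        ∏ i, v i ^ α i := fun v => by
    rw [eval_sum _ (S := E.support)]
    · simp only [coeff_homogeneousComponent, coeff_map]
    · intro α hα
      refine hs (g x) (mem_support_iff.2 fun h3 => mem_support_iff.1 hα ?_)
      rw [coeff_homogeneousComponent, h3, ite_self]
  refine ⟨α₀.degree, fun v => eval v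
    (homogeneousComponent α₀.degree (MvPolynomial.map (eval (g x)) E)),
    ⟨continuous_eval' _, fun c _ v => ?_, fun ε hε => ?_⟩, dense_eval_ne fun h3 => ?_⟩
  · rw [hP, hP, Finset.mul_sum]
    refine Finset.sum_congr rfl fun α _ => ?_
    split_ifs with h3
    · simp only [Pi.smul_apply, smul_eq_mul, mul_pow, Finset.prod_mul_distrib,
        Finset.prod_pow_eq_pow_sum]
      rw [← Finsupp.degree_eq_sum, h3]
      ring
    · simp
  · have h3 := Asymptotics.IsLittleO.sum (s := E.support) fun α _ =>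
      term_small (μ := α₀.degree) α (han α x hxN).continuousAt fun h4 =>
        (hx α hxN).resolve_left fun h5 => h4.not_ge (h2 α (by rwa [mem_support_iff, coeff_map]))
    filter_upwards [Asymptotics.isLittleO_iff.1 h3 hε] with p hp
    rw [Real.norm_eq_abs, Real.norm_eq_abs,
      abs_of_nonneg (by positivity : 0 ≤ ‖p.2‖ ^ α₀.degree)] at hp
    rw [← hE, hP, eval_sum _ (hs _), ← Finset.sum_sub_distrib]
    simpa only [coeff_map, sub_mul, Finset.sum_apply] using hp
  · have h4 := congrArg (coeff α₀) h3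
    rw [coeff_homogeneousComponent, if_pos rfl] at h4
    exact mem_support_iff.1 h1 h4

/-- Sketch. `v = Θ (φ' x + w) - Θ (φ' x) = L w + e` with `‖e‖ ≤ ε' ‖w‖` (strict differentiability),
`‖v‖ ≤ (‖L‖+1) ‖w‖`, and by homogeneity `|P (L w + e) - P (L w)| = ‖w‖^μ |P (L ŵ + ê) - P (L ŵ)|`, small
by uniform continuity of `P` on the compact `closedBall 0 (‖L‖+1)` of `V`. (`w = 0` is trivial.) -/
theorem LeadT_pf : S_LeadT := by
  intro X V V' _ _ _ _ _ _ D φ x₀ μ P Θ L φ' H hΘ hφ he
  refine ⟨H.cont.comp L.continuous, fun c hc v => by rw [map_smul, H.hom c hc], fun ε hε => ?_⟩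
  have hK : 0 < ‖L‖ + 1 := by positivity
  obtain ⟨δ, hδ, hP⟩ := hom_close H.cont H.hom (‖L‖ + 1) (half_pos hε)
  have h1 : ContinuousAt (fun p : X × V' => φ' p.1) (x₀, 0) :=
    ContinuousAt.comp (f := fun p : X × V' => p.1) hφ continuousAt_fst
  have h2 : Tendsto (fun p : X × V' => φ' p.1 + p.2) (𝓝 (x₀, 0)) (𝓝 (φ' x₀)) := by
    simpa using h1.tendsto.add (continuous_snd.tendsto (x₀, (0 : V')))
  have h3 := (h2.prodMk_nhds h1.tendsto).eventually
    (Asymptotics.isLittleO_iff.1 hΘ.isLittleO (lt_min hδ one_pos))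
  have h4 : Tendsto (fun p : X × V' => Θ (φ' p.1 + p.2) - Θ (φ' p.1)) (𝓝 (x₀, 0)) (𝓝 0) := by
    simpa using (hΘ.continuousAt.tendsto.comp h2).sub (hΘ.continuousAt.tendsto.comp h1.tendsto)
  have h5 := ((continuous_fst.tendsto (x₀, (0 : V'))).prodMk_nhds h4).eventually
    (H.est (ε / 2 / (‖L‖ + 1) ^ μ) (by positivity))
  filter_upwards [h3, h5, (continuous_fst.tendsto (x₀, (0 : V'))).eventually he] with p h6 h7 h8
  simp only [add_sub_cancel_left] at h6
  rw [← h8, add_sub_cancel] at h7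
  generalize Θ (φ' p.1 + p.2) - Θ (φ' p.1) = v at h6 h7
  have h9 := L.le_opNorm p.2
  have h10 := norm_nonneg p.2
  have h11 : ‖v‖ ≤ (‖L‖ + 1) * ‖p.2‖ := by
    have h12 := norm_sub_norm_le v (L p.2)
    have h13 := mul_le_mul_of_nonneg_right (min_le_right δ 1) h10
    linarith
  have h12 := hP v (L p.2) ‖p.2‖ h10 h11 (by linarith)
    (h6.trans (mul_le_mul_of_nonneg_right (min_le_left δ 1) h10))
  have h13 : ε / 2 / (‖L‖ + 1) ^ μ * ‖v‖ ^ μ ≤ ε / 2 * ‖p.2‖ ^ μ := by
    refine (mul_le_mul_of_nonneg_left (pow_le_pow_left₀ (norm_nonneg v) h11 μ)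
      (by positivity)).trans (le_of_eq ?_)
    rw [mul_pow, ← mul_assoc, div_mul_cancel₀ _ (pow_pos hK μ).ne']
  have h14 := abs_sub_le (D (Θ (φ' p.1 + p.2))) (P v) (P (L p.2))
  linarith

end Vale.Agent.P274
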