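import Vale.Agent.P274.Base

/-! Algebraic sets, Noether normalization data, and the statements of part A (smoothness). -/

open Set Filter Topology Metric MvPolynomial

namespace Vale.Agent.P274

section

variable {𝕜 : Type} [RCLike 𝕜] {N n : ℕ}

/-- Zero set of an ideal. -/
def ZV (I : Ideal (MvPolynomial (Fin N) 𝕜)) : Set (Fin N → 𝕜) := {z | ∀ g ∈ I, eval z g = 0}

/-- The polynomial map with components `π`. -/
noncomputable def ev (π : Fin n → MvPolynomial (Fin N) 𝕜) (z : Fin N → 𝕜) : Fin n → 𝕜 :=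
  fun i => eval z (π i)

theorem eval_aeval_ev (π : Fin n → MvPolynomial (Fin N) 𝕜) (z : Fin N → 𝕜)
    (g : MvPolynomial (Fin n) 𝕜) : eval z (aeval π g) = eval (ev π z) g := by
  induction g using MvPolynomial.induction_on with
  | C a => simp
  | add p q hp hq => rw [map_add, map_add, map_add, hp, hq]
  | mul_X p i hp => rw [map_mul, map_mul, map_mul, hp, aeval_X, eval_X]; rfl

theorem analyticAt_eval (g : MvPolynomial (Fin N) 𝕜) (z : Fin N → 𝕜) :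
    AnalyticAt 𝕜 (fun z : Fin N → 𝕜 => eval z g) z := by
  induction g using MvPolynomial.induction_on with
  | C a => simpa using analyticAt_const
  | add p q hp hq => simpa using hp.fun_add hq
  | mul_X p i hp =>
    simpa using hp.fun_mul ((ContinuousLinearMap.proj (R := 𝕜) (φ := fun _ : Fin N => 𝕜)
      i).analyticAt z)

theorem continuous_eval' (g : MvPolynomial (Fin N) 𝕜) :
    Continuous (fun z : Fin N → 𝕜 => eval z g) :=
  continuous_iff_continuousAt.2 fun z => (analyticAt_eval g z).continuousAt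

theorem analyticAt_ev (π : Fin n → MvPolynomial (Fin N) 𝕜) (z : Fin N → 𝕜) :
    AnalyticAt 𝕜 (ev π) z :=
  analyticAt_pi_iff.2 fun i => analyticAt_eval (π i) z

theorem continuous_ev (π : Fin n → MvPolynomial (Fin N) 𝕜) : Continuous (ev π) :=
  continuous_iff_continuousAt.2 fun z => (analyticAt_ev π z).continuousAt

theorem isClosed_ZV (I : Ideal (MvPolynomial (Fin N) 𝕜)) : IsClosed (ZV I) := by
  have : ZV I = ⋂ g ∈ I, {z | eval z g = 0} := by ext z; simp [ZV]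
  rw [this]
  exact isClosed_biInter fun g _ => isClosed_eq (continuous_eval' g) continuous_const

/-- A nonzero polynomial does not vanish identically near any point. -/
theorem eq_zero_of_eventually_eval {g : MvPolynomial (Fin N) 𝕜} {z : Fin N → 𝕜}
    (h : ∀ᶠ w in 𝓝 z, eval w g = 0) : g = 0 := by
  have h1 : AnalyticOnNhd 𝕜 (fun z : Fin N → 𝕜 => eval z g) univ := fun z _ => analyticAt_eval g z
  have h2 := h1.eqOn_zero_of_preconnected_of_eventuallyEq_zero isPreconnected_univ (mem_univ z) h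
  exact MvPolynomial.funext fun x => by simpa using h2 (mem_univ x)

theorem dense_eval_ne {g : MvPolynomial (Fin N) 𝕜} (hg : g ≠ 0) : Dense {z | eval z g ≠ 0} := by
  intro z
  rw [mem_closure_iff_frequently]
  by_contra h
  exact hg (eq_zero_of_eventually_eval (z := z) (by simpa using h))

/-- Noether normalization with a discriminant: `π` is a finite projection of the zero set of `𝔭`
which is a local analytic isomorphism off `Δ = 0`. -/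
structure GRData (𝔭 : Ideal (MvPolynomial (Fin N) 𝕜)) (n : ℕ)
    (π : Fin n → MvPolynomial (Fin N) 𝕜) (Δ : MvPolynomial (Fin n) 𝕜) : Prop where
  indep : ∀ g : MvPolynomial (Fin n) 𝕜, aeval π g ∈ 𝔭 → g = 0
  integral : ∀ f : MvPolynomial (Fin N) 𝕜, ∃ m : Polynomial (MvPolynomial (Fin n) 𝕜), m.Monic ∧
    Polynomial.eval₂ (aeval π : MvPolynomial (Fin n) 𝕜 →ₐ[𝕜] _).toRingHom f m ∈ 𝔭
  ne : Δ ≠ 0
  chart : ∀ z₀ ∈ ZV 𝔭, eval (ev π z₀) Δ ≠ 0 → ∃ G : (Fin n → 𝕜) → (Fin N → 𝕜),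
    AnalyticAt 𝕜 G (ev π z₀) ∧ G (ev π z₀) = z₀ ∧
    (∀ᶠ t in 𝓝 (ev π z₀), G t ∈ ZV 𝔭 ∧ ev π (G t) = t) ∧
    ∀ᶠ z in 𝓝 z₀, z ∈ ZV 𝔭 → G (ev π z) = z

theorem eval_eval₂_ev (π : Fin n → MvPolynomial (Fin N) 𝕜) (z : Fin N → 𝕜)
    (f : MvPolynomial (Fin N) 𝕜) (m : Polynomial (MvPolynomial (Fin n) 𝕜)) :
    eval z (Polynomial.eval₂ (aeval π : MvPolynomial (Fin n) 𝕜 →ₐ[𝕜] _).toRingHom f m) =
      (m.map (eval (ev π z))).eval (eval z f) := by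
  rw [Polynomial.hom_eval₂, Polynomial.eval_map]
  congr 1
  exact RingHom.ext fun g => eval_aeval_ev π z g

/-- Pointwise form of integrality. -/
theorem GRData.integral_eval {𝔭 : Ideal (MvPolynomial (Fin N) 𝕜)}
    {π : Fin n → MvPolynomial (Fin N) 𝕜} {Δ : MvPolynomial (Fin n) 𝕜} (h : GRData 𝔭 n π Δ)
    (f : MvPolynomial (Fin N) 𝕜) : ∃ m : Polynomial (MvPolynomial (Fin n) 𝕜), m.Monic ∧
      ∀ z ∈ ZV 𝔭, (m.map (eval (ev π z))).eval (eval z f) = 0 := by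
  obtain ⟨m, hm, hp⟩ := h.integral f
  exact ⟨m, hm, fun z hz => by rw [← eval_eval₂_ev]; exact hz _ hp⟩

/-- The zeros of `f ∉ 𝔭` on the zero set of `𝔭` project into a proper algebraic subset. -/
theorem GRData.zd {𝔭 : Ideal (MvPolynomial (Fin N) 𝕜)} (h𝔭 : 𝔭.IsPrime)
    {π : Fin n → MvPolynomial (Fin N) 𝕜} {Δ : MvPolynomial (Fin n) 𝕜} (h : GRData 𝔭 n π Δ)
    {f : MvPolynomial (Fin N) 𝕜} (hf : f ∉ 𝔭) : ∃ a : MvPolynomial (Fin n) 𝕜, a ≠ 0 ∧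
      ∀ z ∈ ZV 𝔭, eval z f = 0 → eval (ev π z) a = 0 := by
  obtain ⟨m, hm, hp⟩ := h.integral f
  obtain ⟨q, hq, hX⟩ := Polynomial.exists_eq_pow_rootMultiplicity_mul_and_not_dvd m hm.ne_zero 0
  rw [hq, Polynomial.eval₂_mul, Polynomial.eval₂_pow] at hp
  have hq' := (h𝔭.mem_or_mem hp).resolve_left fun h1 => hf (by simpa using h𝔭.mem_of_pow_mem _ h1)
  refine ⟨q.coeff 0, fun h0 => hX (by simpa [Polynomial.X_dvd_iff] using h0), fun z hz h0 => ?_⟩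
  have := hz _ hq'
  rw [eval_eval₂_ev, h0] at this
  simpa [← Polynomial.coeff_zero_eq_eval_zero] using this

end

/-- Real and imaginary parts of a complex polynomial in real coordinates. -/
theorem poly_reim {m n : ℕ} (ι : (Fin m → ℝ) →L[ℝ] (Fin n → ℂ)) (Q : MvPolynomial (Fin n) ℂ) :
    ∃ R₁ R₂ : MvPolynomial (Fin m) ℝ, ∀ ξ,
      (eval (ι ξ) Q).re = eval ξ R₁ ∧ (eval (ι ξ) Q).im = eval ξ R₂ := by
  have lin : ∀ f : (Fin m → ℝ) →ₗ[ℝ] ℝ, ∃ R : MvPolynomial (Fin m) ℝ, ∀ ξ, f ξ = eval ξ R := by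
    intro f
    refine ⟨∑ i, C (f (Pi.single i 1)) * X i, fun ξ => ?_⟩
    conv_lhs => rw [pi_eq_sum_univ' ξ]
    simp [mul_comm]
  induction Q using MvPolynomial.induction_on with
  | C a => exact ⟨C a.re, C a.im, fun ξ => by simp⟩
  | add p q hp hq =>
    obtain ⟨a, b, h⟩ := hp
    obtain ⟨c, d, h'⟩ := hq
    exact ⟨a + c, b + d, fun ξ => by simp [h ξ, h' ξ]⟩
  | mul_X p i hp =>
    obtain ⟨a, b, h⟩ := hp
    obtain ⟨c, hc⟩ := lin (Complex.reLm ∘ₗ (LinearMap.proj i) ∘ₗ ι.toLinearMap)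
    obtain ⟨d, hd⟩ := lin (Complex.imLm ∘ₗ (LinearMap.proj i) ∘ₗ ι.toLinearMap)
    refine ⟨a * c - b * d, a * d + b * c, fun ξ => ?_⟩
    have h1 : (ι ξ i).re = eval ξ c := hc ξ
    have h2 : (ι ξ i).im = eval ξ d := hd ξ
    simp [h ξ, h1, h2]

/-- Algebraic part of the local parametrization: Noether normalization and a primitive element. -/
def S_GRalg : Prop :=
  ∀ (𝕜 : Type) [RCLike 𝕜] (N : ℕ) (𝔭 : Ideal (MvPolynomial (Fin N) 𝕜)), 𝔭.IsPrime →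
    ∃ (n : ℕ) (π : Fin n → MvPolynomial (Fin N) 𝕜) (θ : MvPolynomial (Fin N) 𝕜)
      (F α β : Polynomial (MvPolynomial (Fin n) 𝕜)) (δ : MvPolynomial (Fin n) 𝕜)
      (Gs : Fin N → Polynomial (MvPolynomial (Fin n) 𝕜)),
      (∀ g : MvPolynomial (Fin n) 𝕜, aeval π g ∈ 𝔭 → g = 0) ∧
      (∀ f : MvPolynomial (Fin N) 𝕜, ∃ m : Polynomial (MvPolynomial (Fin n) 𝕜), m.Monic ∧
        Polynomial.eval₂ (aeval π : MvPolynomial (Fin n) 𝕜 →ₐ[𝕜] _).toRingHom f m ∈ 𝔭) ∧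
      δ ≠ 0 ∧ α * F + β * F.derivative = Polynomial.C δ ∧
      Polynomial.eval₂ (aeval π : MvPolynomial (Fin n) 𝕜 →ₐ[𝕜] _).toRingHom θ F ∈ 𝔭 ∧
      (∀ i, aeval π δ * X i -
        Polynomial.eval₂ (aeval π : MvPolynomial (Fin n) 𝕜 →ₐ[𝕜] _).toRingHom θ (Gs i) ∈ 𝔭) ∧
      ∀ g : Polynomial (MvPolynomial (Fin n) 𝕜),
        Polynomial.eval₂ (aeval π : MvPolynomial (Fin n) 𝕜 →ₐ[𝕜] _).toRingHom θ g ∈ 𝔭 →
        ∃ (r : MvPolynomial (Fin n) 𝕜) (q : Polynomial (MvPolynomial (Fin n) 𝕜)), r ≠ 0 ∧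
          Polynomial.C r * g = F * q

def S_GR : Prop :=
  ∀ (𝕜 : Type) [RCLike 𝕜] (N : ℕ) (𝔭 : Ideal (MvPolynomial (Fin N) 𝕜)), 𝔭.IsPrime →
    ∃ (n : ℕ) (π : Fin n → MvPolynomial (Fin N) 𝕜) (Δ : MvPolynomial (Fin n) 𝕜), GRData 𝔭 n π Δ

/-- Harnack inequality towards an arbitrary point of an irreducible variety, from good points. -/
def S_HLp : Prop :=
  ∀ (N n : ℕ) (𝔭 : Ideal (MvPolynomial (Fin N) ℂ)) (π : Fin n → MvPolynomial (Fin N) ℂ)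
    (Δ : MvPolynomial (Fin n) ℂ), GRData 𝔭 n π Δ → ∀ s ∈ ZV 𝔭, ∀ O : Set (Fin N → ℂ), IsOpen O →
    s ∈ O → ∃ c : ℝ, 0 < c ∧ ∀ᶠ x in 𝓝 s, x ∈ ZV 𝔭 → eval (ev π x) Δ ≠ 0 →
      ∀ f : (Fin N → ℂ) → ℂ, HolOn (ZV 𝔭 ∩ O) f → (∀ y ∈ ZV 𝔭 ∩ O, f y ≠ 0 ∧ ‖f y‖ ≤ 1) →
        ‖f s‖ ≤ ‖f x‖ ^ c

/-- Harnack inequality towards an arbitrary point of a variety. -/
def S_HL : Prop :=
  ∀ (N : ℕ) (I : Ideal (MvPolynomial (Fin N) ℂ)), ∀ s ∈ ZV I, ∀ O : Set (Fin N → ℂ), IsOpen O →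
    s ∈ O → ∃ c : ℝ, 0 < c ∧ ∀ᶠ x in 𝓝 s, x ∈ ZV I →
      ∀ f : (Fin N → ℂ) → ℂ, HolOn (ZV I ∩ O) f → (∀ y ∈ ZV I ∩ O, f y ≠ 0 ∧ ‖f y‖ ≤ 1) →
        ‖f s‖ ≤ ‖f x‖ ^ c

/-- A divisible open subset of a variety is smooth and lies on one irreducible component. -/
def S_Smooth : Prop :=
  ∀ (N : ℕ) (Γ : Type) [Group Γ] (U : Set (Fin N → ℂ)) (act : Γ → (Fin N → ℂ) → (Fin N → ℂ)),
    Div U act → (∃ I O, IsOpen O ∧ U = ZV I ∩ O) →
    ∃ (𝔭 : Ideal (MvPolynomial (Fin N) ℂ)) (n : ℕ) (π : Fin n → MvPolynomial (Fin N) ℂ)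
      (Δ : MvPolynomial (Fin n) ℂ), 𝔭.IsPrime ∧ GRData 𝔭 n π Δ ∧
      (∃ O, IsOpen O ∧ U = ZV 𝔭 ∩ O) ∧ (∀ g, g ∉ 𝔭 → ∃ z ∈ U, eval z g ≠ 0) ∧
      ∀ x ∈ U, Reg (Fin n → ℂ) U x

end Vale.Agent.P274
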