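import Vale.Agent.P274.StB

open Set Filter Topology Metric MvPolynomial MeasureTheory

namespace Vale.Agent.P274

namespace BandAux

theorem ev_list {α β : Type*} {l : Filter α} {L : List β} {P : β → α → Prop}
    (h : ∀ r ∈ L, ∀ᶠ p in l, P r p) : ∀ᶠ p in l, ∀ r ∈ L, P r p :=
  (eventually_all_finite L.finite_toSet).2 h

/-- Choice of the section `τ` in the gap between the roots. -/
theorem exists_tau {Y : Type*} [NormedAddCommGroup Y] [NormedSpace ℝ Y] {η : Y → ℝ} {x : Y}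
    {a b t₁ : ℝ} {S : Set (Y × ℝ → ℝ)} (hS : S.Finite) (hne : S.Nonempty) {Nb : Set (Y × ℝ)}
    {p₁ : Y × ℝ} (hp₁ : p₁ ∈ Nb) (hpos : ∀ p ∈ Nb, 0 < p.2) (han : ∀ r ∈ S, AnalyticAt ℝ r (x, 0))
    (hco : ∀ r ∈ S, ContinuousOn r Nb) (hη : ∀ r ∈ S, ∀ᶠ x' in 𝓝 x, r (x', 0) = η x')
    (hab : ∀ r ∈ S, ∀ p ∈ Nb, a < r p - p.2 ∧ r p + p.2 < b) (ht : ∀ r ∈ S, r p₁ ≠ t₁)
    (hord : ∀ r ∈ S, ∀ r' ∈ S, (∀ p ∈ Nb, r p ≤ r' p) ∨ ∀ p ∈ Nb, r' p < r p) :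
    ∃ τ : Y × ℝ → ℝ, AnalyticAt ℝ τ (x, 0) ∧ ContinuousOn τ Nb ∧ (∀ᶠ x' in 𝓝 x, τ (x', 0) = η x') ∧
      ∀ p ∈ Nb, τ p ∈ Ioo a b ∧ ∀ r ∈ S, (r p₁ < t₁ → r p < τ p) ∧ (t₁ < r p₁ → τ p < r p) := by
  have hle : ∀ r ∈ S, ∀ r' ∈ S, r p₁ ≤ r' p₁ → ∀ p ∈ Nb, r p ≤ r' p := fun r hr r' hr' h =>
    (hord r hr r' hr').resolve_right fun h' => absurd (h' p₁ hp₁) (not_lt.2 h)
  have hlt : ∀ r ∈ S, ∀ r' ∈ S, r p₁ < r' p₁ → ∀ p ∈ Nb, r p < r' p := fun r hr r' hr' h =>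
    (hord r' hr' r hr).resolve_left fun h' => absurd (h' p₁ hp₁) (not_le.2 h)
  by_cases h1 : {r ∈ S | r p₁ < t₁}.Nonempty
  · obtain ⟨u, ⟨hu, hu'⟩, hmax⟩ := exists_max_image _ (fun r => r p₁) (hS.sep _) h1
    by_cases h2 : {r ∈ S | t₁ < r p₁}.Nonempty
    · obtain ⟨w, ⟨hw, hw'⟩, hmin⟩ := exists_min_image _ (fun r => r p₁) (hS.sep _) h2
      refine ⟨fun p => (u p + w p) / 2, ((han u hu).fun_add (han w hw)).fun_div analyticAt_const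
        two_ne_zero, ((hco u hu).add (hco w hw)).div_const 2, ?_, fun p hp => ?_⟩
      · filter_upwards [hη u hu, hη w hw] with x' e1 e2
        rw [e1, e2]
        ring
      · have k1 := hab u hu p hp
        have k2 := hab w hw p hp
        have k3 := hpos p hp
        have k4 := hlt u hu w hw (hu'.trans hw') p hp
        refine ⟨⟨by linarith [k1.1, k2.1], by linarith [k1.2, k2.2]⟩, fun r hr =>
          ⟨fun h => ?_, fun h => ?_⟩⟩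
        · linarith [hle r hr u hu (hmax r ⟨hr, h⟩) p hp]
        · linarith [hle w hw r hr (hmin r ⟨hr, h⟩) p hp]
    · refine ⟨fun p => u p + p.2, (han u hu).fun_add analyticAt_snd,
        (hco u hu).add continuousOn_snd, ?_, fun p hp => ?_⟩
      · filter_upwards [hη u hu] with x' e1
        rw [e1, add_zero]
      · have k1 := hab u hu p hp
        have k3 := hpos p hp
        refine ⟨⟨by linarith [k1.1], k1.2⟩, fun r hr =>
          ⟨fun h => ?_, fun h => absurd ⟨r, hr, h⟩ h2⟩⟩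
        linarith [hle r hr u hu (hmax r ⟨hr, h⟩) p hp]
  · have h2 : {r ∈ S | t₁ < r p₁}.Nonempty := by
      obtain ⟨r, hr⟩ := hne
      exact ⟨r, hr, (ht r hr).lt_or_gt.resolve_left fun h => h1 ⟨r, hr, h⟩⟩
    obtain ⟨w, ⟨hw, hw'⟩, hmin⟩ := exists_min_image _ (fun r => r p₁) (hS.sep _) h2
    refine ⟨fun p => w p - p.2, (han w hw).fun_sub analyticAt_snd,
      (hco w hw).sub continuousOn_snd, ?_, fun p hp => ?_⟩
    · filter_upwards [hη w hw] with x' e1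
      rw [e1, sub_zero]
    · have k1 := hab w hw p hp
      have k3 := hpos p hp
      refine ⟨⟨k1.1, by linarith [k1.2]⟩, fun r hr =>
        ⟨fun h => absurd ⟨r, hr, h⟩ h1, fun h => ?_⟩⟩
      linarith [hle w hw r hr (hmin r ⟨hr, h⟩) p hp]

theorem exists_nb {Y : Type*} [NormedAddCommGroup Y] [NormedSpace ℝ Y] {x : Y}
    {Q : Y × ℝ → Prop} (h : ∀ᶠ p in 𝓝 (x, (0 : ℝ)), Q p) :
    ∃ Nb : Set (Y × ℝ), IsPreconnected Nb ∧ Nb.Nonempty ∧ (∀ p ∈ Nb, 0 < p.2 ∧ Q p) ∧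
      ∀ᶠ p in 𝓝 (x, (0 : ℝ)), 0 < p.2 → p ∈ Nb := by
  obtain ⟨ε, hε, hb⟩ := Metric.eventually_nhds_iff_ball.1 h
  refine ⟨ball (x, 0) ε ∩ {p | 0 < p.2}, ((convex_ball _ _).inter
    (convex_halfSpace_gt (LinearMap.snd ℝ Y ℝ).isLinear 0)).isPreconnected,
    ⟨(x, ε / 2), ?_, half_pos hε⟩, fun p hp => ⟨hp.2, hb p hp.1⟩, ?_⟩
  · rw [mem_ball, Prod.dist_eq, dist_self, Real.dist_eq, sub_zero, abs_of_pos (half_pos hε)]
    exact max_lt hε (half_lt_self hε)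
  · filter_upwards [ball_mem_nhds _ hε] with p hp hp' using ⟨hp, hp'⟩

end BandAux

open BandAux

/-- Lifting a family of arcs through the gap between consecutive near roots. -/
theorem Band_pf : S_Band := by
  intro m d D O W c η x a b L hO hF hc _ ha hb hL hroot hnear hex hord hW hin
  set Near : ((Fin d → ℝ) × ℝ → ℂ) → Prop := fun r => ∀ᶠ x' in 𝓝 x, (r (x', 0)).re = η x'
  have hre : ∀ r ∈ L, AnalyticAt ℝ (fun p => (r p).re) (x, 0) := fun r hr =>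
    (Complex.reCLM.analyticAt _).comp (hL r hr)
  have e1 : ∀ᶠ p in 𝓝 (x, (0 : ℝ)), ∀ r ∈ L, ContinuousAt (fun p => (r p).re) p :=
    ev_list fun r hr => (hre r hr).eventually_continuousAt
  have e2 : ∀ᶠ p in 𝓝 (x, (0 : ℝ)), ∀ r ∈ L,
      Near r → a < (r p).re - p.2 ∧ (r p).re + p.2 < b := ev_list fun r hr => by
    by_cases hn : Near r
    · have h0 : (r (x, 0)).re = η x := hn.self_of_nhds
      have c1 := ((hre r hr).continuousAt.sub continuousAt_snd).eventually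
        (lt_mem_nhds (a := a) (by simpa only [Pi.sub_apply, sub_zero, h0] using ha))
      have c2 := ((hre r hr).continuousAt.add continuousAt_snd).eventually
        (gt_mem_nhds (a := b) (by simpa only [Pi.add_apply, add_zero, h0] using hb))
      filter_upwards [c1, c2] with p k1 k2 _ using ⟨k1, k2⟩
    · exact Eventually.of_forall fun _ h => absurd h hn
  have e3 : ∀ᶠ p in 𝓝 (x, (0 : ℝ)), ∀ r ∈ L, ¬ Near r → (r p).re ∉ Icc a b :=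
    ev_list fun r hr => by
      rcases hnear r hr with h | h
      · exact Eventually.of_forall fun _ h' => absurd h h'
      · filter_upwards [(hre r hr).continuousAt.eventually
          (isClosed_Icc.isOpen_compl.mem_nhds h)] with p hp _ using hp
  have e4 : ∀ᶠ p in 𝓝 (x, (0 : ℝ)), ∀ r ∈ L, ∀ r' ∈ L,
      ((∀ᶠ q in 𝓝 (x, (0 : ℝ)), 0 < q.2 → (r q).re ≤ (r' q).re) →
        0 < p.2 → (r p).re ≤ (r' p).re) ∧
      (¬ (∀ᶠ q in 𝓝 (x, (0 : ℝ)), 0 < q.2 → (r q).re ≤ (r' q).re) →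
        0 < p.2 → (r' p).re < (r p).re) := ev_list fun r hr => ev_list fun r' hr' => by
    by_cases h : ∀ᶠ q in 𝓝 (x, (0 : ℝ)), 0 < q.2 → (r q).re ≤ (r' q).re
    · filter_upwards [h] with p hp using ⟨fun _ => hp, fun h' => absurd h h'⟩
    · filter_upwards [(hord r hr r' hr').resolve_left h] with p hp
        using ⟨fun h' => absurd h' h, fun _ => hp⟩
  obtain ⟨Nb, hNc, ⟨p₁, hp₁⟩, hNb, hev⟩ := exists_nb (hc.eventually_continuousAt.and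
    (e1.and (e2.and (e3.and (e4.and (hroot.and (hW.and hin)))))))
  set S : Set ((Fin d → ℝ) × ℝ → ℝ) := (fun r p => (r p).re) '' {r | r ∈ L ∧ Near r}
  have hS : S.Finite := (L.finite_toSet.sep Near).image _
  obtain ⟨t₁, ⟨ht₁, hO₁⟩, htS⟩ : ∃ t₁, (t₁ ∈ Ioo a b ∧ (c p₁, t₁) ∈ O) ∧
      t₁ ∉ (fun r : (Fin d → ℝ) × ℝ → ℝ => r p₁) '' S :=
    ((hS.image fun r : (Fin d → ℝ) × ℝ → ℝ => r p₁).countable.dense_compl ℝ).inter_open_nonempty _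
      (isOpen_Ioo.inter (hO.preimage (Continuous.prodMk_right (c p₁))))
      ((hNb p₁ hp₁).2.2.2.2.2.2.2.2 (hNb p₁ hp₁).1)
  have htS' : ∀ r ∈ S, r p₁ ≠ t₁ := fun r hr h => htS ⟨r, hr, h⟩
  obtain ⟨τ, hτ, hτc, hτ0, hτ1⟩ := exists_tau (η := η) (x := x) (a := a) (b := b) hS
    (by
      obtain ⟨r, hr, h⟩ := hex
      exact ⟨_, r, ⟨hr, (hnear r hr).resolve_right fun h' => h' (h ▸ ⟨ha.le, hb.le⟩)⟩, rfl⟩)
    hp₁ (fun p hp => (hNb p hp).1) (by rintro _ ⟨r, hr, rfl⟩; exact hre r hr.1)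
    (by rintro _ ⟨r, hr, rfl⟩ p hp; exact ((hNb p hp).2.2.1 r hr.1).continuousWithinAt)
    (by rintro _ ⟨r, hr, rfl⟩; exact hr.2)
    (by rintro _ ⟨r, hr, rfl⟩ p hp; exact (hNb p hp).2.2.2.1 r hr.1 hr.2) htS'
    (by
      rintro _ ⟨r, hr, rfl⟩ _ ⟨r', hr', rfl⟩
      by_cases h : ∀ᶠ q in 𝓝 (x, (0 : ℝ)), 0 < q.2 → (r q).re ≤ (r' q).re
      · exact Or.inl fun p hp => ((hNb p hp).2.2.2.2.2.1 r hr.1 r' hr'.1).1 h (hNb p hp).1
      · exact Or.inr fun p hp => ((hNb p hp).2.2.2.2.2.1 r hr.1 r' hr'.1).2 h (hNb p hp).1)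
  set Gap : (Fin d → ℝ) × ℝ → Set ℝ := fun p =>
    {t | t ∈ Ioo a b ∧ ∀ r ∈ S, (r p₁ < t₁ → r p < t) ∧ (t₁ < r p₁ → t < r p)}
  have hG : ∀ p ∈ Nb, ∀ t ∈ Gap p, (c p, t) ∈ W ∧ pev D (c p, t) ≠ 0 := fun p hp t ht => by
    obtain ⟨-, -, -, -, k3, -, k5, k6, -⟩ := hNb p hp
    refine ⟨k6 t (Ioo_subset_Icc_self ht.1), fun h0 => ?_⟩
    obtain ⟨r, hr, e⟩ := k5 t h0
    have e' : (r p).re = t := by rw [e, Complex.ofReal_re]
    by_cases hn : Near r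
    · have hrS : (fun p => (r p).re) ∈ S := ⟨r, ⟨hr, hn⟩, rfl⟩
      rcases (htS' _ hrS).lt_or_gt with h | h
      · exact ((ht.2 _ hrS).1 h).ne e'
      · exact ((ht.2 _ hrS).2 h).ne' e'
    · exact k3 r hr hn (e' ▸ Ioo_subset_Icc_self ht.1)
  have hGc : IsPreconnected (Gap p₁) := by
    refine OrdConnected.isPreconnected ⟨fun s hs t ht u hu =>
      ⟨⟨hs.1.1.trans_le hu.1, hu.2.trans_lt ht.1.2⟩, fun r hr => ⟨fun h => ?_, fun h => ?_⟩⟩⟩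
    · exact ((hs.2 r hr).1 h).trans_le hu.1
    · exact hu.2.trans_lt ((ht.2 r hr).2 h)
  have hcc : ContinuousOn c Nb := fun p hp => (hNb p hp).2.1.continuousWithinAt
  have hT : IsPreconnected ((fun p => (c p, τ p)) '' Nb ∪ (fun t => (c p₁, t)) '' Gap p₁) :=
    IsPreconnected.union (c p₁, τ p₁) ⟨p₁, hp₁, rfl⟩ ⟨τ p₁, hτ1 p₁ hp₁, rfl⟩
      (hNc.image _ (hcc.prodMk hτc)) (hGc.image _ (Continuous.prodMk_right _).continuousOn)
  have hT' : ∀ ξ ∈ (fun p => (c p, τ p)) '' Nb ∪ (fun t => (c p₁, t)) '' Gap p₁,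
      ξ ∈ W ∧ pev D ξ ≠ 0 := by
    rintro _ (⟨p, hp, rfl⟩ | ⟨t, ht, rfl⟩)
    · exact hG p hp _ (hτ1 p hp)
    · exact hG p₁ hp₁ t ht
  have hsub := hF.subset hT (fun ξ h => (hT' ξ h).1) (fun ξ h => (hT' ξ h).2)
    ⟨(c p₁, t₁), Or.inr ⟨t₁, ⟨ht₁, fun _ _ => ⟨id, id⟩⟩, rfl⟩, subset_closure hO₁⟩
  exact ⟨τ, hτ, hτ0, hev.mono fun p hp hp' => hsub (Or.inl ⟨p, hp hp', rfl⟩)⟩

/-- Arcs with a polynomial margin: apply `S_ST2` to `O ∩ {D ≠ 0}` and `S_DI` to `D ∘ c`. -/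
theorem Arc_pf (h1 : S_ST2) (h2 : S_DI) : S_Arc := by
  intro m d D hD h N O W hN hh hO hW hF
  have hop : IsOpen {ξ : Fin m → ℝ | eval ξ D ≠ 0} :=
    isOpen_ne_fun (continuous_eval' D) continuous_const
  have hF₁ : Fr (fun ξ => eval ξ D) W (O ∩ {ξ | eval ξ D ≠ 0}) := fun ξ hξ h0 =>
    (hF ξ hξ h0).imp (fun k => k.and (hop.mem_nhds h0)) fun k => k.mono fun _ k1 k2 => k1 k2.1
  have hcl : closure O ⊆ closure (O ∩ {ξ | eval ξ D ≠ 0}) :=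
    closure_minimal ((dense_eval_ne hD).open_subset_closure_inter hO) isClosed_closure
  have key := ae_of_local (μ := volume) (A := fun x => x ∈ N ∧ h x ∈ W ∧ h x ∈ closure O)
    (P := fun x => ∃ (c : (Fin d → ℝ) × ℝ → (Fin m → ℝ)) (e : ℕ), AnalyticAt ℝ c (x, 0) ∧
      (∀ᶠ x' in 𝓝 x, c (x', 0) = h x') ∧
      ∀ᶠ p in 𝓝 (x, (0 : ℝ)), 0 < p.2 → ∀ v, ‖v‖ ≤ p.2 ^ e → c p + v ∈ O) ?_
  · filter_upwards [key] with x hx k1 k2 k3 using hx ⟨k1, k2, k3⟩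
  filter_upwards [h1 m d D hD h N _ W hN hh (hO.inter hop) hW hF₁] with x hx ⟨k1, k2, k3⟩
  obtain ⟨c, hc, hc0, hcO⟩ := hx k1 k2 (hcl k3)
  have ht : Tendsto (fun y : Fin d → ℝ => (y, (0 : ℝ))) (𝓝 x) (𝓝 (x, 0)) :=
    (Continuous.prodMk_left 0).tendsto x
  obtain ⟨N', hN', hN'o, hxN'⟩ := _root_.eventually_nhds_iff.1
    ((ht.eventually hc.eventually_analyticAt).and (hc0.eventually_nhds.and
      (ht.eventually hcO.eventually_nhds)))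
  refine ⟨N', hN'o.mem_nhds hxN', ?_⟩
  filter_upwards [h2 d ℝ (fun p => eval (c p) D) N' hN'o
    fun y hy => (analyticAt_eval D _).comp (hN' y hy).1] with y hy hyN ⟨_, m2, _⟩
  obtain ⟨a1, a2, a3⟩ := hN' y hyN
  rcases hy hyN with b | ⟨e, g, hg, hg0, b⟩
  · obtain ⟨Nb, -, ⟨p, hp⟩, hNb, -⟩ := exists_nb (a3.and b)
    exact absurd (hNb p hp).2.2 ((hNb p hp).2.1 (hNb p hp).1).2
  refine ⟨c, e + 1, a1, a2, ?_⟩
  have hy0 : c (y, 0) = h y := a2.self_of_nhds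
  obtain ⟨K, t, ht', hK⟩ :=
    ((analyticAt_eval D (h y)).contDiffAt (n := 1)).exists_lipschitzOnWith
  obtain ⟨δ, hδ, hb⟩ := Metric.mem_nhds_iff.1 (inter_mem ht' (hW.mem_nhds m2))
  have c1 : ∀ᶠ p in 𝓝 (y, (0 : ℝ)), dist (c p) (h y) + p.2 ^ (e + 1) < δ :=
    ((a1.continuousAt.dist continuousAt_const).add (continuousAt_snd.pow _)).eventually
      (gt_mem_nhds (by simpa [hy0] using hδ))
  have c2 : ∀ᶠ p in 𝓝 (y, (0 : ℝ)), 0 < |g p| - K * p.2 :=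
    (hg.continuousAt.abs.sub (continuousAt_const.mul continuousAt_snd)).eventually
      (lt_mem_nhds (by simpa using hg0))
  filter_upwards [a3, b, c1, c2] with p q1 q2 q3 q4 hp v hv
  have hsub : closedBall (c p) (p.2 ^ (e + 1)) ⊆ t ∩ W :=
    (closedBall_subset_ball' (by linarith)).trans hb
  have hpe : 0 < p.2 ^ e := pow_pos hp e
  have hcp : c p ∈ closedBall (c p) (p.2 ^ (e + 1)) := mem_closedBall_self (pow_pos hp _).le
  refine hF.subset (convex_closedBall _ _).isPreconnected (fun ξ hξ => (hsub hξ).2)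
    (fun ξ hξ h0 => ?_) ⟨c p, hcp, subset_closure (q1 hp).1⟩
    (by rw [mem_closedBall, dist_self_add_left]; exact hv)
  have r1 := hK.dist_le_mul ξ (hsub hξ).1 _ (hsub hcp).1
  have r2 : (K : ℝ) * dist ξ (c p) ≤ K * p.2 ^ (e + 1) := mul_le_mul_of_nonneg_left hξ K.2
  have h0' : eval ξ D = 0 := h0
  rw [h0', q2, dist_zero_left, smul_eq_mul, Real.norm_eq_abs, abs_mul, abs_of_pos hpe] at r1
  rw [pow_succ] at r2
  nlinarith [mul_pos hpe q4]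

end Vale.Agent.P274
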