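import Vale.Agent.P274.Defs

/-! Internal definitions for P274 (holomorphic maps on subsets, charts, divisible sets) and
small lemmas used everywhere. -/

open Set Filter Topology Metric

namespace Vale.Agent.P274

section Hol

variable {E F G : Type*} [NormedAddCommGroup E] [NormedSpace ℂ E] [NormedAddCommGroup F]
  [NormedSpace ℂ F] [NormedAddCommGroup G] [NormedSpace ℂ G]

/-- `f` is holomorphic on the subset `S`: locally the restriction of an ambient analytic map. -/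
def HolOn (S : Set E) (f : E → F) : Prop :=
  ∀ x ∈ S, ∃ g : E → F, AnalyticAt ℂ g x ∧ f =ᶠ[𝓝[S] x] g

theorem HolOn.mono {S T : Set E} {f : E → F} (h : HolOn S f) (hT : T ⊆ S) : HolOn T f :=
  fun x hx => let ⟨g, hg, he⟩ := h x (hT hx); ⟨g, hg, he.filter_mono (nhdsWithin_mono _ hT)⟩

theorem HolOn.continuousOn {S : Set E} {f : E → F} (h : HolOn S f) : ContinuousOn f S := by
  intro x hx
  obtain ⟨g, hg, he⟩ := h x hx
  exact (hg.continuousAt.continuousWithinAt).congr_of_eventuallyEq he (he.eq_of_nhdsWithin hx)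

theorem holOn_of_analyticOnNhd {S : Set E} {f : E → F} (h : AnalyticOnNhd ℂ f S) : HolOn S f :=
  fun x hx => ⟨f, h x hx, EventuallyEq.rfl⟩

theorem HolOn.analyticAt {S : Set E} {f : E → F} (h : HolOn S f) {x : E} (hx : S ∈ 𝓝 x) :
    AnalyticAt ℂ f x := by
  obtain ⟨g, hg, he⟩ := h x (mem_of_mem_nhds hx)
  rw [nhdsWithin_eq_nhds.2 hx] at he
  exact hg.congr he.symm

theorem HolOn.analyticOnNhd {S : Set E} {f : E → F} (h : HolOn S f) (hS : IsOpen S) :
    AnalyticOnNhd ℂ f S := fun _ hx => h.analyticAt (hS.mem_nhds hx)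

theorem HolOn.differentiableOn {S : Set E} {f : E → F} (h : HolOn S f) :
    DifferentiableOn ℂ f S := by
  intro x hx
  obtain ⟨g, hg, he⟩ := h x hx
  exact hg.differentiableAt.differentiableWithinAt.congr_of_eventuallyEq he
    (he.eq_of_nhdsWithin hx)

theorem HolOn.congr {S : Set E} {f f' : E → F} (h : HolOn S f) (he : ∀ x ∈ S, f' x = f x) :
    HolOn S f' := by
  intro x hx
  obtain ⟨g, hg, hfg⟩ := h x hx
  refine ⟨g, hg, ?_⟩
  filter_upwards [hfg, self_mem_nhdsWithin] with y hy hyS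
  rw [he y hyS, hy]

theorem HolOn.comp {S : Set E} {T : Set F} {g : F → G} {f : E → F} (hg : HolOn T g)
    (hf : HolOn S f) (hm : MapsTo f S T) : HolOn S (fun x => g (f x)) := by
  intro x hx
  obtain ⟨g', hg', heg⟩ := hg (f x) (hm hx)
  obtain ⟨f', hf', hef⟩ := hf x hx
  have hx' : f x = f' x := hef.eq_of_nhdsWithin hx
  refine ⟨fun y => g' (f' y), (hx' ▸ hg').comp hf', ?_⟩
  have ht : Tendsto f (𝓝[S] x) (𝓝[T] (f x)) :=
    (hf.continuousOn x hx).tendsto_nhdsWithin hm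
  filter_upwards [ht.eventually heg, hef] with y h1 h2
  rw [h1, h2]

/-- Post-composition with a map analytic at the values. -/
theorem HolOn.comp_left {S : Set E} {g : F → G} {f : E → F} (hf : HolOn S f)
    (hg : ∀ x ∈ S, AnalyticAt ℂ g (f x)) : HolOn S (fun x => g (f x)) :=
  (holOn_of_analyticOnNhd (S := f '' S) (by rintro _ ⟨x, hx, rfl⟩; exact hg x hx)).comp hf
    (mapsTo_image f S)

theorem HolOn.comp_analyticAt {T : Set F} {g : F → G} {f : E → F} {x : E} (hg : HolOn T g)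
    (hf : AnalyticAt ℂ f x) (hm : ∀ᶠ y in 𝓝 x, f y ∈ T) :
    AnalyticAt ℂ (fun y => g (f y)) x := by
  obtain ⟨g', hg', heg⟩ := hg (f x) hm.self_of_nhds
  have ht : Tendsto f (𝓝 x) (𝓝[T] (f x)) :=
    tendsto_nhdsWithin_iff.2 ⟨hf.continuousAt, hm⟩
  exact (hg'.comp hf).congr (ht.eventually heg.symm)

theorem HolOn.comp_differentiableAt {T : Set F} {g : F → G} {f : E → F} {x : E} (hg : HolOn T g)
    (hf : DifferentiableAt ℂ f x) (hm : ∀ᶠ y in 𝓝 x, f y ∈ T) :
    DifferentiableAt ℂ (fun y => g (f y)) x := by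
  obtain ⟨g', hg', heg⟩ := hg (f x) hm.self_of_nhds
  have ht : Tendsto f (𝓝 x) (𝓝[T] (f x)) :=
    tendsto_nhdsWithin_iff.2 ⟨hf.continuousAt, hm⟩
  exact (hg'.differentiableAt.comp x hf).congr_of_eventuallyEq (ht.eventually heg)

theorem HolOn.comp_differentiableOn {T : Set F} {S : Set E} {g : F → G} {f : E → F}
    (hg : HolOn T g) (hf : DifferentiableOn ℂ f S) (hm : MapsTo f S T) :
    DifferentiableOn ℂ (fun y => g (f y)) S :=
  hg.differentiableOn.comp hf hm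

theorem holOn_of_local {S : Set E} {f : E → F}
    (h : ∀ x ∈ S, ∃ O, IsOpen O ∧ x ∈ O ∧ HolOn (S ∩ O) f) : HolOn S f := by
  intro x hx
  obtain ⟨O, hO, hxO, hf⟩ := h x hx
  obtain ⟨g, hg, he⟩ := hf x ⟨hx, hxO⟩
  exact ⟨g, hg, by rwa [← nhdsWithin_restrict' S (hO.mem_nhds hxO)] at he⟩

theorem HolOn.prodMk {S : Set E} {f : E → F} {g : E → G} (hf : HolOn S f) (hg : HolOn S g) :
    HolOn S (fun x => (f x, g x)) := by
  intro x hx
  obtain ⟨f', hf', hef⟩ := hf x hx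
  obtain ⟨g', hg', heg⟩ := hg x hx
  refine ⟨fun y => (f' y, g' y), hf'.prod hg', ?_⟩
  filter_upwards [hef, heg] with y h1 h2
  rw [h1, h2]

theorem holOn_id {S : Set E} : HolOn S (fun x => x) :=
  holOn_of_analyticOnNhd fun _ _ => analyticAt_id

theorem holOn_const {S : Set E} {c : F} : HolOn S (fun _ => c) :=
  holOn_of_analyticOnNhd fun _ _ => analyticAt_const

/-- `x` is a regular point of `U`, with a chart modelled on `E'`. -/
def Reg (E' : Type*) [NormedAddCommGroup E'] [NormedSpace ℂ E'] (U : Set E) (x : E) : Prop :=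
  ∃ (G : E' → E) (χ : E → E'), AnalyticAt ℂ G (χ x) ∧ AnalyticAt ℂ χ x ∧ G (χ x) = x ∧
    (∀ᶠ t in 𝓝 (χ x), G t ∈ U ∧ χ (G t) = t) ∧ ∀ᶠ y in 𝓝[U] x, G (χ y) = y

theorem reg_of_isOpen {U : Set E} (hU : IsOpen U) {x : E} (hx : x ∈ U) : Reg E U x :=
  ⟨id, id, analyticAt_id, analyticAt_id, rfl,
    by filter_upwards [hU.mem_nhds hx] with t ht using ⟨ht, rfl⟩, Eventually.of_forall fun _ => rfl⟩

theorem Reg.equiv {E' E'' : Type*} [NormedAddCommGroup E'] [NormedSpace ℂ E']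
    [NormedAddCommGroup E''] [NormedSpace ℂ E''] {U : Set E} {x : E} (h : Reg E' U x)
    (L : E' ≃L[ℂ] E'') : Reg E'' U x := by
  obtain ⟨G, χ, h1, h2, h3, h4, h5⟩ := h
  refine ⟨fun t => G (L.symm t), fun y => L (χ y), ?_, (L.analyticAt _).comp h2, by simpa using h3,
    ?_, by simpa using h5⟩
  · exact AnalyticAt.comp (g := G) (by simpa using h1) (L.symm.analyticAt _)
  · have : Tendsto L.symm (𝓝 (L (χ x))) (𝓝 (χ x)) := by
      simpa using L.symm.continuous.tendsto (L (χ x))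
    filter_upwards [this.eventually h4] with t ht
    exact ⟨ht.1, by rw [ht.2]; simp⟩

/-- `ψ : U → Ω` is biholomorphic with inverse `θ`. -/
structure Bihol (U : Set E) (Ω : Set F) (ψ : E → F) (θ : F → E) : Prop where
  maps : MapsTo ψ U Ω
  maps' : MapsTo θ Ω U
  left : ∀ x ∈ U, θ (ψ x) = x
  right : ∀ w ∈ Ω, ψ (θ w) = w
  hol : HolOn U ψ
  hol' : HolOn Ω θ

theorem Bihol.symm {U : Set E} {Ω : Set F} {ψ : E → F} {θ : F → E} (h : Bihol U Ω ψ θ) :
    Bihol Ω U θ ψ := ⟨h.maps', h.maps, h.right, h.left, h.hol', h.hol⟩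

theorem Bihol.trans {U : Set E} {Ω : Set F} {B : Set G} {ψ : E → F} {θ : F → E} {ψ' : F → G}
    {θ' : G → F} (h : Bihol U Ω ψ θ) (h' : Bihol Ω B ψ' θ') :
    Bihol U B (fun x => ψ' (ψ x)) (fun w => θ (θ' w)) where
  maps := fun _ hx => h'.maps (h.maps hx)
  maps' := fun _ hw => h.maps' (h'.maps' hw)
  left := fun x hx => by rw [h'.left _ (h.maps hx), h.left x hx]
  right := fun w hw => by rw [h.right _ (h'.maps' hw), h'.right w hw]
  hol := h'.hol.comp h.hol h.maps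
  hol' := h.hol'.comp h'.hol' h'.maps'

theorem Bihol.image_eq {U : Set E} {Ω : Set F} {ψ : E → F} {θ : F → E} (h : Bihol U Ω ψ θ) :
    ψ '' U = Ω :=
  Subset.antisymm h.maps.image_subset fun w hw => ⟨θ w, h.maps' hw, h.right w hw⟩

theorem Bihol.isConnected {U : Set E} {Ω : Set F} {ψ : E → F} {θ : F → E} (h : Bihol U Ω ψ θ)
    (hU : IsConnected U) : IsConnected Ω :=
  h.image_eq ▸ hU.image ψ h.hol.continuousOn

theorem Bihol.reg {E' : Type*} [NormedAddCommGroup E'] [NormedSpace ℂ E'] {U : Set E}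
    {Ω : Set F} {ψ : E → F} {θ : F → E} (h : Bihol U Ω ψ θ) {x : E} (hx : x ∈ U)
    (hr : Reg E' U x) : Reg E' Ω (ψ x) := by
  obtain ⟨G, χ, h1, h2, h3, h4, h5⟩ := hr
  obtain ⟨θ', hθ', he⟩ := h.hol' (ψ x) (h.maps hx)
  have e0 : θ' (ψ x) = x := by rw [← he.eq_of_nhdsWithin (h.maps hx), h.left x hx]
  have hG : Tendsto G (𝓝 (χ x)) (𝓝[U] x) :=
    tendsto_nhdsWithin_iff.2 ⟨by simpa [h3] using h1.continuousAt.tendsto, h4.mono fun _ h => h.1⟩
  have hψ : Tendsto ψ (𝓝[U] x) (𝓝[Ω] (ψ x)) :=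
    (h.hol.continuousOn x hx).tendsto_nhdsWithin h.maps
  have hθ : Tendsto θ (𝓝[Ω] (ψ x)) (𝓝[U] x) := by
    have := (h.hol'.continuousOn _ (h.maps hx)).tendsto_nhdsWithin h.maps'
    rwa [h.left x hx] at this
  refine ⟨fun t => ψ (G t), fun w => χ (θ' w), ?_, ?_, by simp only [e0, h3], ?_, ?_⟩
  · simp only [e0]
    exact h.hol.comp_analyticAt h1 (h4.mono fun _ h => h.1)
  · exact AnalyticAt.comp (g := χ) (by simpa only [e0] using h2) hθ'
  · simp only [e0]
    filter_upwards [h4, (hψ.comp hG).eventually he] with t ht ht'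
    refine ⟨h.maps ht.1, ?_⟩
    simp only [Function.comp] at ht'
    rw [← ht', h.left _ ht.1, ht.2]
  · filter_upwards [he, hθ.eventually h5, self_mem_nhdsWithin] with w h6 h7 h8
    rw [← h6, h7, h.right w h8]

/-- A bounded connected locally closed set with a properly discontinuous cocompact action of a
group by holomorphic maps. -/
structure Div {Γ : Type*} [Group Γ] (U : Set E) (act : Γ → E → E) : Prop where
  maps : ∀ γ, MapsTo (act γ) U U
  hol : ∀ γ, HolOn U (act γ)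
  one : ∀ x ∈ U, act 1 x = x
  mul : ∀ γ δ, ∀ x ∈ U, act (γ * δ) x = act γ (act δ x)
  proper : ∀ K L : Set E, IsCompact K → K ⊆ U → IsCompact L → L ⊆ U →
    {γ | ∃ x ∈ K, act γ x ∈ L}.Finite
  cocompact : ∃ K, IsCompact K ∧ K ⊆ U ∧ ∀ x ∈ U, ∃ γ, act γ x ∈ K
  bdd : Bornology.IsBounded U
  lc : IsLocallyClosed U
  conn : IsConnected U

theorem Div.bihol {Γ : Type*} [Group Γ] {U : Set E} {act : Γ → E → E} (h : Div U act) (γ : Γ) :
    Bihol U U (act γ) (act γ⁻¹) where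
  maps := h.maps γ
  maps' := h.maps γ⁻¹
  left := fun x hx => by rw [← h.mul _ _ x hx, inv_mul_cancel, h.one x hx]
  right := fun x hx => by rw [← h.mul _ _ x hx, mul_inv_cancel, h.one x hx]
  hol := h.hol γ
  hol' := h.hol γ⁻¹

/-- Tautness of `O` relative to `W`, tested on holomorphic discs. -/
def TautIn (O W : Set F) : Prop :=
  ∀ (f : ℕ → ℂ → F) (g : ℂ → F) (T : Set ℂ), IsOpen T → IsPreconnected T →
    (∀ j, DifferentiableOn ℂ (f j) T ∧ MapsTo (f j) T O) →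
    (∀ ζ ∈ T, Tendsto (fun j => f j ζ) atTop (𝓝 (g ζ))) → MapsTo g T W →
    (∃ ζ ∈ T, g ζ ∈ O) → MapsTo g T O

/-- Cauchy estimate. -/
theorem norm_fderiv_le_of_bdd {f : E → F} {x : E} {r M : ℝ} (hr : 0 < r)
    (hf : DifferentiableOn ℂ f (ball x r)) (hM : ∀ y ∈ ball x r, ‖f y‖ ≤ M) :
    ‖fderiv ℂ f x‖ ≤ 2 * M / r := by
  refine Complex.norm_fderiv_le_div_of_mapsTo_ball hf (fun y hy => ?_) hr
  rw [mem_closedBall, dist_eq_norm]
  have := norm_sub_le (f y) (f x)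
  linarith [hM y hy, hM x (mem_ball_self hr)]

/-- Bounded holomorphic maps are Lipschitz on the half ball. -/
theorem norm_sub_le_of_bdd {f : E → F} {x : E} {r M : ℝ} (hr : 0 < r)
    (hf : DifferentiableOn ℂ f (ball x r)) (hM : ∀ y ∈ ball x r, ‖f y‖ ≤ M) {y z : E}
    (hy : y ∈ ball x (r / 2)) (hz : z ∈ ball x (r / 2)) :
    ‖f y - f z‖ ≤ 4 * M / r * ‖y - z‖ := by
  have hsub : ∀ w ∈ ball x (r / 2), ball w (r / 2) ⊆ ball x r := fun w hw =>
    ball_subset_ball' (by rw [mem_ball] at hw; linarith)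
  refine (convex_ball x (r / 2)).norm_image_sub_le_of_norm_fderiv_le (𝕜 := ℂ) (fun w hw => ?_)
    (fun w hw => ?_) hz hy
  · exact hf.differentiableAt (isOpen_ball.mem_nhds (ball_subset_ball (by linarith) hw))
  · have := norm_fderiv_le_of_bdd (half_pos hr) (hf.mono (hsub w hw))
      (fun v hv => hM v (hsub w hw hv))
    calc _ ≤ 2 * M / (r / 2) := this
      _ = 4 * M / r := by field_simp; ring

end Hol

/-- Off the zero set of `D`, inside `W`, membership in `O` is locally constant. -/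
def Fr {V : Type*} [TopologicalSpace V] (D : V → ℝ) (W O : Set V) : Prop :=
  ∀ ξ ∈ W, D ξ ≠ 0 → (∀ᶠ ξ' in 𝓝 ξ, ξ' ∈ O) ∨ ∀ᶠ ξ' in 𝓝 ξ, ξ' ∉ O

theorem Fr.mem_nhds {V : Type*} [TopologicalSpace V] {D : V → ℝ} {W O : Set V} (h : Fr D W O)
    {ξ : V} (hW : ξ ∈ W) (hD : D ξ ≠ 0) (hc : ξ ∈ closure O) : O ∈ 𝓝 ξ := by
  rcases h ξ hW hD with h1 | h1
  · exact h1
  · exact absurd (mem_closure_iff_frequently.1 hc) (not_frequently.2 h1)

/-- A preconnected set avoiding the walls and meeting the closure of `O` lies in `O`. -/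
theorem Fr.subset {V : Type*} [TopologicalSpace V] {D : V → ℝ} {W O T : Set V} (h : Fr D W O)
    (hT : IsPreconnected T) (hW : T ⊆ W) (hD : ∀ ξ ∈ T, D ξ ≠ 0)
    (hne : (T ∩ closure O).Nonempty) : T ⊆ O := by
  have : T ⊆ interior O := by
    refine hT.subset_left_of_subset_union isOpen_interior isClosed_closure.isOpen_compl
      (disjoint_compl_right.mono_left (interior_subset.trans subset_closure)) (fun ξ hξ => ?_) ?_
    · by_cases hc : ξ ∈ closure O
      · exact Or.inl (mem_interior_iff_mem_nhds.2 (h.mem_nhds (hW hξ) (hD ξ hξ) hc))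
      · exact Or.inr hc
    · obtain ⟨ξ, hξ, hc⟩ := hne
      exact ⟨ξ, hξ, mem_interior_iff_mem_nhds.2 (h.mem_nhds (hW hξ) (hD ξ hξ) hc)⟩
  exact this.trans interior_subset

theorem Fr.comp {V V' : Type*} [TopologicalSpace V] [TopologicalSpace V'] {D : V → ℝ}
    {W O : Set V} (h : Fr D W O) {f : V' → V} {W' : Set V'} (hW' : IsOpen W')
    (hf : ContinuousOn f W') (hm : MapsTo f W' W) :
    Fr (fun x => D (f x)) W' {x | x ∈ W' ∧ f x ∈ O} := by
  intro ξ hξ hD
  have hc : Tendsto f (𝓝 ξ) (𝓝 (f ξ)) := hf.continuousAt (hW'.mem_nhds hξ)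
  rcases h (f ξ) (hm hξ) hD with h1 | h1
  · left
    filter_upwards [hc.eventually h1, hW'.mem_nhds hξ] with x h2 h3 using ⟨h3, h2⟩
  · right
    filter_upwards [hc.eventually h1] with x h2 h3 using h2 h3.2

/-- Almost-everywhere statements can be proved locally around almost every point. -/
theorem ae_of_local {X : Type*} [TopologicalSpace X] [SecondCountableTopology X]
    [MeasurableSpace X] {μ : MeasureTheory.Measure X} {A P : X → Prop}
    (h : ∀ᵐ x ∂μ, A x → ∃ N ∈ 𝓝 x, ∀ᵐ y ∂μ, y ∈ N → A y → P y) : ∀ᵐ x ∂μ, A x → P x := by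
  have h2 : μ {x | (A x → ∃ N ∈ 𝓝 x, ∀ᵐ y ∂μ, y ∈ N → A y → P y) ∧ A x ∧ ¬ P x} = 0 := by
    refine MeasureTheory.measure_null_of_locally_null _ fun x hx => ?_
    obtain ⟨N, hN, hae⟩ := hx.1 hx.2.1
    refine ⟨_ ∩ N, inter_mem_nhdsWithin _ hN, MeasureTheory.measure_mono_null ?_ hae⟩
    rintro y ⟨hy, hyN⟩ hy'
    exact hy.2.2 (hy' hyN hy.2.1)
  filter_upwards [h, MeasureTheory.measure_eq_zero_iff_ae_notMem.1 h2] with x h3 h4 hA
  by_contra hP
  exact h4 ⟨h3, hA, hP⟩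

end Vale.Agent.P274
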