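import Vale.Agent.P274.Base

/-! Tautness of divisible sets. -/

open Set Filter Topology Metric

namespace Vale.Agent.P274

variable {E E' F : Type*} [NormedAddCommGroup E] [NormedSpace ℂ E] [FiniteDimensional ℂ E]
  [NormedAddCommGroup E'] [NormedSpace ℂ E'] [NormedAddCommGroup F] [NormedSpace ℂ F]
  {Γ : Type*} [Group Γ] {U : Set E} {act : Γ → E → E}

/-- A compact subset of a locally closed set has a compact neighbourhood in it.
(`U = O ∩ Z`, `O` open, `Z` closed; take `cthickening r K ⊆ O`.) -/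
theorem exists_compact_nhd (hU : IsLocallyClosed U) {K : Set E} (hK : IsCompact K)
    (hKU : K ⊆ U) : ∃ r > 0, IsCompact (U ∩ cthickening r K) := by
  obtain ⟨O, Z, hO, hZ, rfl⟩ := hU
  have := FiniteDimensional.proper ℂ E
  obtain ⟨r, hr, h⟩ := hK.exists_cthickening_subset_open hO fun x hx => (hKU hx).1
  refine ⟨r, hr, ?_⟩
  have e : O ∩ Z ∩ cthickening r K = Z ∩ cthickening r K :=
    Subset.antisymm (fun x hx => ⟨hx.1.2, hx.2⟩) fun x hx => ⟨⟨h hx.2, hx.1⟩, hx.2⟩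
  rw [e]
  exact hK.cthickening.inter_left hZ

theorem TautAux.loc (hD : Div U act) {ι : Type*} {l : Filter ι} {f : ι → E' → E} {ζ : E'} {r : ℝ}
    (hr : 0 < r)
    (hf : ∀ᶠ j in l, DifferentiableOn ℂ (f j) (ball ζ r) ∧ MapsTo (f j) (ball ζ r) U) :
    ∃ r' > 0, ∀ ζ' ∈ ball ζ r', (∃ K', IsCompact K' ∧ K' ⊆ U ∧ ∀ᶠ j in l, f j ζ' ∈ K') →
      ∃ K', IsCompact K' ∧ K' ⊆ U ∧ ∀ᶠ j in l, MapsTo (f j) (ball ζ r') K' := by
  obtain ⟨K₀, hK₀, hK₀U, hco⟩ := hD.cocompact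
  obtain ⟨ρ, hρ, hK₁⟩ := exists_compact_nhd hD.lc hK₀ hK₀U
  obtain ⟨M, hM, hb⟩ := hD.bdd.exists_pos_norm_le
  refine ⟨min (r / 2) (ρ * r / (4 * M)), by positivity, ?_⟩
  rintro ζ' hζ' ⟨K', hK', hK'U, hj⟩
  have hfin := hD.proper K' _ hK' hK'U hK₁ inter_subset_left
  refine ⟨⋃ γ ∈ {γ | ∃ x ∈ K', act γ x ∈ U ∩ cthickening ρ K₀},
    act γ⁻¹ '' (U ∩ cthickening ρ K₀), hfin.isCompact_biUnion fun γ _ =>
      hK₁.image_of_continuousOn ((hD.hol _).continuousOn.mono inter_subset_left),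
    iUnion₂_subset fun γ _ => ((hD.maps _).mono_left inter_subset_left).image_subset, ?_⟩
  filter_upwards [hf, hj] with j ⟨h1, h2⟩ h3
  obtain ⟨γ, hγ⟩ := hco _ (h2 (mem_ball_self hr))
  have key : ∀ y ∈ ball ζ (min (r / 2) (ρ * r / (4 * M))),
      f j y ∈ U ∧ act γ (f j y) ∈ U ∩ cthickening ρ K₀ := by
    intro y hy
    have hy1 : y ∈ ball ζ (r / 2) := ball_subset_ball (min_le_left _ _) hy
    have hy2 : f j y ∈ U := h2 (ball_subset_ball (half_le_self hr.le) hy1)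
    refine ⟨hy2, hD.maps γ hy2, mem_cthickening_of_dist_le _ _ _ _ hγ ?_⟩
    have h4 := norm_sub_le_of_bdd hr ((hD.hol γ).comp_differentiableOn h1 h2)
      (fun z hz => hb _ (hD.maps γ (h2 hz))) hy1 (mem_ball_self (half_pos hr))
    have h5 : ‖y - ζ‖ ≤ ρ * r / (4 * M) := by
      rw [← dist_eq_norm]
      exact (mem_ball.1 hy).le.trans (min_le_right _ _)
    rw [dist_eq_norm]
    refine h4.trans ((mul_le_mul_of_nonneg_left h5 (by positivity)).trans (le_of_eq ?_))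
    field_simp
  exact fun y hy => mem_biUnion ⟨_, h3, (key ζ' hζ').2⟩
    ⟨_, (key y hy).2, (hD.bihol γ).left _ (key y hy).1⟩

/-- Compactness propagates along families of holomorphic maps into `U`.
Sketch: fix `ζ ∈ T` with its radius `r`, let `K₀` be the cocompactness set, `K₁ = U ∩ cthickening ρ K₀`
compact. Choose `γ j` with `act (γ j) (f j ζ) ∈ K₀`. The maps `act (γ j) ∘ f j` are holomorphic on
`ball ζ r` (`HolOn.comp_differentiableOn`) and bounded (`U` is bounded), hence uniformly Lipschitz on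
the half ball (`norm_sub_le_of_bdd`), so they send `ball ζ r'` into `K₁` for a fixed `r' > 0`. If some
`ζ' ∈ ball ζ r'` has `f j ζ'` eventually in a compact `K' ⊆ U` then eventually `γ j` lies in the finite
set `{γ | ∃ x ∈ K', act γ x ∈ K₁}` and `f j` maps `ball ζ r'` into the compact `⋃ γ, act γ⁻¹ '' K₁`.
Then propagate along `T` (`IsPreconnected.induction₂'`, or a clopen argument). -/
theorem Div.taut (hD : Div U act) {ι : Type*} {l : Filter ι} {f : ι → E' → E} {T : Set E'}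
    (hT : IsPreconnected T)
    (hf : ∀ ζ ∈ T, ∃ r > 0, ∀ᶠ j in l,
      DifferentiableOn ℂ (f j) (ball ζ r) ∧ MapsTo (f j) (ball ζ r) U)
    {ζ₀ : E'} (h₀ : ζ₀ ∈ T) {K : Set E} (hK : IsCompact K) (hKU : K ⊆ U)
    (hj : ∀ᶠ j in l, f j ζ₀ ∈ K) :
    ∀ ζ ∈ T, ∃ r > 0, ∃ K', IsCompact K' ∧ K' ⊆ U ∧ ∀ᶠ j in l, MapsTo (f j) (ball ζ r) K' := by
  intro ζ hζ
  have key := hT.induction₂' (fun x y => (∃ K', IsCompact K' ∧ K' ⊆ U ∧ ∀ᶠ j in l, f j x ∈ K') →
      ∃ K', IsCompact K' ∧ K' ⊆ U ∧ ∀ᶠ j in l, f j y ∈ K') (fun x hx => by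
    obtain ⟨r, hr, h1⟩ := hf x hx
    obtain ⟨r', hr', h2⟩ := TautAux.loc hD hr h1
    filter_upwards [mem_nhdsWithin_of_mem_nhds (ball_mem_nhds x hr')] with y hy
    constructor
    · intro h3
      obtain ⟨K', a1, a2, a3⟩ := h2 x (mem_ball_self hr') h3
      exact ⟨K', a1, a2, a3.mono fun j h => h hy⟩
    · intro h3
      obtain ⟨K', a1, a2, a3⟩ := h2 y hy h3
      exact ⟨K', a1, a2, a3.mono fun j h => h (mem_ball_self hr')⟩)
    (fun _ _ _ _ _ _ h1 h2 h3 => h2 (h1 h3)) h₀ hζ ⟨K, hK, hKU, hj⟩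
  obtain ⟨r, hr, h1⟩ := hf ζ hζ
  obtain ⟨r', hr', h2⟩ := TautAux.loc hD hr h1
  exact ⟨r', hr', h2 ζ (mem_ball_self hr') key⟩

theorem TautAux.seq (hD : Div U act) {f : ℕ → ℂ → E} {T : Set ℂ} (hTo : IsOpen T)
    (hT : IsPreconnected T) (hf : ∀ j, DifferentiableOn ℂ (f j) T ∧ MapsTo (f j) T U)
    {ζ₀ : ℂ} (h₀ : ζ₀ ∈ T) {x : E} (hx : x ∈ U) (hj : Tendsto (fun j => f j ζ₀) atTop (𝓝 x))
    {ζ : ℂ} (hζ : ζ ∈ T) : ∃ K', IsCompact K' ∧ K' ⊆ U ∧ ∀ᶠ j in atTop, f j ζ ∈ K' := by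
  obtain ⟨ρ, hρ, hK⟩ := exists_compact_nhd hD.lc isCompact_singleton (singleton_subset_iff.2 hx)
  obtain ⟨r, hr, K', h1, h2, h3⟩ := hD.taut (l := atTop) hT (fun z hz => by
      obtain ⟨r, hr, h⟩ := Metric.isOpen_iff.1 hTo z hz
      exact ⟨r, hr, Eventually.of_forall fun j => ⟨(hf j).1.mono h, (hf j).2.mono_left h⟩⟩)
    h₀ hK inter_subset_left (by
      filter_upwards [hj.eventually (closedBall_mem_nhds x hρ)] with j h
      exact ⟨(hf j).2 h₀, mem_cthickening_of_dist_le _ _ _ _ rfl h⟩) ζ hζ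
  exact ⟨K', h1, h2, h3.mono fun j h => h (mem_ball_self hr)⟩

/-- Sketch: apply `Div.taut` to `Θ ∘ f j`; at the point where `g ζ₀ ∈ O`, `Θ (f j ζ₀) → Θ (g ζ₀) ∈ U`
so it is eventually in a compact neighbourhood (`exists_compact_nhd` for a singleton). -/
theorem Div.tautIn (hD : Div U act) {Θ : F → E} {W : Set F} (hW : IsOpen W)
    (hΘ : DifferentiableOn ℂ Θ W) : TautIn {w | w ∈ W ∧ Θ w ∈ U} W := by
  rintro f g T hTo hT hf hl hg ⟨ζ₀, h₀, hg₀⟩ ζ hζ
  have hc : ∀ z ∈ T, Tendsto (fun j => Θ (f j z)) atTop (𝓝 (Θ (g z))) := fun z hz =>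
    (hΘ.continuousOn.continuousAt (hW.mem_nhds (hg hz))).tendsto.comp (hl z hz)
  obtain ⟨K', h1, h2, h3⟩ := TautAux.seq hD (f := fun j z => Θ (f j z)) hTo hT
    (fun j => ⟨hΘ.comp (hf j).1 fun z hz => ((hf j).2 hz).1, fun z hz => ((hf j).2 hz).2⟩)
    h₀ hg₀.2 (hc ζ₀ h₀) hζ
  exact ⟨hg hζ, h2 (h1.isClosed.mem_of_tendsto (hc ζ hζ) h3)⟩

/-- A biholomorphic open image of `U` is taut in the whole space. Sketch: apply `Div.taut` to
`θ ∘ f j`; then `θ (f j ζ)` is eventually in a compact `K' ⊆ U`, so `f j ζ = ψ (θ (f j ζ))` is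
eventually in the compact `ψ '' K' ⊆ Ω`. -/
theorem Div.tautIn_bihol (hD : Div U act) {Ω : Set F} {ψ : E → F} {θ : F → E}
    (h : Bihol U Ω ψ θ) : TautIn Ω univ := by
  rintro f g T hTo hT hf hl - ⟨ζ₀, h₀, hg₀⟩ ζ hζ
  obtain ⟨K', h1, h2, h3⟩ := TautAux.seq hD (f := fun j z => θ (f j z)) hTo hT
    (fun j => ⟨h.hol'.comp_differentiableOn (hf j).1 (hf j).2,
      fun z hz => h.maps' ((hf j).2 hz)⟩) h₀ (h.maps' hg₀)
    ((h.hol'.continuousOn _ hg₀).tendsto.comp (tendsto_nhdsWithin_iff.2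
      ⟨hl ζ₀ h₀, Eventually.of_forall fun j => (hf j).2 h₀⟩)) hζ
  refine (h.maps.mono_left h2).image_subset
    ((h1.image_of_continuousOn (h.hol.continuousOn.mono h2)).isClosed.mem_of_tendsto (hl ζ hζ) ?_)
  exact h3.mono fun j hj => ⟨_, hj, h.right _ ((hf j).2 hζ)⟩

/-- Transport of the group action along a biholomorphism onto a bounded open set. -/
theorem Div.transport (hD : Div U act) {B : Set F} {ψ : E → F} {θ : F → E}
    (h : Bihol U B ψ θ) (hB : IsOpen B) (hb : Bornology.IsBounded B) :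
    Div B (fun γ w => ψ (act γ (θ w))) where
  maps γ _ hw := h.maps (hD.maps γ (h.maps' hw))
  hol γ := h.hol.comp ((hD.hol γ).comp h.hol' h.maps') fun _ hw => hD.maps γ (h.maps' hw)
  one w hw := by rw [hD.one _ (h.maps' hw), h.right w hw]
  mul γ δ w hw := by rw [hD.mul _ _ _ (h.maps' hw), h.left _ (hD.maps δ (h.maps' hw))]
  proper K L hK hKB hL hLB := by
    refine (hD.proper _ _ (hK.image_of_continuousOn (h.hol'.continuousOn.mono hKB))
      (h.maps'.mono_left hKB).image_subset (hL.image_of_continuousOn (h.hol'.continuousOn.mono hLB))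
      (h.maps'.mono_left hLB).image_subset).subset ?_
    rintro γ ⟨w, hw, h1⟩
    exact ⟨θ w, mem_image_of_mem θ hw, _, h1, h.left _ (hD.maps γ (h.maps' (hKB hw)))⟩
  cocompact := by
    obtain ⟨K, h1, h2, h3⟩ := hD.cocompact
    refine ⟨ψ '' K, h1.image_of_continuousOn (h.hol.continuousOn.mono h2),
      (h.maps.mono_left h2).image_subset, fun w hw => ?_⟩
    obtain ⟨γ, hγ⟩ := h3 _ (h.maps' hw)
    exact ⟨γ, mem_image_of_mem ψ hγ⟩
  bdd := hb
  lc := hB.isLocallyClosed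
  conn := h.isConnected hD.conn

/-- Continuity principle. Sketch: the set of `t ∈ [0,1]` with `A t '' closedBall 0 1 ⊆ O` is open
(compactness, e.g. `IsCompact.eventually_forall_of_forall_eventually` or the tube lemma) and closed
(for `t j → t`, the boundary circle of `A t` lies in the open set `O`, so some point of the open disc
is mapped into `O`; apply `TautIn` on `ball 0 1`); `Icc 0 1` is connected. -/
theorem TautIn.continuity {O W : Set F} (h : TautIn O W) (hO : IsOpen O) {A : ℝ → ℂ → F}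
    (hc : ContinuousOn (fun p : ℝ × ℂ => A p.1 p.2) (Icc 0 1 ×ˢ closedBall 0 1))
    (hd : ∀ t ∈ Icc (0 : ℝ) 1, DifferentiableOn ℂ (A t) (ball 0 1))
    (hW : ∀ t ∈ Icc (0 : ℝ) 1, MapsTo (A t) (ball 0 1) W)
    (hb : ∀ t ∈ Icc (0 : ℝ) 1, MapsTo (A t) (sphere 0 1) O)
    (h0 : MapsTo (A 0) (ball 0 1) O) : MapsTo (A 1) (closedBall 0 1) O := by
  have cl : ∀ t ∈ Icc (0 : ℝ) 1, MapsTo (A t) (ball 0 1) O → MapsTo (A t) (closedBall 0 1) O := by
    intro t ht h1 z hz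
    rcases (mem_closedBall.1 hz).lt_or_eq with h2 | h2
    · exact h1 h2
    · exact hb t ht h2
  refine IsClosed.Icc_subset_of_forall_mem_nhdsWithin (a := 0) (b := 1)
    (s := {t | MapsTo (A t) (closedBall 0 1) O}) ?_ (cl 0 (left_mem_Icc.2 zero_le_one) h0) ?_
    (right_mem_Icc.2 zero_le_one)
  · refine IsSeqClosed.isClosed fun u t hu hut => ?_
    have ht : t ∈ Icc (0 : ℝ) 1 :=
      isClosed_Icc.mem_of_tendsto hut (Eventually.of_forall fun j => (hu j).2)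
    refine ⟨cl t ht (h (fun j => A (u j)) (A t) _ isOpen_ball (convex_ball _ _).isPreconnected
      (fun j => ⟨hd _ (hu j).2, (hu j).1.mono_left ball_subset_closedBall⟩) (fun z hz => ?_)
      (hW t ht) ?_), ht⟩
    · exact (hc (t, z) ⟨ht, ball_subset_closedBall hz⟩).tendsto.comp (tendsto_nhdsWithin_iff.2
        ⟨hut.prodMk_nhds tendsto_const_nhds,
          Eventually.of_forall fun j => ⟨(hu j).2, ball_subset_closedBall hz⟩⟩)
    · have h1 : (1 : ℂ) ∈ sphere (0 : ℂ) 1 := by simp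
      have h2 : ContinuousWithinAt (A t) (ball 0 1) 1 :=
        ContinuousWithinAt.comp (f := fun z : ℂ => (t, z)) (g := fun p : ℝ × ℂ => A p.1 p.2)
          (hc (t, 1) ⟨ht, sphere_subset_closedBall h1⟩) (by fun_prop)
          fun z hz => ⟨ht, ball_subset_closedBall hz⟩
      have h3 : (𝓝[ball (0 : ℂ) 1] 1).NeBot := mem_closure_iff_nhdsWithin_neBot.1 (by
        rw [closure_ball _ one_ne_zero]; exact sphere_subset_closedBall h1)
      obtain ⟨z, hz⟩ := ((h2.tendsto.eventually (hO.mem_nhds (hb t ht h1))).and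
        self_mem_nhdsWithin).exists
      exact ⟨z, hz.2, hz.1⟩
  · rintro t ⟨ht, ht'⟩
    have h1 := (isCompact_closedBall (0 : ℂ) 1).eventually_forall_of_forall_eventually (x₀ := t)
      (P := fun t' z => (t', z) ∈ Icc (0 : ℝ) 1 ×ˢ closedBall (0 : ℂ) 1 → A t' z ∈ O) fun z hz =>
        eventually_nhdsWithin_iff.1 ((hc (t, z) ⟨Ico_subset_Icc_self ht', hz⟩).tendsto.eventually
          (hO.mem_nhds (ht hz)))
    filter_upwards [mem_nhdsWithin_of_mem_nhds h1, Ioc_mem_nhdsGT ht'.2] with t' h2 h3 z hz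
    exact h2 z hz ⟨⟨ht'.1.trans h3.1.le, h3.2⟩, hz⟩

end Vale.Agent.P274
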