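import Vale.Agent.P274.StC
import Vale.Agent.P274.Taut

open Set Filter Topology Metric

namespace Vale.Agent.P274

namespace BishopAux

variable {W : Type} [NormedCommRing W] [NormedAlgebra ℝ W] [CompleteSpace W] {k l : ℕ}

theorem exists_hat (h2 : S_FC) {H : ((Fin k → ℝ) × (Fin l → ℂ)) × ℝ → (Fin k → ℝ)}
    (han : AnalyticAt ℝ H 0) (h0 : H 0 = 0) (hder : ∀ y, fderiv ℝ H 0 (y, 0) = 0) :
    ∃ Hh : (Fin k → W) × W → (Fin k → W), AnalyticAt ℝ Hh 0 ∧ Hh 0 = 0 ∧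
      (∀ y, fderiv ℝ Hh 0 (y, 0) = 0) ∧
      (∀ᶠ q in 𝓝 (0 : (Fin k → W) × W), ∀ φ : W →L[ℝ] ℝ, φ 1 = 1 →
        (∀ u v, φ (u * v) = φ u * φ v) → (∀ u, |φ u| ≤ ‖u‖) →
        ∀ i, φ (Hh q i) = H ((fun j => φ (q.1 j), 0), φ q.2) i) ∧
      ∀ᶠ s in 𝓝 (0 : ℝ), ∀ i, Hh (0, algebraMap ℝ W s) i = algebraMap ℝ W (H ((0, 0), s) i) := by
  classical
  let R : (Option (Fin k) → ℝ) →L[ℝ] ((Fin k → ℝ) × (Fin l → ℂ)) × ℝ :=
    ((ContinuousLinearMap.pi fun j => ContinuousLinearMap.proj (some j)).prod 0).prod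
      (ContinuousLinearMap.proj none)
  have hR : ∀ a, R a = ((fun j => a (some j), 0), a none) := fun a => rfl
  let S : ((Fin k → W) × W) →L[ℝ] (Option (Fin k) → W) :=
    ContinuousLinearMap.pi fun o => o.elim (ContinuousLinearMap.snd ℝ _ _)
      fun j => (ContinuousLinearMap.proj j).comp (ContinuousLinearMap.fst ℝ _ _)
  have hS1 : ∀ q j, S q (some j) = q.1 j := fun q j => rfl
  have hS2 : ∀ q, S q none = q.2 := fun q => rfl
  have hHR : AnalyticAt ℝ (fun a => H (R a)) 0 :=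
    AnalyticAt.comp (g := H) (by simpa using han) (R.analyticAt 0)
  have hf : ∀ i, AnalyticAt ℝ (fun a => H (R a) i) 0 := fun i => analyticAt_pi_iff.1 hHR i
  choose F hF1 hF2 hF3 hF4 using fun i => h2 W (Option (Fin k)) (fun a => H (R a) i) (hf i)
  have hS0 : Tendsto S (𝓝 0) (𝓝 0) := by simpa using S.continuous.tendsto 0
  have hFS : ∀ i, AnalyticAt ℝ (fun q => F i (S q)) 0 := fun i =>
    AnalyticAt.comp (g := F i) (by simpa using hF1 i) (S.analyticAt 0)
  refine ⟨fun q i => F i (S q), analyticAt_pi_iff.2 hFS, ?_, fun y => ?_, ?_, ?_⟩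
  · funext i
    have := (hF3 i).self_of_nhds
    simp only [Pi.zero_apply, map_zero, h0] at this
    simpa [Pi.zero_def] using this
  · funext i
    rw [fderiv_pi fun i => (hFS i).differentiableAt]
    have e1 : fderiv ℝ (fun q => F i (S q)) 0 = (fderiv ℝ (F i) 0).comp S := by
      have := fderiv_comp (𝕜 := ℝ) (g := F i) (f := S) (0 : (Fin k → W) × W)
        (by simpa using (hF1 i).differentiableAt) S.differentiableAt
      simpa [Function.comp_def] using this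
    have e2 : ∀ j : Fin k, fderiv ℝ (fun a => H (R a) i) 0 (Pi.single (some j) 1) = 0 := by
      intro j
      have d1 : HasFDerivAt (fun a => H (R a)) ((fderiv ℝ H 0).comp R) 0 :=
        HasFDerivAt.comp (g := H) (0 : Option (Fin k) → ℝ)
          (by simpa using han.differentiableAt.hasFDerivAt) R.hasFDerivAt
      rw [(hasFDerivAt_pi'.1 d1 i).fderiv]
      have : R (Pi.single (some j) 1) = ((Pi.single j 1, 0), 0) := by
        rw [hR]
        refine Prod.ext (Prod.ext ?_ rfl) (by simp)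
        funext j'
        simp [Pi.single_apply]
      simp [this, hder]
    simp only [ContinuousLinearMap.pi_apply, e1, ContinuousLinearMap.comp_apply, hF4,
      Pi.zero_apply]
    rw [Fintype.sum_option]
    simp [hS2, e2]
  · have := eventually_all.2 fun i => hS0.eventually (hF2 i)
    filter_upwards [this] with q hq φ a b c i
    rw [hq i φ a b c, hR]
    rfl
  · let y : ℝ → Option (Fin k) → ℝ := fun s o => o.elim s fun _ => 0
    have hy : Tendsto y (𝓝 0) (𝓝 0) := by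
      refine tendsto_pi_nhds.2 fun o => ?_
      cases o with
      | none => exact tendsto_id
      | some j => exact tendsto_const_nhds
    have := eventually_all.2 fun i => hy.eventually (hF3 i)
    filter_upwards [this] with s hs i
    have e1 : S (0, algebraMap ℝ W s) = fun o => algebraMap ℝ W (y s o) := by
      funext o
      cases o with
      | none => rfl
      | some j => simp [hS1, y]
    rw [e1, hs i, hR]
    rfl

theorem exists_solve {Hh : (Fin k → W) × W → (Fin k → W)} (han : AnalyticAt ℝ Hh 0)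
    (h0 : Hh 0 = 0) (hder : ∀ y, fderiv ℝ Hh 0 (y, 0) = 0) (T : W →L[ℝ] W) :
    ∃ Y : W × (Fin k → W) → (Fin k → W), Y 0 = 0 ∧
      (∀ᶠ z in 𝓝 (0 : W × (Fin k → W)), ContinuousAt Y z ∧
        (∀ i, Y z i = T (Hh (Y z, z.1) i + z.2 i)) ∧
        ((∀ i, T (Hh (0, z.1) i + z.2 i) = 0) → Y z = 0)) ∧
      ∀ ε : ℝ, 0 < ε → ∀ᶠ p in 𝓝 (0 : (W × (Fin k → W)) × (W × (Fin k → W))), p.1.1 = p.2.1 →
        ‖Hh (Y p.1, p.1.1) - Hh (Y p.2, p.2.1)‖ ≤ ε * ‖p.1.2 - p.2.2‖ := by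
  let P := Fin k → W
  let TT : P →L[ℝ] P := ContinuousLinearMap.pi fun i => T.comp (ContinuousLinearMap.proj i)
  let π₁ : (P × (W × P)) →L[ℝ] (P × W) := (ContinuousLinearMap.fst ℝ _ _).prod
    ((ContinuousLinearMap.fst ℝ _ _).comp (ContinuousLinearMap.snd ℝ _ _))
  let π₂ : (P × (W × P)) →L[ℝ] P :=
    (ContinuousLinearMap.snd ℝ _ _).comp (ContinuousLinearMap.snd ℝ _ _)
  let H' := fderiv ℝ Hh 0
  have hH : HasStrictFDerivAt Hh H' 0 := han.hasStrictFDerivAt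
  let M : (W × P) →L[ℝ] P := TT.comp ((H'.comp ((0 : (W × P) →L[ℝ] P).prod
    (ContinuousLinearMap.fst ℝ _ _))) + ContinuousLinearMap.snd ℝ _ _)
  let L : (P × (W × P)) ≃L[ℝ] (P × (W × P)) := ContinuousLinearEquiv.equivOfInverse
    ((ContinuousLinearMap.fst ℝ _ _ - M.comp (ContinuousLinearMap.snd ℝ _ _)).prod
      (ContinuousLinearMap.snd ℝ _ _))
    ((ContinuousLinearMap.fst ℝ _ _ + M.comp (ContinuousLinearMap.snd ℝ _ _)).prod
      (ContinuousLinearMap.snd ℝ _ _)) (fun q => by simp) (fun q => by simp)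
  let Φ : P × (W × P) → P × (W × P) := fun q => (q.1 - TT (Hh (π₁ q) + π₂ q), q.2)
  have hΦ : HasStrictFDerivAt Φ (L : (P × (W × P)) →L[ℝ] (P × (W × P))) 0 := by
    have d1 : HasStrictFDerivAt (fun q => Hh (π₁ q)) (H'.comp π₁) 0 :=
      HasStrictFDerivAt.comp (g := Hh) (0 : P × (W × P)) (by simpa using hH) π₁.hasStrictFDerivAt
    have d2 := ((hasStrictFDerivAt_fst (𝕜 := ℝ) (p := (0 : P × (W × P)))).fun_sub
      (TT.hasStrictFDerivAt.comp (0 : P × (W × P))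
      (d1.fun_add π₂.hasStrictFDerivAt))).prodMk
      (hasStrictFDerivAt_snd (𝕜 := ℝ) (p := (0 : P × (W × P))))
    refine d2.congr_fderiv (ContinuousLinearMap.ext fun q => Prod.ext ?_ rfl)
    have e : H' (q.1, q.2.1) = H' (0, q.2.1) := by
      have : ((q.1, q.2.1) : P × W) = (q.1, 0) + (0, q.2.1) := by simp
      rw [this, map_add, hder, zero_add]
    change q.1 - TT (H' (q.1, q.2.1) + q.2.2) = q.1 - TT (H' (0, q.2.1) + q.2.2)
    rw [e]
  have hΦ0 : Φ 0 = 0 := by simp [Φ, h0]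
  let e := hΦ.toOpenPartialHomeomorph Φ
  have hs : (0 : P × (W × P)) ∈ e.source := hΦ.mem_toOpenPartialHomeomorph_source
  have ht : (0 : P × (W × P)) ∈ e.target := hΦ0 ▸ hΦ.image_mem_toOpenPartialHomeomorph_target
  have he0 : e.symm 0 = 0 := by
    have := e.left_inv hs
    rwa [show e 0 = 0 from hΦ0] at this
  have hin : Continuous fun z : W × P => ((0, z) : P × (W × P)) := by fun_prop
  have hin0 : Tendsto (fun z : W × P => ((0, z) : P × (W × P))) (𝓝 0) (𝓝 0) := hin.tendsto 0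
  refine ⟨fun z => (e.symm (0, z)).1, congrArg Prod.fst he0, ?_, fun ε hε => ?_⟩
  · filter_upwards [hin0.eventually (e.open_target.mem_nhds ht),
      hin0.eventually (e.open_source.mem_nhds hs)] with z hz hz'
    have h1 : Φ (e.symm (0, z)) = (0, z) := e.right_inv hz
    have h2 : (e.symm (0, z)).2 = z := congrArg Prod.snd h1
    have h3 : (e.symm (0, z)).1 - TT (Hh (π₁ (e.symm (0, z))) + π₂ (e.symm (0, z))) = 0 :=
      congrArg Prod.fst h1
    refine ⟨continuousAt_fst.comp (ContinuousAt.comp (g := e.symm) (e.continuousAt_symm hz)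
      hin.continuousAt), fun i => ?_, fun hT => ?_⟩
    · have := congrFun (sub_eq_zero.1 h3) i
      rw [this]
      change T (Hh ((e.symm (0, z)).1, (e.symm (0, z)).2.1) i + (e.symm (0, z)).2.2 i) = _
      rw [h2]
    · have h4 : Φ (0, z) = (0, z) := by
        refine Prod.ext ?_ rfl
        funext i
        change (0 : W) - T (Hh (0, z.1) i + z.2 i) = 0
        rw [hT i, sub_zero]
      have := e.left_inv hz'
      rw [show e (0, z) = (0, z) from h4] at this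
      rw [this]
  · have d0 : HasStrictFDerivAt e.symm (L.symm : (P × (W × P)) →L[ℝ] (P × (W × P))) 0 := by
      have := hΦ.to_localInverse
      rwa [hΦ0] at this
    let I : (W × P) →L[ℝ] (P × (W × P)) := ContinuousLinearMap.inr ℝ _ _
    have d1 : HasStrictFDerivAt (fun z : W × P => e.symm (0, z))
        ((L.symm : (P × (W × P)) →L[ℝ] (P × (W × P))).comp I) 0 :=
      HasStrictFDerivAt.comp (g := e.symm) (f := I) (0 : W × P) (by simpa using d0)
        I.hasStrictFDerivAt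
    have d2 := (d1.fst.prodMk (hasStrictFDerivAt_fst (𝕜 := ℝ) (p := (0 : W × P))))
    have d3 := HasStrictFDerivAt.comp (g := Hh) (g' := H') (0 : W × P)
      (by rw [show e.symm ((0 : P), (0 : W × P)) = 0 from he0]; exact hH) d2
    filter_upwards [d3.isLittleO.def hε] with p hp hp1
    have e1 : p.1 - p.2 = (0, p.1.2 - p.2.2) := Prod.ext (sub_eq_zero.2 hp1) rfl
    rw [mem_ofPred_eq, e1] at hp
    simp only [ContinuousLinearMap.comp_apply, ContinuousLinearMap.prod_apply,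
      ContinuousLinearMap.coe_fst', hder, H', sub_zero] at hp
    simpa using hp

end BishopAux

/-- Sketch. Take `W` from `S_Wien`, and from `S_FC` (with `J = Option (Fin k)`,
`f i a = H ((fun j => a (some j), 0), a none) i`) an analytic `Ĥ : (Fin k → W) × W → (Fin k → W)` near `0`
with `Ĥ 0 = 0` and `fderiv Ĥ 0 (y, 0) = 0`. The map
`Φ (y, σ, w) = (fun i => y i - T (Ĥ (y,σ) i + w i), σ, w)` has an invertible strict derivative at `0`; its
local inverse (`HasStrictFDerivAt.toOpenPartialHomeomorph`, `to_localInverse`) gives `Y (σ, w)`,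
continuous near `0`, strictly differentiable at `0`, solving `Y = T (Ĥ (Y,σ) + w)`, and `Y = 0` when
`σ, w` are small constants (`T 1 = 0`, injectivity). Disc: `A (σ,w) ζ i = hol ζ (Ĥ (Y,σ) i + w i)`; on the
circle `(A ζ, 0) = gr H ((ev ζ Y, 0), ev ζ σ) + (ofR (ev ζ w), 0)`. For `σ = λ₀ + t λ σ₀`,
`w = σ^(e+1) κ` (`‖κ‖ ≤ 1`, `0 < λ₀ ≤ λ` small, `t ∈ [0,1]`) the boundary lies in `O` by the margin
(`0 < ev ζ σ ≤ 1`), the disc lies in `W` (`hol_le`), it is a constant point of `O` for `t = 0`;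
`TautIn.continuity` puts the disc for `t = 1` in `O`; letting `λ₀ → 0` the disc for `σ = λ σ₀` lies in
`closure O`, and `A 1 = 0` (`ev_T`, `sig`, `H 0 = 0`). So `η⁻¹ • A (1-η) → Z(κ) i = der (Ĥ (Y,σ) i + w i)`.
`Ψ (σ,w) = Ĥ (Y (σ,w), σ)` is strictly differentiable at `0` with derivative vanishing on `(0,w)`, so
`‖Ψ (σ,w) - Ψ (σ,w')‖ ≤ ε ‖w - w'‖` near `0`; hence `κ ↦ reL (Z κ)` satisfies `ApproximatesLinearOn` with
the map `(λ^(e+1) c) • id`, `c = re (der (σ₀^(e+1))) ≠ 0`, on `closedBall 0 1` with a constant less than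
`λ^(e+1) |c| / 2`; its image contains a ball
(`ApproximatesLinearOn.surjOn_closedBall_of_nonlinearRightInverse`), which meets the dense `𝒢`. -/
theorem Bishop_pf (h1 : S_Wien) (h2 : S_FC) : S_Bishop := by
  intro k l O W₀ H e 𝒢 hO hW₀ hT hE h𝒢
  obtain ⟨W, _, _, _, ev, hol, T, der, σ₀, hw⟩ := h1
  obtain ⟨Hh, han, hH0, hHd, hchar, hconst⟩ := BishopAux.exists_hat (W := W) h2 hE.an hE.zero hE.der
  obtain ⟨Y, hY0, hY, hLip⟩ := BishopAux.exists_solve han hH0 hHd T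
  obtain ⟨C, hC⟩ := hw.hol_le
  set c : ℝ := (der (σ₀ ^ (e + 1))).re with hc
  have hc0 : c ≠ 0 := hw.der_pow e
  obtain ⟨ρ₁, hρ₁, hmar⟩ := Metric.eventually_nhds_iff_ball.1 hE.margin
  obtain ⟨ρ₂, hρ₂, hW₂⟩ := Metric.mem_nhds_iff.1 hW₀
  let V : W × (Fin k → W) → (Fin k → W) := fun z => Hh (Y z, z.1) + z.2
  have hYc : Tendsto (fun z : W × (Fin k → W) => (Y z, z.1)) (𝓝 0) (𝓝 0) := by
    have := (hY.self_of_nhds.1.prodMk continuousAt_fst).tendsto
    rwa [hY0] at this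
  have hVc : Tendsto V (𝓝 0) (𝓝 0) := by
    have h3 : Tendsto Hh (𝓝 0) (𝓝 0) := by simpa [hH0] using han.continuousAt.tendsto
    simpa using (h3.comp hYc).add (continuous_snd.tendsto (0 : W × (Fin k → W)))
  set ε : ℝ := |c| / (2 * (‖der‖ * ‖σ₀ ^ (e + 1)‖ + 1)) with hε
  have hεpos : 0 < ε := by positivity
  obtain ⟨ρ₃, hρ₃, hL⟩ := Metric.eventually_nhds_iff_ball.1 (hLip ε hεpos)
  obtain ⟨ρ₄, hρ₄, hcs⟩ := Metric.eventually_nhds_iff_ball.1 hconst
  have hsm1 : ∀ᶠ z in 𝓝 (0 : W × (Fin k → W)), ‖(Y z, z.1)‖ < ρ₁ := by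
    filter_upwards [hYc.eventually (ball_mem_nhds _ hρ₁)] with z hz using by simpa using hz
  have hsm2 : ∀ᶠ z in 𝓝 (0 : W × (Fin k → W)), (|C| + 1) * ‖V z‖ < ρ₂ := by
    have : Tendsto (fun z => (|C| + 1) * ‖V z‖) (𝓝 0) (𝓝 0) := by
      simpa using hVc.norm.const_mul (|C| + 1)
    exact this.eventually (gt_mem_nhds hρ₂)
  obtain ⟨ρ, hρ, hall⟩ := Metric.eventually_nhds_iff_ball.1 (hY.and ((hYc.eventually hchar).and
    ((hYc.eventually han.eventually_continuousAt).and (hsm1.and hsm2))))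
  -- choice of the size
  set c₀ : ℝ := ‖(1 : W)‖ + ‖σ₀‖ + 1 with hc₀
  have hc₀1 : 1 ≤ c₀ := by have := norm_nonneg (1 : W); have := norm_nonneg σ₀; linarith
  set m : ℝ := min (min ρ ρ₃) (min ρ₄ 1) with hm
  have hm0 : 0 < m := by positivity
  set lam : ℝ := m / (2 * c₀) with hlam
  have hlam0 : 0 < lam := by positivity
  have hlamc : lam * c₀ < m := by
    rw [hlam, div_mul_eq_mul_div, div_lt_iff₀ (by positivity)]; nlinarith
  have hlamm : lam < m := by nlinarith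
  let σ : ℝ → ℝ → W := fun a t => algebraMap ℝ W a + (t * lam) • σ₀
  let z : (Fin k → ℝ) → ℝ → ℝ → W × (Fin k → W) := fun κ a t =>
    (σ a t, fun i => κ i • σ a t ^ (e + 1))
  have hσ : ∀ a ∈ Icc (0 : ℝ) lam, ∀ t ∈ Icc (0 : ℝ) 1, ‖σ a t‖ < m := by
    intro a ha t ht
    have e1 : ‖algebraMap ℝ W a‖ ≤ lam * ‖(1 : W)‖ := by
      rw [Algebra.algebraMap_eq_smul_one, norm_smul, Real.norm_of_nonneg ha.1]
      gcongr; exact ha.2
    have e2 : ‖(t * lam) • σ₀‖ ≤ lam * ‖σ₀‖ := by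
      rw [norm_smul, Real.norm_of_nonneg (mul_nonneg ht.1 hlam0.le)]
      gcongr; nlinarith [ht.2]
    calc _ ≤ _ := norm_add_le _ _
      _ ≤ lam * c₀ := by rw [hc₀]; nlinarith
      _ < m := hlamc
  have hz : ∀ κ : Fin k → ℝ, ‖κ‖ ≤ 1 → ∀ a ∈ Icc (0 : ℝ) lam, ∀ t ∈ Icc (0 : ℝ) 1,
      ‖z κ a t‖ < m := by
    intro κ hκ a ha t ht
    have h3 := hσ a ha t ht
    have h4 : ‖σ a t‖ ≤ 1 := h3.le.trans ((min_le_right _ _).trans (min_le_right _ _))
    refine max_lt h3 ((pi_norm_lt_iff hm0).2 fun i => ?_)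
    rw [norm_smul]
    have h5 : ‖σ a t ^ (e + 1)‖ ≤ ‖σ a t‖ := (norm_pow_le' _ e.succ_pos).trans (by
      rw [pow_succ]; exact mul_le_of_le_one_left (norm_nonneg _) (pow_le_one₀ (norm_nonneg _) h4))
    have h6 : ‖κ i‖ ≤ 1 := (norm_le_pi_norm κ i).trans hκ
    nlinarith [norm_nonneg (κ i), norm_nonneg (σ a t ^ (e + 1))]
  have hzρ : ∀ κ : Fin k → ℝ, ‖κ‖ ≤ 1 → ∀ a ∈ Icc (0 : ℝ) lam, ∀ t ∈ Icc (0 : ℝ) 1,
      z κ a t ∈ ball 0 ρ := fun κ hκ a ha t ht => mem_ball_zero_iff.2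
    ((hz κ hκ a ha t ht).trans_le ((min_le_left _ _).trans (min_le_left _ _)))
  have hzc : ∀ κ, Continuous fun p : ℝ × ℝ => z κ p.1 p.2 := by
    intro κ
    have : Continuous fun p : ℝ × ℝ => σ p.1 p.2 :=
      ((continuous_algebraMap ℝ W).comp continuous_fst).add (by fun_prop)
    exact this.prodMk (continuous_pi fun i => (this.pow _).const_smul _)
  have hVz : ∀ y ∈ ball (0 : W × (Fin k → W)) ρ, ContinuousAt V y := fun y hy =>
    (ContinuousAt.comp (g := Hh) (f := fun y => (Y y, y.1)) (hall y hy).2.2.1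
      ((hall y hy).1.1.prodMk continuousAt_fst)).add continuousAt_snd
  let A : W × (Fin k → W) → ℂ → EE k l := fun y ζ => (fun i => hol ζ (V y i), 0)
  -- boundary values
  have hbd : ∀ y ∈ ball (0 : W × (Fin k → W)) ρ, ∀ ζ : ℂ, ‖ζ‖ = 1 →
      A y ζ = gr H ((fun j => ev ζ (Y y j), 0), ev ζ y.1) + (ofR k fun i => ev ζ (y.2 i), 0) := by
    intro y hy ζ hζ
    obtain ⟨⟨-, a2, -⟩, a3, -⟩ := hall y hy
    refine Prod.ext (funext fun i => ?_) (by simp [A, gr])
    have b1 := a3 (ev ζ) (hw.ev_one ζ hζ) (hw.ev_mul ζ hζ) (hw.ev_le ζ hζ) i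
    change hol ζ (Hh (Y y, y.1) i + y.2 i) = _
    rw [hw.hol_bdry ζ hζ, ← a2 i, map_add, b1]
    simp only [gr, Prod.fst_add, Pi.add_apply, ofR_apply, Pi.smul_apply, smul_eq_mul]
    push_cast
    ring
  have hpow : ∀ ζ : ℂ, ‖ζ‖ = 1 → ∀ (a : W) (n : ℕ), ev ζ (a ^ n) = ev ζ a ^ n := by
    intro ζ hζ a n
    induction n with
    | zero => simpa using hw.ev_one ζ hζ
    | succ n ih => rw [pow_succ, hw.ev_mul ζ hζ, ih, pow_succ]
  have hevσ : ∀ ζ : ℂ, ‖ζ‖ = 1 → ∀ a t, ev ζ (σ a t) = a + t * lam * (1 - ζ.re) := by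
    intro ζ hζ a t
    simp only [σ, map_add, map_smul, Algebra.algebraMap_eq_smul_one, hw.ev_one ζ hζ, hw.sig ζ hζ,
      smul_eq_mul, mul_one]
  have hAc : ∀ κ : Fin k → ℝ, ‖κ‖ ≤ 1 → ContinuousOn
      (fun q : (ℝ × ℝ) × ℂ => A (z κ q.1.1 q.1.2) q.2)
      ((Icc 0 lam ×ˢ Icc 0 1) ×ˢ closedBall 0 1) := by
    intro κ hκ
    refine ContinuousOn.prodMk (continuousOn_pi.2 fun i => ?_) continuousOn_const
    have b1 : ContinuousOn (fun q : (ℝ × ℝ) × ℂ => V (z κ q.1.1 q.1.2) i)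
        ((Icc 0 lam ×ˢ Icc 0 1) ×ˢ closedBall 0 1) := fun q hq =>
      ((continuous_apply i).continuousAt.comp (ContinuousAt.comp (g := V)
        (f := fun q : (ℝ × ℝ) × ℂ => z κ q.1.1 q.1.2) (hVz _ (hzρ κ hκ _ hq.1.1 _ hq.1.2))
        ((hzc κ).comp continuous_fst).continuousAt)).continuousWithinAt
    exact hw.hol_cont.comp (b1.prodMk continuousOn_snd) fun q hq => ⟨mem_univ _, hq.2⟩
  have hin : ∀ κ : Fin k → ℝ, ‖κ‖ ≤ 1 → ∀ a ∈ Ioc (0 : ℝ) lam,
      MapsTo (A (z κ a 1)) (closedBall 0 1) O := by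
    intro κ hκ a ha
    have ha' : a ∈ Icc (0 : ℝ) lam := Ioc_subset_Icc_self ha
    have hb : ∀ t ∈ Icc (0 : ℝ) 1, MapsTo (A (z κ a t)) (sphere 0 1) O := by
      intro t ht ζ hζ
      have hζ' : ‖ζ‖ = 1 := by simpa using hζ
      have hy := hzρ κ hκ a ha' t ht
      rw [hbd _ hy ζ hζ']
      have b0 := (hall _ hy).2.2.2.1
      have b1 : ‖Y (z κ a t)‖ < ρ₁ := (le_max_left _ _).trans_lt b0
      have b2 : ‖σ a t‖ < ρ₁ := (le_max_right _ _).trans_lt b0
      have b3 : 0 < ev ζ (σ a t) := by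
        rw [hevσ ζ hζ']
        have : ζ.re ≤ 1 := (Complex.re_le_norm ζ).trans hζ'.le
        have := mul_nonneg (mul_nonneg ht.1 hlam0.le) (sub_nonneg.2 this)
        linarith [ha.1]
      have b4 : ev ζ (σ a t) ≤ 1 := (le_abs_self _).trans ((hw.ev_le ζ hζ' _).trans
        ((hσ a ha' t ht).le.trans ((min_le_right _ _).trans (min_le_right _ _))))
      refine hmar _ (mem_ball_zero_iff.2 (max_lt (max_lt ((pi_norm_lt_iff hρ₁).2 fun j => ?_)
        (by simpa using hρ₁)) ((hw.ev_le ζ hζ' _).trans_lt b2))) b3 _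
        (max_le ((pi_norm_le_iff_of_nonneg (by positivity)).2 fun i => ?_)
          (by simp only [norm_zero]; positivity))
      · exact (hw.ev_le ζ hζ' _).trans_lt ((norm_le_pi_norm _ j).trans_lt b1)
      · simp only [z, ofR_apply, map_smul, hpow ζ hζ', smul_eq_mul, Complex.norm_real, norm_mul,
          norm_pow, Real.norm_of_nonneg b3.le]
        have h6 : ‖κ i‖ ≤ 1 := (norm_le_pi_norm κ i).trans hκ
        calc _ ≤ 1 * ev ζ (σ a t) ^ (e + 1) := by gcongr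
          _ ≤ _ := by rw [one_mul]; exact pow_le_pow_of_le_one b3.le b4 e.le_succ
    refine hT.continuity hO (A := fun t => A (z κ a t)) ?_ (fun t _ => ?_) (fun t ht ζ hζ => ?_) hb
      (fun ζ hζ => ?_)
    · exact (hAc κ hκ).comp (f := fun p : ℝ × ℂ => ((a, p.1), p.2)) (by fun_prop)
        fun p hp => ⟨⟨ha', hp.1⟩, hp.2⟩
    · exact (differentiableOn_pi.2 fun i => hw.hol_diff _).prodMk (differentiableOn_const _)
    · refine hW₂ (mem_ball_zero_iff.2 (max_lt ((pi_norm_lt_iff hρ₂).2 fun i => ?_)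
        (by simpa [A] using hρ₂)))
      refine ((hC ζ (mem_ball_zero_iff.1 hζ).le _).trans ?_).trans_lt
        (hall _ (hzρ κ hκ a ha' t ht)).2.2.2.2
      gcongr
      · linarith [le_abs_self C]
      · exact norm_le_pi_norm _ i
    · have hy := hzρ κ hκ a ha' 0 (left_mem_Icc.2 zero_le_one)
      have e0 : σ a 0 = algebraMap ℝ W a := by simp [σ]
      have ha4 : a ∈ ball (0 : ℝ) ρ₄ := by
        rw [mem_ball_zero_iff, Real.norm_of_nonneg ha.1.le]
        exact ha.2.trans_lt (hlamm.trans_le ((min_le_right _ _).trans (min_le_left _ _)))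
      have e1 : ∀ i, Hh (0, (z κ a 0).1) i + (z κ a 0).2 i =
          (H ((0, 0), a) i + κ i * a ^ (e + 1)) • (1 : W) := by
        intro i
        simp only [z, e0, hcs a ha4 i, ← map_pow]
        simp only [Algebra.algebraMap_eq_smul_one, smul_smul, add_smul]
      have e2 : Y (z κ a 0) = 0 := (hall _ hy).1.2.2 fun i => by
        rw [e1, map_smul, hw.T_one, smul_zero]
      have e3 : A (z κ a 0) ζ = A (z κ a 0) 1 := by
        refine Prod.ext (funext fun i => ?_) rfl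
        change hol ζ (Hh (Y _, _) i + _) = hol 1 (Hh (Y _, _) i + _)
        rw [e2, e1, map_smul, map_smul, hw.hol_one ζ (mem_ball_zero_iff.1 hζ).le,
          hw.hol_one 1 (by simp)]
      change A (z κ a 0) ζ ∈ O
      rw [e3]
      exact hb 0 (left_mem_Icc.2 zero_le_one) (by simp)
  have hcl : ∀ κ : Fin k → ℝ, ‖κ‖ ≤ 1 → ∀ ζ ∈ closedBall (0 : ℂ) 1,
      A (z κ 0 1) ζ ∈ closure O := by
    intro κ hκ ζ hζ
    have b1 : ContinuousOn (fun a : ℝ => A (z κ a 1) ζ) (Icc 0 lam) :=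
      (hAc κ hκ).comp (f := fun a : ℝ => ((a, (1 : ℝ)), ζ)) (by fun_prop)
        fun a ha => ⟨⟨ha, right_mem_Icc.2 zero_le_one⟩, hζ⟩
    have b2 : ContinuousWithinAt (fun a : ℝ => A (z κ a 1) ζ) (Ioc 0 lam) 0 :=
      (b1 0 (left_mem_Icc.2 hlam0.le)).mono Ioc_subset_Icc_self
    exact b2.mem_closure (by rw [closure_Ioc hlam0.ne]; exact left_mem_Icc.2 hlam0.le)
      fun a ha => hin κ hκ a ha hζ
  have h0l : (0 : ℝ) ∈ Icc 0 lam := left_mem_Icc.2 hlam0.le
  have h11 : (1 : ℝ) ∈ Icc (0 : ℝ) 1 := right_mem_Icc.2 zero_le_one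
  have hone : ∀ κ : Fin k → ℝ, ‖κ‖ ≤ 1 → ∀ i, hol 1 (V (z κ 0 1) i) = 0 := by
    intro κ hκ i
    have hy := hzρ κ hκ 0 h0l 1 h11
    have b1 := congrFun (congrArg Prod.fst (hbd _ hy 1 (by simp))) i
    have b2 : ev 1 (σ 0 1) = 0 := by rw [hevσ 1 (by simp)]; simp
    have b3 : (fun j => ev 1 (Y (z κ 0 1) j)) = 0 := by
      funext j; rw [(hall _ hy).1.2.1 j, hw.ev_T]; rfl
    have b4 : H ((0, 0), 0) = 0 := hE.zero
    rw [b3] at b1
    simpa [A, z, gr, b2, b4, hpow 1 (by simp)] using b1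
  let Z : (Fin k → ℝ) → (Fin k → ℂ) := fun κ i => der (V (z κ 0 1) i)
  set s : ℝ := lam ^ (e + 1) * c with hs
  have hs0 : s ≠ 0 := by positivity
  let v : (Fin k → ℝ) → (Fin k → ℝ) := fun κ => s⁻¹ • reL k (Z κ)
  have hσ1 : σ 0 1 ^ (e + 1) = lam ^ (e + 1) • σ₀ ^ (e + 1) := by simp [σ, smul_pow]
  have happ : ApproximatesLinearOn v (ContinuousLinearMap.id ℝ (Fin k → ℝ)) (closedBall 0 1)
      (1 / 2 : NNReal) := by
    intro κ hκ κ' hκ'
    have hκ1 := mem_closedBall_zero_iff.1 hκ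
    have hκ2 := mem_closedBall_zero_iff.1 hκ'
    have hm3 : m ≤ ρ₃ := (min_le_left _ _).trans (min_le_right _ _)
    have b1 := hL (z κ 0 1, z κ' 0 1) (mem_ball_zero_iff.2 (max_lt
      ((hz κ hκ1 0 h0l 1 h11).trans_le hm3) ((hz κ' hκ2 0 h0l 1 h11).trans_le hm3))) rfl
    have b2 : ‖(z κ 0 1).2 - (z κ' 0 1).2‖ ≤ lam ^ (e + 1) * ‖σ₀ ^ (e + 1)‖ * ‖κ - κ'‖ := by
      refine (pi_norm_le_iff_of_nonneg (by positivity)).2 fun i => ?_
      simp only [z, Pi.sub_apply, ← sub_smul, hσ1, norm_smul, norm_pow,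
        Real.norm_of_nonneg hlam0.le]
      have := norm_le_pi_norm (κ - κ') i
      rw [mul_comm]
      gcongr
      exact this
    refine (pi_norm_le_iff_of_nonneg (by positivity)).2 fun i => ?_
    set D := Hh (Y (z κ 0 1), (z κ 0 1).1) - Hh (Y (z κ' 0 1), (z κ' 0 1).1) with hD
    have b3 : (v κ - v κ' - (ContinuousLinearMap.id ℝ (Fin k → ℝ)) (κ - κ')) i =
        s⁻¹ * (der (D i)).re := by
      simp only [v, Z, V, z, hD, hσ1, Pi.sub_apply, Pi.smul_apply, Pi.add_apply, reL_apply,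
        ContinuousLinearMap.id_apply, map_add, map_sub, map_smul, smul_eq_mul, Complex.add_re,
        Complex.sub_re, Complex.smul_re, ← hc]
      rw [hs]; field_simp; ring
    rw [b3, norm_mul, norm_inv, hs, norm_mul, norm_pow, Real.norm_of_nonneg hlam0.le,
      Real.norm_eq_abs c, inv_mul_le_iff₀ (by positivity)]
    have b4 : ‖(der (D i)).re‖ ≤ ‖der‖ * (ε * (lam ^ (e + 1) * ‖σ₀ ^ (e + 1)‖ * ‖κ - κ'‖)) := by
      refine (Complex.abs_re_le_norm _).trans ((der.le_opNorm _).trans ?_)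
      gcongr
      exact (norm_le_pi_norm D i).trans (b1.trans (by gcongr))
    have b5 : ε * (‖der‖ * ‖σ₀ ^ (e + 1)‖) ≤ |c| / 2 := by
      rw [hε, div_mul_eq_mul_div, div_le_div_iff₀ (by positivity) (by positivity)]
      nlinarith [abs_nonneg c]
    refine b4.trans ?_
    calc _ = lam ^ (e + 1) * (ε * (‖der‖ * ‖σ₀ ^ (e + 1)‖)) * ‖κ - κ'‖ := by ring
      _ ≤ lam ^ (e + 1) * (|c| / 2) * ‖κ - κ'‖ := by gcongr
      _ = _ := by push_cast; ring
  have hsurj := happ.surjOn_closedBall_of_nonlinearRightInverse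
    ⟨id, 1, fun y => by simp, fun y => rfl⟩ zero_le_one (subset_refl _)
  obtain ⟨ν, hν1, hν2⟩ := h𝒢.inter_open_nonempty ((fun ν => s⁻¹ • ν) ⁻¹' ball (v 0) (1 / 2))
    (isOpen_ball.preimage (by fun_prop)) ⟨s • v 0, by simp [smul_smul, hs0]⟩
  obtain ⟨κ, hκ, hκν⟩ := hsurj (ball_subset_closedBall.trans (closedBall_subset_closedBall
    (by norm_num)) hν1)
  have hκ1 := mem_closedBall_zero_iff.1 hκ
  have hZ : reL k (Z κ) = ν := smul_right_injective _ (inv_ne_zero hs0) hκν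
  refine ⟨Z κ, hZ ▸ hν2, fun η => (A (z κ 0 1) (1 - η)).1, ?_, tendsto_pi_nhds.2 fun i => ?_⟩
  · filter_upwards [Ioo_mem_nhdsGT zero_lt_one] with η hη
    refine hcl κ hκ1 _ (mem_closedBall_zero_iff.2 ?_)
    rw [← Complex.ofReal_one, ← Complex.ofReal_sub, Complex.norm_real,
      Real.norm_of_nonneg (by linarith [hη.2])]
    linarith [hη.1]
  · have := hw.der_lim (V (z κ 0 1) i)
    rw [hone κ hκ1 i] at this
    simpa [A] using this

end Vale.Agent.P274
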