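import Vale.Agent.P274.StD
import Vale.Agent.P274.SCV1

open Set Filter Topology Metric MeasureTheory Asymptotics

namespace Vale.Agent.P274

namespace CarAux

variable {E : Type*} [NormedAddCommGroup E] [NormedSpace ℂ E] {B : Set E} {x y : E}

/-- The Carathéodory type distance. -/
noncomputable def cd (B : Set E) (x y : E) : ℝ :=
  sSup {t | ∃ f : E → ℂ, DifferentiableOn ℂ f B ∧ (∀ z ∈ B, ‖f z‖ ≤ 1) ∧ t = ‖f x - f y‖}

theorem le_cd (hx : x ∈ B) (hy : y ∈ B) {f : E → ℂ} (h1 : DifferentiableOn ℂ f B)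
    (h2 : ∀ z ∈ B, ‖f z‖ ≤ 1) : ‖f x - f y‖ ≤ cd B x y := by
  refine le_csSup ⟨2, ?_⟩ ⟨f, h1, h2, rfl⟩
  rintro _ ⟨g, -, hg, rfl⟩
  linarith [norm_sub_le (g x) (g y), hg x hx, hg y hy]

theorem cd_le {c : ℝ} (h : ∀ f : E → ℂ, DifferentiableOn ℂ f B → (∀ z ∈ B, ‖f z‖ ≤ 1) →
    ‖f x - f y‖ ≤ c) : cd B x y ≤ c := by
  refine csSup_le ⟨_, fun _ => 0, differentiableOn_const _, fun _ _ => by simp, rfl⟩ ?_
  rintro _ ⟨f, h1, h2, rfl⟩
  exact h f h1 h2

theorem nonneg (hx : x ∈ B) (hy : y ∈ B) : 0 ≤ cd B x y :=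
  (norm_nonneg _).trans (le_cd hx hy (differentiableOn_const (0 : ℂ)) fun _ _ => by simp)

theorem symm (hx : x ∈ B) (hy : y ∈ B) : cd B x y = cd B y x :=
  le_antisymm (cd_le fun _ h1 h2 => (norm_sub_rev _ _).trans_le (le_cd hy hx h1 h2))
    (cd_le fun _ h1 h2 => (norm_sub_rev _ _).trans_le (le_cd hx hy h1 h2))

theorem tri {z : E} (hx : x ∈ B) (hy : y ∈ B) (hz : z ∈ B) : cd B x z ≤ cd B x y + cd B y z :=
  cd_le fun _ h1 h2 => (norm_sub_le_norm_sub_add_norm_sub _ _ _).trans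
    (add_le_add (le_cd hx hy h1 h2) (le_cd hy hz h1 h2))

theorem contr {g : E → E} (hg : DifferentiableOn ℂ g B) (hm : MapsTo g B B) (hx : x ∈ B)
    (hy : y ∈ B) : cd B (g x) (g y) ≤ cd B x y :=
  cd_le fun _ h1 h2 => le_cd hx hy (h1.comp hg hm) fun _ hz => h2 _ (hm hz)

theorem lower (hb : Bornology.IsBounded B) :
    ∃ R : ℝ, 0 < R ∧ ∀ x ∈ B, ∀ y ∈ B, ‖x - y‖ ≤ R * cd B x y := by
  obtain ⟨R, hR, h⟩ := hb.exists_pos_norm_le
  refine ⟨R, hR, fun x hx y hy => ?_⟩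
  obtain ⟨l, h1, h2⟩ := exists_dual_vector'' ℂ (x - y)
  have h3 := le_cd hx hy (f := fun z => (R : ℂ)⁻¹ * l z)
    (l.differentiable.differentiableOn.const_mul _) fun z hz => by
      rw [norm_mul, norm_inv, Complex.norm_real, Real.norm_eq_abs, abs_of_pos hR,
        inv_mul_le_iff₀ hR, mul_one]
      exact (l.le_opNorm z).trans ((mul_le_of_le_one_left (norm_nonneg _) h1).trans (h z hz))
  rw [← mul_sub, ← map_sub, h2, norm_mul, norm_inv, Complex.norm_real, Real.norm_eq_abs,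
    abs_of_pos hR, inv_mul_le_iff₀ hR] at h3
  simpa using h3

theorem upper (hB : IsOpen B) (hx : x ∈ B) : ∃ r : ℝ, 0 < r ∧ ∃ L : ℝ, 0 ≤ L ∧ ball x r ⊆ B ∧
    ∀ y ∈ ball x r, ∀ z ∈ ball x r, cd B y z ≤ L * ‖y - z‖ := by
  obtain ⟨r, hr, h⟩ := Metric.isOpen_iff.1 hB x hx
  exact ⟨r / 2, half_pos hr, 4 * 1 / r, by positivity,
    (ball_subset_ball (half_le_self hr.le)).trans h, fun y hy z hz => cd_le fun f h1 h2 =>
      norm_sub_le_of_bdd hr (h1.mono h) (fun w hw => h2 w (h hw)) hy hz⟩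

theorem cont (hB : IsOpen B) : ContinuousOn (fun p : E × E => cd B p.1 p.2) (B ×ˢ B) := by
  rintro ⟨x, y⟩ ⟨hx, hy⟩
  obtain ⟨r, hr, L, -, h1, h2⟩ := upper hB hx
  obtain ⟨r', hr', L', -, h1', h2'⟩ := upper hB hy
  refine ContinuousAt.continuousWithinAt (tendsto_iff_norm_sub_tendsto_zero.2
    (squeeze_zero' (g := fun p : E × E => L * ‖p.1 - x‖ + L' * ‖p.2 - y‖)
      (Eventually.of_forall fun _ => norm_nonneg _) ?_ ?_))
  · filter_upwards [prod_mem_nhds (ball_mem_nhds x hr) (ball_mem_nhds y hr')] with p hp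
    have a1 := h1 hp.1
    have a2 := h1' hp.2
    have b1 := h2 _ hp.1 _ (mem_ball_self hr)
    have b2 := h2' _ hp.2 _ (mem_ball_self hr')
    have c1 := tri a1 hx a2
    have c2 := tri hx hy a2
    have c3 := tri hx a1 hy
    have c4 := tri a1 a2 hy
    have s1 := symm hx a1
    have s2 := symm hy a2
    rw [Real.norm_eq_abs, abs_le]
    constructor <;> simp only at * <;> linarith
  · have : Continuous fun p : E × E => L * ‖p.1 - x‖ + L' * ‖p.2 - y‖ := by fun_prop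
    simpa using this.tendsto (x, y)

end CarAux

/-- Sketch. `d x y = sSup {‖f x - f y‖ | f : E → ℂ, DifferentiableOn ℂ f B, ∀ z ∈ B, ‖f z‖ ≤ 1}`
(nonempty: `f = 0`; bounded by `2`). `lower`: `f = R⁻¹ • ℓ` with `ℓ` from `exists_dual_vector`, `B ⊆ ball 0 R`.
`upper`: `norm_sub_le_of_bdd`. `cont` from `tri` and `upper`. `cpt`: let `K₀` be the cocompactness set,
`C = cthickening δ K₀ ⊆ B` compact, `r₀ = δ / R`. The maps `act γ` are `d`-isometries. For compact `K ⊆ B`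
the set `Γ₁ = {γ | ∃ x ∈ K, act γ x ∈ K₀}` is finite and the set in question lies in the compact
`C' = ⋃ γ ∈ Γ₁, act γ⁻¹ '' C`, and equals `Prod.snd '' {p ∈ K ×ˢ C' | d p.1 p.2 ≤ r₀}`. -/
theorem Car_pf : S_Car := by
  intro E _ _ _ Γ _ B act h hB
  have : ProperSpace E := FiniteDimensional.proper ℂ E
  obtain ⟨R, hR, hl⟩ := CarAux.lower h.bdd
  obtain ⟨K₀, hK₀, hK₀B, hco⟩ := h.cocompact
  obtain ⟨δ, hδ, hC⟩ := hK₀.exists_cthickening_subset_open hB hK₀B
  refine ⟨CarAux.cd B, δ / R, div_pos hδ hR,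
    fun x hx => le_antisymm (CarAux.cd_le fun _ _ _ => by simp) (CarAux.nonneg hx hx),
    fun _ hx _ hy => CarAux.symm hx hy, fun _ hx _ hy => CarAux.nonneg hx hy,
    fun _ hx _ hy _ hz => CarAux.tri hx hy hz, fun _ hg hm _ hx _ hy => CarAux.contr hg hm hx hy,
    ⟨R, hR, hl⟩, fun _ hx => CarAux.upper hB hx, CarAux.cont hB, fun K hK hKB => ?_⟩
  have hfin := h.proper K K₀ hK hKB hK₀ hK₀B
  have hC' : IsCompact (⋃ γ ∈ {γ | ∃ x ∈ K, act γ x ∈ K₀}, act γ⁻¹ '' cthickening δ K₀) :=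
    hfin.isCompact_biUnion fun γ _ =>
      hK₀.cthickening.image_of_continuousOn ((h.hol _).continuousOn.mono hC)
  have hsub : (⋃ γ ∈ {γ | ∃ x ∈ K, act γ x ∈ K₀}, act γ⁻¹ '' cthickening δ K₀) ⊆ B :=
    iUnion₂_subset fun γ _ => ((h.maps _).mono_left hC).image_subset
  have hp := hK.prod hC'
  have hc := (hp.of_isClosed_subset (((CarAux.cont hB).mono (prod_mono hKB hsub)
    ).preimage_isClosed_of_isClosed hp.isClosed (isClosed_Iic (a := δ / R)))
    inter_subset_left).image continuous_snd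
  refine (congrArg IsCompact (Subset.antisymm ?_ ?_)).mp hc
  · rintro _ ⟨p, ⟨h1, h2⟩, rfl⟩
    exact ⟨hsub h1.2, p.1, h1.1, h2⟩
  · rintro y ⟨hy, x, hx, hd⟩
    refine ⟨(x, y), ⟨⟨hx, ?_⟩, hd⟩, rfl⟩
    obtain ⟨γ, hγ⟩ := hco x (hKB hx)
    refine mem_iUnion₂.2 ⟨γ, ⟨x, hx, hγ⟩, act γ y, ?_, (h.bihol γ).left y hy⟩
    refine mem_cthickening_of_dist_le _ _ δ K₀ hγ ?_
    have a1 := hl _ (h.maps γ (hKB hx)) _ (h.maps γ hy)
    have a2 := (CarAux.contr (h.hol γ).differentiableOn (h.maps γ) (hKB hx) hy).trans hd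
    rw [le_div_iff₀' hR] at a2
    rw [dist_comm, dist_eq_norm]
    exact a1.trans a2

/-- Sketch. `Φ m = m⁻¹ • ∑ j < m, f^[j]` is holomorphic and bounded on `B` with `fderiv (Φ m) e = id`.
Take an ultrafilter `𝔲 ≤ atTop` and the pointwise limit `Φ` (compact closed ball); `weierstrass` gives
`Φ` holomorphic with `fderiv Φ e = id`; `Φ m (f x) - Φ m x = m⁻¹ • (f^[m] x - x) → 0`, so `Φ ∘ f = Φ` on
`B`. `Φ` is injective near `e` (inverse function theorem, `Φ` analytic), so `f x = x` near `e`; conclude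
with the identity theorem (`analyticOnNhd_of_differentiableOn`). -/
theorem Cartan_pf : S_Cartan := by
  intro E _ _ _ B hB hc hb f e he hf hm hfe hd
  have : ProperSpace E := FiniteDimensional.proper ℂ E
  obtain ⟨R, hR, hRB⟩ := hb.exists_pos_norm_le
  have hd' : HasFDerivAt f (ContinuousLinearMap.id ℂ E) e :=
    hd ▸ (hf.differentiableAt (hB.mem_nhds he)).hasFDerivAt
  have it : ∀ j : ℕ, DifferentiableOn ℂ f^[j] B ∧
      HasFDerivAt f^[j] (ContinuousLinearMap.id ℂ E) e := fun j => by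
    induction j with
    | zero => exact ⟨differentiableOn_id, hasFDerivAt_id e⟩
    | succ j ih =>
      exact ⟨ih.1.comp hf hm, HasFDerivAt.comp (g := f^[j]) (g' := ContinuousLinearMap.id ℂ E) e
        (by rw [hfe]; exact ih.2) hd'⟩
  obtain ⟨Φ, hΦ⟩ : ∃ Φ : ℕ → E → E, ∀ m x,
      Φ m x = (m : ℂ)⁻¹ • ∑ j ∈ Finset.range m, f^[j] x := ⟨_, fun _ _ => rfl⟩
  have h1 : ∀ m, DifferentiableOn ℂ (Φ m) B := fun m => by
    rw [funext (hΦ m)]
    exact (DifferentiableOn.fun_sum fun j _ => (it j).1).const_smul _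
  have h2 : ∀ m, ∀ x ∈ B, ‖Φ m x‖ ≤ R := fun m x hx => by
    rw [hΦ, norm_smul, norm_inv, Complex.norm_natCast]
    refine inv_mul_le_of_le_mul₀ (Nat.cast_nonneg _) hR.le ((norm_sum_le _ _).trans ?_)
    exact (Finset.sum_le_card_nsmul _ _ R fun j _ => hRB _ (hm.iterate j hx)).trans (by simp)
  have h3 : ∀ m, 1 ≤ m → fderiv ℂ (Φ m) e = ContinuousLinearMap.id ℂ E := fun m hm1 => by
    rw [funext (hΦ m)]
    refine ((HasFDerivAt.fun_sum fun j _ => (it j).2).const_smul _).fderiv.trans ?_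
    rw [Finset.sum_const, Finset.card_range, ← Nat.cast_smul_eq_nsmul ℂ,
      inv_smul_smul₀ (Nat.cast_ne_zero.2 (by omega))]
  have hu := Ultrafilter.of_le (atTop : Filter ℕ)
  have h4 : ∀ x, ∃ y, x ∈ B → Tendsto (fun m => Φ m x) (Ultrafilter.of atTop : Ultrafilter ℕ)
      (𝓝 y) := fun x => by
    by_cases hx : x ∈ B
    · obtain ⟨y, -, hy⟩ := (isCompact_closedBall (0 : E) R).ultrafilter_le_nhds
        ((Ultrafilter.of atTop).map fun m => Φ m x) (tendsto_principal.2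
          (Eventually.of_forall fun m => mem_closedBall_zero_iff.2 (h2 m x hx)))
      exact ⟨y, fun _ => hy⟩
    · exact ⟨0, fun h => absurd h hx⟩
  choose g hg using h4
  obtain ⟨g1, -, g2⟩ := weierstrass hB (fun x hx => by
    obtain ⟨r, hr, h⟩ := Metric.isOpen_iff.1 hB x hx
    exact ⟨r, hr, R, Eventually.of_forall fun m => ⟨(h1 m).mono h, fun y hy => h2 m y (h hy)⟩⟩) hg
  have g3 : fderiv ℂ g e = ContinuousLinearMap.id ℂ E :=
    tendsto_nhds_unique (g2.tendsto_at he) (tendsto_const_nhds.congr'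
      (hu ((eventually_ge_atTop 1).mono fun m hm1 => (h3 m hm1).symm)))
  have g4 : ∀ x ∈ B, g (f x) = g x := fun x hx => by
    refine sub_eq_zero.1 (tendsto_nhds_unique ((hg _ (hm hx)).sub (hg x hx)) (Tendsto.mono_left ?_ hu))
    refine squeeze_zero_norm (a := fun m : ℕ => (m : ℝ)⁻¹ * (R + R)) (fun m => ?_)
      (by simpa using (tendsto_inv_atTop_nhds_zero_nat (𝕜 := ℝ)).mul_const (R + R))
    have e1 : ∑ j ∈ Finset.range m, f^[j] (f x) - ∑ j ∈ Finset.range m, f^[j] x = f^[m] x - x := by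
      rw [← Finset.sum_sub_distrib]
      exact Finset.sum_range_sub (fun j => f^[j] x) m
    rw [hΦ, hΦ, ← smul_sub, e1, norm_smul, norm_inv, Complex.norm_natCast]
    gcongr
    exact (norm_sub_le _ _).trans (add_le_add (hRB _ (hm.iterate m hx)) (hRB _ hx))
  have g5 : HasStrictFDerivAt g (ContinuousLinearEquiv.refl ℂ E : E →L[ℂ] E) e := by
    have := (analyticOnNhd_of_differentiableOn hB g1 e he).hasStrictFDerivAt
    rwa [g3] at this
  have g6 := g5.eventually_left_inverse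
  have ht : Tendsto f (𝓝 e) (𝓝 e) := by simpa [hfe] using hd'.continuousAt.tendsto
  refine (analyticOnNhd_of_differentiableOn hB hf).eqOn_of_preconnected_of_eventuallyEq
    analyticOnNhd_id hc he ?_
  filter_upwards [g6, ht.eventually g6, hB.mem_nhds he] with x a1 a2 a3
  rw [g4 x a3] at a2
  exact a2.symm.trans a1

end Vale.Agent.P274
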