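import Vale.Agent.P274.StC
import Vale.Agent.P274.Taut
import Vale.Agent.P274.SCV1

open Set Filter Topology Metric

namespace Vale.Agent.P274

namespace CoordAux

theorem inv_local {E F : Type*} [NormedAddCommGroup E] [NormedSpace ℂ E] [CompleteSpace E]
    [NormedAddCommGroup F] [NormedSpace ℂ F] [CompleteSpace F] {f : E → F} {x : E}
    (L : E ≃L[ℂ] F) (hf : AnalyticAt ℂ f x) (hL : HasFDerivAt f (L : E →L[ℂ] F) x) :
    ∃ Θ : F → E, AnalyticAt ℂ Θ (f x) ∧ HasStrictFDerivAt Θ (L.symm : F →L[ℂ] E) (f x) ∧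
      (∀ᶠ y in 𝓝 (f x), f (Θ y) = y) ∧ ∀ᶠ t in 𝓝 x, Θ (f t) = t := by
  have hs : HasStrictFDerivAt f (L : E →L[ℂ] F) x := by
    have := hf.hasStrictFDerivAt
    rwa [hL.fderiv] at this
  exact ⟨hs.localInverse f L x, (hs.toOpenPartialHomeomorph f).analyticAt_symm'
    hs.mem_toOpenPartialHomeomorph_source hf hL.fderiv, hs.to_localInverse,
    hs.eventually_right_inverse, hs.eventually_left_inverse⟩

theorem peak_closure {N : ℕ} {U : Set (Fin N → ℂ)} {p : Fin N → ℂ} {g : (Fin N → ℂ) → ℂ}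
    (h : IsPeak U p g) : ∃ c : ℝ, 0 < c ∧ ∀ z ∈ closure U, c * ‖z - p‖ ^ 2 ≤ (g z).re := by
  obtain ⟨h1, -, c, hc, h3⟩ := h
  refine ⟨c, hc, fun z hz => ?_⟩
  have hcl : IsClosed {z : Fin N → ℂ | c * ‖z - p‖ ^ 2 ≤ (g z).re} :=
    isClosed_le (by fun_prop) (Complex.continuous_re.comp h1.continuous)
  exact closure_minimal (fun z hz => h3 z hz) hcl hz

section

variable {N n d : ℕ} {U : Set (Fin N → ℂ)} {pr : (Fin N → ℂ) → (Fin n → ℂ)}
  {G : (Fin n → ℂ) → (Fin N → ℂ)} {D : (Fin n → ℂ) → ℝ} {W : Set (Fin n → ℂ)}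
  {φ : (Fin d → ℝ) → (Fin n → ℂ)} {x₀ : Fin d → ℝ}

theorem re_zero (h : PtData U pr G D W φ x₀) {g : (Fin N → ℂ) → ℂ} (hg : IsPeak U (G (φ x₀)) g)
    (ξ : Fin d → ℝ) : (fderiv ℂ (fun t => g (G t)) (φ x₀) (fderiv ℝ φ x₀ ξ)).re = 0 := by
  obtain ⟨c, hc, h3⟩ := peak_closure hg
  have hd : DifferentiableAt ℂ (fun t => g (G t)) (φ x₀) :=
    (hg.1 _).comp _ (h.hG _ h.mem).differentiableAt
  have h1 : HasFDerivAt (fun x => (g (G (φ x))).re) (Complex.reCLM.comp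
      (((fderiv ℂ (fun t => g (G t)) (φ x₀)).restrictScalars ℝ).comp (fderiv ℝ φ x₀))) x₀ :=
    Complex.reCLM.hasFDerivAt.comp x₀ ((hd.hasFDerivAt.restrictScalars ℝ).comp x₀
      h.hφ.differentiableAt.hasFDerivAt)
  have h2 : IsLocalMin (fun x => (g (G (φ x))).re) x₀ := by
    filter_upwards [h.clos] with x hx
    rw [hg.2.1, Complex.zero_re]
    exact le_trans (by positivity) (h3 _ hx)
  have := h2.hasFDerivAt_eq_zero h1
  exact DFunLike.congr_fun this ξ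

theorem not_surj (h : PtData U pr G D W φ x₀) (hn : 0 < n) :
    ¬ ∀ v, v ∈ range (fderiv ℝ φ x₀) := by
  intro hs
  obtain ⟨g, hg⟩ := h.peak
  obtain ⟨c, hc, h3⟩ := peak_closure hg
  have hm : map φ (𝓝 x₀) = 𝓝 (φ x₀) :=
    h.hφ.hasStrictFDerivAt.map_nhds_eq_of_surj (LinearMap.range_eq_top.2 hs)
  have h1 : ∀ᶠ t in 𝓝 (φ x₀), G t ∈ closure U := by
    rw [← hm]; exact h.clos
  have hW := h.hW.mem_nhds h.mem
  have h2 : ∀ᶠ t in 𝓝 (φ x₀), DifferentiableAt ℂ (fun t => Complex.exp (-g (G t))) t := by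
    filter_upwards [hW] with t ht
    exact ((hg.1 _).comp _ (h.hG _ ht).differentiableAt).neg.cexp
  have h4 : IsLocalMax (norm ∘ fun t => Complex.exp (-g (G t))) (φ x₀) := by
    filter_upwards [h1] with t ht
    simp only [Function.comp, Complex.norm_exp, hg.2.1, Complex.neg_re, neg_zero,
      Complex.zero_re]
    exact Real.exp_le_exp.2 (neg_nonpos.2 (le_trans (by positivity) (h3 _ ht)))
  have h5 : ∀ᶠ t in 𝓝 (φ x₀), t = φ x₀ := by
    filter_upwards [Complex.norm_eventually_eq_of_isLocalMax h2 h4, h1, hW] with t e1 e2 e3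
    simp only [Complex.norm_exp, hg.2.1, Complex.neg_re, neg_zero, Complex.zero_re,
      Real.exp_eq_exp, neg_eq_zero] at e1
    have e4 := h3 _ e2
    rw [e1] at e4
    have e5 : ‖G t - G (φ x₀)‖ ^ 2 ≤ 0 := nonpos_of_mul_nonpos_right e4 hc
    have e6 : G t = G (φ x₀) := by
      rw [← sub_eq_zero, ← norm_eq_zero]
      exact pow_eq_zero_iff (two_ne_zero) |>.1 (le_antisymm e5 (by positivity))
    rw [← h.sec t e3, e6, h.sec _ h.mem]
  have : Nonempty (Fin n) := ⟨⟨0, hn⟩⟩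
  have h6 : ∀ᶠ t in 𝓝[≠] (φ x₀), False := by
    filter_upwards [mem_nhdsWithin_of_mem_nhds h5, self_mem_nhdsWithin] with t e1 e2
    exact e2 e1
  exact h6.exists.elim fun _ h => h

end

theorem margin {X V V' : Type*} [TopologicalSpace X] [NormedAddCommGroup V] [NormedSpace ℝ V]
    [NormedAddCommGroup V'] [NormedSpace ℝ V'] {Θ : V' → V} {L : V' →L[ℝ] V} {W' : Set V'}
    {O : Set V} {c : X × ℝ → V} {c' : X × ℝ → V'} {x₀ : X} {e : ℕ}
    (hΘ : HasStrictFDerivAt Θ L 0) (hW : W' ∈ 𝓝 (0 : V'))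
    (hc : Tendsto c' (𝓝 (x₀, 0)) (𝓝 0)) (he : ∀ᶠ p in 𝓝 (x₀, (0 : ℝ)), Θ (c' p) = c p)
    (hm : ∀ᶠ p in 𝓝 (x₀, (0 : ℝ)), 0 < p.2 → ∀ v, ‖v‖ ≤ p.2 ^ e → c p + v ∈ O) :
    ∀ᶠ p in 𝓝 (x₀, (0 : ℝ)), 0 < p.2 → ∀ v, ‖v‖ ≤ p.2 ^ (e + 1) →
      c' p + v ∈ {w | w ∈ W' ∧ Θ w ∈ O} := by
  obtain ⟨K, s, hs, hK⟩ := hΘ.exists_lipschitzOnWith
  obtain ⟨r, hr, hb⟩ := Metric.mem_nhds_iff.1 (inter_mem hs hW)
  have t2 : Tendsto (fun p : X × ℝ => p.2) (𝓝 (x₀, 0)) (𝓝 0) := continuous_snd.tendsto _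
  have hK1 : (0 : ℝ) < K + 1 := by positivity
  filter_upwards [he, hm, hc.eventually (ball_mem_nhds 0 (half_pos hr)),
    t2.eventually (gt_mem_nhds (half_pos hr)), t2.eventually (gt_mem_nhds one_pos),
    t2.eventually (gt_mem_nhds (one_div_pos.2 hK1))] with p e1 e2 e3 e4 e5 e6 hp v hv
  have p1 : p.2 ^ e ≤ 1 := pow_le_one₀ hp.le e5.le
  have p2 : 0 < p.2 ^ e := pow_pos hp e
  rw [pow_succ] at hv
  have v1 : ‖v‖ < r / 2 := by nlinarith
  rw [dist_zero_right] at e3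
  have m1 : c' p + v ∈ ball (0 : V') r := by
    rw [mem_ball, dist_zero_right]
    linarith [norm_add_le (c' p) v]
  have m2 : c' p ∈ ball (0 : V') r := by
    rw [mem_ball, dist_zero_right]; linarith
  refine ⟨(hb m1).2, ?_⟩
  have l1 := hK.norm_sub_le (hb m1).1 (hb m2).1
  rw [add_sub_cancel_left, e1] at l1
  have l2 : (K : ℝ) * p.2 ≤ 1 := by
    rw [lt_div_iff₀ hK1] at e6
    nlinarith
  have l3 : ‖Θ (c' p + v) - c p‖ ≤ p.2 ^ e := by
    have : (K : ℝ) * ‖v‖ ≤ K * (p.2 ^ e * p.2) := mul_le_mul_of_nonneg_left hv K.2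
    nlinarith
  simpa using e2 hp _ l3

theorem sc_small {k l : ℕ} {W' : Set (EE k l)} (hW : W' ∈ 𝓝 (0 : EE k l)) (w : EE k l) (r : ℝ) :
    ∀ᶠ δ in 𝓝[>] (0 : ℝ), ∀ w' ∈ ball w r, sc δ w' ∈ W' := by
  have h := (isCompact_closedBall w r).eventually_forall_of_forall_eventually (x₀ := (0 : ℝ))
    (P := fun δ w' => sc δ w' ∈ W') fun w' _ => by
      have h1 : Tendsto (fun p : ℝ × EE k l => sc p.1 p.2) (𝓝 (0, w')) (𝓝 (sc 0 w')) :=
        continuous_sc.tendsto _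
      have h2 : sc 0 w' = 0 := by simp [sc]
      rw [h2] at h1
      exact h1.eventually hW
  filter_upwards [mem_nhdsWithin_of_mem_nhds h] with δ hδ w' hw'
  exact hδ w' (ball_subset_closedBall hw')

theorem sector {k l : ℕ} {S : Set (EE k l)} {Z₀ : Fin k → ℂ} {A : ℝ → (Fin k → ℂ)}
    (h1 : ∀ᶠ η in 𝓝[>] (0 : ℝ), ((A η, 0) : EE k l) ∈ S)
    (h2 : Tendsto (fun η : ℝ => η⁻¹ • A η) (𝓝[>] 0) (𝓝 Z₀)) {r : ℝ} (hr : 0 < r) :
    ∀ᶠ δ in 𝓝[>] (0 : ℝ), ∃ w' ∈ ball ((Z₀, 0) : EE k l) r, sc δ w' ∈ S := by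
  have t : Tendsto (fun δ : ℝ => δ ^ 2) (𝓝[>] 0) (𝓝[>] 0) := by
    refine tendsto_nhdsWithin_iff.2 ⟨?_, ?_⟩
    · have : Tendsto (fun δ : ℝ => δ ^ 2) (𝓝 0) (𝓝 (0 ^ 2)) := (continuous_pow 2).tendsto 0
      simpa using this.mono_left nhdsWithin_le_nhds
    · filter_upwards [self_mem_nhdsWithin] with δ hδ
      exact pow_pos (mem_Ioi.1 hδ) 2
  have h3 : Tendsto (fun η : ℝ => ((η⁻¹ • A η, 0) : EE k l)) (𝓝[>] 0) (𝓝 (Z₀, 0)) :=
    h2.prodMk_nhds tendsto_const_nhds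
  filter_upwards [t.eventually h1, t.eventually (h3.eventually (ball_mem_nhds _ hr)),
    self_mem_nhdsWithin] with δ e1 e2 e3
  refine ⟨_, e2, ?_⟩
  have : (δ ^ 2) ≠ 0 := (pow_pos (mem_Ioi.1 e3) 2).ne'
  simpa [sc, smul_smul, mul_inv_cancel₀ this] using e1

end CoordAux

/-- Sketch. `t₀ = φ x₀`, `p = G t₀`, `A = fderiv ℝ φ x₀`,
`Λ = {fderiv ℂ (g ∘ G) t₀ | IsPeak U p g}`. For a peak function `g`, `x ↦ re (g (G (φ x)))` has a local minimum at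
`x₀` (`clos`; the peak inequality extends to `closure U`), so `S_Lin` applies: `k, l, g i, L`.
`0 < k`: otherwise `A` is onto, `φ` maps neighbourhoods of `x₀` onto neighbourhoods of `t₀`
(`HasStrictFDerivAt.map_nhds_eq_of_surj`), `‖exp (-g (G t))‖` has a local maximum at `t₀`, so
(`Complex.norm_eventually_eq_of_isLocalMax`) `G t = p`, `t = t₀` near `t₀`, impossible for `0 < n`.
`χ z = (fun i => g i z, (L (pr z - t₀)).2)`, `χ₀ = χ ∘ G` is analytic at `t₀` with value `0` and derivative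
`L`; `Θ₀` its analytic local inverse, `Θ = G ∘ Θ₀`. Let `W'` be an open neighbourhood of `0` on which `Θ₀`
is analytic, maps into `W`; `O' = {w | w ∈ W' ∧ Θ w ∈ U}` is open, `TautIn O' W'` (`Div.tautIn`),
`Fr (D ∘ Θ₀) W' O'` (`Fr.comp`). Apply `S_Graph` to `c' = χ₀ ∘ c` with exponent `e + 1`
(`Θ₀ (c' p + v) = c p + v'`, `‖v'‖ ≤ C ‖v‖`), and `S_LeadT` with `Θ₀`, `L.symm` (then `Lead.reparam` with
`j = id`); then `S_Wall`, `S_Bishop`. Sector: `w₀ = (Z₀, 0)`, `η = δ²`, `w' = (η⁻¹ • A η, 0)`. -/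
theorem Coord_pf (h1 : S_Lin) (h2 : S_Graph) (h3 : S_LeadT) (h4 : S_Wall) (h5 : S_Bishop) :
    S_Coord := by
  intro N n d Γ _ U act pr G D W φ x₀ hD hn h
  obtain ⟨k, l, lam, L, hkl, hlam, hL, hA⟩ := h1 n d (fderiv ℝ φ x₀)
    {lam | ∃ g, IsPeak U (G (φ x₀)) g ∧ fderiv ℂ (fun t => g (G t)) (φ x₀) = lam} h.gen
    (by rintro _ ⟨g, hg, rfl⟩ ξ; exact CoordAux.re_zero h hg ξ)
    fun v hv => h.span v fun g hg => hv _ ⟨g, hg, rfl⟩
  choose g hg hgl using hlam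
  have hk : 0 < k := by
    refine Nat.pos_of_ne_zero ?_
    rintro rfl
    exact CoordAux.not_surj h hn fun v => (hA v).2 (Subsingleton.elim _ _)
  have hW := h.hW.mem_nhds h.mem
  have hG := h.hG _ h.mem
  obtain ⟨χ, hχ⟩ : ∃ χ : (Fin N → ℂ) → EE k l,
      χ = fun z => (fun i => g i z, (L (pr z - φ x₀)).2) := ⟨_, rfl⟩
  have dχ : Differentiable ℂ χ := by
    rw [hχ]
    exact (differentiable_pi.2 fun i => (hg i).1).prodMk
      (differentiable_snd.comp (L.differentiable.comp (h.hpr.sub_const _)))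
  have a0 : AnalyticAt ℂ (fun t => χ (G t)) (φ x₀) :=
    (analyticOnNhd_of_differentiable dχ _ (mem_univ _)).comp hG
  have z0 : χ (G (φ x₀)) = 0 := by
    rw [hχ]
    refine Prod.ext (funext fun i => (hg i).2.1) ?_
    simp [h.sec _ h.mem]
  have d0 : HasFDerivAt (fun t => χ (G t)) (L : (Fin n → ℂ) →L[ℂ] EE k l) (φ x₀) := by
    have e1 : HasFDerivAt (fun t => fun i => g i (G t)) (ContinuousLinearMap.pi lam) (φ x₀) :=
      hasFDerivAt_pi.2 fun i => by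
        rw [← hgl i]
        exact (((hg i).1 _).comp _ hG.differentiableAt).hasFDerivAt
    have e2 : HasFDerivAt (fun t => (L (t - φ x₀)).2)
        ((ContinuousLinearMap.snd ℂ _ _).comp (L : (Fin n → ℂ) →L[ℂ] EE k l)) (φ x₀) := by
      have e := ((ContinuousLinearMap.snd ℂ _ _).comp
        (L : (Fin n → ℂ) →L[ℂ] EE k l)).hasFDerivAt.comp (φ x₀)
          ((hasFDerivAt_id (φ x₀)).sub_const (φ x₀))
      rw [ContinuousLinearMap.comp_id] at e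
      exact e
    have e3 : (ContinuousLinearMap.pi lam).prod
        ((ContinuousLinearMap.snd ℂ _ _).comp (L : (Fin n → ℂ) →L[ℂ] EE k l)) =
        (L : (Fin n → ℂ) →L[ℂ] EE k l) := by
      refine ContinuousLinearMap.ext fun v => Prod.ext (funext fun i => ?_) rfl
      exact (hL v i).symm
    rw [← e3]
    refine (e1.prodMk e2).congr_of_eventuallyEq ?_
    filter_upwards [hW] with t ht
    rw [hχ]
    simp only [h.sec t ht]
  obtain ⟨Θ, aΘ, sΘ, rΘ, lΘ⟩ := CoordAux.inv_local L a0 d0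
  have Θ0 : Θ 0 = φ x₀ := by
    have := lΘ.self_of_nhds
    rwa [z0] at this
  simp only [z0] at aΘ sΘ rΘ
  obtain ⟨W', hW1, hW2, hW3⟩ : ∃ W' : Set (EE k l), (∀ w ∈ W', AnalyticAt ℂ Θ w ∧ Θ w ∈ W) ∧
      IsOpen W' ∧ 0 ∈ W' := by
    refine _root_.eventually_nhds_iff.1 (aΘ.eventually_analyticAt.and ?_)
    exact aΘ.continuousAt.eventually (by rw [Θ0]; exact hW)
  have hW4 := hW2.mem_nhds hW3
  have cΘ : ContinuousOn Θ W' := fun w hw => (hW1 w hw).1.continuousAt.continuousWithinAt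
  have eO : {w | w ∈ W' ∧ Θ w ∈ {t | t ∈ W ∧ G t ∈ U}} = {w | w ∈ W' ∧ G (Θ w) ∈ U} :=
    Set.ext fun w => ⟨fun hw => ⟨hw.1, hw.2.2⟩, fun hw => ⟨hw.1, (hW1 w hw.1).2, hw.2⟩⟩
  have oO : IsOpen {w | w ∈ W' ∧ G (Θ w) ∈ U} := by
    rw [← eO]
    exact cΘ.isOpen_inter_preimage hW2 h.opn
  have tO : TautIn {w | w ∈ W' ∧ G (Θ w) ∈ U} W' :=
    hD.tautIn (Θ := fun w => G (Θ w)) hW2 fun w hw =>
      ((h.hG _ (hW1 w hw).2).comp (hW1 w hw).1).differentiableAt.differentiableWithinAt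
  have fO : Fr (fun w => D (Θ w)) W' {w | w ∈ W' ∧ G (Θ w) ∈ U} := by
    rw [← eO]
    exact h.fr.comp hW2 cΘ fun w hw => (hW1 w hw).2
  obtain ⟨c, e, ac, c0, cm⟩ := h.arc
  obtain ⟨μ, P, hP, dP⟩ := h.lead
  have c1 : c (x₀, 0) = φ x₀ := c0.self_of_nhds
  have ac' : AnalyticAt ℝ (fun p => χ (G (c p))) (x₀, 0) :=
    AnalyticAt.comp (g := fun t => χ (G t)) (by rw [c1]; exact a0.restrictScalars) ac
  have zc' : χ (G (c (x₀, 0))) = 0 := by rw [c1, z0]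
  have fc' : fderiv ℝ (fun x => χ (G (c (x, 0)))) x₀ =
      ((L : (Fin n → ℂ) →L[ℂ] EE k l).restrictScalars ℝ).comp (fderiv ℝ φ x₀) := by
    refine HasFDerivAt.fderiv (((d0.restrictScalars ℝ).comp x₀
      h.hφ.differentiableAt.hasFDerivAt).congr_of_eventuallyEq ?_)
    filter_upwards [c0] with x hx
    simp only [hx, Function.comp]
  have lc : ∀ᶠ p in 𝓝 (x₀, (0 : ℝ)), Θ (χ (G (c p))) = c p :=
    ac.continuousAt.eventually (p := fun t => Θ (χ (G t)) = t) (by rw [c1]; exact lΘ)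
  have i0 : Tendsto (fun x : Fin d → ℝ => (x, (0 : ℝ))) (𝓝 x₀) (𝓝 (x₀, 0)) :=
    (Continuous.prodMk_left 0).tendsto x₀
  have hP' := h3 _ _ _ D φ x₀ μ P Θ ((L.symm : EE k l →L[ℂ] (Fin n → ℂ)).restrictScalars ℝ)
    (fun x => χ (G (c (x, 0)))) hP (by simp only [zc']; exact sΘ.restrictScalars ℝ)
    (ac'.continuousAt.tendsto.comp i0) (by
      filter_upwards [i0.eventually lc, c0] with x e1 e2
      rw [e1, e2])
  have dP' : Dense {v : EE k l |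
      P (((L.symm : EE k l →L[ℂ] (Fin n → ℂ)).restrictScalars ℝ) v) ≠ 0} :=
    dP.preimage L.symm.toHomeomorph.isOpenMap
  obtain ⟨H, hH, hH'⟩ := h2 k l d {w | w ∈ W' ∧ G (Θ w) ∈ U} (fun w => D (Θ w))
    (fun p => χ (G (c p))) x₀ (e + 1) μ _ ac' zc'
    (by rw [fc']; exact L.injective.comp h.inj)
    (fun w => by
      rw [fc']
      have := hA (L.symm w)
      rw [L.apply_symm_apply] at this
      rw [← this]
      constructor
      · rintro ⟨ξ, rfl⟩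
        exact ⟨ξ, by simp⟩
      · rintro ⟨ξ, hξ⟩
        exact ⟨ξ, by simp [hξ]⟩)
    (by
      rw [← eO]
      exact CoordAux.margin (sΘ.restrictScalars ℝ) hW4
        (by have := ac'.continuousAt.tendsto; rwa [zc'] at this) lc cm) hP'
  obtain ⟨b, 𝒢, hb, h𝒢, hw⟩ := h4 k l _ W' _ H μ _ hW4 fO hH.an hH.zero hH.der hH' dP'
  obtain ⟨Z₀, hZ, A, hA1, hA2⟩ := h5 k l _ W' H (e + 1) 𝒢 oO hW4 tO hH h𝒢.dense
  refine ⟨k, l, fun w => G (Θ w), χ, b, 𝒢, hk, hkl, ?_, dχ, rΘ, ?_, ?_, ?_, hb, h𝒢, ?_, ?_⟩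
  · exact AnalyticAt.comp (g := G) (by rw [Θ0]; exact hG) aΘ
  · simp only [Θ0]
    have t1 : Tendsto pr (𝓝 (G (φ x₀))) (𝓝 (φ x₀)) := by
      have := h.hpr.continuous.tendsto (G (φ x₀))
      rwa [h.sec _ h.mem] at this
    filter_upwards [h.uniq, t1.eventually lΘ] with z e1 e2 hz
    rw [e1 hz] at e2
    rw [e2, e1 hz]
  · filter_upwards [hW4] with w hw hU
    filter_upwards [oO.mem_nhds ⟨hw, hU⟩] with w' hw' using hw'.2
  · choose cc hc1 hc2 using fun i => (hg i).2.2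
    have : Nonempty (Fin k) := ⟨⟨0, hk⟩⟩
    obtain ⟨i₀, hi₀⟩ := Finite.exists_min cc
    refine ⟨cc i₀, hc1 i₀, fun z hz i => ?_⟩
    simp only [Θ0, hχ]
    exact le_trans (mul_le_mul_of_nonneg_right (hi₀ i) (by positivity)) (hc2 i z hz)
  · intro w hw'
    obtain ⟨r, hr, h6⟩ := hw w hw'
    refine ⟨r, hr, ?_⟩
    filter_upwards [h6, CoordAux.sc_small hW4 w r] with δ e1 e2 ⟨w', e3, e4⟩ w'' e5
    exact (e1 ⟨w', e3, subset_closure ⟨e2 w' e3, e4⟩⟩ w'' e5).2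
  · have m : rho b ((Z₀, 0) : EE k l) ∈ 𝒢 := by simpa [rho] using hZ
    obtain ⟨r, hr, h6⟩ := hw _ m
    refine ⟨_, m, r, hr, ?_⟩
    filter_upwards [h6, CoordAux.sector hA1 hA2 hr] with δ e1 e2 w e3
    exact (e1 e2 w e3).2

end Vale.Agent.P274
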