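import Vale.Agent.P274.StB

open Set Filter Topology Metric MvPolynomial MeasureTheory

namespace Vale.Agent.P274

namespace DIAux

variable {X F : Type*} [NormedAddCommGroup X] [NormedSpace ℝ X] [NormedAddCommGroup F]
  [NormedSpace ℝ F]

theorem term {n : ℕ} (m : (X × ℝ) [×(n + 1)]→L[ℝ] F) : ∃ q : (X × ℝ) [×n]→L[ℝ] F,
    ‖q‖ ≤ (n + 1) * ‖m‖ ∧
      ∀ y : X × ℝ, m (fun _ => y) - m (fun _ => (y.1, 0)) = y.2 • q fun _ => y := by
  let P : X × ℝ →L[ℝ] X × ℝ := (ContinuousLinearMap.fst ℝ X ℝ).prod 0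
  have hP : ‖P‖ ≤ 1 := ContinuousLinearMap.opNorm_le_bound _ zero_le_one fun y => by
    rw [one_mul]
    exact max_le (norm_fst_le y) (norm_zero.trans_le (norm_nonneg _))
  let T : Fin (n + 1) → Fin (n + 1) → X × ℝ →L[ℝ] X × ℝ :=
    fun i j => if j ≤ i then ContinuousLinearMap.id ℝ _ else P
  have hT : ∀ i j, ‖T i j‖ ≤ 1 := fun i j => by
    simp only [T]
    split_ifs
    · exact ContinuousLinearMap.norm_id_le
    · exact hP
  refine ⟨∑ i, (m.compContinuousLinearMap (T i)).curryMid i (0, 1), ?_, fun y => ?_⟩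
  · refine (norm_sum_le _ _).trans ((Finset.sum_le_card_nsmul _ _ ‖m‖ fun i _ => ?_).trans
      (by simp))
    refine ContinuousMultilinearMap.opNorm_le_bound (norm_nonneg _) fun v => ?_
    refine ((m.compContinuousLinearMap (T i)).norm_map_insertNth_le _ v).trans ?_
    have h1 : ‖m.compContinuousLinearMap (T i)‖ ≤ ‖m‖ :=
      (m.norm_compContinuousLinearMap_le _).trans (mul_le_of_le_one_right (norm_nonneg _)
        (Finset.prod_le_one (fun _ _ => norm_nonneg _) fun j _ => hT i j))
    have h2 : ‖((0, 1) : X × ℝ)‖ = 1 := by simp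
    rw [h2, mul_one]
    gcongr
  · have h := m.toMultilinearMap.map_sub_map_piecewise (fun _ => y) (fun _ => (y.1, 0))
      Finset.univ
    rw [Finset.piecewise_univ] at h
    refine h.trans ?_
    rw [_root_.sum_apply, Finset.smul_sum]
    refine Finset.sum_congr rfl fun i _ => ?_
    rw [← _root_.smul_apply, ← map_smul]
    refine congrArg m (funext fun j => ?_)
    rcases eq_or_ne j i with rfl | hj
    · simp [T, Prod.ext_iff]
    · obtain ⟨k, rfl⟩ := Fin.exists_succAbove_eq hj
      rw [Fin.insertNth_apply_succAbove]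
      rcases hj.lt_or_gt with h1 | h1
      · simp [T, h1, h1.le]
      · simp [T, P, h1.not_gt, h1.not_ge, h1.ne]

end DIAux

/-- Analytic division by the last variable. Sketch: take a power series `p` of `f` at `(x,0)`.
For `y = (u,s)`, `y' = (u,0)`, `e = (0,1)`: `p n (y,…,y) - p n (y',…,y') = s • ∑ i<n, p n (y',..,y',e,y,..,y)`;
this defines a series `q` with `‖q (n-1)‖ ≤ n ‖p n‖` (positive radius), `g = q.sum (· - (x,0))`.
Alternatively `g y = ∫ τ in 0..1, fderiv f (u, τ s) e` with the series of the derivative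
(`HasFPowerSeriesOnBall.fderiv`) and termwise integration. -/
theorem analytic_div {X F : Type*} [NormedAddCommGroup X] [NormedSpace ℝ X] [NormedAddCommGroup F]
    [NormedSpace ℝ F] [CompleteSpace F] {f : X × ℝ → F} {x : X} (hf : AnalyticAt ℝ f (x, 0))
    (h0 : ∀ᶠ x' in 𝓝 x, f (x', 0) = 0) :
    ∃ g : X × ℝ → F, AnalyticAt ℝ g (x, 0) ∧ ∀ᶠ p in 𝓝 (x, (0 : ℝ)), f p = p.2 • g p := by
  obtain ⟨p, hp⟩ := hf
  choose q hq hq' using fun n => DIAux.term (p (n + 1))
  obtain ⟨r, hr0, hr⟩ := ENNReal.lt_iff_exists_nnreal_btwn.1 hp.radius_pos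
  obtain ⟨C, hC, hb⟩ := p.norm_mul_pow_le_of_lt_radius hr
  have hr0' : (0 : ℝ) < r := by exact_mod_cast hr0
  let Q : FormalMultilinearSeries ℝ (X × ℝ) F := q
  have hQ : 0 < Q.radius := by
    refine lt_of_lt_of_le ?_ (Q.le_radius_of_bound (C / r) (r := r / 2) fun n => ?_)
    · exact_mod_cast half_pos hr0'
    · have h1 : (n + 1 : ℝ) ≤ 2 ^ n := by exact_mod_cast Nat.lt_two_pow_self
      have h2 := hb (n + 1)
      rw [le_div_iff₀ hr0']
      push_cast
      calc ‖Q n‖ * ((r : ℝ) / 2) ^ n * r ≤ 2 ^ n * ‖p (n + 1)‖ * ((r : ℝ) / 2) ^ n * r := by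
            gcongr
            exact (hq n).trans (by gcongr)
        _ = ‖p (n + 1)‖ * (r : ℝ) ^ (n + 1) := by rw [div_pow]; field_simp; ring
        _ ≤ C := h2
  have hQ' := (Q.hasFPowerSeriesOnBall hQ).hasFPowerSeriesAt
  have ht : Tendsto (fun y : X × ℝ => y - (x, 0)) (𝓝 (x, 0)) (𝓝 0) := by
    simpa using (continuous_sub_right ((x, 0) : X × ℝ)).tendsto (x, 0)
  have t1 : Tendsto (fun y : X × ℝ => y.1) (𝓝 (x, 0)) (𝓝 x) := continuous_fst.tendsto _
  have t2 : Tendsto (fun y : X × ℝ => (y.1, (0 : ℝ))) (𝓝 (x, 0)) (𝓝 (x, 0)) :=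
    (continuous_fst.prodMk continuous_const).tendsto _
  refine ⟨fun y => Q.sum (y - (x, 0)), AnalyticAt.comp (g := Q.sum)
    (by rw [sub_self]; exact hQ'.analyticAt) (analyticAt_id.sub analyticAt_const), ?_⟩
  filter_upwards [hp.eventually_hasSum_sub, t2.eventually hp.eventually_hasSum_sub,
    t1.eventually h0, ht.eventually hQ'.eventually_hasSum] with y h1 h2 h3 h4
  have h5 := (hasSum_nat_add_iff' 1).2 (h1.sub h2)
  have e1 : (y.1, (0 : ℝ)) - (x, 0) = ((y - (x, 0)).1, 0) := by simp
  have e2 : y.2 = (y - (x, 0)).2 := by simp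
  rw [Finset.sum_range_one, h3, sub_zero, e1, p.congr rfl (fun i hi => absurd hi i.not_lt_zero),
    sub_self, sub_zero] at h5
  simp only [hq'] at h5
  rw [zero_add] at h4
  rw [e2]
  exact h5.unique (h4.const_smul _)

namespace DIAux

variable {X F : Type*} [NormedAddCommGroup X] [NormedSpace ℝ X] [NormedAddCommGroup F]
  [NormedSpace ℝ F]

/-- Iterated difference quotients in the last variable. -/
noncomputable def qn (j : ℕ) (f : X × ℝ → F) (p : X × ℝ) : F :=
  (Function.swap dslope 0)^[j] (fun t => f (p.1, t)) p.2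

theorem analyticAt_slice {f : X × ℝ → F} {u : X} {s : ℝ} (hf : AnalyticAt ℝ f (u, s)) :
    AnalyticAt ℝ (fun t => f (u, t)) s :=
  hf.comp_of_eq (analyticAt_const.prod analyticAt_id) rfl

theorem analyticAt_q [CompleteSpace F] {f : X × ℝ → F} {x : X} (hf : AnalyticAt ℝ f (x, 0)) :
    AnalyticAt ℝ (fun p : X × ℝ => dslope (fun t => f (p.1, t)) 0 p.2) (x, 0) := by
  obtain ⟨g, hg, h⟩ := analytic_div (f := fun p => f p - f (p.1, 0))
    (hf.sub (hf.comp_of_eq (analyticAt_fst.prod analyticAt_const) rfl))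
    (Eventually.of_forall fun _ => sub_self _)
  refine hg.congr ?_
  filter_upwards [h.eventually_nhds, hg.eventually_analyticAt] with p h1 h2
  obtain ⟨u, s⟩ := p
  rcases eq_or_ne s 0 with rfl | hs
  · have h3 : (fun t => f (u, t)) =ᶠ[𝓝 0] fun t => t • g (u, t) + f (u, 0) := by
      filter_upwards [((Continuous.prodMk_right u).tendsto 0).eventually h1] with t ht
      exact eq_add_of_sub_eq ht
    have h4 := (((hasDerivAt_id (0 : ℝ)).smul
      (analyticAt_slice h2).differentiableAt.hasDerivAt).add_const (f (u, 0))).deriv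
    simp only [dslope_same]
    rw [h3.deriv_eq]
    simpa using h4.symm
  · refine smul_right_injective F hs ?_
    have := sub_smul_dslope (fun t => f (u, t)) 0 s
    rw [sub_zero] at this
    exact h1.self_of_nhds.symm.trans this.symm

theorem analyticAt_qn [CompleteSpace F] {f : X × ℝ → F} {x : X} (hf : AnalyticAt ℝ f (x, 0))
    (j : ℕ) : AnalyticAt ℝ (qn j f) (x, 0) := by
  induction j with
  | zero => exact hf
  | succ j ih =>
    refine (analyticAt_q ih).congr (Eventually.of_forall fun p => ?_)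
    simp only [qn, Function.iterate_succ_apply']

end DIAux

/-- Sketch. Let `a j x = iteratedDeriv j (fun s => f (x, s)) 0` (or iterate `g ↦ fun p => fderiv ℝ g p (0,1)`
and restrict to `s = 0`), analytic on `N`. By `S_AN0`, for a.e. `x ∈ N` every `a j` is nonzero at `x`
or vanishes near `x`. If `a j x ≠ 0` for a least `j = e`, divide `e` times by `analytic_div`
(induction on `e`, generalizing `f`; if `f = s • g` near `(x,0)` then the `j`-th coefficient of `g` is
the `(j+1)`-th coefficient of `f` up to the factor `j+1`). Otherwise all `a j` vanish near `x`, hence on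
a fixed ball `B` around `x` with `f` analytic on `B ×ˢ ball 0 ε` (identity theorem), so for `x' ∈ B` the
analytic function `f (x', ·)` has all derivatives zero at `0` and vanishes on `ball 0 ε`. -/
theorem DI_pf (h : S_AN0) : S_DI := by
  classical
  intro d F _ _ _ f N hN hf
  have ha : ∀ j, AnalyticOnNhd ℝ (fun x => DIAux.qn j f (x, 0)) N := fun j x hx =>
    (DIAux.analyticAt_qn (hf x hx) j).comp_of_eq (analyticAt_id.prod analyticAt_const) rfl
  filter_upwards [ae_all_iff.2 fun j => h d F _ N hN (ha j)] with x hx hxN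
  by_cases h0 : ∃ j, DIAux.qn j f (x, 0) ≠ 0
  · refine Or.inr ⟨Nat.find h0, DIAux.qn (Nat.find h0) f, DIAux.analyticAt_qn (hf x hxN) _,
      Nat.find_spec h0, ?_⟩
    have h1 : ∀ᶠ y in 𝓝 x, ∀ k ∈ Finset.range (Nat.find h0), DIAux.qn k f (y, 0) = 0 :=
      (eventually_all_finset _).2 fun k hk =>
        (hx k hxN).resolve_left (Nat.find_min h0 (Finset.mem_range.1 hk))
    filter_upwards [(continuous_fst.tendsto (x, (0 : ℝ))).eventually h1] with p hp
    have := pow_sub_smul_iterate_dslope_of_zero (f := fun t => f (p.1, t)) (a := 0) (Nat.find h0)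
      (fun k hk => hp k (Finset.mem_range.2 hk)) p.2
    rw [sub_zero] at this
    exact this.symm
  · left
    have h1 := (hf x hxN).eventually_analyticAt.and
      ((continuous_fst.tendsto (x, (0 : ℝ))).eventually (hN.mem_nhds hxN))
    obtain ⟨ε, hε, hb⟩ := Metric.eventually_nhds_iff_ball.1 h1
    have hm : ∀ u ∈ ball x ε, ∀ s ∈ ball (0 : ℝ) ε, (u, s) ∈ ball (x, (0 : ℝ)) ε :=
      fun u hu s hs => by rw [← ball_prod_same]; exact ⟨hu, hs⟩
    filter_upwards [ball_mem_nhds (x, (0 : ℝ)) hε] with p hp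
    rw [← ball_prod_same] at hp
    have h2 : ∀ j, DIAux.qn j f (p.1, 0) = 0 := fun j =>
      ((ha j).mono fun u hu => (hb _ (hm u hu 0 (mem_ball_self hε))).2
        ).eqOn_zero_of_preconnected_of_eventuallyEq_zero (convex_ball x ε).isPreconnected
        (mem_ball_self hε) ((hx j hxN).resolve_left fun e => h0 ⟨j, e⟩) hp.1
    have h3 : AnalyticOnNhd ℝ (fun t => f (p.1, t)) (ball 0 ε) := fun s hs =>
      DIAux.analyticAt_slice (hb _ (hm _ hp.1 s hs)).1
    obtain ⟨q, hq⟩ := h3 0 (mem_ball_self hε)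
    have h4 : q = 0 := by
      by_contra e
      exact hq.iterate_dslope_fslope_ne_zero e (h2 _)
    exact h3.eqOn_zero_of_preconnected_of_eventuallyEq_zero (convex_ball 0 ε).isPreconnected
      (mem_ball_self hε) (hq.locally_zero_iff.2 h4) hp.2

end Vale.Agent.P274
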