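import Mathlib

/-! Definitions used in the statement of the bounded-domain question of Kollár and Pardon. -/

open Set Filter Topology

namespace Vale.Agent.P274

/-- Real and imaginary parts of the coordinates of a point of `ℂ^N`. -/
def reIm {N : ℕ} (z : Fin N → ℂ) : Fin N ⊕ Fin N → ℝ :=
  Sum.elim (fun i => (z i).re) (fun i => (z i).im)

/-- Semialgebraic subsets of `ℂ^N`: finite Boolean combinations of sets given by real polynomial
equalities and inequalities in the real and imaginary parts of the coordinates. -/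
inductive Semialg {N : ℕ} : Set (Fin N → ℂ) → Prop
  | pos (P : MvPolynomial (Fin N ⊕ Fin N) ℝ) :
      Semialg {z | 0 < MvPolynomial.eval (reIm z) P}
  | zero (P : MvPolynomial (Fin N ⊕ Fin N) ℝ) :
      Semialg {z | MvPolynomial.eval (reIm z) P = 0}
  | union {A B : Set (Fin N → ℂ)} : Semialg A → Semialg B → Semialg (A ∪ B)
  | inter {A B : Set (Fin N → ℂ)} : Semialg A → Semialg B → Semialg (A ∩ B)
  | compl {A : Set (Fin N → ℂ)} : Semialg A → Semialg Aᶜ

/-- Affine varieties in `ℂ^N`: common zero sets of families of complex polynomials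
(reducible and singular ones allowed). -/
def IsVariety {N : ℕ} (Z : Set (Fin N → ℂ)) : Prop :=
  ∃ S : Set (MvPolynomial (Fin N) ℂ), Z = {z | ∀ P ∈ S, MvPolynomial.eval z P = 0}

/-- A map from a subset `A` of `ℂ^N` to `ℂ^M` is holomorphic if near every point of `A` it is the
restriction of a holomorphic map defined on an open subset of `ℂ^N`. -/
def HolSub {N M : ℕ} {A : Set (Fin N → ℂ)} (f : A → (Fin M → ℂ)) : Prop :=
  ∀ x : A, ∃ V : Set (Fin N → ℂ), IsOpen V ∧ x.1 ∈ V ∧
    ∃ g : (Fin N → ℂ) → (Fin M → ℂ), DifferentiableOn ℂ g V ∧ ∀ y : A, y.1 ∈ V → f y = g y.1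

/-- Bounded symmetric domain: a connected bounded open subset of `ℂ^k` in which every point is an
isolated fixed point of a holomorphic involution. -/
def IsBSD {k : ℕ} (D : Set (Fin k → ℂ)) : Prop :=
  IsOpen D ∧ IsConnected D ∧ Bornology.IsBounded D ∧
    ∀ x ∈ D, ∃ σ : (Fin k → ℂ) → (Fin k → ℂ), DifferentiableOn ℂ σ D ∧ MapsTo σ D D ∧
      (∀ y ∈ D, σ (σ y) = y) ∧ σ x = x ∧ ∀ᶠ y in 𝓝[≠] x, σ y ≠ y

end Vale.Agent.P274
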