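import Vale.Agent.P274.StB

open Set Filter Topology Metric MvPolynomial MeasureTheory

namespace Vale.Agent.P274

/-- Sketch. `J = {g | ∀ Q, ∀ᵐ a, ∀ ξ ∈ S Q a, eval ξ g = 0}` is an ideal, finitely generated, so for
each `Q`, a.e. `a` has `S Q a ⊆ ZV J`. Take `Pr = J.minimalPrimes` (finite, Noetherian). For `ξ ∈ ZV J`
the prime `ker (eval ξ) ⊇ J` contains a minimal prime (`Ideal.exists_minimalPrimes_le`). For `𝔮 ∈ Pr`,
`E ∉ 𝔮` choose `F ∉ 𝔮` in all the other minimal primes; `E F ∉ J`, so for some `Q` it is false that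
a.e. `a` has `E F = 0` on `S Q a`; but if a.e. `E = 0` on `S Q a ∩ ZV 𝔮` then `E F = 0` on `S Q a` a.e. -/
theorem Ess_pf : S_Ess := by
  classical
  intro m A _ μ 𝒬 S
  let J : Ideal (MvPolynomial (Fin m) ℝ) :=
    { carrier := {g | ∀ Q, ∀ᵐ a ∂μ, ∀ ξ ∈ S Q a, eval ξ g = 0}
      add_mem' := fun {f g} hf hg Q => by
        filter_upwards [hf Q, hg Q] with a h1 h2 ξ hξ
        rw [map_add, h1 ξ hξ, h2 ξ hξ, add_zero]
      zero_mem' := fun Q => Eventually.of_forall fun a ξ _ => map_zero _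
      smul_mem' := fun c f hf Q => by
        filter_upwards [hf Q] with a h1 ξ hξ
        rw [smul_eq_mul, map_mul, h1 ξ hξ, mul_zero] }
  have hfin : J.minimalPrimes.Finite := Ideal.finite_minimalPrimes_of_isNoetherianRing _ J
  have hae : ∀ Q, ∀ᵐ a ∂μ, ∀ ξ ∈ S Q a, ∃ 𝔮 ∈ J.minimalPrimes, ξ ∈ ZV 𝔮 := by
    intro Q
    obtain ⟨T, hT⟩ := IsNoetherian.noetherian J
    have h1 : ∀ᵐ a ∂μ, ∀ g ∈ T, ∀ ξ ∈ S Q a, eval ξ g = 0 := by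
      refine (eventually_all_finset T).2 fun g hg => ?_
      have h2 : g ∈ J := hT ▸ Submodule.subset_span hg
      exact h2 Q
    filter_upwards [h1] with a ha ξ hξ
    have h2 : J ≤ RingHom.ker (eval ξ) := by
      rw [← hT]
      exact Submodule.span_le.2 fun g hg => ha g hg ξ hξ
    have := RingHom.ker_isPrime (eval ξ : MvPolynomial (Fin m) ℝ →+* ℝ)
    obtain ⟨𝔮, h3, h4⟩ := Ideal.exists_minimalPrimes_le h2
    exact ⟨𝔮, h3, fun g hg => h4 hg⟩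
  refine ⟨J.minimalPrimes, hfin, fun 𝔮 h => h.1.1, hae, fun 𝔮 h𝔮 E hE => ?_⟩
  have h1 : ∀ 𝔮' ∈ hfin.toFinset.erase 𝔮, ∃ f, f ∈ 𝔮' ∧ f ∉ 𝔮 := by
    intro 𝔮' h
    obtain ⟨h2, h3⟩ := Finset.mem_erase.1 h
    rw [Set.Finite.mem_toFinset] at h3
    by_contra h4
    have h5 : 𝔮' ≤ 𝔮 := fun f hf => by_contra fun h6 => h4 ⟨f, hf, h6⟩
    exact h2 (le_antisymm h5 (h𝔮.2 h3.1 h5))
  choose! f hf1 hf2 using h1
  have hp : 𝔮.IsPrime := h𝔮.1.1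
  have h2 : E * ∏ 𝔮' ∈ hfin.toFinset.erase 𝔮, f 𝔮' ∉ 𝔮 := by
    intro h
    rcases hp.mem_or_mem h with h | h
    · exact hE h
    · obtain ⟨𝔮', h3, h4⟩ := Ideal.IsPrime.prod_mem_iff.1 h
      exact hf2 𝔮' h3 h4
  by_contra h3
  refine h2 (h𝔮.1.2 fun Q => ?_)
  have h4 : ∀ᵐ a ∂μ, ∀ ξ ∈ S Q a, ξ ∈ ZV 𝔮 → eval ξ E = 0 :=
    by_contra fun h5 => h3 ⟨Q, h5⟩
  filter_upwards [h4, hae Q] with a h5 h6 ξ hξ
  obtain ⟨𝔮', h7, h8⟩ := h6 ξ hξ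
  rw [map_mul]
  by_cases h9 : 𝔮' = 𝔮
  · rw [h5 ξ hξ (h9 ▸ h8), zero_mul]
  · have h10 : 𝔮' ∈ hfin.toFinset.erase 𝔮 :=
      Finset.mem_erase.2 ⟨h9, (Set.Finite.mem_toFinset _).2 h7⟩
    rw [map_prod, Finset.prod_eq_zero h10 (h8 _ (hf1 𝔮' h10)), mul_zero]

namespace EssAux

theorem differentiable_Phi {N : ℕ} (Q : MvPolynomial (Fin N) ℂ) : Differentiable ℂ (Phi Q) := by
  refine differentiable_pi.2 fun o => ?_
  cases o with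
  | none => exact fun z => (analyticAt_eval Q z).differentiableAt
  | some i => exact differentiable_apply i

theorem norm_le_j {E F : Type*} [NormedAddCommGroup E] [NormedSpace ℝ E] [NormedAddCommGroup F]
    [NormedSpace ℝ F] (j : E ≃L[ℝ] F) (w : E) : ‖w‖ ≤ ‖(j.symm : F →L[ℝ] E)‖ * ‖j w‖ := by
  have := (j.symm : F →L[ℝ] E).le_opNorm (j w)
  rwa [ContinuousLinearEquiv.coe_coe, j.symm_apply_apply] at this

end EssAux

/-- Sketch. Let `c > 0` with `c ‖w‖ ≤ ‖j w‖`. Define the complex linear form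
`λ w = ⟪j w, b⟫ - I ⟪j (I • w), b⟫` (`re (λ w) = ⟪j w, b⟫`; build it as a `ℂ`-linear map on the
finite-dimensional space, or use `extendRCLike`), `g z = -2 λ (Phi Q z - Phi Q p)`. `Phi Q` is entire
(`analyticAt_eval`). With `u = j (Phi Q z) - j (Phi Q p)`: `‖u + b‖² ≤ ‖b‖²` gives
`‖u‖² ≤ -2 ⟪u, b⟫`, and `‖z - p‖ ≤ ‖Phi Q z - Phi Q p‖`. -/
theorem PeakB_pf : S_PeakB := by
  intro N L U j Q p b h
  let fr : StrongDual ℝ (Option (Fin N) → ℂ) :=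
    (innerSL ℝ b).comp (j : (Option (Fin N) → ℂ) →L[ℝ] EuclideanSpace ℝ (Fin L))
  let l : StrongDual ℂ (Option (Fin N) → ℂ) := fr.extendRCLike
  have hre : ∀ z, (-2 * l (Phi Q z - Phi Q p)).re = -2 * inner ℝ (j (Phi Q z) - j (Phi Q p)) b := by
    intro z
    have h1 : (l (Phi Q z - Phi Q p)).re = fr (Phi Q z - Phi Q p) :=
      StrongDual.re_extendRCLike_apply (𝕜 := ℂ) fr _
    have h2 : fr (Phi Q z - Phi Q p) = inner ℝ b (j (Phi Q z - Phi Q p)) := rfl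
    rw [map_sub j, real_inner_comm] at h2
    rw [← h2, ← h1]
    simp
  refine ⟨fun z => -2 * l (Phi Q z - Phi Q p), ⟨?_, by simp, ?_⟩, hre⟩
  · exact (l.differentiable.comp ((EssAux.differentiable_Phi Q).sub_const _)).const_mul _
  · obtain ⟨K, hK0, hK⟩ : ∃ K : ℝ, 0 ≤ K ∧ ∀ w, ‖w‖ ≤ K * ‖j w‖ :=
      ⟨_, norm_nonneg _, EssAux.norm_le_j j⟩
    refine ⟨1 / (K ^ 2 + 1), by positivity, fun z hz => ?_⟩
    rw [hre]
    have h1 := h z hz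
    have h2 := hK (Phi Q z - Phi Q p)
    have h3 : ‖z - p‖ ≤ ‖Phi Q z - Phi Q p‖ :=
      (pi_norm_le_iff_of_nonneg (norm_nonneg _)).2 fun i =>
        norm_le_pi_norm (Phi Q z - Phi Q p) (some i)
    rw [map_sub] at h2
    rw [← sub_add] at h1
    generalize j (Phi Q z) - j (Phi Q p) = u at h1 h2 ⊢
    have h4 := norm_add_sq_real u b
    have h5 : ‖u + b‖ ^ 2 ≤ ‖b‖ ^ 2 := pow_le_pow_left₀ (norm_nonneg _) h1 2
    have h6 : ‖z - p‖ ^ 2 ≤ (K * ‖u‖) ^ 2 := pow_le_pow_left₀ (norm_nonneg _) (h3.trans h2) 2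
    rw [one_div, inv_mul_le_iff₀ (by positivity)]
    have h7 : ‖u‖ ^ 2 ≤ -2 * inner ℝ u b := by linarith
    have h8 : (K ^ 2 + 1) * ‖u‖ ^ 2 ≤ (K ^ 2 + 1) * (-2 * inner ℝ u b) :=
      mul_le_mul_of_nonneg_left h7 (by positivity)
    nlinarith [sq_nonneg ‖u‖]

/-- Sketch. Apply `S_Ess` with `S Q a = (fun z => ι.symm (ev π z)) '' Mx U j Q a`. Suppose every
`𝔮 ∈ Pr` has a nonzero `Q_𝔮 ∈ ℂ[t]` vanishing on `ι '' ZV 𝔮`; let `Q₁ = ∏ Q_𝔮 ≠ 0`, `z₀ ∈ U` with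
`Q₁ (ev π z₀) ≠ 0`, `Q = C λ * aeval π Q₁` with `λ` large. For every `a` in the unit ball (positive
measure) there is a farthest point `z` (`closure U` is compact and nonempty), and `Q z ≠ 0` because
`‖j (Phi Q z₀) - a‖ ≥ c ‖λ Q₁(..)‖ - 1 > ‖j‖ R + 1 ≥ ‖j (Phi Q z') - a‖` whenever `Q z' = 0`,
`z' ∈ closure U`. But for a.e. `a` the point lies over some `ZV 𝔮`, so `Q z = 0`: contradiction. -/
theorem Sel_pf (h : S_Ess) : S_Sel := by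
  classical
  intro N n m L U π ι j hU hne
  obtain ⟨Pr, hfin, hpr, hae, hlast⟩ := h m (EuclideanSpace ℝ (Fin L)) volume
    (MvPolynomial (Fin N) ℂ) (fun Q a => (fun z => ι.symm (ev π z)) '' Mx U j Q a)
  have key : ∃ 𝔮 ∈ Pr, ∀ Q₁ : MvPolynomial (Fin n) ℂ, (∀ ξ ∈ ZV 𝔮, eval (ι ξ) Q₁ = 0) → Q₁ = 0 := by
    by_contra h0
    have h1 : ∀ 𝔮 ∈ Pr, ∃ Q₁ : MvPolynomial (Fin n) ℂ, (∀ ξ ∈ ZV 𝔮, eval (ι ξ) Q₁ = 0) ∧ Q₁ ≠ 0 :=
      fun 𝔮 h𝔮 => by_contra fun h2 => h0 ⟨𝔮, h𝔮, fun Q₁ h3 => by_contra fun h4 => h2 ⟨Q₁, h3, h4⟩⟩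
    choose! f hf1 hf2 using h1
    have h2 : ∏ 𝔮 ∈ hfin.toFinset, f 𝔮 ≠ 0 :=
      Finset.prod_ne_zero_iff.2 fun 𝔮 h𝔮 => hf2 𝔮 ((Set.Finite.mem_toFinset _).1 h𝔮)
    have h3 : ∀ 𝔮 ∈ Pr, ∀ ξ ∈ ZV 𝔮, eval (ι ξ) (∏ 𝔮 ∈ hfin.toFinset, f 𝔮) = 0 := by
      intro 𝔮 h𝔮 ξ hξ
      rw [map_prod]
      exact Finset.prod_eq_zero ((Set.Finite.mem_toFinset _).2 h𝔮) (hf1 𝔮 h𝔮 ξ hξ)
    generalize ∏ 𝔮 ∈ hfin.toFinset, f 𝔮 = Q₁ at h2 h3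
    obtain ⟨z₀, hz₀, hQ₁⟩ := hne Q₁ h2
    obtain ⟨R, hR0, hR⟩ := hU.closure.exists_pos_norm_le
    obtain ⟨K', hK0', hK'⟩ : ∃ K : ℝ, 0 ≤ K ∧ ∀ w, ‖w‖ ≤ K * ‖j w‖ :=
      ⟨_, norm_nonneg _, EssAux.norm_le_j j⟩
    obtain ⟨K, hK0, hK⟩ : ∃ K : ℝ, 0 ≤ K ∧ ∀ w, ‖j w‖ ≤ K * ‖w‖ :=
      ⟨_, norm_nonneg _, (j : (Option (Fin N) → ℂ) →L[ℝ] EuclideanSpace ℝ (Fin L)).le_opNorm⟩
    obtain ⟨Q, hQ0, hQ⟩ : ∃ Q : MvPolynomial (Fin N) ℂ, K' * (K * R + 2) < ‖eval z₀ Q‖ ∧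
        ∀ z, eval (ev π z) Q₁ = 0 → eval z Q = 0 := by
      refine ⟨C (((K' * (K * R + 2) + 1 : ℝ) : ℂ) / eval (ev π z₀) Q₁) * aeval π Q₁, ?_,
        fun z hz => ?_⟩
      · rw [map_mul, eval_C, eval_aeval_ev, div_mul_cancel₀ _ hQ₁, Complex.norm_real,
          Real.norm_of_nonneg (by positivity)]
        exact lt_add_one _
      · rw [map_mul, eval_aeval_ev, hz, mul_zero]
    obtain ⟨a, ha1, ha2⟩ := (Measure.dense_of_ae (hae Q)).exists_mem_open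
      (isOpen_ball (x := (0 : EuclideanSpace ℝ (Fin L))) (ε := 1)) (nonempty_ball.2 one_pos)
    have hc : Continuous fun z => ‖j (Phi Q z) - a‖ :=
      ((j.continuous.comp (EssAux.differentiable_Phi Q).continuous).sub continuous_const).norm
    obtain ⟨z, hz1, hz2⟩ := hU.isCompact_closure.exists_isMaxOn ⟨z₀, subset_closure hz₀⟩
      hc.continuousOn
    obtain ⟨𝔮, h4, h5⟩ := ha1 _ ⟨z, ⟨hz1, fun z' hz' => hz2 hz'⟩, rfl⟩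
    have h6 := h3 𝔮 h4 _ h5
    rw [ι.apply_symm_apply] at h6
    have h7 : ‖Phi Q z‖ ≤ R := by
      refine (pi_norm_le_iff_of_nonneg hR0.le).2 fun o => ?_
      cases o with
      | none =>
        have : Phi Q z none = 0 := hQ z h6
        rw [this, norm_zero]
        exact hR0.le
      | some i => exact (norm_le_pi_norm z i).trans (hR z hz1)
    have h8 : ‖j (Phi Q z₀) - a‖ ≤ ‖j (Phi Q z) - a‖ := hz2 (subset_closure hz₀)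
    have h9 : ‖a‖ < 1 := mem_ball_zero_iff.1 ha2
    have h10 : ‖j (Phi Q z)‖ ≤ K * R := (hK _).trans (mul_le_mul_of_nonneg_left h7 hK0)
    have h11 := norm_sub_le (j (Phi Q z)) a
    have h12 := norm_sub_norm_le (j (Phi Q z₀)) a
    have h13 : ‖j (Phi Q z₀)‖ ≤ K * R + 2 := by linarith
    have h14 : ‖eval z₀ Q‖ ≤ ‖Phi Q z₀‖ := norm_le_pi_norm (Phi Q z₀) none
    have h15 := (hK' (Phi Q z₀)).trans (mul_le_mul_of_nonneg_left h13 hK0')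
    linarith
  obtain ⟨𝔮, h1, h2⟩ := key
  refine ⟨𝔮, hpr 𝔮 h1, h2, fun E hE => ?_⟩
  obtain ⟨Q, hQ⟩ := hlast 𝔮 h1 E hE
  refine ⟨Q, fun h3 => hQ ?_⟩
  filter_upwards [h3] with a ha
  rintro ξ ⟨z, hz, rfl⟩
  exact ha z hz

end Vale.Agent.P274
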