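import Vale.Agent.P274.Flow

open Set Filter Topology Metric MeasureTheory Asymptotics

namespace Vale.Agent.P274

namespace F2Aux

open NormedSpace

section Alg
variable {A : Type*} [NormedRing A] [NormedAlgebra ℂ A] [CompleteSpace A]

theorem exp_add' {x y : A} (h : Commute x y) : exp (x + y) = exp x * exp y :=
  exp_add_of_commute_of_mem_ball (𝕂 := ℂ) h
    ((expSeries_radius_eq_top ℂ A).symm ▸ edist_lt_top _ _)
    ((expSeries_radius_eq_top ℂ A).symm ▸ edist_lt_top _ _)

/-- Liouville for one-parameter groups. -/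
theorem rigid {P Q : A} {c C D : ℝ} (h : P + Complex.I • Q = (c : ℂ) • 1)
    (hP : ∀ t : ℝ, ‖exp ((t : ℂ) • P)‖ ≤ C) (hQ : ∀ t : ℝ, ‖exp ((t : ℂ) • Q)‖ ≤ D) :
    Q = (-Complex.I * c) • 1 := by
  set M : A := Q + (Complex.I * c) • 1 with hM
  have hI : Complex.I • M = -P := by
    rw [hM, smul_add, smul_smul, ← mul_assoc, Complex.I_mul_I, neg_one_mul, neg_smul, ← h]
    abel
  have hs : ∀ s : ℝ, ‖exp ((s : ℂ) • M)‖ ≤ D := fun s => by
    have e : (s : ℂ) • M = algebraMap ℂ A ((s * c : ℝ) * Complex.I) + (s : ℂ) • Q := by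
      rw [hM, smul_add, smul_smul, Algebra.algebraMap_eq_smul_one, add_comm]
      congr 2
      push_cast
      ring
    rw [e, exp_add' (Algebra.commutes _ _), ← algebraMap_exp_comm, ← Algebra.smul_def, norm_smul,
      ← Complex.exp_eq_exp_ℂ, Complex.norm_exp_ofReal_mul_I, one_mul]
    exact hQ s
  have hd : ∀ ζ : ℂ, HasDerivAt (fun u : ℂ => exp (u • M)) (exp (ζ • M) * M) ζ :=
    hasDerivAt_exp_smul_const M
  have hb : Bornology.IsBounded (range fun u : ℂ => exp (u • M)) := by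
    refine isBounded_iff_forall_norm_le.2 ⟨D * C, ?_⟩
    rintro _ ⟨ζ, rfl⟩
    have e : ζ • M = (ζ.re : ℂ) • M + ((-ζ.im : ℝ) : ℂ) • P := by
      conv_lhs => rw [← Complex.re_add_im ζ, add_smul, mul_smul, hI]
      simp
    have hc : Commute ((ζ.re : ℂ) • M) (((-ζ.im : ℝ) : ℂ) • P) := by
      rw [← neg_neg P, ← hI]
      exact (((Commute.refl M).smul_right _).neg_right.smul_right _).smul_left _
    show ‖exp (ζ • M)‖ ≤ _
    rw [e, exp_add' hc]
    exact (norm_mul_le _ _).trans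
      (mul_le_mul (hs _) (hP _) (norm_nonneg _) ((norm_nonneg _).trans (hQ 0)))
  obtain ⟨k, hk⟩ := Differentiable.exists_eq_const_of_bounded
    (fun ζ => (hd ζ).differentiableAt) hb
  have h0 := hd 0
  rw [hk, zero_smul, exp_zero, one_mul] at h0
  have : M = 0 := h0.unique (hasDerivAt_const _ _)
  rw [neg_mul, neg_smul]
  exact eq_neg_of_add_eq_zero_left this
end Alg

variable {E : Type*} [NormedAddCommGroup E] [NormedSpace ℂ E] [FiniteDimensional ℂ E]
  {B : Set E} {X Y : E → E} {φ ψ : ℝ → E → E}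

/-- A field commuting with `X` is invariant under the flow of `X`. -/
theorem ad_eq (hB : IsOpen B) (hb : Bornology.IsBounded B) (hX : DifferentiableOn ℂ X B)
    (hY : Cpl B Y) (h : Flow B X φ) (h0 : br B X Y = 0) (s : ℝ) :
    Ad B (φ s) (φ (-s)) Y = Y := by
  funext y
  have hd : ∀ t, HasDerivAt (fun s => Ad B (φ s) (φ (-s)) Y y) 0 t := fun t => by
    have := h.hasDerivAt_Ad hB hb hX hY.1 y t
    rw [h0] at this
    simpa [Ad] using this
  rw [is_const_of_deriv_eq_zero (fun t => (hd t).differentiableAt) (fun t => (hd t).deriv) s 0,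
    Ad_congr (g := fun x => x) (g' := fun x => x) hB (fun _ hx => hx) h.zero
      (by rw [neg_zero]; exact h.zero), Ad_id hY.2.1]

omit [FiniteDimensional ℂ E] in
theorem apply_flow (h : Flow B X φ) {s : ℝ} (hA : Ad B (φ s) (φ (-s)) Y = Y) {x : E}
    (hx : x ∈ B) : Y (φ s x) = fderiv ℂ (φ s) x (Y x) := by
  have e : φ (-s) (φ s x) = x := by rw [← h.add _ _ x hx, neg_add_cancel, h.zero x hx]
  conv_lhs => rw [← hA, Ad, indicator_of_mem (h.maps s hx), e]

theorem comm (hB : IsOpen B) (hY : DifferentiableOn ℂ Y B) (h : Flow B X φ) (k : Flow B Y ψ)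
    {s : ℝ} (hA : Ad B (φ s) (φ (-s)) Y = Y) (t : ℝ) {x : E} (hx : x ∈ B) :
    φ s (ψ t x) = ψ t (φ s x) := by
  have e : φ (-s) (φ s x) = x := by rw [← h.add _ _ x hx, neg_add_cancel, h.zero x hx]
  have f := k.ad hB (h.bihol hB s)
  rw [hA] at f
  have := f.unique hB hY k t (h.maps s hx)
  rwa [e] at this

/-- Lemma E: commuting complete fields with `X e + I • Y e = 0` vanish at `e`. -/
theorem lemE (hB : IsOpen B) (hb : Bornology.IsBounded B) (hX : Cpl B X) (hY : Cpl B Y)
    (h0 : br B X Y = 0) {e : E} (he : e ∈ B) (hW : X e + Complex.I • Y e = 0) :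
    X e = 0 ∧ Y e = 0 := by
  obtain ⟨φ, h⟩ := hX.2.2
  obtain ⟨ψ, k⟩ := hY.2.2
  have h0' : br B Y X = 0 := by
    funext x
    have := congrFun h0 x
    by_cases hx : x ∈ B
    · rw [br, indicator_of_mem hx] at this ⊢
      rw [← neg_sub, this, Pi.zero_apply, neg_zero]
    · rw [br, indicator_of_notMem hx]
      rfl
  have a1 := ad_eq hB hb hX.1 hY h h0
  have a2 := ad_eq hB hb hY.1 hX k h0'
  let f : ℝ → ℝ → E := fun s t => φ s (ψ t e)
  have fm : ∀ s t, f s t ∈ B := fun s t => h.maps s (k.maps t he)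
  have fW : ∀ s t, Y (f s t) = Complex.I • X (f s t) := fun s t => by
    have b1 : X (ψ t e) + Complex.I • Y (ψ t e) = 0 := by
      rw [apply_flow k (a2 t) he, apply_flow k (k.ad_self hB hY.2.1 t) he, ← map_smul, ← map_add,
        hW, map_zero]
    have b2 : X (f s t) + Complex.I • Y (f s t) = 0 := by
      rw [apply_flow h (a1 s) (k.maps t he), apply_flow h (h.ad_self hB hX.2.1 s) (k.maps t he),
        ← map_smul, ← map_add, b1, map_zero]
    rw [eq_neg_of_add_eq_zero_left b2, smul_neg, smul_smul, Complex.I_mul_I, neg_smul, one_smul,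
      neg_neg]
  have fc : Continuous fun p : ℝ × ℝ => f p.1 p.2 :=
    (h.continuousOn hB hb).comp_continuous (f := fun p : ℝ × ℝ => (p.1, ψ p.2 e))
      (continuous_fst.prodMk ((continuous_iff_continuousAt.2 fun t =>
        (k.deriv e he t).continuousAt).comp continuous_snd))
      fun p => ⟨mem_univ _, k.maps _ he⟩
  have Xc : Continuous fun p : ℝ × ℝ => X (f p.1 p.2) :=
    hX.1.continuousOn.comp_continuous fc fun p => fm _ _
  have d1 : ∀ s t, HasDerivAt (fun s => f s t) (X (f s t)) s := fun s t =>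
    h.deriv _ (k.maps t he) s
  have d2 : ∀ s t, HasDerivAt (fun t => f s t) (Complex.I • X (f s t)) t := fun s t => by
    have := k.deriv _ (h.maps s he) t
    simp only [← comm hB hY.1 h k (a1 s) _ he] at this
    rw [← fW]
    exact this
  have hd : ∀ ζ : ℂ, HasDerivAt (fun ζ : ℂ => f ζ.re ζ.im) (X (f ζ.re ζ.im)) ζ := fun ζ => by
    have := (hasStrictFDerivAt_uncurry_coprod (𝕜 := ℝ) (u := (ζ.re, ζ.im)) (f := f)
      (f₁ := fun s t => ContinuousLinearMap.toSpanSingleton ℝ (X (f s t)))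
      (f₂ := fun s t => ContinuousLinearMap.toSpanSingleton ℝ (Complex.I • X (f s t)))
      (Eventually.of_forall fun v => (d1 v.1 v.2).hasFDerivAt)
      (Eventually.of_forall fun v => (d2 v.1 v.2).hasFDerivAt)
      ((ContinuousLinearMap.toSpanSingletonCLE.continuous.comp Xc).continuousAt)
      ((ContinuousLinearMap.toSpanSingletonCLE.continuous.comp
        (Xc.const_smul Complex.I)).continuousAt)).hasFDerivAt.comp ζ
          Complex.equivRealProdCLM.hasFDerivAt
    refine hasDerivAt_iff_hasFDerivAt.2 (hasFDerivAt_of_restrictScalars ℝ this ?_)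
    refine ContinuousLinearMap.ext fun z => ?_
    show z • X (f ζ.re ζ.im) = z.re • X (f ζ.re ζ.im) + z.im • Complex.I • X (f ζ.re ζ.im)
    conv_lhs => rw [← Complex.re_add_im z, add_smul, mul_smul, Complex.coe_smul, Complex.coe_smul]
  obtain ⟨c, hc⟩ := Differentiable.exists_eq_const_of_bounded (fun ζ => (hd ζ).differentiableAt)
    (hb.subset (by rintro _ ⟨ζ, rfl⟩; exact fm _ _))
  have h1 := hd 0
  have f0 : f 0 0 = e := by
    show φ 0 (ψ 0 e) = e
    rw [k.zero e he, h.zero e he]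
  rw [hc, Complex.zero_re, Complex.zero_im, f0] at h1
  have h2 : X e = 0 := h1.unique (hasDerivAt_const _ _)
  have h3 := fW 0 0
  rw [f0, h2, smul_zero] at h3
  exact ⟨h2, h3⟩

end F2Aux

/-- Sketch. First clause: `M = fderiv Y e + (I c) • id`; `exp (s • M) = exp (I c s) • exp (s • fderiv Y e)` is
bounded for real `s`, and `I • M = - fderiv X e`, so `exp ((s + I t) • M) = exp (s • M) * exp (t • I • M)`
is a bounded entire function of `ζ = s + I t` (`S_Iso`), constant by Liouville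
(`Differentiable.apply_eq_apply_of_bounded`), so its derivative `M` vanishes.
Second clause: with `W = X + I • Y`, `fderiv X x (W x) - fderiv W x (X x) = -I • br B X Y x` near `e`, so by
`S_Jet` the complete field `br B X Y` has zero 1-jet at `e` and vanishes (`S_Iso`). Then (lemma E) with
flows `φ` of `X`, `ψ` of `Y`: `Ad (φ s) Y = Y` (`Flow.hasDerivAt_Ad`, zero derivative) so the flows commute
(`Flow.ad`, `Flow.unique`), likewise `Ad (ψ t) X = X`, and with `Flow.ad_self` the field `W` is invariant,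
so it vanishes at `y = f ζ`, `f ζ = φ ζ.re (ψ ζ.im e)`: `Y y = I • X y`. Now
`f (ζ₀ + ζ) = φ ζ.re (ψ ζ.im y₀) = y₀ + ζ.re • X y₀ + ζ.im • Y y₀ + o(ζ) = y₀ + ζ • X y₀ + o(ζ)`
(`Flow.quot`), so `f` is entire and bounded, constant, `X e = 0 = Y e`. The first clause with `c = 0` and
`S_Iso` finish. -/
theorem F2_pf (h1 : S_Iso) (h2 : S_Jet) : S_F2 := by
  intro E _ _ _ B hB hc hb hbr e he X Y hX hY
  obtain ⟨i1, i2, -⟩ := h1 E B hB hc hb e he
  obtain ⟨j1, j2, -⟩ := h2 E e
  have first : ∀ c : ℝ, X e = 0 → Y e = 0 →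
      fderiv ℂ X e + Complex.I • fderiv ℂ Y e = (c : ℂ) • ContinuousLinearMap.id ℂ E →
      fderiv ℂ Y e = (-Complex.I * c) • ContinuousLinearMap.id ℂ E := fun c x0 y0 h => by
    obtain ⟨φ, hφ⟩ := hX.2.2
    obtain ⟨ψ, hψ⟩ := hY.2.2
    obtain ⟨C, hC⟩ := (i1 X φ hX.1 hφ x0).2
    obtain ⟨D, hD⟩ := (i1 Y ψ hY.1 hψ y0).2
    exact F2Aux.rigid h hC hD
  refine ⟨first, fun hW => ?_⟩
  have aX := analyticOnNhd_of_differentiableOn hB hX.1
  have aY := analyticOnNhd_of_differentiableOn hB hY.1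
  have aW : AnalyticAt ℂ (fun x => X x + Complex.I • Y x) e :=
    (aX e he).fun_add ((aY e he).fun_const_smul)
  have dW : ∀ x ∈ B, fderiv ℂ (fun x => X x + Complex.I • Y x) x =
      fderiv ℂ X x + Complex.I • fderiv ℂ Y x := fun x hx =>
    ((aX x hx).differentiableAt.hasFDerivAt.fun_add
      ((aY x hx).differentiableAt.hasFDerivAt.fun_const_smul Complex.I)).fderiv
  have hZ := hbr X Y hX hY
  have b1 : br B X Y =O[𝓝 e] fun x => ‖x - e‖ ^ 2 := by
    refine ((j2 _ X aW (aX e he) hW).const_smul_left Complex.I).congr' ?_ EventuallyEq.rfl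
    filter_upwards [hB.mem_nhds he] with x hx
    rw [br, indicator_of_mem hx, Pi.smul_apply, dW x hx]
    simp only [map_add, map_smul, add_apply, smul_apply,
      add_sub_add_left_eq_sub, smul_sub, smul_smul, Complex.I_mul_I, neg_smul, one_smul]
    abel
  have b2 := (j1 _ (analyticOnNhd_of_differentiableOn hB hZ.1 e he)).2.1 b1
  have b3 := (j1 _ aW).2.1 (hW.trans (IsBigO.of_bound 1 (by
    filter_upwards [ball_mem_nhds e one_pos] with x hx
    rw [mem_ball, dist_eq_norm] at hx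
    rw [one_mul, norm_pow, norm_pow, norm_norm]
    exact pow_le_pow_of_le_one (norm_nonneg _) hx.le (by norm_num))))
  obtain ⟨x0, y0⟩ := F2Aux.lemE hB hb hX hY (i2 _ hZ b2.1 b2.2) he b3.1
  have b4 := b3.2
  rw [dW e he] at b4
  have b5 := first 0 x0 y0 (by rw [b4]; simp)
  rw [Complex.ofReal_zero, mul_zero, zero_smul] at b5
  rw [b5, smul_zero, add_zero] at b4
  exact ⟨i2 X hX x0 b4, i2 Y hY y0 b5⟩

end Vale.Agent.P274
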