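import Vale.Agent.P274.StC

open Set Filter Topology Metric

namespace Vale.Agent.P274

namespace FCAux

variable (W : Type) [NormedCommRing W] [NormedAlgebra ℝ W] {J : Type} [Fintype J] [DecidableEq J]
  (p : FormalMultilinearSeries ℝ (J → ℝ) ℝ)

/-- The series with the coefficients of `p` and values in the algebra. -/
noncomputable def qq : FormalMultilinearSeries ℝ (J → W) W := fun n =>
  ∑ σ : Fin n → J, p n (fun i => Pi.single (σ i) 1) •
    (ContinuousMultilinearMap.mkPiAlgebra ℝ (Fin n) W).compContinuousLinearMap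
      fun i => ContinuousLinearMap.proj (σ i)

theorem qq_apply (n : ℕ) (a : Fin n → J → W) :
    qq W p n a = ∑ σ : Fin n → J, p n (fun i => Pi.single (σ i) 1) • ∏ i, a i (σ i) := by
  simp [qq]

theorem expand (n : ℕ) (y : Fin n → J → ℝ) :
    p n y = ∑ σ : Fin n → J, p n (fun i => Pi.single (σ i) 1) * ∏ i, y i (σ i) := by
  have h : y = fun i => ∑ j, y i j • (Pi.single j 1 : J → ℝ) :=
    funext fun i => pi_eq_sum_univ' (y i)
  conv_lhs => rw [h, ContinuousMultilinearMap.map_sum]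
  refine Finset.sum_congr rfl fun σ _ => ?_
  rw [ContinuousMultilinearMap.map_smul_univ, smul_eq_mul, mul_comm]

theorem norm_qq (n : ℕ) : ‖qq W p n‖ ≤ max 1 ‖(1 : W)‖ * (Fintype.card J ^ n * ‖p n‖) := by
  refine ContinuousMultilinearMap.opNorm_le_bound (by positivity) fun a => ?_
  rw [qq_apply]
  refine (norm_sum_le _ _).trans ((Finset.sum_le_card_nsmul _ _
    (‖p n‖ * (max 1 ‖(1 : W)‖ * ∏ i, ‖a i‖)) fun σ _ => ?_).trans_eq ?_)
  · rw [norm_smul]
    refine mul_le_mul (((p n).le_opNorm _).trans_eq (by simp [Pi.norm_single])) ?_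
      (norm_nonneg _) (norm_nonneg _)
    refine ((ContinuousMultilinearMap.mkPiAlgebra ℝ (Fin n) W).le_opNorm fun i => a i (σ i)).trans
      (mul_le_mul ?_ (Finset.prod_le_prod (fun _ _ => norm_nonneg _) fun i _ =>
        norm_le_pi_norm _ _) (by positivity) (by positivity))
    rw [ContinuousMultilinearMap.mkPiAlgebra_eq_mkPiAlgebraFin]
    exact ContinuousMultilinearMap.norm_mkPiAlgebraFin_le
  · simp only [Finset.card_univ, Fintype.card_fun, Fintype.card_fin, nsmul_eq_mul, Nat.cast_pow]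
    ring

theorem radius_pos (h : 0 < p.radius) : 0 < (qq W p).radius := by
  obtain ⟨C, r, hC, hr, hp⟩ := p.le_mul_pow_of_radius_pos h
  have hs : (0 : ℝ) < ((Fintype.card J + 1) * r)⁻¹ := by positivity
  refine lt_of_lt_of_le (ENNReal.coe_pos.2 (show (0 : NNReal) < ⟨_, hs.le⟩ from hs))
    ((qq W p).le_radius_of_bound (max 1 ‖(1 : W)‖ * C) fun n => ?_)
  have h1 : (Fintype.card J : ℝ) ^ n * ‖p n‖ ≤ ((Fintype.card J + 1) * r) ^ n * C := by
    rw [mul_pow, mul_assoc, mul_comm (r ^ n)]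
    exact mul_le_mul (pow_le_pow_left₀ (by positivity) (by linarith) n) (hp n) (norm_nonneg _)
      (by positivity)
  change _ * ((Fintype.card J + 1) * r : ℝ)⁻¹ ^ n ≤ _
  rw [inv_pow, mul_inv_le_iff₀ (by positivity), mul_assoc, mul_comm C]
  exact (norm_qq W p n).trans (mul_le_mul_of_nonneg_left h1 (by positivity))

/-- The real part of a complex functional. -/
noncomputable def reF {n : ℕ} (lam : (Fin n → ℂ) →L[ℂ] ℂ) : (Fin n → ℂ) →ₗ[ℝ] ℝ :=
  Complex.reLm ∘ₗ (lam : (Fin n → ℂ) →ₗ[ℂ] ℂ).restrictScalars ℝ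

theorem indep {n d k : ℕ} {A : (Fin d → ℝ) →L[ℝ] (Fin n → ℂ)}
    {lam : Fin k → (Fin n → ℂ) →L[ℂ] ℂ}
    (h1 : ∀ μ : (Fin n → ℂ) →L[ℂ] ℂ, (∀ ξ, μ (A ξ) = 0) → μ = 0)
    (h2 : ∀ i ξ, (lam i (A ξ)).re = 0) (h3 : LinearIndependent ℝ fun i => reF (lam i))
    (c : Fin k → ℝ) (hc : ∀ ξ, ∑ i, c i * (lam i (A ξ)).im = 0) (i : Fin k) : c i = 0 := by
  have h4 := h1 (∑ i, (c i : ℂ) • lam i) fun ξ => by
    apply Complex.ext
    · simp [h2]
    · simpa using hc ξ
  refine Fintype.linearIndependent_iff.1 h3 c (LinearMap.ext fun v => ?_) i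
  have h5 := congrArg (fun μ : (Fin n → ℂ) →L[ℂ] ℂ => (μ v).re) h4
  simpa [reF] using h5

theorem surj {n d k : ℕ} {A : (Fin d → ℝ) →L[ℝ] (Fin n → ℂ)}
    {lam : Fin k → (Fin n → ℂ) →L[ℂ] ℂ}
    (h1 : ∀ μ : (Fin n → ℂ) →L[ℂ] ℂ, (∀ ξ, μ (A ξ) = 0) → μ = 0)
    (h2 : ∀ i ξ, (lam i (A ξ)).re = 0) (h3 : LinearIndependent ℝ fun i => reF (lam i)) :
    LinearMap.range (LinearMap.pi fun i => (lam i : (Fin n → ℂ) →ₗ[ℂ] ℂ)) = ⊤ := by
  by_contra h
  obtain ⟨g, hg, hle⟩ := Submodule.exists_le_ker_of_lt_top _ (lt_top_iff_ne_top.2 h)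
  have h4 : ∀ v, ∑ i, lam i v * g (Pi.single i 1) = 0 := fun v => by
    have h5 : g (fun i => lam i v) = 0 := hle ⟨v, rfl⟩
    rw [pi_eq_sum_univ' fun i => lam i v] at h5
    simpa using h5
  have h5 := indep h1 h2 h3 (fun i => (g (Pi.single i 1)).re) fun ξ => by
    simpa [h2, mul_comm] using congrArg Complex.im (h4 (A ξ))
  have h6 := indep h1 h2 h3 (fun i => (g (Pi.single i 1)).im) fun ξ => by
    simpa [h2, mul_comm] using congrArg Complex.re (h4 (A ξ))
  refine hg (LinearMap.ext fun y => ?_)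
  rw [pi_eq_sum_univ' y]
  simp [fun i => Complex.ext (w := 0) (h5 i) (h6 i)]

end FCAux

/-- Sketch. Let `p` be a power series of `f` at `0` on a ball of radius `r`. Define
`q n : ContinuousMultilinearMap ℝ (fun _ : Fin n => (J → W)) W` by
`q n a = ∑ σ : Fin n → J, p n (fun i => Pi.single (σ i) 1) • ∏ i, a i (σ i)` (from
`ContinuousMultilinearMap.mkPiAlgebra` and `compContinuousLinearMap` with projections), so
`‖q n‖ ≤ (card J)^n ‖p n‖ * max 1 ‖1‖`; positive radius (`FormalMultilinearSeries.le_radius_of_bound`),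
`F = q.sum`, `HasFPowerSeriesOnBall`. For a character `φ`, `φ (q n (a,…,a)) = p n (y,…,y)` with
`y = φ ∘ a` (multilinear expansion `y = ∑ y i • Pi.single i 1`, `ContinuousMultilinearMap.map_sum`,
`map_smul_univ`), `‖y‖ ≤ ‖a‖`; apply `HasSum.mapL` and uniqueness of sums. Same for `algebraMap`. The
derivative is `continuousMultilinearCurryFin1 (q 1)` (`HasFPowerSeriesAt.fderiv_eq`). -/
theorem FC_pf : S_FC := by
  intro W _ _ _ J _ _ f ⟨p, r, hf⟩
  have hq := (FCAux.qq W p).hasFPowerSeriesOnBall (FCAux.radius_pos W p hf.radius_pos)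
  refine ⟨(FCAux.qq W p).sum, hq.analyticAt, ?_, ?_, fun a => ?_⟩
  · filter_upwards [eball_mem_nhds 0 hq.r_pos, eball_mem_nhds 0 hf.r_pos] with a h1 h2 φ p1 p2 p3
    have h3 : (fun i => φ (a i)) ∈ eball (0 : J → ℝ) r := by
      rw [mem_eball, edist_zero_right] at h2 ⊢
      refine lt_of_le_of_lt (enorm_le_iff_norm_le.2 ?_) h2
      exact (pi_norm_le_iff_of_nonneg (norm_nonneg _)).2 fun i => (p3 _).trans (norm_le_pi_norm a i)
    have h4 := (hq.hasSum h1).mapL φ
    have h5 := hf.hasSum h3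
    rw [zero_add] at h4 h5
    refine h4.unique (h5.congr_fun fun n => ?_)
    rw [FCAux.qq_apply, FCAux.expand, map_sum]
    refine Finset.sum_congr rfl fun σ _ => ?_
    rw [map_smul, smul_eq_mul]
    exact congrArg _ (map_prod (⟨⟨φ, p1⟩, p2⟩ : W →* ℝ) _ _)
  · have hc : Tendsto (fun (y : J → ℝ) i => algebraMap ℝ W (y i)) (𝓝 0) (𝓝 0) :=
      Continuous.tendsto' (by fun_prop) _ _ (by funext i; simp)
    filter_upwards [hc.eventually (eball_mem_nhds 0 hq.r_pos), eball_mem_nhds 0 hf.r_pos]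
      with y h1 h2
    have h4 := hq.hasSum h1
    have h5 := (hf.hasSum h2).mapL (algebraMapCLM ℝ W)
    rw [zero_add] at h4 h5
    refine h4.unique (h5.congr_fun fun n => ?_)
    rw [FCAux.qq_apply, FCAux.expand]
    simp [Algebra.smul_def]
  · rw [hq.hasFPowerSeriesAt.fderiv_eq, hf.hasFPowerSeriesAt.fderiv_eq]
    simp only [continuousMultilinearCurryFin1_apply]
    rw [FCAux.qq_apply]
    refine Fintype.sum_equiv (Equiv.funUnique (Fin 1) J) _ _ fun σ => ?_
    rw [Fin.prod_univ_one]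
    congr 2
    funext i
    obtain rfl := Subsingleton.elim i 0
    rfl

/-- Sketch. Let `S` be the set of real covectors `v ↦ (lam v).re`, `lam ∈ Λ`. Choose a basis of its span
inside `S` (`exists_linearIndependent`, finite), indexed by `Fin k`, coming from `lam i ∈ Λ`. Then
`v ∈ range A ↔ ∀ i, (lam i v).re = 0`, and `v ↦ (re (lam i v))_i` is onto `Fin k → ℝ` (independent
functionals). The complex linear `Λ₀ v = (lam i v)_i` is onto: by the first hypothesis the complex span of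
`range A` is everything (`Submodule.exists_le_ker_of_lt_top` or duality), i.e. every `v = A ξ + I • A ξ'`;
`Λ₀ (A ξ)` is purely imaginary, so for real `a` there is `ξ'` with `Λ₀ (I • A ξ') = ofR a`, and complex
linearity gives surjectivity. Let `l = finrank (ker Λ₀) = n - k`, `κ` a projection onto `ker Λ₀` composed with
an isomorphism to `Fin l → ℂ`; `L = (Λ₀, κ)` is injective, so bijective. -/
theorem Lin_pf : S_Lin := by
  intro n d A Λ h1 h2 h3
  obtain ⟨κ, a, -, hsp, hli⟩ := exists_linearIndependent' ℝ fun μ : Λ => FCAux.reF μ.1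
  have := hli.finite_of_isNoetherian
  set e := (Finite.equivFin κ).symm
  set k := Nat.card κ
  let lam : Fin k → (Fin n → ℂ) →L[ℂ] ℂ := fun i => (a (e i)).1
  have hm : ∀ i, lam i ∈ Λ := fun i => (a (e i)).2
  have hs := FCAux.surj h1 (fun i => h2 _ (hm i)) (hli.comp e e.injective)
  set Λ₀ := LinearMap.pi fun i => (lam i : (Fin n → ℂ) →ₗ[ℂ] ℂ)
  obtain ⟨g, hg⟩ := LinearMap.exists_leftInverse_of_injective _ (LinearMap.ker Λ₀).ker_subtype
  have hd := Λ₀.finrank_range_add_finrank_ker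
  rw [hs, finrank_top, Module.finrank_fin_fun, Module.finrank_fin_fun] at hd
  let b := (Module.finBasis ℂ (LinearMap.ker Λ₀)).equivFun
  have hi : Function.Injective (Λ₀.prod (b.toLinearMap ∘ₗ g)) := by
    refine (injective_iff_map_eq_zero _).2 fun v hv => ?_
    have h4 : g v = 0 := b.map_eq_zero_iff.1 (congrArg Prod.snd hv)
    have h5 := LinearMap.congr_fun hg ⟨v, congrArg Prod.fst hv⟩
    exact congrArg Subtype.val (h5.symm.trans h4)
  refine ⟨k, _, lam, (LinearMap.linearEquivOfInjective _ hi (by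
    rw [Module.finrank_prod, Module.finrank_fin_fun, Module.finrank_fin_fun,
      Module.finrank_fin_fun, hd])).toContinuousLinearEquiv, hd, hm, fun _ _ => rfl,
    fun v => ⟨?_, fun hv => h3 v fun μ hμ => ?_⟩⟩
  · rintro ⟨ξ, rfl⟩
    exact funext fun i => h2 _ (hm i) ξ
  · have h4 : FCAux.reF μ ∈ Submodule.span ℝ (range ((fun μ : Λ => FCAux.reF μ.1) ∘ a)) :=
      hsp ▸ Submodule.subset_span ⟨⟨μ, hμ⟩, rfl⟩
    have h5 : Submodule.span ℝ (range ((fun μ : Λ => FCAux.reF μ.1) ∘ a)) ≤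
        LinearMap.ker (LinearMap.applyₗ v) := by
      rw [Submodule.span_le]
      rintro _ ⟨j, rfl⟩
      obtain ⟨i, rfl⟩ := e.surjective j
      exact congrFun hv i
    exact h5 h4

end Vale.Agent.P274
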