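import Vale.Agent.P274.Main

/-! Reduction of the theorem, as stated with group actions on the subtype, to its internal form. -/

open Set Filter Topology Metric

namespace Vale.Agent.P274

open Classical in
/-- Extension by the identity of a self-map of `U`. -/
noncomputable def extU {N : ℕ} {U : Set (Fin N → ℂ)} (f : U → U) (z : Fin N → ℂ) : Fin N → ℂ :=
  if h : z ∈ U then (f ⟨z, h⟩ : Fin N → ℂ) else z

theorem extU_apply {N : ℕ} {U : Set (Fin N → ℂ)} (f : U → U) {z : Fin N → ℂ} (h : z ∈ U) :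
    extU f z = f ⟨z, h⟩ := dif_pos h

theorem HolSub.holOn {N M : ℕ} {A : Set (Fin N → ℂ)} {f : A → (Fin M → ℂ)} (h : HolSub f)
    {F : (Fin N → ℂ) → (Fin M → ℂ)} (hF : ∀ x : A, F x = f x) : HolOn A F := by
  intro x hx
  obtain ⟨V, hV, hxV, g, hg, he⟩ := h ⟨x, hx⟩
  refine ⟨g, analyticOnNhd_of_differentiableOn hV hg x hxV, ?_⟩
  filter_upwards [self_mem_nhdsWithin, mem_nhdsWithin_of_mem_nhds (hV.mem_nhds hxV)] with y h1 h2
  rw [hF ⟨y, h1⟩, he ⟨y, h1⟩ h2]

theorem HolOn.holSub {N M : ℕ} {A : Set (Fin N → ℂ)} {F : (Fin N → ℂ) → (Fin M → ℂ)}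
    (h : HolOn A F) : HolSub (fun x : A => F x) := by
  intro x
  obtain ⟨g, hg, he⟩ := h x x.2
  obtain ⟨V, hV, hVo, hxV⟩ := _root_.eventually_nhds_iff.1
    (hg.eventually_analyticAt.and (eventually_nhdsWithin_iff.1 he))
  exact ⟨V, hVo, hxV, g, fun y hy => (hV y hy).1.differentiableAt.differentiableWithinAt,
    fun y hy => (hV y hy).2 y.2⟩

theorem exists_compact_of_quotient {Γ X : Type*} [Group Γ] [TopologicalSpace X]
    [WeaklyLocallyCompactSpace X] [MulAction Γ X] [ContinuousConstSMul Γ X]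
    [CompactSpace (Quotient (MulAction.orbitRel Γ X))] :
    ∃ K : Set X, IsCompact K ∧ ∀ x, ∃ γ : Γ, γ • x ∈ K := by
  choose C hC hC' using fun x : X => exists_compact_mem_nhds x
  have hopen : IsOpenMap (Quotient.mk (MulAction.orbitRel Γ X)) := isOpenMap_quotient_mk'_mul
  obtain ⟨t, ht⟩ := isCompact_univ.elim_finite_subcover
    (fun x : X => Quotient.mk (MulAction.orbitRel Γ X) '' interior (C x))
    (fun x => hopen _ isOpen_interior) (by
      intro q _
      obtain ⟨x, rfl⟩ := Quotient.exists_rep q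
      exact mem_iUnion.2 ⟨x, x, mem_interior_iff_mem_nhds.2 (hC' x), rfl⟩)
  refine ⟨⋃ x ∈ t, C x, t.isCompact_biUnion fun x _ => hC x, fun y => ?_⟩
  obtain ⟨x, hx, z, hz, hq⟩ := mem_iUnion₂.1 (ht (mem_univ (Quotient.mk _ y)))
  obtain ⟨γ, hγ⟩ : z ∈ MulAction.orbit Γ y := MulAction.orbitRel_apply.1 (Quotient.exact hq)
  exact ⟨γ, mem_iUnion₂.2 ⟨x, hx, by rw [show γ • y = z from hγ]; exact interior_subset hz⟩⟩

theorem final {N : ℕ} (Z U : Set (Fin N → ℂ)) (hZ : IsVariety Z)
    (hUZ : ∃ O : Set (Fin N → ℂ), IsOpen O ∧ U = Z ∩ O) (hc : IsConnected U) (hS : Semialg U)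
    (hb : Bornology.IsBounded U) (Γ : Type*) [Group Γ] [MulAction Γ U]
    (hhol : ∀ γ : Γ, HolSub (fun x : U => ((γ • x : U) : Fin N → ℂ)))
    (hpd : ProperlyDiscontinuousSMul Γ U)
    (hcpt : CompactSpace (Quotient (MulAction.orbitRel Γ U))) :
    ∃ (k : ℕ) (D : Set (Fin k → ℂ)), IsBSD D ∧ ∃ e : U ≃ D,
      HolSub (fun x : U => ((e x : D) : Fin k → ℂ)) ∧
      HolSub (fun y : D => ((e.symm y : U) : Fin N → ℂ)) := by
  obtain ⟨S, rfl⟩ := hZ
  obtain ⟨O, hO, hU⟩ := hUZ
  have hZV : {z : Fin N → ℂ | ∀ P ∈ S, MvPolynomial.eval z P = 0} = ZV (Ideal.span S) := by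
    ext z
    refine ⟨fun h g hg => ?_, fun h P hP => h P (Ideal.subset_span hP)⟩
    exact (Ideal.span_le (I := RingHom.ker (MvPolynomial.eval z))).2 h hg
  rw [hZV] at hU
  have hlc : IsLocallyClosed U := hU ▸ (isClosed_ZV _).isLocallyClosed.inter hO.isLocallyClosed
  have hhol' : ∀ γ : Γ, HolOn U (extU fun x : U => γ • x) := fun γ =>
    (hhol γ).holOn fun x => extU_apply _ x.2
  have hcs : ContinuousConstSMul Γ U := ⟨fun γ => by
    refine continuous_induced_rng.2 ?_
    have := continuousOn_iff_continuous_restrict.1 (hhol' γ).continuousOn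
    refine this.congr fun x => ?_
    exact extU_apply _ x.2⟩
  have hlcs : LocallyCompactSpace U := hlc.locallyCompactSpace
  obtain ⟨K, hK, hKc⟩ := exists_compact_of_quotient (Γ := Γ) (X := U)
  let Γ' : Type := (MulAction.toPermHom Γ U).range
  let act : Γ' → (Fin N → ℂ) → (Fin N → ℂ) := fun g => extU g.1
  have hact : ∀ γ : Γ, act ((MulAction.toPermHom Γ U).rangeRestrict γ) =
      extU fun x : U => γ • x := fun γ => rfl
  have hsurj := (MulAction.toPermHom Γ U).rangeRestrict_surjective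
  have hD : Div U act :=
    { maps := fun g z hz => by
        simp only [act]; rw [extU_apply _ hz]; exact Subtype.property _
      hol := fun g => by
        obtain ⟨γ, rfl⟩ := hsurj g
        exact hhol' γ
      one := fun x hx => by simp only [act]; rw [extU_apply _ hx]; rfl
      mul := fun g g' x hx => by
        simp only [act]
        rw [extU_apply _ hx, extU_apply _ hx, extU_apply _ (Subtype.property _)]
        rfl
      proper := fun K₁ K₂ h1 h1U h2 h2U => by
        have c1 : IsCompact (Subtype.val ⁻¹' K₁ : Set U) :=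
          Topology.IsInducing.subtypeVal.isCompact_preimage' h1 (by simpa using h1U)
        have c2 : IsCompact (Subtype.val ⁻¹' K₂ : Set U) :=
          Topology.IsInducing.subtypeVal.isCompact_preimage' h2 (by simpa using h2U)
        refine ((hpd.finite_disjoint_inter_image c1 c2).image
          (MulAction.toPermHom Γ U).rangeRestrict).subset ?_
        rintro g ⟨x, hx, hg⟩
        obtain ⟨γ, rfl⟩ := hsurj g
        refine ⟨γ, ?_, rfl⟩
        rw [hact, extU_apply _ (h1U hx)] at hg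
        exact ⟨γ • ⟨x, h1U hx⟩, ⟨⟨x, h1U hx⟩, hx, rfl⟩, hg⟩
      cocompact := ⟨Subtype.val '' K, hK.image continuous_subtype_val, Subtype.coe_image_subset _ _,
        fun x hx => by
          obtain ⟨γ, hγ⟩ := hKc ⟨x, hx⟩
          exact ⟨_, by rw [hact γ, extU_apply _ hx]; exact ⟨_, hγ, rfl⟩⟩⟩
      bdd := hb
      lc := hlc
      conn := hc }
  obtain ⟨n, D, ψ, θ, hBSD, hB⟩ := Main_pf N Γ' U act hD ⟨_, O, hO, hU⟩ hS
  exact ⟨n, D, hBSD,
    { toFun := fun x => ⟨ψ x, hB.maps x.2⟩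
      invFun := fun y => ⟨θ y, hB.maps' y.2⟩
      left_inv := fun x => Subtype.ext (hB.left x x.2)
      right_inv := fun y => Subtype.ext (hB.right y y.2) }, hB.hol.holSub, hB.hol'.holSub⟩

end Vale.Agent.P274
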