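import Vale.Agent.P274.SCV1

/-! Several complex variables, part 2: Hurwitz, Harnack, stability of local inverses, and their
versions on sets with charts. -/

open Set Filter Topology Metric

namespace Vale.Agent.P274

namespace SCV2Aux

open scoped ComplexConjugate
open Complex

theorem pos_harnack {k : ℂ → ℂ} {c a : ℂ} {R : ℝ} (hk : DifferentiableOn ℂ k (ball c R))
    (hp : ∀ z ∈ ball c R, 0 < (k z).re) (ha : a ∈ ball c R) :
    (1 - ‖a - c‖ ^ 2 / R ^ 2) * ((k a).re + (k c).re) ^ 2 ≤ 4 * (k a).re * (k c).re := by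
  have hR : 0 < R := nonempty_ball.mp ⟨_, ha⟩
  have hc : c ∈ ball c R := mem_ball_self hR
  have hden : ∀ z ∈ ball c R, k z + conj (k c) ≠ 0 := by
    intro z hz h
    have := congrArg Complex.re h
    simp only [add_re, conj_re, zero_re] at this
    linarith [hp z hz, hp c hc]
  have hsq : ∀ z, ‖k z + conj (k c)‖ ^ 2 = ‖k z - k c‖ ^ 2 + 4 * (k z).re * (k c).re := by
    intro z
    rw [Complex.sq_norm, Complex.sq_norm, normSq_apply, normSq_apply]
    simp only [add_re, conj_re, add_im, conj_im, sub_re, sub_im]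
    ring
  set q : ℂ → ℂ := fun z => (k z - k c) / (k z + conj (k c)) with hq
  have hqd : DifferentiableOn ℂ q (ball c R) :=
    (hk.sub_const _).div (hk.add_const _) hden
  have hq0 : q c = 0 := by simp [hq]
  have hmaps : Set.MapsTo q (ball c R) (closedBall (q c) 1) := by
    intro z hz
    rw [hq0, mem_closedBall_zero_iff, hq]
    simp only [norm_div]
    rw [div_le_one (norm_pos_iff.mpr (hden z hz))]
    have h1 := hsq z
    have h2 := mul_pos (hp z hz) (hp c hc)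
    exact le_of_sq_le_sq (by nlinarith) (norm_nonneg _)
  have hS := Complex.dist_le_div_mul_dist_of_mapsTo_ball hqd hmaps ha
  rw [hq0, dist_zero_right, dist_eq_norm, hq] at hS
  simp only [norm_div] at hS
  have hdpos := norm_pos_iff.mpr (hden a ha)
  rw [div_le_iff₀ hdpos] at hS
  have hS2 : ‖k a - k c‖ ^ 2 ≤ ‖a - c‖ ^ 2 / R ^ 2 * ‖k a + conj (k c)‖ ^ 2 := by
    calc ‖k a - k c‖ ^ 2 ≤ (1 / R * ‖a - c‖ * ‖k a + conj (k c)‖) ^ 2 :=
          pow_le_pow_left₀ (norm_nonneg _) hS 2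
      _ = _ := by field_simp
  have hlow : ((k a).re + (k c).re) ^ 2 ≤ ‖k a + conj (k c)‖ ^ 2 := by
    have h1 : |(k a + conj (k c)).re| ≤ ‖k a + conj (k c)‖ := abs_re_le_norm _
    simp only [add_re, conj_re] at h1
    rw [← sq_abs]
    exact pow_le_pow_left₀ (abs_nonneg _) h1 2
  have hκ : 0 ≤ 1 - ‖a - c‖ ^ 2 / R ^ 2 := by
    rw [mem_ball, dist_eq_norm] at ha
    rw [sub_nonneg, div_le_one (by positivity)]
    exact pow_le_pow_left₀ (norm_nonneg _) ha.le 2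
  have h1 := hsq a
  have h2 := mul_le_mul_of_nonneg_left hlow hκ
  nlinarith

theorem aux_ineq {t x y : ℝ} (ht : 0 ≤ t) (hx : 0 < x) (hy : 0 < y)
    (h : t * (x + y) ^ 2 ≤ 4 * x * y) : t * x ≤ 4 * y := by
  have h1 : t * x * x ≤ 4 * y * x := by
    have : t * (x * x) ≤ t * (x + y) ^ 2 := mul_le_mul_of_nonneg_left (by nlinarith) ht
    nlinarith
  exact le_of_mul_le_mul_right h1 hx

theorem harnack {f : ℂ → ℂ} {c a : ℂ} {R M : ℝ} (hf : DifferentiableOn ℂ f (Metric.ball c R))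
    (h0 : ∀ z ∈ Metric.ball c R, f z ≠ 0) (hM : ∀ z ∈ Metric.ball c R, Real.log ‖f z‖ ≤ M)
    (ha : a ∈ Metric.ball c R) :
    (1 - ‖a - c‖ ^ 2 / R ^ 2) * (M - Real.log ‖f a‖) ≤ 4 * (M - Real.log ‖f c‖) ∧
      (1 - ‖a - c‖ ^ 2 / R ^ 2) * (M - Real.log ‖f c‖) ≤ 4 * (M - Real.log ‖f a‖) := by
  have hR : 0 < R := Metric.nonempty_ball.mp ⟨_, ha⟩
  have hc : c ∈ Metric.ball c R := Metric.mem_ball_self hR
  have hh : InnerProductSpace.HarmonicOnNhd (fun z => Real.log ‖f z‖) (Metric.ball c R) :=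
    fun z hz => (hf.analyticOnNhd Metric.isOpen_ball z hz).harmonicAt_log_norm (h0 z hz)
  obtain ⟨h, h1, h2⟩ := hh.exists_analyticOnNhd_ball_re_eq
  have hκ : 0 ≤ 1 - ‖a - c‖ ^ 2 / R ^ 2 := by
    rw [Metric.mem_ball, dist_eq_norm] at ha
    rw [sub_nonneg, div_le_one (by positivity)]
    exact pow_le_pow_left₀ (norm_nonneg _) ha.le 2
  have key : ∀ ε : ℝ, 0 < ε →
      (1 - ‖a - c‖ ^ 2 / R ^ 2) * (M + ε - Real.log ‖f a‖) ≤ 4 * (M + ε - Real.log ‖f c‖) ∧
      (1 - ‖a - c‖ ^ 2 / R ^ 2) * (M + ε - Real.log ‖f c‖) ≤ 4 * (M + ε - Real.log ‖f a‖) := by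
    intro ε hε
    have hre : ∀ z ∈ Metric.ball c R, (((M + ε : ℝ) : ℂ) - h z).re = M + ε - Real.log ‖f z‖ := by
      intro z hz
      have := h2 hz
      simp only at this
      rw [sub_re, ofReal_re, this]
    have hp : ∀ z ∈ Metric.ball c R, 0 < (((M + ε : ℝ) : ℂ) - h z).re := by
      intro z hz
      rw [hre z hz]
      linarith [hM z hz]
    have := pos_harnack (k := fun z => ((M + ε : ℝ) : ℂ) - h z)
      (h1.differentiableOn.const_sub _) hp ha
    have pa := hp a ha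
    have pc := hp c hc
    simp only [hre a ha, hre c hc] at this pa pc
    refine ⟨aux_ineq hκ pa pc this, aux_ineq hκ pc pa ?_⟩
    rw [add_comm (M + ε - Real.log ‖f c‖)]
    linarith
  constructor
  · refine le_of_forall_pos_le_add fun ε hε => ?_
    have := (key (ε / 4) (by positivity)).1
    have h3 : 0 ≤ (1 - ‖a - c‖ ^ 2 / R ^ 2) * (ε / 4) := by positivity
    nlinarith
  · refine le_of_forall_pos_le_add fun ε hε => ?_
    have := (key (ε / 4) (by positivity)).2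
    have h3 : 0 ≤ (1 - ‖a - c‖ ^ 2 / R ^ 2) * (ε / 4) := by positivity
    nlinarith

theorem le_rpow_of_log {u v κ : ℝ} (hu : 0 < u) (hv : 0 < v) (hv1 : v ≤ 1) (hκ : 3 / 4 ≤ κ)
    (h : κ * (0 - Real.log v) ≤ 4 * (0 - Real.log u)) : u ≤ v ^ (3 / 16 : ℝ) := by
  rw [← Real.log_le_log_iff hu (Real.rpow_pos_of_pos hv _), Real.log_rpow hv]
  have := Real.log_nonpos hv.le hv1
  nlinarith

theorem rpow_le_of_le {a u : ℝ} (ha : 0 < a) (hu : 0 ≤ u) (h : a ≤ u ^ (3 / 16 : ℝ)) :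
    a ^ (16 / 3 : ℝ) ≤ u := by
  have h1 := Real.rpow_le_rpow ha.le h (by norm_num : (0 : ℝ) ≤ 16 / 3)
  rwa [← Real.rpow_mul hu, show (3 / 16 * (16 / 3) : ℝ) = 1 by norm_num, Real.rpow_one] at h1

theorem chart {E E' : Type*} [NormedAddCommGroup E] [NormedSpace ℂ E] [FiniteDimensional ℂ E]
    [NormedAddCommGroup E'] [NormedSpace ℂ E'] {U O : Set E} {x : E} (h : Reg E' U x)
    (hO : O ∈ 𝓝 x) : ∃ (G : E' → E) (χ : E → E') (r : ℝ), 0 < r ∧ AnalyticAt ℂ χ x ∧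
      G (χ x) = x ∧ AnalyticOnNhd ℂ G (ball (χ x) r) ∧ MapsTo G (ball (χ x) r) (U ∩ O) ∧
      Tendsto χ (𝓝[U] x) (𝓝 (χ x)) ∧ ∀ᶠ y in 𝓝[U] x, G (χ y) = y := by
  have : CompleteSpace E := FiniteDimensional.complete ℂ E
  obtain ⟨G, χ, h1, h2, h3, h4, h5⟩ := h
  have h6 : ∀ᶠ t in 𝓝 (χ x), G t ∈ O := h1.continuousAt.eventually_mem (h3.symm ▸ hO)
  obtain ⟨r, hr, hb⟩ := Metric.eventually_nhds_iff_ball.1
    (h1.eventually_analyticAt.and (h4.and h6))
  exact ⟨G, χ, r, hr, h2, h3, fun t ht => (hb t ht).1,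
    fun t ht => ⟨(hb t ht).2.1.1, (hb t ht).2.2⟩,
    h2.continuousAt.tendsto.mono_left nhdsWithin_le_nhds, h5⟩

end SCV2Aux

variable {E E' F : Type*} [NormedAddCommGroup E] [NormedSpace ℂ E] [FiniteDimensional ℂ E]
  [NormedAddCommGroup E'] [NormedSpace ℂ E'] [FiniteDimensional ℂ E']
  [NormedAddCommGroup F] [NormedSpace ℂ F] [CompleteSpace F]

/-- One-variable Harnack inequality for `log ‖f‖`. The proof can be copied from
`Vale/Agent/P250/Harn.lean` (theorems `Harn.pos_harnack` and `harnack`; copy, do not import). -/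
theorem harnack_disc {f : ℂ → ℂ} {c a : ℂ} {R : ℝ} (hf : DifferentiableOn ℂ f (ball c R))
    (h : ∀ z ∈ ball c R, f z ≠ 0 ∧ ‖f z‖ ≤ 1) (ha : a ∈ ball c (R / 2)) :
    ‖f c‖ ≤ ‖f a‖ ^ (3 / 16 : ℝ) ∧ ‖f a‖ ≤ ‖f c‖ ^ (3 / 16 : ℝ) := by
  have hR : 0 < R := by linarith [nonempty_ball.mp ⟨_, ha⟩]
  have ha' : a ∈ ball c R := ball_subset_ball (by linarith) ha
  have hc : c ∈ ball c R := mem_ball_self hR
  obtain ⟨h1, h2⟩ := SCV2Aux.harnack (M := 0) hf (fun z hz => (h z hz).1)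
    (fun z hz => Real.log_nonpos (norm_nonneg _) (h z hz).2) ha'
  have hκ : 3 / 4 ≤ 1 - ‖a - c‖ ^ 2 / R ^ 2 := by
    rw [mem_ball, dist_eq_norm] at ha
    have h3 : ‖a - c‖ ^ 2 / R ^ 2 ≤ 1 / 4 := by
      rw [div_le_iff₀ (by positivity)]
      nlinarith [norm_nonneg (a - c)]
    linarith
  have pa := norm_pos_iff.2 (h a ha').1
  have pc := norm_pos_iff.2 (h c hc).1
  exact ⟨SCV2Aux.le_rpow_of_log pc pa (h a ha').2 hκ h1,
    SCV2Aux.le_rpow_of_log pa pc (h c hc).2 hκ h2⟩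

/-- Harnack on balls: restrict to the complex line through `x` and `y`. -/
theorem harnack_ball {f : E → ℂ} {x y : E} {R : ℝ} (hf : DifferentiableOn ℂ f (ball x R))
    (h : ∀ z ∈ ball x R, f z ≠ 0 ∧ ‖f z‖ ≤ 1) (hy : y ∈ ball x (R / 2)) :
    ‖f x‖ ≤ ‖f y‖ ^ (3 / 16 : ℝ) ∧ ‖f y‖ ≤ ‖f x‖ ^ (3 / 16 : ℝ) := by
  set a : ℂ := ((‖y - x‖ : ℝ) : ℂ) with ha
  set e : E := a⁻¹ • (y - x) with he
  have hna : ‖a‖ = ‖y - x‖ := by rw [ha, Complex.norm_real, norm_norm]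
  have he1 : ‖e‖ ≤ 1 := by
    rw [he, norm_smul, norm_inv, hna]
    exact inv_mul_le_one
  have hae : x + a • e = y := by
    by_cases h0 : a = 0
    · rw [h0, zero_smul, add_zero]
      rw [h0, norm_zero] at hna
      exact (sub_eq_zero.1 (norm_eq_zero.1 hna.symm)).symm
    · rw [he, smul_smul, mul_inv_cancel₀ h0, one_smul, add_sub_cancel]
  have hm : MapsTo (fun s : ℂ => x + s • e) (ball 0 R) (ball x R) := by
    intro s hs
    rw [mem_ball_zero_iff] at hs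
    rw [mem_ball, dist_eq_norm, add_sub_cancel_left, norm_smul]
    exact (mul_le_of_le_one_right (norm_nonneg _) he1).trans_lt hs
  have hd : DifferentiableOn ℂ (fun s : ℂ => f (x + s • e)) (ball 0 R) :=
    hf.comp (by fun_prop) hm
  have := harnack_disc (a := a) hd (fun z hz => h _ (hm hz))
    (by rwa [mem_ball_zero_iff, hna, ← dist_eq_norm])
  simpa only [zero_smul, add_zero, hae] using this

/-- Hurwitz. Sketch: on `closedBall x ρ` (`ρ < r`) eventually `‖f j‖ ≤ M`; Harnack for `f j / M`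
gives `‖f j y / M‖ ≤ ‖f j x / M‖ ^ (3/16) → 0` for `y ∈ ball x (ρ/2)`. -/
theorem hurwitz {ι : Type*} {l : Filter ι} [l.NeBot] {f : ι → E → ℂ} {g : E → ℂ} {x : E} {r : ℝ}
    (hr : 0 < r)
    (hf : ∀ᶠ j in l, DifferentiableOn ℂ (f j) (ball x r) ∧ ∀ y ∈ ball x r, f j y ≠ 0)
    (hg : ContinuousOn g (ball x r))
    (hl : TendstoLocallyUniformlyOn f g l (ball x r)) (h0 : g x = 0) :
    ∀ᶠ y in 𝓝 x, g y = 0 := by
  have : ProperSpace E := FiniteDimensional.proper ℂ E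
  have hsub : closedBall x (r / 2) ⊆ ball x r := closedBall_subset_ball (by linarith)
  have hK := isCompact_closedBall x (r / 2)
  obtain ⟨M, hM⟩ := hK.exists_bound_of_continuousOn (hg.mono hsub)
  have hM0 : 0 ≤ M := (norm_nonneg _).trans (hM x (mem_closedBall_self (by linarith)))
  have hu := (tendstoLocallyUniformlyOn_iff_tendstoUniformlyOn_of_compact hK).1 (hl.mono hsub)
  have h1 := Metric.tendstoUniformlyOn_iff.1 hu 1 one_pos
  set N : ℂ := ((M + 1 : ℝ) : ℂ) with hN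
  have hNn : ‖N‖ = M + 1 := by rw [hN, Complex.norm_real, Real.norm_of_nonneg (by linarith)]
  have hN0 : N ≠ 0 := norm_pos_iff.1 (by rw [hNn]; linarith)
  filter_upwards [ball_mem_nhds x (show 0 < r / 2 / 2 by linarith)] with y hy
  have hy' : y ∈ ball x r := ball_subset_ball (by linarith) hy
  have h2 : ∀ᶠ j in l, ‖f j y / N‖ ≤ ‖f j x / N‖ ^ (3 / 16 : ℝ) := by
    filter_upwards [hf, h1] with j hj hj'
    refine (harnack_ball (f := fun z => f j z / N) (R := r / 2)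
      ?_ (fun z hz => ⟨?_, ?_⟩) hy).2
    · simp only [div_eq_mul_inv]
      exact (hj.1.mono (ball_subset_ball (by linarith))).mul_const _
    · exact div_ne_zero (hj.2 z (ball_subset_ball (by linarith) hz)) hN0
    · have hz' := ball_subset_closedBall hz
      have h3 := hj' z hz'
      have h4 := hM z hz'
      rw [dist_comm, dist_eq_norm] at h3
      rw [norm_div, hNn, div_le_one (by linarith)]
      linarith [norm_le_norm_add_norm_sub' (f j z) (g z)]
  have h3 : Tendsto (fun j => ‖f j y / N‖) l (𝓝 ‖g y / N‖) :=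
    ((hl.tendsto_at hy').div_const N).norm
  have h4 : Tendsto (fun j => ‖f j x / N‖ ^ (3 / 16 : ℝ)) l (𝓝 (‖g x / N‖ ^ (3 / 16 : ℝ))) :=
    ((hl.tendsto_at (mem_ball_self hr)).div_const N).norm.rpow_const (Or.inr (by norm_num))
  have h5 := le_of_tendsto_of_tendsto h3 h4 h2
  rw [h0, zero_div, norm_zero, Real.zero_rpow (by norm_num)] at h5
  exact (div_eq_zero_iff.1 (norm_le_zero_iff.1 h5)).resolve_right hN0

/-- Stability of the local inverse. Sketch: let `L = fderiv ℂ g x` as a continuous linear equiv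
(equal finite dimensions). `fderiv ℂ g` is continuous (analyticity), so on a small
`closedBall x ρ'` eventually `‖fderiv (f j) y - L‖ ≤ c := ‖L⁻¹‖⁻¹ / 2`, so `f j` satisfies
`ApproximatesLinearOn (f j) L (closedBall x ρ') c` (mean value inequality), and
`ApproximatesLinearOn.surjOn_closedBall_of_nonlinearRightInverse` gives a ball of fixed radius
around `f j x → g x`. (Treat `Subsingleton E'` separately if needed.) -/
theorem ball_subset_image {ι : Type*} {l : Filter ι} {f : ι → E → E'} {g : E → E'} {x : E}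
    {ρ : ℝ} (hρ : 0 < ρ) (hdim : Module.finrank ℂ E = Module.finrank ℂ E')
    (hf : ∀ᶠ j in l, DifferentiableOn ℂ (f j) (ball x ρ))
    (hg : DifferentiableOn ℂ g (ball x ρ)) (h0 : Tendsto (fun j => f j x) l (𝓝 (g x)))
    (h1 : TendstoLocallyUniformlyOn (fun j => fderiv ℂ (f j)) (fderiv ℂ g) l (ball x ρ))
    (hinj : Function.Injective (fderiv ℂ g x)) :
    ∃ r > 0, ∀ᶠ j in l, ball (g x) r ⊆ f j '' closedBall x (ρ / 2) := by
  have : ProperSpace E := FiniteDimensional.proper ℂ E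
  have : CompleteSpace E' := FiniteDimensional.complete ℂ E'
  have hsurj : Function.Surjective (fderiv ℂ g x) :=
    (LinearMap.injective_iff_surjective_of_finrank_eq_finrank hdim
      (f := (fderiv ℂ g x : E →ₗ[ℂ] E'))).1 hinj
  obtain ⟨S, hS⟩ := (fderiv ℂ g x).exists_nonlinearRightInverse_of_surjective
    (LinearMap.range_eq_top.2 hsurj)
  set c : NNReal := S.nnnorm⁻¹ / 2 with hc
  have hS' : (0 : ℝ) < (S.nnnorm : ℝ)⁻¹ := inv_pos.2 hS
  have hc' : (c : ℝ) = (S.nnnorm : ℝ)⁻¹ / 2 := by simp [hc]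
  have hc0 : (0 : ℝ) < c := by rw [hc']; linarith
  have hcont : ContinuousAt (fderiv ℂ g) x :=
    (analyticOnNhd_of_differentiableOn isOpen_ball hg x (mem_ball_self hρ)).fderiv.continuousAt
  obtain ⟨δ, hδ, hb⟩ := Metric.continuousAt_iff.1 hcont (c / 2) (by linarith)
  set ε := min (δ / 2) (ρ / 2) with hε
  have hε0 : 0 < ε := lt_min (by linarith) (by linarith)
  have hε1 : ε ≤ δ / 2 := min_le_left _ _
  have hε2 : ε ≤ ρ / 2 := min_le_right _ _
  have hsub : closedBall x ε ⊆ ball x ρ := closedBall_subset_ball (by linarith)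
  have hu := (tendstoLocallyUniformlyOn_iff_tendstoUniformlyOn_of_compact
    (isCompact_closedBall x ε)).1 (h1.mono hsub)
  have h2 := Metric.tendstoUniformlyOn_iff.1 hu (c / 2) (by linarith)
  have hp : 0 < c * ε / 2 := by positivity
  refine ⟨c * ε / 2, hp, ?_⟩
  filter_upwards [hf, h2, Metric.tendsto_nhds.1 h0 _ hp] with j hj hj2 hj3
  have hA : ApproximatesLinearOn (f j) (fderiv ℂ g x) (closedBall x ε) c := by
    intro y hy z hz
    refine (convex_closedBall x ε).norm_image_sub_le_of_norm_fderiv_le' (𝕜 := ℂ)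
      (fun w hw => hj.differentiableAt (isOpen_ball.mem_nhds (hsub hw))) (fun w hw => ?_) hz hy
    have h3 := hj2 w hw
    have h4 := hb (show dist w x < δ by linarith [mem_closedBall.1 hw])
    rw [← dist_eq_norm]
    linarith [dist_triangle_left (fderiv ℂ (f j) w) (fderiv ℂ g x) (fderiv ℂ g w)]
  have h5 := hA.surjOn_closedBall_of_nonlinearRightInverse S hε0.le Subset.rfl
  refine Subset.trans (fun w hw => h5 ?_) (image_mono (closedBall_subset_closedBall hε2))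
  rw [mem_closedBall, show (S.nnnorm : ℝ)⁻¹ - c = c by rw [hc']; ring]
  linarith [dist_triangle_right w (f j x) (g x), mem_ball.1 hw]

/-- Identity theorem on a connected set with charts. Sketch: the set of `x ∈ U` with
`∀ᶠ y in 𝓝[U] x, f y = 0` is open and closed in `U` (in a chart `(G, χ)` at `x`, `f ∘ G` is analytic
on a ball around `χ x`; `AnalyticOnNhd.eqOn_zero_of_preconnected_of_eventuallyEq_zero`). Use
`IsPreconnected.induction₂'` or the subtype. -/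
theorem HolOn.eq_zero {U : Set E} (hc : IsPreconnected U) (hR : ∀ x ∈ U, Reg E' U x) {f : E → F}
    (hf : HolOn U f) {x : E} (hx : x ∈ U) (h0 : ∀ᶠ y in 𝓝[U] x, f y = 0) :
    ∀ y ∈ U, f y = 0 := by
  intro y hy
  have key := hc.induction₂'
    (fun a b => (∀ᶠ w in 𝓝[U] a, f w = 0) → ∀ᶠ w in 𝓝[U] b, f w = 0) (fun a ha => ?_)
    (fun _ _ _ _ _ _ h1 h2 h => h2 (h1 h)) hx hy h0
  · exact key.self_of_nhdsWithin hy
  obtain ⟨G, χ, r, hr, -, -, hG, hm, hχ, hinv⟩ := SCV2Aux.chart (hR a ha) univ_mem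
  have hball := hχ.eventually (ball_mem_nhds _ hr)
  have hU : ∀ t ∈ ball (χ a) r, ∀ᶠ s in 𝓝 t, G s ∈ U := fun t ht => by
    filter_upwards [isOpen_ball.mem_nhds ht] with s hs using (hm hs).1
  have han : AnalyticOnNhd ℂ (fun t => f (G t)) (ball (χ a) r) := fun t ht =>
    hf.comp_analyticAt (hG t ht) (hU t ht)
  have h1 : ∀ᶠ b in 𝓝[U] a, (∀ᶠ w in 𝓝[U] a, f w = 0) → ∀ᶠ w in 𝓝[U] b, f w = 0 := by
    by_cases hP : ∀ᶠ w in 𝓝[U] a, f w = 0
    · filter_upwards [eventually_eventually_nhdsWithin.2 hP] with b hb _ using hb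
    · exact Eventually.of_forall fun b h => absurd h hP
  filter_upwards [h1, hball, hinv] with b hb1 hb2 hb3
  refine ⟨hb1, fun hP => ?_⟩
  have ht : Tendsto G (𝓝 (χ b)) (𝓝[U] b) :=
    tendsto_nhdsWithin_iff.2 ⟨by simpa [hb3] using (hG _ hb2).continuousAt.tendsto, hU _ hb2⟩
  have hz := han.eqOn_zero_of_preconnected_of_eventuallyEq_zero
    (convex_ball _ _).isPreconnected hb2 (ht.eventually hP)
  filter_upwards [hball, hinv] with w hw1 hw2
  rw [← hw2]
  exact hz hw1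

/-- Weierstrass on a set with charts: apply `weierstrass` to `f j ∘ G`, and `g = (g ∘ G) ∘ χ` near
`x` in `U`. -/
theorem holOn_limit {ι : Type*} {l : Filter ι} [l.NeBot] {U : Set E} (hR : ∀ x ∈ U, Reg E' U x)
    {f : ι → E → F} {g : E → F}
    (hb : ∀ x ∈ U, ∃ O, IsOpen O ∧ x ∈ O ∧ ∃ M, ∀ᶠ j in l,
      HolOn (U ∩ O) (f j) ∧ ∀ y ∈ U ∩ O, ‖f j y‖ ≤ M)
    (hp : ∀ x ∈ U, Tendsto (fun j => f j x) l (𝓝 (g x))) :
    HolOn U g ∧ TendstoLocallyUniformlyOn f g l U := by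
  have key : ∀ x ∈ U, (∃ g' : E → F, AnalyticAt ℂ g' x ∧ g =ᶠ[𝓝[U] x] g') ∧
      ∀ u ∈ uniformity F, ∃ t ∈ 𝓝[U] x, ∀ᶠ j in l, ∀ y ∈ t, (g y, f j y) ∈ u := by
    intro x hx
    obtain ⟨O, hO, hxO, M, hM⟩ := hb x hx
    obtain ⟨G, χ, r, hr, hχa, -, hG, hm, hχ, hinv⟩ := SCV2Aux.chart (hR x hx) (hO.mem_nhds hxO)
    obtain ⟨w1, w2, -⟩ := weierstrass (l := l) (f := fun j t => f j (G t)) (g := fun t => g (G t))
      (V := ball (χ x) r) isOpen_ball (fun t ht => by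
        obtain ⟨r', hr', hs⟩ := Metric.isOpen_iff.1 isOpen_ball t ht
        refine ⟨r', hr', M, ?_⟩
        filter_upwards [hM] with j hj
        exact ⟨(hj.1.comp_differentiableOn hG.differentiableOn hm).mono hs,
          fun y hy => hj.2 _ (hm (hs hy))⟩) fun t ht => hp _ (hm ht).1
    refine ⟨⟨fun y => g (G (χ y)), AnalyticAt.comp (g := fun t => g (G t))
      (analyticOnNhd_of_differentiableOn isOpen_ball w1 _ (mem_ball_self hr)) hχa, ?_⟩,
      fun u hu => ?_⟩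
    · filter_upwards [hinv] with y hy
      rw [hy]
    · obtain ⟨t, ht, hj⟩ := w2 u hu _ (mem_ball_self hr)
      rw [nhdsWithin_eq_nhds.2 (ball_mem_nhds _ hr)] at ht
      refine ⟨{y | χ y ∈ t ∧ G (χ y) = y}, (hχ.eventually ht).and hinv, ?_⟩
      filter_upwards [hj] with j hj y hy
      have := hj _ hy.1
      rwa [hy.2] at this
  exact ⟨fun x hx => (key x hx).1, fun u hu x hx => (key x hx).2 u hu⟩

/-- Local Harnack inequality at a regular point (through the chart and `harnack_ball`). -/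
theorem Reg.harnack {U : Set E} {x : E} (h : Reg E' U x) :
    ∀ᶠ y in 𝓝[U] x, ∀ f : E → ℂ, HolOn U f → (∀ z ∈ U, f z ≠ 0 ∧ ‖f z‖ ≤ 1) →
      ‖f x‖ ≤ ‖f y‖ ^ (3 / 16 : ℝ) ∧ ‖f y‖ ≤ ‖f x‖ ^ (3 / 16 : ℝ) := by
  obtain ⟨G, χ, r, hr, -, hx, hG, hm, hχ, hinv⟩ := SCV2Aux.chart h univ_mem
  filter_upwards [hχ.eventually (ball_mem_nhds _ (half_pos hr)), hinv] with y hy1 hy2 f hf hb
  have := harnack_ball (f := fun t => f (G t))
    (hf.comp_differentiableOn hG.differentiableOn fun t ht => (hm ht).1)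
    (fun t ht => hb _ (hm ht).1) hy1
  simpa only [hx, hy2] using this

/-- Functions with nonnegative real part which are bounded at some point of a compact set are
locally uniformly bounded. Sketch: use `f = 1 / (1 + H)` (nonvanishing, norm `≤ 1`). Define the
relation `R x y : ∀ a > 0, ∃ a' > 0, ∀ f admissible, a ≤ ‖f x‖ → a' ≤ ‖f y‖`; by `Reg.harnack` it holds
(uniformly) between `x` and all `y` near `x` in `U`, in both directions; it is transitive, so by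
connectedness it holds for all pairs; cover `K` by finitely many such neighbourhoods. -/
theorem locBdd {U : Set E} (hc : IsPreconnected U) (hR : ∀ x ∈ U, Reg E' U x) {K : Set E}
    (hK : IsCompact K) (hKU : K ⊆ U) (C : ℝ) {x : E} (hx : x ∈ U) :
    ∃ O, IsOpen O ∧ x ∈ O ∧ ∃ M, ∀ H : E → ℂ, HolOn U H → (∀ z ∈ U, 0 ≤ (H z).re) →
      (∃ x₀ ∈ K, ‖H x₀‖ ≤ C) → ∀ y ∈ U ∩ O, ‖H y‖ ≤ M := by
  set Adm : (E → ℂ) → Prop := fun f => HolOn U f ∧ ∀ z ∈ U, f z ≠ 0 ∧ ‖f z‖ ≤ 1 with hAdm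
  have hall : ∀ y ∈ U, ∀ a > 0, ∃ a' > 0, ∀ f, Adm f → a ≤ ‖f y‖ → a' ≤ ‖f x‖ := by
    intro y hy
    refine hc.induction₂' (fun u v => ∀ a > 0, ∃ a' > 0, ∀ f, Adm f → a ≤ ‖f u‖ → a' ≤ ‖f v‖)
      (fun u hu => ?_) (fun u v w _ _ _ h1 h2 a ha => ?_) hy hx
    · filter_upwards [(hR u hu).harnack] with v hv
      exact ⟨fun a ha => ⟨_, Real.rpow_pos_of_pos ha _, fun f hf h =>
          SCV2Aux.rpow_le_of_le ha (norm_nonneg _) (h.trans (hv f hf.1 hf.2).1)⟩,
        fun a ha => ⟨_, Real.rpow_pos_of_pos ha _, fun f hf h =>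
          SCV2Aux.rpow_le_of_le ha (norm_nonneg _) (h.trans (hv f hf.1 hf.2).2)⟩⟩
    · obtain ⟨a1, ha1, h3⟩ := h1 a ha
      obtain ⟨a2, ha2, h4⟩ := h2 a1 ha1
      exact ⟨a2, ha2, fun f hf h => h4 f hf (h3 f hf h)⟩
  have ha : 0 < (1 + |C|)⁻¹ := by positivity
  obtain ⟨a', ha', hK'⟩ : ∃ a' > 0, ∀ x₀ ∈ K, ∀ f, Adm f → (1 + |C|)⁻¹ ≤ ‖f x₀‖ → a' ≤ ‖f x‖ := by
    refine hK.induction_on (p := fun s => ∃ a' > 0, ∀ x₀ ∈ s, ∀ f, Adm f →
      (1 + |C|)⁻¹ ≤ ‖f x₀‖ → a' ≤ ‖f x‖) ⟨1, one_pos, fun _ h => h.elim⟩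
      (fun s t hst ⟨a', h1, h2⟩ => ⟨a', h1, fun y hy => h2 y (hst hy)⟩)
      (fun s t ⟨a1, h1, h2⟩ ⟨a2, h3, h4⟩ => ⟨min a1 a2, lt_min h1 h3, fun y hy f hf h =>
        hy.elim (fun hy => (min_le_left _ _).trans (h2 y hy f hf h))
          fun hy => (min_le_right _ _).trans (h4 y hy f hf h)⟩) fun k hk => ?_
    obtain ⟨a', h1, h2⟩ := hall k (hKU hk) _ (Real.rpow_pos_of_pos ha (16 / 3))
    refine ⟨_, nhdsWithin_mono k hKU (hR k (hKU hk)).harnack, a', h1, fun y hy f hf h => ?_⟩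
    exact h2 f hf (SCV2Aux.rpow_le_of_le ha (norm_nonneg _) (h.trans (hy f hf.1 hf.2).2))
  obtain ⟨O, hO, hxO, hsub⟩ := mem_nhdsWithin.1 (hR x hx).harnack
  refine ⟨O, hO, hxO, (a' ^ (16 / 3 : ℝ))⁻¹ + 1, fun H hH hre ⟨x₀, hx₀, hC⟩ y hy => ?_⟩
  have h1 : ∀ z ∈ U, 1 ≤ ‖1 + H z‖ := fun z hz => by
    have h2 := Complex.re_le_norm (1 + H z)
    rw [Complex.add_re, Complex.one_re] at h2
    linarith [hre z hz]
  have h0 : ∀ z ∈ U, 1 + H z ≠ 0 := fun z hz => norm_pos_iff.1 (by linarith [h1 z hz])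
  have hadm : Adm fun z => (1 + H z)⁻¹ :=
    ⟨hH.comp_left (g := fun w => (1 + w)⁻¹) fun z hz =>
      (analyticAt_const.add analyticAt_id).inv (h0 z hz), fun z hz =>
      ⟨inv_ne_zero (h0 z hz), by rw [norm_inv]; exact inv_le_one_of_one_le₀ (h1 z hz)⟩⟩
  have h2 := hK' x₀ hx₀ _ hadm (by
    rw [norm_inv]
    refine inv_anti₀ (by linarith [h1 x₀ (hKU hx₀)]) ((norm_add_le _ _).trans ?_)
    rw [norm_one]
    linarith [le_abs_self C])
  have h3 := SCV2Aux.rpow_le_of_le ha' (norm_nonneg _)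
    (h2.trans (hsub ⟨hy.2, hy.1⟩ _ hadm.1 hadm.2).1)
  rw [norm_inv, le_inv_comm₀ (Real.rpow_pos_of_pos ha' _) (by linarith [h1 y hy.1])] at h3
  have h4 := norm_sub_le (1 + H y) 1
  rw [add_sub_cancel_left, norm_one] at h4
  linarith

end Vale.Agent.P274
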