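import Vale.Agent.P274.StC
import Vale.Agent.P274.SCV2

open Set Filter Topology Metric

namespace Vale.Agent.P274

namespace FirstAux

variable {N k l : ℕ}

theorem bdd {U K : Set (Fin N → ℂ)} (hc : IsPreconnected U) (hR : ∀ x ∈ U, Reg (EE k l) U x)
    (hK : IsCompact K) (hKU : K ⊆ U) (w₀ : EE k l) {x : Fin N → ℂ} (hx : x ∈ U) :
    ∃ O, IsOpen O ∧ x ∈ O ∧ ∃ M, ∀ ψ : (Fin N → ℂ) → EE k l, HolOn U ψ →
      (∀ z ∈ U, ∀ i, 0 ≤ ((ψ z).1 i).re) → (∃ x₀ ∈ K, ψ x₀ = w₀) →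
      ∀ y ∈ U ∩ O, ∀ i, ‖(ψ y).1 i‖ ≤ M := by
  obtain ⟨O, h1, h2, M, h3⟩ := locBdd hc hR hK hKU ‖w₀‖ hx
  refine ⟨O, h1, h2, M, fun ψ hψ h4 ⟨x₀, h5, h6⟩ y hy i => h3 (fun y => (ψ y).1 i)
    (hψ.comp_left (g := fun w => w.1 i) fun _ _ => ?_) (fun z hz => h4 z hz i) ⟨x₀, h5, ?_⟩ y hy⟩
  · exact ((ContinuousLinearMap.proj (R := ℂ) (φ := fun _ : Fin k => ℂ) i).comp
      (ContinuousLinearMap.fst ℂ _ (Fin l → ℂ))).analyticAt _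
  · rw [h6]
    exact (norm_le_pi_norm _ i).trans (norm_fst_le _)

theorem norm_le (hk : 0 < k) {c M : ℝ} (hc : 0 < c) {w : EE k l} (h1 : ∀ i, ‖w.1 i‖ ≤ M)
    (h2 : ∀ i, c * ‖w.2‖ ^ 2 ≤ (w.1 i).re) : ‖w‖ ≤ max M (1 + M / c) := by
  have h3 := (le_div_iff₀' hc).2 ((h2 ⟨0, hk⟩).trans ((Complex.re_le_norm _).trans (h1 _)))
  exact max_le_max ((pi_norm_le_iff_of_nonneg ((norm_nonneg _).trans (h1 ⟨0, hk⟩))).2 h1)
    (by nlinarith [sq_nonneg (‖w.2‖ - 1)])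

theorem sc_ev {W : Set (EE k l)} (hW : W ∈ 𝓝 0) (w : EE k l) (r : ℝ) :
    ∀ᶠ δ in 𝓝[>] (0 : ℝ), ∀ w' ∈ ball w r, sc δ w' ∈ W := by
  have h := (isCompact_closedBall w r).eventually_forall_of_forall_eventually (x₀ := (0 : ℝ))
    (P := fun δ w' => sc δ w' ∈ W) fun y _ =>
      (continuous_sc.tendsto' (0, y) 0 (by simp [sc])).eventually hW
  exact (h.mono fun δ hδ w' hw' => hδ w' (ball_subset_closedBall hw')).filter_mono nhdsWithin_le_nhds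

theorem sc_inv {δ : ℝ} (hδ : 0 < δ) (w : EE k l) : sc δ⁻¹ (sc δ w) = w := by
  rw [sc_sc, inv_mul_cancel₀ hδ.ne', sc_one]

theorem sc_inv' {δ : ℝ} (hδ : 0 < δ) (w : EE k l) : sc δ (sc δ⁻¹ w) = w := by
  rw [sc_sc, mul_inv_cancel₀ hδ.ne', sc_one]

theorem sc_re (δ : ℝ) (w : EE k l) (i : Fin k) : ((sc δ w).1 i).re = δ ^ 2 * (w.1 i).re :=
  Complex.smul_re _ _

theorem sc_snd (δ : ℝ) (w : EE k l) : ‖(sc δ w).2‖ ^ 2 = δ ^ 2 * ‖w.2‖ ^ 2 := by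
  rw [sc, norm_smul, mul_pow, Real.norm_eq_abs, sq_abs]

end FirstAux

open FirstAux

/-- Sketch. Index by `δ : ℝ` with an ultrafilter `𝔲 ≤ 𝓝[>] 0`. Let `W₀` be an open neighbourhood of `0`
on which `Θ` is analytic and `left`, `opn` hold; `Ω δ = {w | sc δ w ∈ W₀ ∧ Θ (sc δ w) ∈ U}`. With `w₀, r₀` from
`sector` and `K` the cocompactness set choose `γ δ` with `act (γ δ) (Θ (sc δ w₀)) ∈ K`;
`θ δ = act (γ δ) ∘ Θ ∘ sc δ`, `ψ δ = sc δ⁻¹ ∘ χ ∘ act (γ δ)⁻¹`. The functions `H δ i y = (ψ δ y).1 i` are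
holomorphic on `U` with nonnegative real part and value `w₀.1 i` at a point of `K`, so `locBdd` bounds
them by `M` near any `x ∈ U`; then `c ‖act (γ δ)⁻¹ y - Θ 0‖² ≤ δ² M` (use `i = ⟨0, hk⟩`), so these points
tend to `p = Θ 0` uniformly; near `p`, `‖(χ z).2‖ ≤ C ‖z - p‖` (`χ p = 0`), which bounds `(ψ δ y).2` and
gives `(c / C²) ‖(ψ δ y).2‖² ≤ re ((ψ δ y).1 i)`. Apply `S_KL`; pass to the limit in the inequality;
`WallP` from `wall` and the last two conclusions of `S_KL`. -/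
theorem First_pf (h : S_KL) : S_First := by
  intro N k l Γ _ U act Θ χ b 𝒢 hD hR hk hP
  obtain ⟨W, hW, hWo, hW0⟩ := _root_.eventually_nhds_iff.1
    (hP.hΘ.eventually_analyticAt.and (hP.left.and hP.opn))
  have hWn := hWo.mem_nhds hW0
  have hV : IsOpen (W ∩ Θ ⁻¹' U) := isOpen_iff_mem_nhds.2 fun w hw =>
    inter_mem (hWo.mem_nhds hw.1) ((hW w hw.1).2.2 hw.2)
  obtain ⟨K, hK, hKU, hKc⟩ := hD.cocompact
  obtain ⟨w₀, hw₀, r₀, hr₀, hs⟩ := hP.sector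
  obtain ⟨c, hc, hpk⟩ := hP.peak
  have h0 : χ (Θ 0) = 0 := (hW 0 hW0).2.1
  obtain ⟨C, hC, hC'⟩ := (hP.hχ (Θ 0)).isBigO_sub.exists_pos
  obtain ⟨η, hη, hη'⟩ := Metric.eventually_nhds_iff.1 (hP.right.and (hC'.bound.and
    ((hP.hχ.continuous.tendsto' _ _ h0).eventually hWn)))
  have hγ : ∀ δ : ℝ, ∃ γ, Θ (sc δ w₀) ∈ U → act γ (Θ (sc δ w₀)) ∈ K := fun δ => by
    by_cases h1 : Θ (sc δ w₀) ∈ U
    · exact (hKc _ h1).imp fun γ h2 _ => h2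
    · exact ⟨1, fun h2 => absurd h2 h1⟩
  choose γ hγ using hγ
  let Ω : ℝ → Set (EE k l) := fun δ => sc δ ⁻¹' (W ∩ Θ ⁻¹' U)
  let θ : ℝ → EE k l → Fin N → ℂ := fun δ w => act (γ δ) (Θ (sc δ w))
  let ψ : ℝ → (Fin N → ℂ) → EE k l := fun δ y => sc δ⁻¹ (χ (act (γ δ)⁻¹ y))
  have h1 : ∀ δ, 0 < δ → ∀ w ∈ Ω δ, ψ δ (θ δ w) = w := fun δ hδ w hw => by
    simp only [ψ, θ, (hD.bihol _).left _ hw.2, (hW _ hw.1).2.1, sc_inv hδ]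
  have h2 : ∀ᶠ δ in 𝓝[>] (0 : ℝ), ball w₀ r₀ ⊆ Ω δ ∧ θ δ w₀ ∈ K := by
    filter_upwards [hs, sc_ev hWn w₀ r₀] with δ a1 a2
    exact ⟨fun w hw => ⟨a2 w hw, a1 w hw⟩, hγ δ (a1 _ (mem_ball_self hr₀))⟩
  have h3 : ∀ δ, HolOn U (ψ δ) := fun δ =>
    (hD.hol _).comp_left (g := fun z => sc δ⁻¹ (χ z)) fun _ _ =>
      analyticOnNhd_of_differentiable ((differentiable_sc _).comp hP.hχ) _ trivial
  have h4 : ∀ δ, ∀ y ∈ U, ∀ i, δ⁻¹ ^ 2 * (c * ‖act (γ δ)⁻¹ y - Θ 0‖ ^ 2) ≤ ((ψ δ y).1 i).re :=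
    fun δ y hy i => (mul_le_mul_of_nonneg_left (hpk _ (hD.maps _ hy) i) (sq_nonneg _)).trans_eq
      (sc_re _ _ i).symm
  have hc' : 0 < c / C ^ 2 := by positivity
  have key : ∀ x ∈ U, ∃ O, IsOpen O ∧ x ∈ O ∧ ∃ M : ℝ, ∀ᶠ δ in 𝓝[>] (0 : ℝ), ∀ y ∈ U ∩ O,
      ψ δ y ∈ Ω δ ∧ θ δ (ψ δ y) = y ∧ (∀ i, ‖(ψ δ y).1 i‖ ≤ M) ∧
        ∀ i, c / C ^ 2 * ‖(ψ δ y).2‖ ^ 2 ≤ ((ψ δ y).1 i).re := fun x hx => by
    obtain ⟨O, a1, a2, M, a3⟩ := bdd hD.conn.2 hR hK hKU w₀ hx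
    refine ⟨O, a1, a2, M, ?_⟩
    have a4 : ∀ᶠ δ in 𝓝 (0 : ℝ), δ ^ 2 * M < c * η ^ 2 :=
      ((by fun_prop : Continuous fun δ : ℝ => δ ^ 2 * M).tendsto' 0 0 (by simp)).eventually
        (eventually_lt_nhds (by positivity))
    filter_upwards [h2, a4.filter_mono nhdsWithin_le_nhds, self_mem_nhdsWithin]
      with δ a5 a6 hδ y hy
    have hδ : 0 < δ := hδ
    have a7 := a3 (ψ δ) (h3 δ) (fun z hz i => le_trans (by positivity) (h4 δ z hz i))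
      ⟨_, a5.2, h1 δ hδ _ (a5.1 (mem_ball_self hr₀))⟩ y hy
    have a8 := (h4 δ y hy.1 ⟨0, hk⟩).trans ((Complex.re_le_norm _).trans (a7 _))
    rw [inv_pow, inv_mul_le_iff₀ (by positivity)] at a8
    obtain ⟨b1, b2, b3⟩ := hη' (y := act (γ δ)⁻¹ y) ((dist_eq_norm _ _).trans_lt
      (lt_of_pow_lt_pow_left₀ 2 hη.le (lt_of_mul_lt_mul_left (a8.trans_lt a6) hc.le)))
    have b4 := b1 (hD.maps _ hy.1)
    refine ⟨?_, ?_, a7, fun i => le_trans ?_ (h4 δ y hy.1 i)⟩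
    · simp only [Ω, ψ, mem_preimage, sc_inv' hδ, mem_inter_iff, b4]
      exact ⟨b3, hD.maps _ hy.1⟩
    · simp only [θ, ψ, sc_inv' hδ, b4, (hD.bihol _).right _ hy.1]
    · rw [h0, sub_zero] at b2
      have b5 := pow_le_pow_left₀ (norm_nonneg _) ((norm_snd_le _).trans b2) 2
      rw [sc_snd, mul_left_comm]
      refine mul_le_mul_of_nonneg_left ?_ (sq_nonneg _)
      rw [div_mul_eq_mul_div, mul_div_assoc]
      exact mul_le_mul_of_nonneg_left ((div_le_iff₀' (by positivity)).2 (b5.trans_eq (mul_pow _ _ _)))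
        hc.le
  have hu := Ultrafilter.of_le (𝓝[>] (0 : ℝ))
  obtain ⟨ψ', θ', Ω', g1, g2, g3, g4, g5, g6⟩ := h _ _ Γ U act hD hR ℝ (Ultrafilter.of (𝓝[>] 0)) ψ θ
    Ω w₀ r₀ K (hu (mem_of_superset self_mem_nhdsWithin fun δ hδ =>
      ⟨hV.preimage (differentiable_sc δ).continuous, (hD.hol _).comp_differentiableOn
        (fun w hw => ((hW _ hw.1).1.differentiableAt.comp w
          (differentiable_sc δ w)).differentiableWithinAt) fun w hw => hw.2,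
        fun w hw => hD.maps _ hw.2, h1 δ hδ⟩))
    (fun x hx => by
      obtain ⟨O, a1, a2, M, a3⟩ := key x hx
      exact ⟨O, a1, a2, _, hu (a3.mono fun δ hδ => ⟨(h3 δ).mono inter_subset_left, fun y hy =>
        ⟨(hδ y hy).1, (hδ y hy).2.1, norm_le hk hc' (hδ y hy).2.2.1 (hδ y hy).2.2.2⟩⟩)⟩)
    hr₀ hK hKU (hu h2)
  refine ⟨Ω', ⟨_, _, g2⟩, g1, ⟨_, hc', fun w hw i => ?_⟩, fun w hw => ?_, w₀, g3, hw₀⟩
  · obtain ⟨O, -, a2, M, a3⟩ := key _ (g2.maps' hw)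
    have a4 := g4 _ (g2.maps' hw)
    rw [g2.right w hw] at a4
    exact le_of_tendsto_of_tendsto
      (((by fun_prop : Continuous fun w : EE k l => c / C ^ 2 * ‖w.2‖ ^ 2).tendsto w).comp a4)
      (((by fun_prop : Continuous fun w : EE k l => (w.1 i).re).tendsto w).comp a4)
      (hu (a3.mono fun δ hδ => (hδ _ ⟨g2.maps' hw, a2⟩).2.2.2 i))
  · obtain ⟨r, hr, a1⟩ := hP.wall w hw
    refine ⟨r, hr, fun ⟨w', a2, a3⟩ => g6 w r ?_ ⟨w', a2, a3⟩⟩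
    obtain ⟨r', hr', a4⟩ := g5 w' a3
    filter_upwards [a4, hu a1, hu (sc_ev hWn w r)] with δ a5 a6 a7 v hv
    exact ⟨a7 v hv, a6 ⟨w', a2, (a5 (mem_ball_self hr')).2⟩ v hv⟩

/-- Sketch. Choose `ψ j, θ j` from `Fam.bih`, `γ j` with `act (γ j) (θ j w₀) ∈ K` when `w₀ ∈ Ω j`; replace
`ψ j` by `ψ j ∘ act (γ j)⁻¹` (`Div.bihol`, `Bihol.trans`). On `Ω j`, `c ‖u‖² ≤ b u u i ≤ re (Z i)`; `locBdd`
gives local bounds; apply `S_KL`. `pos` passes to the limit; for `WallP` take `r` with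
`rho b '' ball w r ⊆ 𝒢` and use `WallP.subset` for each `Ω j`. -/
theorem FamLim_pf (h : S_KL) : S_FamLim := by
  intro N k l Γ _ U act b 𝒢 hD hR hk hb h𝒢 J 𝔲 Ω w₀ r₀ hF hr₀ hw
  obtain ⟨K, hK, hKU, hKc⟩ := hD.cocompact
  obtain ⟨c, hc, hc'⟩ := hb.pos
  have h1 : ∀ j, ∃ ψ θ, Bihol U (Ω j) ψ θ ∧ (w₀ ∈ Ω j → θ w₀ ∈ K) := fun j => by
    obtain ⟨ψ, θ, hB⟩ := (hF j).bih
    by_cases h2 : w₀ ∈ Ω j
    · obtain ⟨γ, hγ⟩ := hKc _ (hB.maps' h2)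
      exact ⟨_, _, (hD.bihol γ).symm.trans hB, fun _ => hγ⟩
    · exact ⟨ψ, θ, hB, fun h3 => absurd h3 h2⟩
  choose ψ θ hB hθ using h1
  have h2 : ∀ j, ∀ y ∈ U, ∀ i, c * ‖(ψ j y).2‖ ^ 2 ≤ ((ψ j y).1 i).re := fun j y hy i =>
    (hc' _ i).trans (sub_nonneg.1 ((hF j).pos _ ((hB j).maps hy) i))
  obtain ⟨ψ', θ', Ω', g1, g2, g3, g4, g5, g6⟩ := h _ _ Γ U act hD hR J 𝔲 ψ θ Ω w₀ r₀ K
    (Eventually.of_forall fun j =>
      ⟨(hF j).opn, (hB j).hol'.differentiableOn, (hB j).maps', (hB j).right⟩)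
    (fun x hx => by
      obtain ⟨O, a1, a2, M, a3⟩ := bdd hD.conn.2 hR hK hKU w₀ hx
      refine ⟨O, a1, a2, _, hw.mono fun j hj => ⟨(hB j).hol.mono inter_subset_left, fun y hy =>
        ⟨(hB j).maps hy.1, (hB j).left y hy.1, norm_le hk hc (a3 _ (hB j).hol
          (fun z hz i => le_trans (by positivity) (h2 j z hz i))
          ⟨_, hθ j (hj (mem_ball_self hr₀)), (hB j).right _ (hj (mem_ball_self hr₀))⟩ y hy)
          (h2 j y hy.1)⟩⟩⟩)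
    hr₀ hK hKU (hw.mono fun j hj => ⟨hj, hθ j (hj (mem_ball_self hr₀))⟩)
  refine ⟨Ω', ⟨⟨_, _, g2⟩, g1, fun w hw i => ?_, fun w hw => ?_⟩, g3, g6⟩
  · have a4 := g4 _ (g2.maps' hw)
    rw [g2.right w hw] at a4
    exact ge_of_tendsto' ((((continuous_apply i).comp (continuous_rho b)).tendsto w).comp a4)
      fun j => (hF j).pos _ ((hB j).maps (g2.maps' hw)) i
  · obtain ⟨r, hr, a1⟩ := Metric.isOpen_iff.1 (h𝒢.preimage (continuous_rho b)) w hw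
    refine ⟨r, hr, fun ⟨w', a2, a3⟩ => g6 w r ?_ ⟨w', a2, a3⟩⟩
    obtain ⟨r', hr', a4⟩ := g5 w' a3
    exact a4.mono fun j hj => (hF j).wall.subset (convex_ball w r).isPreconnected a1
      ⟨w', a2, hj (mem_ball_self hr')⟩

end Vale.Agent.P274
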