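import Vale.Agent.P274.StD
import Vale.Agent.P274.SCV1

/-! Basic properties of holomorphic flows and of push-forwards of vector fields. -/

open Set Filter Topology Metric

namespace Vale.Agent.P274

variable {E F G : Type*} [NormedAddCommGroup E] [NormedSpace ℂ E] [FiniteDimensional ℂ E]
  [NormedAddCommGroup F] [NormedSpace ℂ F] [FiniteDimensional ℂ F]
  [NormedAddCommGroup G] [NormedSpace ℂ G] [FiniteDimensional ℂ G]
  {B : Set E} {X Y : E → E} {φ : ℝ → E → E}

/-- Uniqueness of integral curves (`X` is analytic on `B`, hence locally Lipschitz; the set of times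
where the curves agree is open by `ODE_solution_unique_of_eventually` and closed). -/
theorem curve_unique (hB : IsOpen B) (hX : DifferentiableOn ℂ X B) {c₁ c₂ : ℝ → E}
    (h₁ : ∀ t, c₁ t ∈ B ∧ HasDerivAt c₁ (X (c₁ t)) t)
    (h₂ : ∀ t, c₂ t ∈ B ∧ HasDerivAt c₂ (X (c₂ t)) t) (h0 : c₁ 0 = c₂ 0) : c₁ = c₂ := by
  have hc1 : Continuous c₁ := continuous_iff_continuousAt.2 fun t => (h₁ t).2.continuousAt
  have hc2 : Continuous c₂ := continuous_iff_continuousAt.2 fun t => (h₂ t).2.continuousAt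
  have ho : IsOpen {t | c₁ t = c₂ t} := by
    refine isOpen_iff_mem_nhds.2 fun t₀ ht₀ => ?_
    have ht : c₁ t₀ = c₂ t₀ := ht₀
    obtain ⟨R, hR, hRB, M, hM⟩ := SCV1Aux.exists_bdd hB hX (h₁ t₀).1
    have hL : LipschitzOnWith (Real.toNNReal (4 * M / R)) X (ball (c₁ t₀) (R / 2)) :=
      LipschitzOnWith.of_dist_le' fun y hy z hz => by
        rw [dist_eq_norm, dist_eq_norm]
        exact norm_sub_le_of_bdd hR (hX.mono hRB) hM hy hz
    refine ODE_solution_unique_of_eventually (v := fun _ => X)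
      (s := fun _ => ball (c₁ t₀) (R / 2)) (Eventually.of_forall fun _ => hL) ?_ ?_ ht
    · filter_upwards [hc1.continuousAt.eventually_mem (ball_mem_nhds _ (half_pos hR))] with t h
      exact ⟨(h₁ t).2, h⟩
    · filter_upwards [hc2.continuousAt.eventually_mem (ball_mem_nhds _ (half_pos hR))] with t h
      exact ⟨(h₂ t).2, by rwa [ht]⟩
  have hu := IsClopen.eq_univ ⟨isClosed_eq hc1 hc2, ho⟩ ⟨0, h0⟩
  exact funext fun t => (hu ▸ mem_univ t : t ∈ {t | c₁ t = c₂ t})

theorem Flow.unique (hB : IsOpen B) (hX : DifferentiableOn ℂ X B) {φ' : ℝ → E → E}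
    (h : Flow B X φ) (h' : Flow B X φ') (t : ℝ) {x : E} (hx : x ∈ B) : φ t x = φ' t x := by
  have := curve_unique hB hX (c₁ := fun t => φ t x) (c₂ := fun t => φ' t x)
    (fun t => ⟨h.maps t hx, h.deriv x hx t⟩) (fun t => ⟨h'.maps t hx, h'.deriv x hx t⟩)
    ((h.zero x hx).trans (h'.zero x hx).symm)
  exact congrFun this t

theorem Flow.bihol (hB : IsOpen B) (h : Flow B X φ) (t : ℝ) : Bihol B B (φ t) (φ (-t)) := by
  have := FiniteDimensional.complete ℂ E
  refine ⟨h.maps t, h.maps (-t), fun x hx => ?_, fun x hx => ?_,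
    holOn_of_differentiableOn hB (h.hol t), holOn_of_differentiableOn hB (h.hol (-t))⟩
  · rw [← h.add _ _ x hx, neg_add_cancel, h.zero x hx]
  · rw [← h.add _ _ x hx, add_neg_cancel, h.zero x hx]

theorem Flow.smul (h : Flow B X φ) (c : ℝ) : Flow B (c • X) (fun t => φ (c * t)) := by
  refine ⟨fun t => h.maps _, fun t => h.hol _, fun x hx => ?_, fun s t x hx => ?_,
    fun x hx t => ?_⟩
  · rw [mul_zero, h.zero x hx]
  · rw [mul_add, h.add _ _ x hx]
  · have h1 : HasDerivAt (fun s : ℝ => c * s) c t := by simpa using (hasDerivAt_id t).const_mul c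
    exact HasDerivAt.scomp (g₁ := fun s => φ s x) t (h.deriv x hx (c * t)) h1

theorem Flow.congr (h : Flow B X φ) (he : ∀ x ∈ B, Y x = X x) : Flow B Y φ := by
  refine ⟨h.maps, h.hol, h.zero, h.add, fun x hx t => ?_⟩
  rw [he _ (h.maps t hx)]
  exact h.deriv x hx t

/-- Joint continuity (the maps `φ t` are uniformly bounded, so locally equi-Lipschitz,
`norm_sub_le_of_bdd`). -/
theorem Flow.continuousOn (hB : IsOpen B) (hb : Bornology.IsBounded B) (h : Flow B X φ) :
    ContinuousOn (fun p : ℝ × E => φ p.1 p.2) (univ ×ˢ B) := by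
  rintro ⟨t, x⟩ ⟨-, hx⟩
  obtain ⟨R, hR, hRB⟩ := Metric.isOpen_iff.1 hB x hx
  obtain ⟨M, -, hM⟩ := hb.exists_pos_norm_le
  have h1 : ContinuousOn (fun p : ℝ × E => φ p.1 p.2) (univ ×ˢ ball x (R / 2)) := by
    refine continuousOn_prod_of_continuousOn_lipschitzOnWith' _ (Real.toNNReal (4 * M / R))
      (fun s _ => LipschitzOnWith.of_dist_le' fun y hy z hz => ?_) (fun y hy s _ => ?_)
    · rw [dist_eq_norm, dist_eq_norm]
      exact norm_sub_le_of_bdd hR ((h.hol s).mono hRB) (fun w hw => hM _ (h.maps s (hRB hw))) hy hz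
    · exact (h.deriv y (hRB (ball_subset_ball (by linarith) hy)) s).continuousAt.continuousWithinAt
  exact (h1.continuousAt (prod_mem_nhds univ_mem (ball_mem_nhds x (half_pos hR)))).continuousWithinAt

namespace FlowAux

omit [FiniteDimensional ℂ E] [FiniteDimensional ℂ F] in
theorem chain {g : E → F} {c : ℝ → E} {v : E} {t : ℝ} (hg : DifferentiableAt ℂ g (c t))
    (hc : HasDerivAt c v t) : HasDerivAt (fun s => g (c s)) (fderiv ℂ g (c t) v) t :=
  (hg.hasFDerivAt.restrictScalars ℝ).comp_hasDerivAt t hc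

omit [FiniteDimensional ℂ E] in
theorem fderiv_add (hB : IsOpen B) (h : Flow B X φ) (s t : ℝ) {x : E} (hx : x ∈ B) :
    fderiv ℂ (φ (s + t)) x = (fderiv ℂ (φ s) (φ t x)).comp (fderiv ℂ (φ t) x) := by
  have h1 : φ (s + t) =ᶠ[𝓝 x] fun y => φ s (φ t y) :=
    eventually_of_mem (hB.mem_nhds hx) (h.add s t)
  rw [h1.fderiv_eq]
  exact fderiv_fun_comp x ((h.hol s).differentiableAt (hB.mem_nhds (h.maps t hx)))
    ((h.hol t).differentiableAt (hB.mem_nhds hx))

omit [FiniteDimensional ℂ E] in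
theorem hasFDerivAt_quot (hB : IsOpen B) (h : Flow B X φ) (s : ℝ) {x : E} (hx : x ∈ B) :
    HasFDerivAt (fun y => s⁻¹ • (φ s y - y))
      (s⁻¹ • (fderiv ℂ (φ s) x - ContinuousLinearMap.id ℂ E)) x :=
  (((h.hol s).differentiableAt (hB.mem_nhds hx)).hasFDerivAt.sub (hasFDerivAt_id x)).const_smul s⁻¹

omit [FiniteDimensional ℂ E] in
theorem fderiv_quot (hB : IsOpen B) (h : Flow B X φ) (s : ℝ) {x : E} (hx : x ∈ B) :
    fderiv ℂ (fun y => s⁻¹ • (φ s y - y)) x
      = s⁻¹ • (fderiv ℂ (φ s) x - ContinuousLinearMap.id ℂ E) :=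
  (hasFDerivAt_quot hB h s hx).fderiv

theorem quot_w (hB : IsOpen B) (hb : Bornology.IsBounded B) (hX : ContinuousOn X B)
    (h : Flow B X φ) :
    TendstoLocallyUniformlyOn (fun (t : ℝ) x => t⁻¹ • (φ t x - x)) X (𝓝[≠] 0) B ∧
    TendstoLocallyUniformlyOn (fun (t : ℝ) => fderiv ℂ (fun x => t⁻¹ • (φ t x - x)))
      (fderiv ℂ X) (𝓝[≠] 0) B := by
  have := FiniteDimensional.complete ℂ E
  refine (weierstrass (f := fun (t : ℝ) x => t⁻¹ • (φ t x - x)) hB (fun x hx => ?_)
    (fun x hx => ?_)).2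
  · have h1 : ContinuousAt (fun p : ℝ × E => ‖X (φ p.1 p.2)‖) (0, x) :=
      ((hX.comp (h.continuousOn hB hb) fun p hp => h.maps p.1 hp.2).continuousAt
        (prod_mem_nhds univ_mem (hB.mem_nhds hx))).norm
    have h2 : ∀ᶠ p : ℝ × E in 𝓝 (0, x), ‖X (φ p.1 p.2)‖ < ‖X (φ 0 x)‖ + 1 ∧ p.2 ∈ B :=
      (h1.eventually (gt_mem_nhds (lt_add_one _))).and
        (continuous_snd.continuousAt.eventually_mem (hB.mem_nhds hx))
    obtain ⟨r, hr, h3⟩ := Metric.eventually_nhds_iff_ball.1 h2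
    have h4 : ∀ s ∈ ball (0 : ℝ) r, ∀ y ∈ ball x r, ‖X (φ s y)‖ < ‖X (φ 0 x)‖ + 1 ∧ y ∈ B :=
      fun s hs y hy => h3 (s, y) (by rw [← ball_prod_same]; exact ⟨hs, hy⟩)
    refine ⟨r, hr, ‖X (φ 0 x)‖ + 1, ?_⟩
    filter_upwards [self_mem_nhdsWithin, mem_nhdsWithin_of_mem_nhds (ball_mem_nhds (0 : ℝ) hr)]
      with t ht0 ht
    refine ⟨fun y hy => (hasFDerivAt_quot hB h t
      (h4 t ht y hy).2).differentiableAt.differentiableWithinAt, fun y hy => ?_⟩
    have hyB := (h4 t ht y hy).2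
    have h5 := (convex_ball (0 : ℝ) r).norm_image_sub_le_of_norm_hasDerivWithin_le
      (f := fun s => φ s y) (f' := fun s => X (φ s y))
      (fun s _ => (h.deriv y hyB s).hasDerivWithinAt) (fun s hs => (h4 s hs y hy).1.le)
      (mem_ball_self hr) ht
    have h6 : ‖t‖ ≠ 0 := norm_ne_zero_iff.2 ht0
    simp only [h.zero y hyB, sub_zero] at h5
    rw [norm_smul, norm_inv, inv_mul_le_iff₀ (norm_pos_iff.2 ht0), mul_comm]
    exact h5
  · have h1 := (h.deriv x hx 0).tendsto_slope_zero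
    simpa only [zero_add, h.zero x hx] using h1

theorem lie_zero (hB : IsOpen B) (hb : Bornology.IsBounded B)
    (hX : DifferentiableOn ℂ X B) (hY : DifferentiableOn ℂ Y B) (h : Flow B X φ) {z : E}
    (hz : z ∈ B) :
    HasDerivAt (fun s => fderiv ℂ (φ s) (φ (-s) z) (Y (φ (-s) z)))
      (fderiv ℂ X z (Y z) - fderiv ℂ Y z (X z)) 0 := by
  have := FiniteDimensional.complete ℂ E
  have e0 : φ (-0) z = z := by rw [neg_zero, h.zero z hz]
  have h1 : HasDerivAt (fun s => φ (-s) z) (-X z) 0 := by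
    have h2 := HasDerivAt.scomp (g₁ := fun s => φ s z) (0 : ℝ) (h.deriv z hz (-0))
      (hasDerivAt_neg (0 : ℝ))
    rw [e0, neg_one_smul] at h2
    exact h2
  have h2 : HasDerivAt (fun s => Y (φ (-s) z)) (-fderiv ℂ Y z (X z)) 0 := by
    have h3 := chain (g := Y) (c := fun s => φ (-s) z)
      (hY.differentiableAt (hB.mem_nhds (h.maps _ hz))) h1
    simp only [e0, map_neg] at h3
    exact h3
  have h3 : Tendsto (fun s => φ (-s) z) (𝓝[≠] (0 : ℝ)) (𝓝[B] z) := by
    refine tendsto_nhdsWithin_iff.2 ⟨?_, Eventually.of_forall fun s => h.maps _ hz⟩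
    have h4 := h1.continuousAt.tendsto
    simp only [e0] at h4
    exact h4.mono_left nhdsWithin_le_nhds
  have h4 := (quot_w hB hb hX.continuousOn h).2.tendsto_comp
    ((analyticOnNhd_of_differentiableOn hB hX).fderiv.continuousOn z hz) hz h3
  have h5 : Tendsto (fun s => Y (φ (-s) z)) (𝓝[≠] (0 : ℝ)) (𝓝 (Y z)) := by
    have h6 := h2.continuousAt.tendsto
    simp only [e0] at h6
    exact h6.mono_left nhdsWithin_le_nhds
  have h6 := (((isBoundedBilinearMap_apply (𝕜 := ℂ) (E := E) (F := E)).continuous.tendsto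
    (fderiv ℂ X z, Y z)).comp (h4.prodMk_nhds h5)).add h2.tendsto_slope_zero
  have e1 : fderiv ℂ (φ 0) z = ContinuousLinearMap.id ℂ E := by
    have h7 : φ 0 =ᶠ[𝓝 z] id := eventually_of_mem (hB.mem_nhds hz) h.zero
    rw [h7.fderiv_eq, fderiv_id]
  rw [hasDerivAt_iff_tendsto_slope_zero, sub_eq_add_neg]
  refine h6.congr fun s => ?_
  simp only [Function.comp_apply]
  rw [fderiv_quot hB h s (h.maps _ hz), e0, e1]
  simp only [zero_add, smul_apply, sub_apply,
    ContinuousLinearMap.id_apply]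
  rw [← smul_add, sub_add_sub_cancel]

end FlowAux

/-- Difference quotients converge locally uniformly (mean value inequality for
`s ↦ φ s y - s • X y`, joint continuity). -/
theorem Flow.quot (hB : IsOpen B) (hb : Bornology.IsBounded B) (hX : ContinuousOn X B)
    (h : Flow B X φ) :
    TendstoLocallyUniformlyOn (fun (t : ℝ) x => t⁻¹ • (φ t x - x)) X (𝓝[≠] 0) B := by
  exact (FlowAux.quot_w hB hb hX h).1

/-- Variational equation: by `weierstrass` applied to the holomorphic difference quotients,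
`s⁻¹ • (fderiv (φ s) - id) → fderiv X` locally uniformly; then use `φ (s + t) = φ s ∘ φ t`. -/
theorem Flow.hasDerivAt_fderiv (hB : IsOpen B) (hb : Bornology.IsBounded B)
    (hX : DifferentiableOn ℂ X B) (h : Flow B X φ) {x : E} (hx : x ∈ B) (t : ℝ) :
    HasDerivAt (fun s => fderiv ℂ (φ s) x)
      ((fderiv ℂ X (φ t x)).comp (fderiv ℂ (φ t) x)) t := by
  have h1 := (FlowAux.quot_w hB hb hX.continuousOn h).2.tendsto_at (h.maps t hx)
  have h2 := ((ContinuousLinearMap.compL ℂ E E E).flip (fderiv ℂ (φ t) x)).continuous.tendsto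
    (fderiv ℂ X (φ t x))
  rw [hasDerivAt_iff_tendsto_slope_zero]
  refine (h2.comp h1).congr fun s => ?_
  ext v
  rw [add_comm, FlowAux.fderiv_add hB h s t hx]
  simp [FlowAux.fderiv_quot hB h s (h.maps t hx)]

theorem Ad_differentiableOn {Ω : Set F} {g : E → F} {g' : F → E} (hB : IsOpen B) (hΩ : IsOpen Ω)
    (hg : Bihol B Ω g g') (hX : DifferentiableOn ℂ X B) : DifferentiableOn ℂ (Ad Ω g g' X) Ω := by
  have := FiniteDimensional.complete ℂ F
  have h1 : DifferentiableOn ℂ (fun y => fderiv ℂ g (g' y) (X (g' y))) Ω :=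
    DifferentiableOn.clm_apply
      ((hg.hol.analyticOnNhd hB).fderiv.differentiableOn.comp hg.hol'.differentiableOn hg.maps')
      (hX.comp hg.hol'.differentiableOn hg.maps')
  exact h1.congr fun y hy => indicator_of_mem hy _

/-- Conjugating a flow by a biholomorphism. -/
theorem Flow.ad {Ω : Set F} {g : E → F} {g' : F → E} (hB : IsOpen B)
    (hg : Bihol B Ω g g') (h : Flow B X φ) :
    Flow Ω (Ad Ω g g' X) (fun t y => g (φ t (g' y))) := by
  refine ⟨fun t y hy => hg.maps (h.maps t (hg.maps' hy)), fun t => ?_, fun y hy => ?_,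
    fun s t y hy => ?_, fun y hy t => ?_⟩
  · exact hg.hol.differentiableOn.comp ((h.hol t).comp hg.hol'.differentiableOn hg.maps')
      fun y hy => h.maps t (hg.maps' hy)
  · rw [h.zero _ (hg.maps' hy), hg.right y hy]
  · rw [h.add _ _ _ (hg.maps' hy), hg.left _ (h.maps t (hg.maps' hy))]
  · have hm := h.maps t (hg.maps' hy)
    rw [Ad, indicator_of_mem (hg.maps hm), hg.left _ hm]
    exact FlowAux.chain (hg.hol.differentiableOn.differentiableAt (hB.mem_nhds hm))
      (h.deriv _ (hg.maps' hy) t)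

theorem Flow.cpl_ad {Ω : Set F} {g : E → F} {g' : F → E} (hB : IsOpen B) (hΩ : IsOpen Ω)
    (hg : Bihol B Ω g g') (hX : DifferentiableOn ℂ X B) (h : Flow B X φ) :
    Cpl Ω (Ad Ω g g' X) := by
  exact ⟨Ad_differentiableOn hB hΩ hg hX, fun y hy => indicator_of_notMem hy _, _, h.ad hB hg⟩

theorem Ad_Ad {Ω : Set F} {Ω' : Set G} {g : E → F} {g' : F → E} {k : F → G} {k' : G → F}
    (hB : IsOpen B) (hΩ : IsOpen Ω) (hg : Bihol B Ω g g') (hk : Bihol Ω Ω' k k') (X : E → E) :
    Ad Ω' k k' (Ad Ω g g' X) = Ad Ω' (fun x => k (g x)) (fun z => g' (k' z)) X := by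
  funext z
  by_cases hz : z ∈ Ω'
  · have h1 := hk.maps' hz
    have h2 := hg.maps' h1
    have h3 : DifferentiableAt ℂ k (g (g' (k' z))) :=
      hk.hol.differentiableOn.differentiableAt (hΩ.mem_nhds (hg.maps h2))
    have h4 : DifferentiableAt ℂ g (g' (k' z)) :=
      hg.hol.differentiableOn.differentiableAt (hB.mem_nhds h2)
    rw [Ad, Ad, Ad, indicator_of_mem hz, indicator_of_mem hz, indicator_of_mem h1,
      fderiv_fun_comp _ h3 h4, hg.right _ h1, ContinuousLinearMap.comp_apply]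
  · rw [Ad, indicator_of_notMem hz, Ad, indicator_of_notMem hz]

/-- `Ad` only depends on the values of the maps on the domains. -/
theorem Ad_congr {Ω : Set F} {g k : E → F} {g' k' : F → E} (hB : IsOpen B) (hm : MapsTo g' Ω B)
    (h1 : ∀ x ∈ B, k x = g x) (h2 : ∀ y ∈ Ω, k' y = g' y) (X : E → E) :
    Ad Ω k k' X = Ad Ω g g' X := by
  funext y
  by_cases hy : y ∈ Ω
  · have h3 : k =ᶠ[𝓝 (g' y)] g := eventually_of_mem (hB.mem_nhds (hm hy)) h1
    rw [Ad, Ad, indicator_of_mem hy, indicator_of_mem hy, h2 y hy, h3.fderiv_eq]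
  · rw [Ad, indicator_of_notMem hy, Ad, indicator_of_notMem hy]

theorem Ad_id (hX : ∀ x, x ∉ B → X x = 0) : Ad B (fun x => x) (fun x => x) X = X := by
  funext y
  by_cases hy : y ∈ B
  · rw [Ad, indicator_of_mem hy, fderiv_fun_id, ContinuousLinearMap.id_apply]
  · rw [Ad, indicator_of_notMem hy, hX y hy]

/-- The flow of `X` preserves `X` (differentiate `φ t (φ s x) = φ s (φ t x)` in `s` at `0`). -/
theorem Flow.ad_self (hB : IsOpen B) (hX : ∀ x, x ∉ B → X x = 0) (h : Flow B X φ) (t : ℝ) :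
    Ad B (φ t) (φ (-t)) X = X := by
  funext y
  by_cases hy : y ∈ B
  · rw [Ad, indicator_of_mem hy]
    have hx := h.maps (-t) hy
    have e : φ t (φ (-t) y) = y := by rw [← h.add _ _ y hy, add_neg_cancel, h.zero y hy]
    have h1 := FlowAux.chain ((h.hol t).differentiableAt (hB.mem_nhds (h.maps 0 hx)))
      (h.deriv _ hx 0)
    have h2 := h.deriv y hy 0
    rw [h.zero _ hx] at h1
    rw [h.zero _ hy] at h2
    refine h1.unique ?_
    have e2 : (fun s => φ t (φ s (φ (-t) y))) = fun s => φ s y := by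
      funext s
      rw [← h.add _ _ _ hx, add_comm, h.add _ _ _ hx, e]
    rw [e2]
    exact h2
  · rw [Ad, indicator_of_notMem hy, hX y hy]

/-- The adjoint action of an automorphism on the space of complete fields. -/
theorem exists_AdL (hB : IsOpen B) {𝔤 : Submodule ℝ (E → E)} (h𝔤 : ∀ X, X ∈ 𝔤 ↔ Cpl B X)
    {g g' : E → E} (hg : Bihol B B g g') :
    ∃ L : 𝔤 →ₗ[ℝ] 𝔤, ∀ Y : 𝔤, (L Y : E → E) = Ad B g g' Y := by
  have hm : ∀ Y : 𝔤, Ad B g g' Y ∈ 𝔤 := fun Y => by
    obtain ⟨h1, -, ψ, h3⟩ := (h𝔤 Y).1 Y.2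
    exact (h𝔤 _).2 (h3.cpl_ad hB hB hg h1)
  refine ⟨⟨⟨fun Y => ⟨_, hm Y⟩, fun Y Z => Subtype.ext (funext fun y => ?_)⟩,
    fun c Y => Subtype.ext (funext fun y => ?_)⟩, fun _ => rfl⟩
  · by_cases hy : y ∈ B
    · simp [Ad, indicator_of_mem hy]
    · simp [Ad, indicator_of_notMem hy]
  · by_cases hy : y ∈ B
    · simp [Ad, indicator_of_mem hy, ContinuousLinearMap.map_smul_of_tower]
    · simp [Ad, indicator_of_notMem hy]

/-- Lie derivative. Sketch: at `t = 0`, write
`fderiv (φ s) (φ (-s) y) (Y (φ (-s) y))`; by `weierstrass` on `Flow.quot`,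
`fderiv (φ s) z = id + s • fderiv X y + o(s)` uniformly for `z` near `y`, and
`Y (φ (-s) y) = Y y - s • fderiv Y y (X y) + o(s)`. For general `t` use
`Ad (φ (t+s)) = Ad (φ t) ∘ Ad (φ s)` (`Ad_Ad`, `Ad_congr`) and that `Z ↦ Ad B (φ t) (φ (-t)) Z y` is a
continuous linear function of `Z (φ (-t) y)`. -/
theorem Flow.hasDerivAt_Ad (hB : IsOpen B) (hb : Bornology.IsBounded B)
    (hX : DifferentiableOn ℂ X B) (hY : DifferentiableOn ℂ Y B) (h : Flow B X φ) (y : E) (t : ℝ) :
    HasDerivAt (fun s => Ad B (φ s) (φ (-s)) Y y) (-Ad B (φ t) (φ (-t)) (br B X Y) y) t := by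
  by_cases hy : y ∈ B
  · have hz := h.maps (-t) hy
    have h1 := ((fderiv ℂ (φ t) (φ (-t) y)).restrictScalars ℝ).hasFDerivAt.comp_hasDerivAt (0 : ℝ)
      (FlowAux.lie_zero hB hb hX hY h hz)
    have h2 : HasDerivAt (fun s => Ad B (φ (s + t)) (φ (-(s + t))) Y y)
        (-Ad B (φ t) (φ (-t)) (br B X Y) y) 0 := by
      have e1 : (fun s => Ad B (φ (s + t)) (φ (-(s + t))) Y y)
          = ((fderiv ℂ (φ t) (φ (-t) y)).restrictScalars ℝ) ∘ fun s =>
            fderiv ℂ (φ s) (φ (-s) (φ (-t) y)) (Y (φ (-s) (φ (-t) y))) := by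
        funext s
        have e2 : φ s (φ (-s) (φ (-t) y)) = φ (-t) y := by
          rw [← h.add _ _ _ hz, add_neg_cancel, h.zero _ hz]
        rw [Ad, indicator_of_mem hy, neg_add, h.add _ _ y hy, add_comm s t,
          FlowAux.fderiv_add hB h t s (h.maps (-s) hz), e2]
        rfl
      have e3 : -Ad B (φ t) (φ (-t)) (br B X Y) y = ((fderiv ℂ (φ t) (φ (-t) y)).restrictScalars ℝ)
          (fderiv ℂ X (φ (-t) y) (Y (φ (-t) y)) - fderiv ℂ Y (φ (-t) y) (X (φ (-t) y))) := by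
        rw [Ad, indicator_of_mem hy, br, indicator_of_mem hz, ← map_neg, neg_sub]
        rfl
      rw [e1, e3]
      exact h1
    have h3 := HasDerivAt.comp_sub_const t t
      (f := fun s => Ad B (φ (s + t)) (φ (-(s + t))) Y y) (by rwa [sub_self])
    simpa only [sub_add_cancel] using h3
  · simp only [Ad, indicator_of_notMem hy, neg_zero]
    exact hasDerivAt_const t 0

end Vale.Agent.P274
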