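import Vale.Agent.P274.Flow

open Set Filter Topology Metric MeasureTheory Asymptotics

namespace Vale.Agent.P274

namespace FlowCAux

variable {E : Type} [NormedAddCommGroup E] [NormedSpace ℂ E] {B : Set E} {q : ℕ}

theorem beta_bound (β : (Fin q → ℝ) →ₗ[ℝ] (E → E)) (hβ : ∀ v, ContinuousOn (β v) B) {K : Set E}
    (hK : IsCompact K) (hKB : K ⊆ B) : ∃ C : ℝ, 0 ≤ C ∧ ∀ v, ∀ y ∈ K, ‖β v y‖ ≤ C * ‖v‖ := by
  choose C hC using fun i : Fin q =>
    hK.exists_bound_of_continuousOn ((hβ fun j => if i = j then 1 else 0).mono hKB)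
  refine ⟨∑ i, |C i|, Finset.sum_nonneg fun i _ => abs_nonneg _, fun v y hy => ?_⟩
  rw [β.pi_apply_eq_sum_univ v, Finset.sum_apply, Finset.sum_mul]
  refine (norm_sum_le _ _).trans (Finset.sum_le_sum fun i _ => ?_)
  rw [Pi.smul_apply, norm_smul, mul_comm]
  exact mul_le_mul ((hC i y hy).trans (le_abs_self _)) (norm_le_pi_norm v i) (norm_nonneg _)
    (abs_nonneg _)

theorem beta_cont (β : (Fin q → ℝ) →ₗ[ℝ] (E → E)) (z : E) : Continuous fun v => β v z :=
  ((LinearMap.proj z : (E → E) →ₗ[ℝ] E).comp β).continuous_of_finiteDimensional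

theorem short_time {X : E → E} {c : ℝ → E} (hc : ∀ t, HasDerivAt c (X (c t)) t) {x₀ : E}
    {r C h : ℝ} (hX : ∀ y ∈ closedBall x₀ (2 * r), ‖X y‖ ≤ C) (h0 : c 0 ∈ closedBall x₀ r)
    (hC : 0 ≤ C) (hh : 0 ≤ h) (hr : (C + 1) * h ≤ r) : ‖c h - c 0‖ ≤ (C + 1) * h := by
  refine image_norm_le_of_norm_deriv_right_lt_deriv_boundary (f := fun t => c t - c 0)
    (f' := fun t => X (c t)) (a := 0) (b := h) (B := fun t => (C + 1) * t) (B' := fun _ => C + 1)
    (fun t _ => ((hc t).sub_const _).continuousAt.continuousWithinAt)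
    (fun t _ => ((hc t).sub_const _).hasDerivWithinAt) (by simp)
    (fun t => by simpa using (hasDerivAt_id t).const_mul (C + 1)) (fun t ht e => ?_)
    (right_mem_Icc.2 hh)
  refine (hX _ ?_).trans_lt (lt_add_one C)
  rw [mem_closedBall] at h0 ⊢
  have h1 : dist (c t) (c 0) ≤ r := by
    rw [dist_eq_norm, e]
    nlinarith [ht.2]
  linarith [dist_triangle (c t) (c 0) x₀]

theorem gb_cont (K : ℝ) : Continuous fun p : ℝ × ℝ => gronwallBound p.1 K p.2 1 := by
  by_cases hK : K = 0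
  · subst hK
    simp only [gronwallBound_K0]
    fun_prop
  · simp only [gronwallBound_of_K_ne_0 hK]
    fun_prop

theorem trap [FiniteDimensional ℂ E] {d : E → E → ℝ} {r₀ : ℝ} (hd : Car B d r₀)
    (β : (Fin q → ℝ) →ₗ[ℝ] (E → E)) (Φ : (Fin q → ℝ) → ℝ → E → E)
    (h : ∀ v, DifferentiableOn ℂ (β v) B ∧ Flow B (β v) (Φ v)) (M : ℝ) {x₀ : E} (hx : x₀ ∈ B) :
    ∃ r > 0, closedBall x₀ r ⊆ B ∧ ∃ K', IsCompact K' ∧ K' ⊆ B ∧ ∀ v, ‖v‖ ≤ M →
      ∀ x ∈ closedBall x₀ r, ∀ t ∈ Icc (0 : ℝ) 1, Φ v t x ∈ K' := by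
  have : ProperSpace E := FiniteDimensional.proper ℂ E
  obtain ⟨r, hr, L, hL, hrB, hup⟩ := hd.upper x₀ hx
  have s2 : closedBall x₀ (2 * (r / 3)) ⊆ ball x₀ r := closedBall_subset_ball (by linarith)
  have s1 : closedBall x₀ (r / 3) ⊆ ball x₀ r := closedBall_subset_ball (by linarith)
  obtain ⟨C, hC, hb⟩ := beta_bound β (fun v => (h v).1.continuousOn)
    (isCompact_closedBall x₀ (2 * (r / 3))) (s2.trans hrB)
  set D := C * |M| with hD
  have hD0 : 0 ≤ D := by positivity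
  have hr0 := hd.pos
  obtain ⟨N, hN⟩ := exists_nat_gt (max ((D + 1) / (r / 3)) (L * (D + 1) / r₀))
  have hN1 := (le_max_left _ _).trans_lt hN
  have hN2 := (le_max_right _ _).trans_lt hN
  have hN0 : (0 : ℝ) < N := lt_of_le_of_lt (by positivity) hN1
  rw [div_lt_iff₀ (by positivity)] at hN1 hN2
  obtain ⟨K', k1, k2, k3⟩ := hd.reach (isCompact_closedBall x₀ (r / 3)) (s1.trans hrB) N
  refine ⟨r / 3, by positivity, s1.trans hrB, K', k1, k2, fun v hv x hxr t ht => ?_⟩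
  have hxB := hrB (s1 hxr)
  have F := (h v).2
  have t0 : 0 ≤ t / N := div_nonneg ht.1 hN0.le
  have t1 : t / N * N ≤ 1 := by rw [div_mul_cancel₀ _ hN0.ne']; exact ht.2
  have t2 : (D + 1) * (t / N) ≤ r / 3 := by nlinarith
  have t3 : L * ((D + 1) * (t / N)) ≤ r₀ := by nlinarith
  have st : ‖Φ v (t / N) x - x‖ ≤ (D + 1) * (t / N) := by
    have := short_time (c := fun s => Φ v s x) (F.deriv x hxB) (x₀ := x₀) (r := r / 3) (C := D)
      (fun y hy => (hb v y hy).trans (mul_le_mul_of_nonneg_left (hv.trans (le_abs_self M)) hC))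
      (by rw [F.zero x hxB]; exact hxr) hD0 t0 t2
    rwa [F.zero x hxB] at this
  have sm : Φ v (t / N) x ∈ ball x₀ r := by
    refine s2 ?_
    rw [mem_closedBall] at hxr ⊢
    have := dist_triangle (Φ v (t / N) x) x x₀
    rw [dist_eq_norm (Φ v (t / N) x) x] at this
    linarith
  have := k3 (fun i => Φ v (i * (t / N)) x) (by simpa [F.zero x hxB] using hxr) fun i _ =>
    ⟨F.maps _ hxB, ?_⟩
  · rwa [mul_div_cancel₀ _ hN0.ne'] at this
  · rw [Nat.cast_succ, add_mul, one_mul, F.add _ _ x hxB]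
    refine (hd.contr _ (F.hol _) (F.maps _) x hxB _ (F.maps _ hxB)).trans
      ((hup x (s1 hxr) _ sm).trans ?_)
    rw [norm_sub_rev]
    exact (mul_le_mul_of_nonneg_left st hL).trans t3

/-- the condition defining the unit balls -/
def Cond (B : Set E) (d : E → E → ℝ) (r₀ : ℝ) (y : E) (X : E → E) : Prop :=
  ∀ z ∈ B, d y z < r₀ → ∀ f : E → ℂ, DifferentiableOn ℂ f B → (∀ w ∈ B, ‖f w‖ ≤ 1) →
    ‖fderiv ℂ f z (X z)‖ ≤ 1

theorem Cond.push {d : E → E → ℝ} {r₀ : ℝ} (hB : IsOpen B) (hd : Car B d r₀) {g g' : E → E}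
    (h : Bihol B B g g') {y : E} (hy : y ∈ B) {X Y : E → E}
    (hXY : ∀ z ∈ B, Y (g z) = fderiv ℂ g z (X z)) (hc : Cond B d r₀ y X) :
    Cond B d r₀ (g y) Y := by
  intro z hz hdz f hf hb
  have hz' := h.maps' hz
  have h1 : d y (g' z) < r₀ := by
    have := hd.contr g' h.hol'.differentiableOn h.maps' _ (h.maps hy) z hz
    rw [h.left y hy] at this
    exact this.trans_lt hdz
  have h2 := hc _ hz' h1 (f ∘ g) (hf.comp h.hol.differentiableOn h.maps) fun w hw =>
    hb _ (h.maps hw)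
  rw [fderiv_comp _ (hf.differentiableAt (hB.mem_nhds (h.maps hz')))
    (h.hol.differentiableOn.differentiableAt (hB.mem_nhds hz')), ContinuousLinearMap.comp_apply,
    ← hXY _ hz', h.right z hz] at h2
  exact h2

theorem inv_rel (hB : IsOpen B) {g g' : E → E} (h : Bihol B B g g') {X Y : E → E}
    (hXY : ∀ z ∈ B, Y (g z) = fderiv ℂ g z (X z)) :
    ∀ z ∈ B, X (g' z) = fderiv ℂ g' z (Y z) := by
  intro z hz
  have hz' := h.maps' hz
  have e : (g' ∘ g) =ᶠ[𝓝 (g' z)] id := by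
    filter_upwards [hB.mem_nhds hz'] with w hw using h.left w hw
  have h1 := e.fderiv_eq (𝕜 := ℂ)
  rw [fderiv_comp _ (h.hol'.differentiableOn.differentiableAt (hB.mem_nhds (h.maps hz')))
    (h.hol.differentiableOn.differentiableAt (hB.mem_nhds hz')), fderiv_id, h.right z hz] at h1
  have h2 := congrArg (fun T : E →L[ℂ] E => T (X (g' z))) h1
  simp only [ContinuousLinearMap.comp_apply, ContinuousLinearMap.id_apply] at h2
  rw [← hXY _ hz', h.right z hz] at h2
  exact h2.symm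

theorem Cond.bound {d : E → E → ℝ} {r₀ R : ℝ} (hR : 0 < R) (hb : ∀ w ∈ B, ‖w‖ ≤ R) {y : E}
    {X : E → E} (hc : Cond B d r₀ y X) {z : E} (hz : z ∈ B) (hd : d y z < r₀) : ‖X z‖ ≤ R := by
  obtain ⟨l, hl, he⟩ := exists_dual_vector'' ℂ (X z)
  have h1 := hc z hz hd ⇑(((R⁻¹ : ℝ) : ℂ) • l) (((R⁻¹ : ℝ) : ℂ) • l).differentiableOn
    fun w hw => by
    rw [smul_apply, norm_smul, Complex.norm_real, Real.norm_eq_abs,
      abs_of_pos (inv_pos.2 hR), inv_mul_le_iff₀ hR, mul_one]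
    exact (l.le_opNorm w).trans (by nlinarith [norm_nonneg w, hb w hw, norm_nonneg l])
  rw [ContinuousLinearMap.fderiv, smul_apply, he, norm_smul, Complex.norm_real,
    Real.norm_eq_abs, abs_of_pos (inv_pos.2 hR), inv_mul_le_iff₀ hR, mul_one] at h1
  simpa using h1

end FlowCAux

open FlowCAux

/-- Sketch. Fix `(v₀,x₀)`, `r, L` from `Car.upper` at `x₀`, shrink so that `closedBall x₀ r ⊆ B`; for
`‖v - v₀‖ ≤ 1`, `‖β v y‖ ≤ C` on this ball (`β v = ∑ v i • β (e i)`), so curves starting in `ball x₀ (r/2)`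
stay in `ball x₀ r` and move by at most `C |h|` for `|h| ≤ h₀` (bootstrap, e.g.
`image_le_of_liminf_slope_right_lt_deriv_boundary` or a first exit time argument). By `Car.contr`,
`d (Φ v (t+h) x) (Φ v t x) ≤ d (Φ v h x) x ≤ L C h`, so by `Car.reach` all `Φ v t x`, `t ∈ [0,1]`, lie in a
fixed compact `K' ⊆ B`. On `K'`, `β v₀` is Lipschitz
(`LocallyLipschitzOn.exists_lipschitzOnWith_of_compact`) and `‖β v - β v₀‖ ≤ C' ‖v - v₀‖`; conclude with
`dist_le_of_approx_trajectories_ODE_of_mem` and continuity of `gronwallBound`. -/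
theorem FlowC_pf : S_FlowC := by
  intro E _ _ _ B d r₀ hB hd q β Φ h
  have : CompleteSpace E := FiniteDimensional.complete ℂ E
  rintro ⟨v₀, x₀⟩ ⟨-, hx⟩
  refine ContinuousAt.continuousWithinAt ?_
  obtain ⟨r, hr, hrB, K', k1, k2, k3⟩ := trap hd β Φ h (‖v₀‖ + 1) hx
  obtain ⟨C, hC, hb⟩ := beta_bound β (fun v => (h v).1.continuousOn) k1 k2
  obtain ⟨K, hK⟩ : ∃ K, LipschitzOnWith K (β v₀) K' := by
    refine LocallyLipschitzOn.exists_lipschitzOnWith_of_compact k1 fun y hy => ?_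
    obtain ⟨K, t, ht, hl⟩ := ((analyticOnNhd_of_differentiableOn hB (h v₀).1 y
      (k2 hy)).contDiffAt (n := 1)).exists_lipschitzOnWith
    exact ⟨K, t, mem_nhdsWithin_of_mem_nhds ht, hl⟩
  have key : ∀ p : (Fin q → ℝ) × E, ‖p.1‖ ≤ ‖v₀‖ + 1 → p.2 ∈ closedBall x₀ r →
      dist (Φ p.1 1 p.2) (Φ v₀ 1 x₀) ≤ gronwallBound (dist p.2 x₀) K (C * ‖p.1 - v₀‖) 1 := by
    rintro ⟨v, x⟩ hv hxr
    have hxB := hrB hxr
    have F := (h v).2
    have F0 := (h v₀).2
    have m1 := fun t (ht : t ∈ Ico (0 : ℝ) 1) => k3 v hv x hxr t (Ico_subset_Icc_self ht)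
    have m0 := fun t (ht : t ∈ Ico (0 : ℝ) 1) =>
      k3 v₀ (by linarith) x₀ (mem_closedBall_self hr.le) t (Ico_subset_Icc_self ht)
    have := dist_le_of_approx_trajectories_ODE_of_mem (v := fun _ => β v₀) (s := fun _ => K')
      (K := K) (f := fun t => Φ v t x) (g := fun t => Φ v₀ t x₀) (f' := fun t => β v (Φ v t x))
      (g' := fun t => β v₀ (Φ v₀ t x₀)) (a := 0) (b := 1) (εf := C * ‖v - v₀‖) (εg := 0)
      (δ := dist x x₀) (fun _ _ => hK)
      (fun t _ => (F.deriv x hxB t).continuousAt.continuousWithinAt)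
      (fun t _ => (F.deriv x hxB t).hasDerivWithinAt)
      (fun t ht => by
        have := hb (v - v₀) _ (m1 t ht)
        rwa [map_sub, Pi.sub_apply, ← dist_eq_norm] at this) m1
      (fun t _ => (F0.deriv x₀ hx t).continuousAt.continuousWithinAt)
      (fun t _ => (F0.deriv x₀ hx t).hasDerivWithinAt) (fun t _ => by simp) m0
      (by simp only [F.zero x hxB, F0.zero x₀ hx, le_refl]) 1 (right_mem_Icc.2 zero_le_one)
    rwa [add_zero, sub_zero] at this
  have c1 : Continuous fun p : (Fin q → ℝ) × E =>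
      gronwallBound (dist p.2 x₀) K (C * ‖p.1 - v₀‖) 1 :=
    (gb_cont K).comp (f := fun p : (Fin q → ℝ) × E => (dist p.2 x₀, C * ‖p.1 - v₀‖)) (by fun_prop)
  refine tendsto_iff_dist_tendsto_zero.2 (squeeze_zero' (Eventually.of_forall fun _ => dist_nonneg)
    ?_ (c1.tendsto' (v₀, x₀) 0 (by simp [gronwallBound_ε0_δ0])))
  have e1 : ∀ᶠ p : (Fin q → ℝ) × E in 𝓝 (v₀, x₀), ‖p.1‖ ≤ ‖v₀‖ + 1 :=
    (continuous_fst.norm.tendsto (v₀, x₀)).eventually (ge_mem_nhds (lt_add_one _))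
  have e2 : ∀ᶠ p : (Fin q → ℝ) × E in 𝓝 (v₀, x₀), p.2 ∈ closedBall x₀ r :=
    (continuous_snd.tendsto (v₀, x₀)).eventually (closedBall_mem_nhds x₀ hr)
  filter_upwards [e1, e2] with p h1 h2 using key p h1 h2

/-- Sketch. `𝔅 = {(y,v) | ∀ z ∈ B, d y z < r₀ → ∀ f : E → ℂ, DifferentiableOn ℂ f B → (∀ w ∈ B, ‖f w‖ ≤ 1) →
‖fderiv ℂ f z (β v z)‖ ≤ 1}`. Closed: for fixed `z, f` the complement of the condition is open
(`Car.cont`). Neighbourhood of `0`: on the compact `{z ∈ B | d y z ≤ r₀}` (`Car.cpt` with `{y}`),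
`‖fderiv f z‖ ≤ 2/δ` and `‖β v z‖ ≤ C ‖v‖`. Bounded: with `f = R⁻¹ • ℓ` one gets `‖β v z‖ ≤ R` on the
neighbourhood `N = {z ∈ B | d y z < r₀}` of `y`; for `v ≠ 0` some `z ∈ N` has `β v z ≠ 0` (identity theorem,
injectivity), and compactness of the unit sphere gives `c > 0` with `∀ v, ∃ z ∈ N, c ‖v‖ ≤ ‖β v z‖`.
Equivariance: `g` is a `d`-isometry, chain rule for `f ∘ g` and `f ∘ g'`. -/
theorem Ball_pf : S_Ball := by
  intro E _ _ _ B d r₀ hB hpc hbd hd q β hinj hβ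
  have : CompleteSpace E := FiniteDimensional.complete ℂ E
  refine ⟨{p | Cond B d r₀ p.1 (β p.2)}, ?_, fun y v h z hz hdz f hf hb => ?_,
    fun y => ⟨?_, ?_⟩, fun g g' h y v w hw => ?_⟩
  · simp only [Cond, ofPred_forall]
    refine isClosed_iInter fun z => isClosed_iInter fun hz => ?_
    have c1 : Continuous fun p : B × (Fin q → ℝ) => d p.1 z :=
      hd.cont.comp_continuous (f := fun p : B × (Fin q → ℝ) => ((p.1 : E), z)) (by fun_prop)
        fun p => ⟨p.1.2, hz⟩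
    have c2 : IsClosed {p : B × (Fin q → ℝ) | ∀ f : E → ℂ, DifferentiableOn ℂ f B →
        (∀ w ∈ B, ‖f w‖ ≤ 1) → ‖fderiv ℂ f z (β p.2 z)‖ ≤ 1} := by
      simp only [ofPred_forall]
      exact isClosed_iInter fun f => isClosed_iInter fun _ => isClosed_iInter fun _ =>
        isClosed_le ((fderiv ℂ f z).continuous.comp ((beta_cont β z).comp continuous_snd)).norm
          continuous_const
    have c3 := (isClosed_le (continuous_const (y := r₀)) c1).union c2
    refine (congrArg IsClosed (Set.ext fun p => ?_)).mp c3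
    simp only [mem_union, mem_ofPred_eq, ← not_lt (b := r₀), ← imp_iff_not_or]
  · have := h z hz hdz f hf hb
    simp only [map_neg, Pi.neg_apply, norm_neg]
    exact this
  · have k1 := hd.cpt {y.1} isCompact_singleton (singleton_subset_iff.2 y.2)
    have k2 : {z | z ∈ B ∧ ∃ x ∈ ({y.1} : Set E), d x z ≤ r₀} ⊆ B := fun z hz => hz.1
    obtain ⟨δ, hδ, ht⟩ := k1.exists_thickening_subset_open hB k2
    obtain ⟨C, hC, hb⟩ := beta_bound β (fun v => (hβ v).1.continuousOn) k1 k2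
    refine mem_of_superset (closedBall_mem_nhds 0 (show 0 < δ / (2 * C + 1) by positivity))
      fun v hv z hz hdz f hf hf1 => ?_
    have hzK : z ∈ {z | z ∈ B ∧ ∃ x ∈ ({y.1} : Set E), d x z ≤ r₀} := ⟨hz, y, rfl, hdz.le⟩
    have hs : ball z δ ⊆ B := (ball_subset_thickening hzK δ).trans ht
    have h1 := norm_fderiv_le_of_bdd hδ (hf.mono hs) fun w hw => hf1 w (hs hw)
    rw [mem_closedBall_zero_iff, le_div_iff₀ (by positivity)] at hv
    refine ((fderiv ℂ f z).le_opNorm _).trans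
      ((mul_le_mul h1 (hb v z hzK) (norm_nonneg _) (by positivity)).trans ?_)
    rw [div_mul_eq_mul_div, div_le_one hδ]
    nlinarith [norm_nonneg v]
  · obtain ⟨R, hR, hRb⟩ := hbd.exists_pos_norm_le
    have hN : ∀ᶠ z in 𝓝 y.1, z ∈ B ∧ d y z < r₀ := by
      have c1 : ContinuousAt (fun z => d y z) y.1 :=
        ContinuousAt.comp (f := fun z : E => ((y : E), z)) (g := fun p : E × E => d p.1 p.2)
          (hd.cont.continuousAt ((hB.prod hB).mem_nhds ⟨y.2, y.2⟩)) (by fun_prop)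
      exact (hB.eventually_mem y.2).and
        (c1.eventually (gt_mem_nhds ((hd.refl _ y.2).trans_lt hd.pos)))
    have hne : ∀ v, v ≠ 0 → ∃ z, (z ∈ B ∧ d y z < r₀) ∧ β v z ≠ 0 := by
      intro v hv
      by_contra hc
      push Not at hc
      have h1 := (analyticOnNhd_of_differentiableOn hB
        (hβ v).1).eqOn_zero_of_preconnected_of_eventuallyEq_zero hpc y.2
        (hN.mono fun z hz => hc z hz)
      refine hv (hinj (funext fun z => ?_))
      rw [map_zero]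
      by_cases hz : z ∈ B
      · exact h1 hz
      · exact (hβ v).2.1 z hz
    obtain ⟨n, hn⟩ := (isCompact_sphere (0 : Fin q → ℝ) 1).elim_directed_cover
      (fun n : ℕ => ⋃ z ∈ {z | z ∈ B ∧ d y z < r₀}, {v | 1 / ((n : ℝ) + 1) < ‖β v z‖})
      (fun n => isOpen_biUnion fun z _ => isOpen_lt continuous_const (beta_cont β z).norm)
      (fun v hv => by
        obtain ⟨z, hz, h0⟩ := hne v (by rintro rfl; simp at hv)
        obtain ⟨n, hn⟩ := exists_nat_one_div_lt (norm_pos_iff.2 h0)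
        exact mem_iUnion.2 ⟨n, mem_biUnion hz hn⟩)
      (Monotone.directed_le fun a b hab => iUnion₂_mono fun z _ v hv =>
        show 1 / ((b : ℝ) + 1) < ‖β v z‖ from lt_of_le_of_lt (Nat.one_div_le_one_div hab) hv)
    refine isBounded_iff_forall_norm_le.2 ⟨R * ((n : ℝ) + 1), fun v hv => ?_⟩
    by_cases h0 : v = 0
    · rw [h0, norm_zero]; positivity
    have hp := norm_pos_iff.2 h0
    obtain ⟨z, hz, h1⟩ := mem_iUnion₂.1 (hn (show ‖v‖⁻¹ • v ∈ sphere (0 : Fin q → ℝ) 1 by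
      rw [mem_sphere_zero_iff_norm, norm_smul, norm_inv, norm_norm, inv_mul_cancel₀ hp.ne']))
    have h2 : ‖β v z‖ ≤ R := Cond.bound hR hRb hv hz.1 hz.2
    rw [mem_ofPred_eq, map_smul, Pi.smul_apply, norm_smul, norm_inv, norm_norm,
      div_lt_iff₀ (by positivity), mul_assoc, lt_inv_mul_iff₀ hp, mul_one] at h1
    exact h1.le.trans (mul_le_mul_of_nonneg_right h2 (by positivity))
  · have hXY : ∀ z ∈ B, β w (g z) = fderiv ℂ g z (β v z) := fun z hz => by
      rw [hw, Ad, indicator_of_mem (h.maps hz), h.left z hz]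
    refine ⟨fun hc => ?_, fun hc => Cond.push hB hd h y.2 hXY hc⟩
    have := Cond.push hB hd h.symm (h.maps y.2) (inv_rel hB h hXY) hc
    rwa [h.left _ y.2] at this

end Vale.Agent.P274
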