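import Vale.Agent.P274.StB

open Set Filter Topology Metric MvPolynomial MeasureTheory

namespace Vale.Agent.P274

namespace FrontAux

theorem int_trans {R S A : Type*} [CommRing R] [CommRing S] [CommRing A] (φ : R →+* A)
    (ψ : S →+* A) (h : ∀ c, φ.IsIntegralElem (ψ c)) {x : A} (hx : ψ.IsIntegralElem x) :
    φ.IsIntegralElem x := by
  let _ : Algebra R A := φ.toAlgebra
  obtain ⟨p, hp1, hp2⟩ := hx
  have h1 : IsIntegral (integralClosure R A) x := by
    refine ⟨p.map (ψ.codRestrict (integralClosure R A) h), hp1.map _, ?_⟩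
    rw [Polynomial.eval₂_map]
    exact hp2
  exact isIntegral_trans (R := R) (A := integralClosure R A) x h1

variable {N n m : ℕ}

/-- real polynomials in the base coordinates as functions on the variety -/
noncomputable def phi (𝔭 : Ideal (MvPolynomial (Fin N) ℂ)) (π : Fin n → MvPolynomial (Fin N) ℂ)
    (ι : (Fin m → ℝ) ≃L[ℝ] (Fin n → ℂ)) : MvPolynomial (Fin m) ℝ →+* (ZV 𝔭 → ℂ) :=
  RingHom.pi fun z => Complex.ofRealHom.comp (eval (ι.symm (ev π z.1)))

theorem phi_apply (𝔭 : Ideal (MvPolynomial (Fin N) ℂ)) (π : Fin n → MvPolynomial (Fin N) ℂ)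
    (ι : (Fin m → ℝ) ≃L[ℝ] (Fin n → ℂ)) (r : MvPolynomial (Fin m) ℝ) (z : ZV 𝔭) :
    phi 𝔭 π ι r z = ((eval (ι.symm (ev π z.1)) r : ℝ) : ℂ) := rfl

theorem int_I (𝔭 : Ideal (MvPolynomial (Fin N) ℂ)) (π : Fin n → MvPolynomial (Fin N) ℂ)
    (ι : (Fin m → ℝ) ≃L[ℝ] (Fin n → ℂ)) : (phi 𝔭 π ι).IsIntegralElem (fun _ => Complex.I) := by
  refine ⟨Polynomial.X ^ 2 + Polynomial.C 1, Polynomial.monic_X_pow_add_C _ two_ne_zero, ?_⟩
  rw [Polynomial.eval₂_add, Polynomial.eval₂_X_pow, Polynomial.eval₂_C, map_one]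
  funext z
  simp

theorem int_X {𝔭 : Ideal (MvPolynomial (Fin N) ℂ)} {π : Fin n → MvPolynomial (Fin N) ℂ}
    {Δ : MvPolynomial (Fin n) ℂ} (H : GRData 𝔭 n π Δ) (ι : (Fin m → ℝ) ≃L[ℝ] (Fin n → ℂ))
    (i : Fin N) : (phi 𝔭 π ι).IsIntegralElem (fun z => z.1 i) := by
  refine int_trans _ (RingHom.pi fun z : ZV 𝔭 => (eval (ev π z.1) : MvPolynomial (Fin n) ℂ →+* ℂ))
    (fun c => ?_) ?_
  · obtain ⟨R₁, R₂, hR⟩ := poly_reim (ι : (Fin m → ℝ) →L[ℝ] (Fin n → ℂ)) c
    have e : (RingHom.pi fun z : ZV 𝔭 => (eval (ev π z.1) : MvPolynomial (Fin n) ℂ →+* ℂ)) c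
        = phi 𝔭 π ι R₁ + phi 𝔭 π ι R₂ * fun _ => Complex.I := by
      funext z
      have h1 := hR (ι.symm (ev π z.1))
      simp only [ContinuousLinearEquiv.coe_coe, ContinuousLinearEquiv.apply_symm_apply] at h1
      rw [Pi.add_apply, Pi.mul_apply, phi_apply, phi_apply, ← h1.1, ← h1.2, Complex.re_add_im]
      rfl
    rw [e]
    exact RingHom.IsIntegralElem.add _ (RingHom.isIntegralElem_map _)
      (RingHom.IsIntegralElem.mul _ (RingHom.isIntegralElem_map _) (int_I 𝔭 π ι))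
  · obtain ⟨M, hM1, hM2⟩ := H.integral_eval (X i)
    refine ⟨M, hM1, funext fun z => ?_⟩
    have h1 := hM2 z.1 z.2
    rw [Polynomial.eval_map, eval_X] at h1
    have h2 := Polynomial.hom_eval₂ M
      (RingHom.pi fun z : ZV 𝔭 => (eval (ev π z.1) : MvPolynomial (Fin n) ℂ →+* ℂ))
      (Pi.evalRingHom (fun _ : ZV 𝔭 => ℂ) z) (fun z => z.1 i)
    exact h2.trans h1

theorem int_conj {𝔭 : Ideal (MvPolynomial (Fin N) ℂ)} {π : Fin n → MvPolynomial (Fin N) ℂ}
    {ι : (Fin m → ℝ) ≃L[ℝ] (Fin n → ℂ)} {x : ZV 𝔭 → ℂ} (h : (phi 𝔭 π ι).IsIntegralElem x) :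
    (phi 𝔭 π ι).IsIntegralElem (fun z => (starRingEnd ℂ) (x z)) := by
  obtain ⟨M, hM1, hM2⟩ := h
  refine ⟨M, hM1, ?_⟩
  have h2 := Polynomial.hom_eval₂ M (phi 𝔭 π ι) (starRingEnd (ZV 𝔭 → ℂ)) x
  have h3 : (starRingEnd (ZV 𝔭 → ℂ)).comp (phi 𝔭 π ι) = phi 𝔭 π ι :=
    RingHom.ext fun r => funext fun z => Complex.conj_ofReal _
  rw [hM2, map_zero, h3] at h2
  exact h2.symm

theorem int_P {𝔭 : Ideal (MvPolynomial (Fin N) ℂ)} {π : Fin n → MvPolynomial (Fin N) ℂ}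
    {Δ : MvPolynomial (Fin n) ℂ} (H : GRData 𝔭 n π Δ) (ι : (Fin m → ℝ) ≃L[ℝ] (Fin n → ℂ))
    (P : MvPolynomial (Fin N ⊕ Fin N) ℝ) :
    (phi 𝔭 π ι).IsIntegralElem (fun z => ((eval (reIm z.1) P : ℝ) : ℂ)) := by
  induction P using MvPolynomial.induction_on with
  | C a =>
    have e : (fun z : ZV 𝔭 => ((eval (reIm z.1) (C a) : ℝ) : ℂ)) = phi 𝔭 π ι (C a) := by
      funext z
      rw [phi_apply, eval_C, eval_C]
    rw [e]
    exact RingHom.isIntegralElem_map _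
  | add p q hp hq =>
    have e : (fun z : ZV 𝔭 => ((eval (reIm z.1) (p + q) : ℝ) : ℂ))
        = (fun z => ((eval (reIm z.1) p : ℝ) : ℂ)) + fun z => ((eval (reIm z.1) q : ℝ) : ℂ) := by
      funext z
      rw [map_add, Complex.ofReal_add, Pi.add_apply]
    rw [e]
    exact RingHom.IsIntegralElem.add _ hp hq
  | mul_X p j hp =>
    have e : (fun z : ZV 𝔭 => ((eval (reIm z.1) (p * X j) : ℝ) : ℂ))
        = (fun z => ((eval (reIm z.1) p : ℝ) : ℂ)) * fun z => ((reIm z.1 j : ℝ) : ℂ) := by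
      funext z
      rw [map_mul, Complex.ofReal_mul, Pi.mul_apply, eval_X]
    rw [e]
    refine RingHom.IsIntegralElem.mul _ hp ?_
    cases j with
    | inl i =>
      have e1 : (fun z : ZV 𝔭 => ((reIm z.1 (Sum.inl i) : ℝ) : ℂ))
          = phi 𝔭 π ι (C (1 / 2)) * ((fun z => z.1 i) + fun z => (starRingEnd ℂ) (z.1 i)) := by
        funext z
        rw [Pi.mul_apply, Pi.add_apply, phi_apply, eval_C, Complex.add_conj, reIm, Sum.elim_inl]
        push_cast
        ring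
      rw [e1]
      exact RingHom.IsIntegralElem.mul _ (RingHom.isIntegralElem_map _)
        (RingHom.IsIntegralElem.add _ (int_X H ι i) (int_conj (int_X H ι i)))
    | inr i =>
      have e1 : (fun z : ZV 𝔭 => ((reIm z.1 (Sum.inr i) : ℝ) : ℂ))
          = phi 𝔭 π ι (C (-1 / 2)) * (((fun z => z.1 i) - fun z => (starRingEnd ℂ) (z.1 i))
            * fun _ => Complex.I) := by
        funext z
        rw [Pi.mul_apply, Pi.mul_apply, Pi.sub_apply, phi_apply, eval_C, Complex.sub_conj, reIm,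
          Sum.elim_inr, mul_assoc, Complex.I_mul_I]
        push_cast
        ring
      rw [e1]
      exact RingHom.IsIntegralElem.mul _ (RingHom.isIntegralElem_map _)
        (RingHom.IsIntegralElem.mul _
          (RingHom.IsIntegralElem.sub _ (int_X H ι i) (int_conj (int_X H ι i))) (int_I 𝔭 π ι))

theorem continuous_reIm : Continuous (reIm : (Fin N → ℂ) → (Fin N ⊕ Fin N → ℝ)) := by
  refine continuous_pi fun j => ?_
  cases j with
  | inl i => exact Complex.continuous_re.comp (continuous_apply i)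
  | inr i => exact Complex.continuous_im.comp (continuous_apply i)

theorem sign {𝔭 : Ideal (MvPolynomial (Fin N) ℂ)} {π : Fin n → MvPolynomial (Fin N) ℂ}
    {Δ : MvPolynomial (Fin n) ℂ} (H : GRData 𝔭 n π Δ) (ι : (Fin m → ℝ) ≃L[ℝ] (Fin n → ℂ))
    (P : MvPolynomial (Fin N ⊕ Fin N) ℝ) : ∃ D : MvPolynomial (Fin m) ℝ, D ≠ 0 ∧
      ∀ (G : (Fin n → ℂ) → (Fin N → ℂ)) (ξ₀ : Fin m → ℝ),
        (∀ᶠ t in 𝓝 (ι ξ₀), ContinuousAt G t ∧ G t ∈ ZV 𝔭 ∧ ev π (G t) = t) → eval ξ₀ D ≠ 0 →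
        ∀ᶠ ξ in 𝓝 ξ₀, (0 < eval (reIm (G (ι ξ))) P ↔ 0 < eval (reIm (G (ι ξ₀))) P) ∧
          (eval (reIm (G (ι ξ))) P = 0 ↔ eval (reIm (G (ι ξ₀))) P = 0) := by
  obtain ⟨M, hM1, hM2⟩ := int_P H ι P
  have hM3 : ∀ z ∈ ZV 𝔭, pev M (ι.symm (ev π z), eval (reIm z) P) = 0 := by
    intro z hz
    have h2 := Polynomial.hom_eval₂ M (phi 𝔭 π ι) (Pi.evalRingHom (fun _ : ZV 𝔭 => ℂ) ⟨z, hz⟩)
      (fun z => ((eval (reIm z.1) P : ℝ) : ℂ))
    have h3 := Polynomial.hom_eval₂ M (eval (ι.symm (ev π z))) Complex.ofRealHom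
      (eval (reIm z) P)
    rw [hM2, map_zero] at h2
    rw [pev, Polynomial.eval_map]
    exact Complex.ofReal_eq_zero.1 (h3.trans h2.symm)
  obtain ⟨q, hq, hX⟩ := Polynomial.exists_eq_pow_rootMultiplicity_mul_and_not_dvd M hM1.ne_zero 0
  generalize Polynomial.rootMultiplicity 0 M = e at hq
  refine ⟨q.coeff 0, fun h0 => hX (by simpa [Polynomial.X_dvd_iff] using h0), fun G ξ₀ hG hD => ?_⟩
  have hc : ContinuousAt (fun ξ => eval (reIm (G (ι ξ))) P) ξ₀ :=
    ContinuousAt.comp (g := fun z => eval (reIm z) P)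
      ((MvPolynomial.continuous_eval P).comp continuous_reIm).continuousAt
      (ContinuousAt.comp (g := G) hG.self_of_nhds.1 ι.continuous.continuousAt)
  rcases lt_trichotomy (eval (reIm (G (ι ξ₀))) P) 0 with h | h | h
  · filter_upwards [hc.eventually (gt_mem_nhds h)] with ξ hξ
    exact ⟨iff_of_false hξ.not_gt h.not_gt, iff_of_false hξ.ne h.ne⟩
  · have h1 : ContinuousAt (fun ξ => pev q (ξ, eval (reIm (G (ι ξ))) P)) ξ₀ :=
      ContinuousAt.comp (g := pev q) (continuous_pev q).continuousAt (continuousAt_id.prodMk hc)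
    have h2 : pev q (ξ₀, eval (reIm (G (ι ξ₀))) P) ≠ 0 := by
      rw [h, pev, ← Polynomial.coeff_zero_eq_eval_zero, Polynomial.coeff_map]
      exact hD
    filter_upwards [h1.eventually_ne h2, ι.continuous.continuousAt.eventually hG] with ξ h3 h4
    have h5 := hM3 _ h4.2.1
    rw [h4.2.2, ι.symm_apply_apply, hq, pev, Polynomial.map_mul, Polynomial.eval_mul] at h5
    have h6 := (mul_eq_zero.1 h5).resolve_right h3
    have h7 : eval (reIm (G (ι ξ))) P = 0 := by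
      have h8 : eval (reIm (G (ι ξ))) P ^ e = 0 := by simpa using h6
      exact eq_zero_of_pow_eq_zero h8
    rw [h7, h]
    exact ⟨Iff.rfl, Iff.rfl⟩
  · filter_upwards [hc.eventually (lt_mem_nhds h)] with ξ hξ
    exact ⟨iff_of_true hξ h, iff_of_false hξ.ne' h.ne'⟩

end FrontAux

open FrontAux in
/-- Sketch. Step 1 (one real polynomial `f` in `reIm z`): work in the ring of functions
`ZV 𝔭 → ℂ`, an algebra over `R = MvPolynomial (Fin m) ℂ` through
`r ↦ (z ↦ aeval (fun i => (ι.symm (ev π z) i : ℂ)) r)` (`RingHom.toAlgebra`, local instance). Each `z i`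
is integral over `R` (`GRData.integral_eval` for `X i`; each `t j = ι ξ j` is a complex linear form in `ξ`,
so every `g ∈ ℂ[t]` gives an element of `R`, cf. `poly_reim`), and so is `conj (z i)` (conjugate the
relation: map the coefficients by `conj`). Hence `re (z i)`, `im (z i)` and `f` are integral:
`f^r + ∑ a_l f^l = 0` on `ZV 𝔭`, monic `M ∈ R[T]`. Write `M = T^e * M'` with `M'.coeff 0 = a ≠ 0`
(`Polynomial.exists_eq_pow_rootMultiplicity_mul_and_not_dvd`). `a ≠ 0` is not identically zero on real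
points, `D_f = (re a)² + (im a)²` as a real polynomial is nonzero. If `a(ξ₀) ≠ 0` and `f (G (ι ξ₀)) = 0`
then near `ξ₀` the factor `M'(f)` is nonzero by continuity, so `f (G (ι ξ)) ^ e = 0`, and `e ≠ 0`;
so `f ∘ G ∘ ι` vanishes near `ξ₀`; otherwise it has constant sign near `ξ₀`. Step 2: induction on
`Semialg`, multiplying the polynomials `D`. -/
theorem Front_pf : S_Front := by
  intro N n m 𝔭 π Δ H ι U hU
  induction hU with
  | pos P =>
    obtain ⟨D, h1, h2⟩ := sign H ι P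
    exact ⟨D, h1, fun G ξ₀ hG hD => (h2 G ξ₀ hG hD).mono fun ξ h => h.1⟩
  | zero P =>
    obtain ⟨D, h1, h2⟩ := sign H ι P
    exact ⟨D, h1, fun G ξ₀ hG hD => (h2 G ξ₀ hG hD).mono fun ξ h => h.2⟩
  | union _ _ iha ihb =>
    obtain ⟨D, h1, h2⟩ := iha
    obtain ⟨D', h1', h2'⟩ := ihb
    refine ⟨D * D', mul_ne_zero h1 h1', fun G ξ₀ hG hD => ?_⟩
    rw [map_mul] at hD
    filter_upwards [h2 G ξ₀ hG (left_ne_zero_of_mul hD), h2' G ξ₀ hG (right_ne_zero_of_mul hD)]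
      with ξ h3 h4
    exact or_congr h3 h4
  | inter _ _ iha ihb =>
    obtain ⟨D, h1, h2⟩ := iha
    obtain ⟨D', h1', h2'⟩ := ihb
    refine ⟨D * D', mul_ne_zero h1 h1', fun G ξ₀ hG hD => ?_⟩
    rw [map_mul] at hD
    filter_upwards [h2 G ξ₀ hG (left_ne_zero_of_mul hD), h2' G ξ₀ hG (right_ne_zero_of_mul hD)]
      with ξ h3 h4
    exact and_congr h3 h4
  | compl _ iha =>
    obtain ⟨D, h1, h2⟩ := iha
    exact ⟨D, h1, fun G ξ₀ hG hD => (h2 G ξ₀ hG hD).mono fun ξ h => not_congr h⟩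

end Vale.Agent.P274
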