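import Vale.Agent.P274.Alg

open Set Filter Topology Metric MvPolynomial

namespace Vale.Agent.P274

namespace GRAux

open scoped ContDiff

variable {𝕜 : Type} [RCLike 𝕜] {N n : ℕ}

/-- evaluation of a polynomial over the base at a point `(t, τ)` -/
noncomputable def P (v : (Fin n → 𝕜) × 𝕜) : Polynomial (MvPolynomial (Fin n) 𝕜) →+* 𝕜 :=
  Polynomial.eval₂RingHom (eval v.1) v.2

/-- substitution of `π` and `θ` -/
noncomputable def E (π : Fin n → MvPolynomial (Fin N) 𝕜) (θ : MvPolynomial (Fin N) 𝕜) :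
    Polynomial (MvPolynomial (Fin n) 𝕜) →+* MvPolynomial (Fin N) 𝕜 :=
  Polynomial.eval₂RingHom (aeval π : MvPolynomial (Fin n) 𝕜 →ₐ[𝕜] _).toRingHom θ

theorem P_C (v : (Fin n → 𝕜) × 𝕜) (a : MvPolynomial (Fin n) 𝕜) :
    P v (Polynomial.C a) = eval v.1 a := Polynomial.eval₂_C _ _

theorem P_X (v : (Fin n → 𝕜) × 𝕜) : P v Polynomial.X = v.2 := Polynomial.eval₂_X _ _

theorem E_C (π : Fin n → MvPolynomial (Fin N) 𝕜) (θ : MvPolynomial (Fin N) 𝕜)
    (a : MvPolynomial (Fin n) 𝕜) : E π θ (Polynomial.C a) = aeval π a := Polynomial.eval₂_C _ _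

theorem P_eq (v : (Fin n → 𝕜) × 𝕜) (m : Polynomial (MvPolynomial (Fin n) 𝕜)) :
    P v m = (m.map (eval v.1)).eval v.2 := (Polynomial.eval_map _ _).symm

theorem eval_E (π : Fin n → MvPolynomial (Fin N) 𝕜) (θ : MvPolynomial (Fin N) 𝕜)
    (z : Fin N → 𝕜) (m : Polynomial (MvPolynomial (Fin n) 𝕜)) :
    eval z (E π θ m) = P (ev π z, eval z θ) m := by
  rw [P_eq]
  exact eval_eval₂_ev π z θ m

theorem analyticAt_P (m : Polynomial (MvPolynomial (Fin n) 𝕜)) (v : (Fin n → 𝕜) × 𝕜) :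
    AnalyticAt 𝕜 (fun w => P w m) v := by
  induction m using Polynomial.induction_on with
  | C a =>
    simp only [P_C]
    exact (analyticAt_eval a v.1).comp analyticAt_fst
  | add p q hp hq =>
    simp only [map_add]
    exact hp.fun_add hq
  | monomial k a h =>
    simp only [pow_succ, ← mul_assoc, map_mul (P _) _ Polynomial.X, P_X]
    exact h.fun_mul analyticAt_snd

theorem implicit (F : Polynomial (MvPolynomial (Fin n) 𝕜)) (u : (Fin n → 𝕜) × 𝕜)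
    (h0 : P u F = 0) (h1 : P u F.derivative ≠ 0) :
    ∃ τ : (Fin n → 𝕜) → 𝕜, AnalyticAt 𝕜 τ u.1 ∧ (∀ᶠ t in 𝓝 u.1, P (t, τ t) F = 0) ∧
      ∀ᶠ v in 𝓝 u, P v F = 0 → τ v.1 = v.2 := by
  have cdf : ContDiffAt 𝕜 ω (fun w => P w F) u := (analyticAt_P F u).contDiffAt
  have pn : (ω : WithTop ℕ∞) ≠ 0 := by simp
  have if₂ : (fderiv 𝕜 (fun w => P w F) u ∘L .inr 𝕜 (Fin n → 𝕜) 𝕜).IsInvertible := by
    have h2 : HasFDerivAt (fun s : 𝕜 => P (u.1, s) F)
        (fderiv 𝕜 (fun w => P w F) u ∘L .inr 𝕜 (Fin n → 𝕜) 𝕜) u.2 :=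
      HasFDerivAt.comp u.2 (g := fun w => P w F) (f := fun s : 𝕜 => (u.1, s))
        (analyticAt_P F u).differentiableAt.hasFDerivAt (hasFDerivAt_prodMk_right u.1 u.2)
    have h3 : HasDerivAt (fun s : 𝕜 => P (u.1, s) F) (P u F.derivative) u.2 := by
      simp only [P_eq]
      rw [← Polynomial.derivative_map]
      exact Polynomial.hasDerivAt _ _
    rw [h2.unique h3.hasFDerivAt]
    refine ⟨ContinuousLinearEquiv.unitsEquivAut 𝕜 (Units.mk0 _ h1), ?_⟩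
    ext
    simp
  refine ⟨cdf.implicitFunction pn if₂,
    (cdf.contDiffAt_implicitFunction pn if₂).analyticAt, ?_, ?_⟩
  · filter_upwards [cdf.eventually_apply_implicitFunction pn if₂] with t ht
    rw [ht, h0]
  · filter_upwards [cdf.eventually_apply_eq_iff_implicitFunction pn if₂] with v hv h
    exact hv.1 (h.trans h0.symm)

theorem key (𝔭 : Ideal (MvPolynomial (Fin N) 𝕜)) (π : Fin n → MvPolynomial (Fin N) 𝕜)
    (θ : MvPolynomial (Fin N) 𝕜) (δ : MvPolynomial (Fin n) 𝕜)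
    (Gs : Fin N → Polynomial (MvPolynomial (Fin n) 𝕜))
    (hG : ∀ i, aeval π δ * X i - E π θ (Gs i) ∈ 𝔭) (g : MvPolynomial (Fin N) 𝕜) :
    ∃ (M : ℕ) (g' : Polynomial (MvPolynomial (Fin n) 𝕜)),
      aeval π δ ^ M * g - E π θ g' ∈ 𝔭 ∧ ∀ v : (Fin n → 𝕜) × 𝕜, eval v.1 δ ≠ 0 →
        eval v.1 δ ^ M * eval (fun i => P v (Gs i) / eval v.1 δ) g = P v g' := by
  induction g using MvPolynomial.induction_on with
  | C a =>
    refine ⟨0, Polynomial.C (C a), ?_, fun v _ => ?_⟩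
    · rw [E_C, aeval_C, pow_zero, one_mul, algebraMap_eq, sub_self]
      exact 𝔭.zero_mem
    · rw [P_C, pow_zero, one_mul, eval_C, eval_C]
  | add p q hp hq =>
    obtain ⟨M₁, p', hp1, hp2⟩ := hp
    obtain ⟨M₂, q', hq1, hq2⟩ := hq
    refine ⟨M₁ + M₂, Polynomial.C δ ^ M₂ * p' + Polynomial.C δ ^ M₁ * q', ?_, fun v hv => ?_⟩
    · have e : aeval π δ ^ (M₁ + M₂) * (p + q)
          - E π θ (Polynomial.C δ ^ M₂ * p' + Polynomial.C δ ^ M₁ * q')
          = aeval π δ ^ M₂ * (aeval π δ ^ M₁ * p - E π θ p')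
            + aeval π δ ^ M₁ * (aeval π δ ^ M₂ * q - E π θ q') := by
        rw [map_add, map_mul, map_mul, map_pow, map_pow, E_C]
        ring
      rw [e]
      exact 𝔭.add_mem (𝔭.mul_mem_left _ hp1) (𝔭.mul_mem_left _ hq1)
    · rw [map_add, map_add, map_mul, map_mul, map_pow, map_pow, P_C, ← hp2 v hv, ← hq2 v hv]
      ring
  | mul_X p i hp =>
    obtain ⟨M, p', hp1, hp2⟩ := hp
    refine ⟨M + 1, p' * Gs i, ?_, fun v hv => ?_⟩
    · have e : aeval π δ ^ (M + 1) * (p * X i) - E π θ (p' * Gs i)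
          = (aeval π δ * X i) * (aeval π δ ^ M * p - E π θ p')
            + E π θ p' * (aeval π δ * X i - E π θ (Gs i)) := by
        rw [map_mul]
        ring
      rw [e]
      exact 𝔭.add_mem (𝔭.mul_mem_left _ hp1) (𝔭.mul_mem_left _ (hG i))
    · rw [map_mul, map_mul, eval_X, ← hp2 v hv]
      field_simp
      ring

theorem vanish {F g q : Polynomial (MvPolynomial (Fin n) 𝕜)} {r : MvPolynomial (Fin n) 𝕜}
    (hr : r ≠ 0) (h : Polynomial.C r * g = F * q) {τ : (Fin n → 𝕜) → 𝕜} {t : Fin n → 𝕜}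
    (hτ : ContinuousAt τ t) (hF : ∀ᶠ s in 𝓝 t, P (s, τ s) F = 0) : P (t, τ t) g = 0 := by
  have h1 : ContinuousAt (fun s => P (s, τ s) g) t :=
    ContinuousAt.comp (g := fun w => P w g) (analyticAt_P g _).continuousAt
      (continuousAt_id.prodMk hτ)
  refine tendsto_nhds_unique_of_frequently_eq h1 tendsto_const_nhds ?_
  refine ((mem_closure_iff_frequently.1 (dense_eval_ne hr t)).and_eventually hF).mono ?_
  rintro s ⟨hs1, hs2⟩
  have h2 := congrArg (P (s, τ s)) h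
  rw [map_mul, map_mul, hs2, zero_mul, P_C] at h2
  exact (mul_eq_zero.1 h2).resolve_left hs1

end GRAux

open GRAux in
/-- Sketch. Take the data of `S_GRalg`, `Δ = δ`. Write `F(t, τ) = (F.map (eval t)).eval τ` (analytic in
`(t, τ)`), use `eval_eval₂_ev`. At `z₀ ∈ ZV 𝔭` with `δ(t₀) ≠ 0` (`t₀ = ev π z₀`, `τ₀ = eval z₀ θ`):
`F(t₀,τ₀) = 0` and `∂F/∂τ (t₀,τ₀) ≠ 0` by the Bezout identity. The map `(t,τ) ↦ (t, F(t,τ))` has an
invertible strict derivative; `HasStrictFDerivAt.toOpenPartialHomeomorph` and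
`OpenPartialHomeomorph.analyticAt_symm'` give an analytic `τ(t)` near `t₀` with `F(t,τ t) = 0` and local
uniqueness (`F(t,τ') = 0`, `(t,τ')` near `(t₀,τ₀)` implies `τ' = τ t`). Put
`G t i = Gs i (t, τ t) / δ(t)`. Key lemma (induction on `g : 𝕜[z]`): there are `M` and `g' ∈ R[T]` with
`aeval π δ ^ M * g - g'(π,θ) ∈ 𝔭` and for all `t τ` with `δ(t) ≠ 0`,
`δ(t)^M * eval (fun i => Gs i (t,τ) / δ t) g = g'(t,τ)`. For `g ∈ 𝔭`: `g'(π,θ) ∈ 𝔭`, so
`r(t) g'(t, τ t) = F q = 0`; on a fixed open neighbourhood `N` of `t₀` (independent of `g`: where `τ` is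
continuous, `F(t,τ t) = 0`, `δ t ≠ 0`) continuity and `dense_eval_ne` give `g'(t,τ t) = 0` on `N`.
For `ev π (G t) = t` apply the same to `g = π j` and `g' - C (δ^M * X j)`. Finally for `z ∈ ZV 𝔭` near
`z₀`: `eval z θ = τ (ev π z)` by uniqueness and `δ z_i = Gs i (..)` gives `G (ev π z) = z`. -/
theorem GR_pf (h : S_GRalg) : S_GR := by
  intro 𝕜 _ N 𝔭 hp
  obtain ⟨n, π, θ, F, α, β, δ, Gs, h1, h2, h3, h4, h5, h6, h7⟩ := h 𝕜 N 𝔭 hp
  have h5' : E π θ F ∈ 𝔭 := h5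
  have h6' : ∀ i, aeval π δ * X i - E π θ (Gs i) ∈ 𝔭 := h6
  have h7' : ∀ g, E π θ g ∈ 𝔭 → ∃ (r : MvPolynomial (Fin n) 𝕜)
      (q : Polynomial (MvPolynomial (Fin n) 𝕜)), r ≠ 0 ∧ Polynomial.C r * g = F * q := h7
  refine ⟨n, π, δ, h1, h2, h3, fun z₀ hz₀ hδ => ?_⟩
  have hF : ∀ z ∈ ZV 𝔭, P (ev π z, eval z θ) F = 0 := fun z hz => by
    rw [← eval_E]; exact hz _ h5'
  have hF' : P (ev π z₀, eval z₀ θ) F.derivative ≠ 0 := by
    intro h0
    have h8 := congrArg (P (ev π z₀, eval z₀ θ)) h4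
    rw [map_add, map_mul, map_mul, hF z₀ hz₀, h0, mul_zero, mul_zero, add_zero, P_C] at h8
    exact hδ h8.symm
  obtain ⟨τ, hτ1, hτ2, hτ3⟩ := implicit F (ev π z₀, eval z₀ θ) (hF z₀ hz₀) hF'
  have hδ' : ∀ᶠ t in 𝓝 (ev π z₀), eval t δ ≠ 0 := (continuous_eval' δ).continuousAt.eventually_ne hδ
  have hlast : ∀ᶠ z in 𝓝 z₀, z ∈ ZV 𝔭 →
      (fun i => P (ev π z, τ (ev π z)) (Gs i) / eval (ev π z) δ) = z := by
    have hc : ContinuousAt (fun z => (ev π z, eval z θ)) z₀ :=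
      (continuous_ev π).continuousAt.prodMk (continuous_eval' θ).continuousAt
    filter_upwards [hc.eventually hτ3, (continuous_ev π).continuousAt.eventually hδ']
      with z hz1 hz2 hz
    funext i
    have h8 : τ (ev π z) = eval z θ := hz1 (hF z hz)
    have h9 := hz _ (h6' i)
    rw [map_sub, map_mul, eval_E, eval_aeval_ev, eval_X, sub_eq_zero] at h9
    rw [h8, ← h9, mul_div_cancel_left₀ _ hz2]
  refine ⟨fun t i => P (t, τ t) (Gs i) / eval t δ, ?_, hlast.self_of_nhds hz₀, ?_, hlast⟩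
  · refine analyticAt_pi_iff.2 fun i => AnalyticAt.fun_div ?_ (analyticAt_eval δ _) hδ
    exact AnalyticAt.comp (g := fun w => P w (Gs i)) (analyticAt_P _ _) (analyticAt_id.prod hτ1)
  · filter_upwards [hδ', hτ1.eventually_analyticAt, hτ2.eventually_nhds] with t ht1 ht2 ht3
    have hv : ∀ g, E π θ g ∈ 𝔭 → P (t, τ t) g = 0 := fun g hg => by
      obtain ⟨r, q, hr, hq⟩ := h7' g hg
      exact vanish hr hq ht2.continuousAt ht3
    refine ⟨fun g hg => ?_, funext fun j => ?_⟩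
    · obtain ⟨M, g', hg1, hg2⟩ := key 𝔭 π θ δ Gs h6' g
      have h8 : E π θ g' ∈ 𝔭 := by
        have := 𝔭.sub_mem (𝔭.mul_mem_left (aeval π δ ^ M) hg) hg1
        rwa [sub_sub_cancel] at this
      have h9 := hg2 (t, τ t) ht1
      rw [hv g' h8] at h9
      exact (mul_eq_zero.1 h9).resolve_left (pow_ne_zero _ ht1)
    · obtain ⟨M, g', hg1, hg2⟩ := key 𝔭 π θ δ Gs h6' (π j)
      have h8 : E π θ (Polynomial.C (δ ^ M * X j) - g') ∈ 𝔭 := by
        rw [map_sub, E_C, map_mul, map_pow, aeval_X]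
        exact hg1
      have h9 := hv _ h8
      rw [map_sub, P_C, map_mul, map_pow, eval_X, ← hg2 (t, τ t) ht1, sub_eq_zero] at h9
      exact (mul_left_cancel₀ (pow_ne_zero _ ht1) h9).symm

end Vale.Agent.P274
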