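import Vale.Agent.P274.Alg

open Set Filter Topology Metric MvPolynomial

namespace Vale.Agent.P274

namespace GRalgAux

open scoped nonZeroDivisors

theorem clear_den {R K : Type*} [CommRing R] [IsDomain R] [Field K] [Algebra R K]
    [IsFractionRing R K] {ι : Type*} [Fintype ι] (p : ι → Polynomial K) :
    ∃ (δ : R) (q : ι → Polynomial R), δ ≠ 0 ∧
      ∀ i, (q i).map (algebraMap R K) = Polynomial.C (algebraMap R K δ) * p i := by
  classical
  choose b hb hq using fun i => IsLocalization.integerNormalization_spec R⁰ (p i)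
  refine ⟨∏ i, b i, fun i => Polynomial.C (∏ j ∈ Finset.univ.erase i, b j) *
    IsLocalization.integerNormalization R⁰ (p i), ?_, fun i => ?_⟩
  · exact Finset.prod_ne_zero_iff.2 fun i _ => nonZeroDivisors.ne_zero (hb i)
  · rw [Polynomial.map_mul, hq i, Polynomial.map_C,
      ← Finset.prod_erase_mul _ _ (Finset.mem_univ i), map_mul, map_mul, mul_assoc,
      ← IsScalarTower.algebraMap_smul K (b i) (p i), Polynomial.smul_eq_C_mul]

theorem prim {R A : Type*} [CommRing R] [IsDomain R] [CharZero R] [IsIntegrallyClosed R]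
    [CommRing A] [IsDomain A] [Algebra R A] [FaithfulSMul R A] [Module.Finite R A]
    {ι : Type*} [Fintype ι] (x : ι → A) :
    ∃ (θ : A) (F α β : Polynomial R) (δ : R) (Gs : ι → Polynomial R), δ ≠ 0 ∧
      α * F + β * F.derivative = Polynomial.C δ ∧ Polynomial.aeval θ F = 0 ∧
      (∀ i, algebraMap R A δ * x i = Polynomial.aeval θ (Gs i)) ∧
      ∀ g : Polynomial R, Polynomial.aeval θ g = 0 → F ∣ g := by
  let K := FractionRing R
  let L := FractionRing A
  let _ : Algebra K L := FractionRing.liftAlgebra R L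
  have : IsScalarTower R K L := FractionRing.isScalarTower_liftAlgebra R L
  have : FiniteDimensional K L := .of_isLocalization R A R⁰
  have : CharZero K := IsFractionRing.charZero_of_isFractionRing R
  obtain ⟨a, ha⟩ := Field.exists_primitive_element K L
  obtain ⟨θ, s, hs⟩ := IsLocalization.exists_mk'_eq (Algebra.algebraMapSubmonoid A R⁰) a
  obtain ⟨s, r, hr, rfl⟩ := s
  have hr0 : algebraMap R K r ≠ 0 :=
    (map_ne_zero_iff _ (IsFractionRing.injective R K)).2 (nonZeroDivisors.ne_zero hr)
  have hθ : algebraMap K L (algebraMap R K r) * a = algebraMap A L θ := by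
    rw [← hs, ← IsScalarTower.algebraMap_apply, IsScalarTower.algebraMap_apply R A L, mul_comm]
    exact IsLocalization.mk'_spec (M := Algebra.algebraMapSubmonoid A R⁰) L θ ⟨_, r, hr, rfl⟩
  have ha' : a = algebraMap K L (algebraMap R K r)⁻¹ * algebraMap A L θ := by
    rw [← hθ, ← mul_assoc, ← map_mul, inv_mul_cancel₀ hr0, map_one, one_mul]
  have hall : ∀ y : L, ∃ p : Polynomial K, Polynomial.aeval (algebraMap A L θ) p = y := by
    intro y
    have h1 : y ∈ (IntermediateField.adjoin K {a}).toSubalgebra := by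
      rw [ha]; exact IntermediateField.mem_top
    rw [IntermediateField.adjoin_simple_toSubalgebra_of_isAlgebraic
      (Algebra.IsAlgebraic.isAlgebraic a)] at h1
    obtain ⟨p, hp⟩ := Algebra.adjoin_mem_exists_aeval _ _ h1
    refine ⟨p.comp (Polynomial.C (algebraMap R K r)⁻¹ * Polynomial.X), ?_⟩
    rw [Polynomial.aeval_comp, map_mul, Polynomial.aeval_C, Polynomial.aeval_X, ← ha', hp]
  choose G hG using fun i => hall (algebraMap A L (x i))
  have hint : IsIntegral R θ := Algebra.IsIntegral.isIntegral θ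
  have hF := minpoly.isIntegrallyClosed_eq_field_fractions K L hint
  have hsep : (minpoly K (algebraMap A L θ)).Separable := Algebra.IsSeparable.isSeparable K _
  obtain ⟨u, v, huv⟩ := hsep
  obtain ⟨δ, q, hδ, hq⟩ := clear_den (R := R) (K := K)
    (fun j : Bool ⊕ ι => Sum.elim (fun b => if b then u else v) G j)
  refine ⟨θ, minpoly R θ, q (Sum.inl true), q (Sum.inl false), δ, fun i => q (Sum.inr i), hδ,
    ?_, minpoly.aeval R θ, fun i => ?_, fun g hg => minpoly.isIntegrallyClosed_dvd hint hg⟩
  · apply Polynomial.map_injective (algebraMap R K) (IsFractionRing.injective R K)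
    rw [Polynomial.map_add, Polynomial.map_mul, Polynomial.map_mul, hq, hq,
      ← Polynomial.derivative_map, ← hF, Polynomial.map_C, mul_assoc, mul_assoc, ← mul_add]
    simp only [Sum.elim_inl, if_true, Bool.false_eq_true, if_false]
    rw [huv, mul_one]
  · apply IsFractionRing.injective A L
    rw [← Polynomial.aeval_algebraMap_apply, ← Polynomial.aeval_map_algebraMap K, hq, map_mul,
      map_mul, Polynomial.aeval_C, Sum.elim_inr, hG, ← IsScalarTower.algebraMap_apply,
      ← IsScalarTower.algebraMap_apply]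

theorem prim' {R A : Type*} [CommRing R] [IsDomain R] [CharZero R] [IsIntegrallyClosed R]
    [CommRing A] [IsDomain A] (g : R →+* A) (hinj : Function.Injective g) (hfin : g.Finite)
    {ι : Type*} [Fintype ι] (x : ι → A) :
    ∃ (θ : A) (F α β : Polynomial R) (δ : R) (Gs : ι → Polynomial R), δ ≠ 0 ∧
      α * F + β * F.derivative = Polynomial.C δ ∧ Polynomial.eval₂ g θ F = 0 ∧
      (∀ i, g δ * x i = Polynomial.eval₂ g θ (Gs i)) ∧
      ∀ f : Polynomial R, Polynomial.eval₂ g θ f = 0 → F ∣ f := by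
  let _ : Algebra R A := g.toAlgebra
  have : FaithfulSMul R A := (faithfulSMul_iff_algebraMap_injective _ _).2 hinj
  have : Module.Finite R A := hfin
  exact prim x

end GRalgAux

/-- Sketch. Let `A = 𝕜[z] ⧸ 𝔭` (a domain). `exists_integral_inj_algHom_of_quotient` gives `n` and an
injective integral `g : R := 𝕜[t₁..tₙ] →ₐ A`; lift `g (X i)` to `π i`, so `mk ∘ aeval π = g`
(`MvPolynomial.algHom_ext`). This gives the first two clauses. Make `A` an `R`-algebra, `K = Frac R`,
`L = Frac A` a `K`-algebra (`FractionRing.liftAlgebra` / `IsFractionRing.lift`); `A` is finite over `R`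
(integral + finite type), so `L / K` is finite (e.g. `Module.Finite.of_isLocalization`-type lemmas, or
`IsIntegralClosure`-free argument: `L` is spanned over `K` by the image of `A`, because every nonzero
`a ∈ A` divides a nonzero element of `R`, cf. `IsIntegral`/`Algebra.IsAlgebraic.exists_nonzero_dvd`,
`IsLocalization` of `A` at `algebraMapSubmonoid A R⁰`), and separable (characteristic zero).
`Field.exists_primitive_element` gives `a` with `K⟮a⟯ = ⊤`; write `a = θ / r` with `θ ∈ A`, `r ∈ R`
nonzero, so `θ` is primitive too. Let `F₀ = minpoly K θ`, `F = IsLocalization.integerNormalization R⁰ F₀`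
(so `F.map = c • F₀`, `c ≠ 0`), separable, so `a F₀ + b F₀' = 1`; clear denominators. Each `z i` is a
polynomial in `θ` over `K` (`IntermediateField.adjoin_simple_toSubalgebra_of_isAlgebraic`,
`Algebra.adjoin_singleton_eq_range_aeval`); clear denominators; take for `δ` the product of all
denominators (multiply `α β` and `Gs i` by the complementary factors). Last clause:
`minpoly.dvd` in `K[T]`, clear denominators, injectivity of `R[T] → K[T]`. -/
theorem GRalg_pf : S_GRalg := by
  intro 𝕜 _ N 𝔭 hp
  obtain ⟨n, g, hinj, hfin⟩ := exists_finite_inj_algHom_of_fg 𝕜 (MvPolynomial (Fin N) 𝕜 ⧸ 𝔭)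
  choose π hπ using fun i : Fin n => Ideal.Quotient.mk_surjective (g (X i))
  have hg : ∀ f : MvPolynomial (Fin n) 𝕜, Ideal.Quotient.mk 𝔭 (aeval π f) = g f := by
    intro f
    have h1 : (Ideal.Quotient.mkₐ 𝕜 𝔭).comp (aeval π) = g :=
      MvPolynomial.algHom_ext fun i => by
        rw [AlgHom.comp_apply, aeval_X, Ideal.Quotient.mkₐ_eq_mk, hπ]
    exact DFunLike.congr_fun h1 f
  have hev : ∀ (f : MvPolynomial (Fin N) 𝕜) (m : Polynomial (MvPolynomial (Fin n) 𝕜)),
      Ideal.Quotient.mk 𝔭
        (Polynomial.eval₂ (aeval π : MvPolynomial (Fin n) 𝕜 →ₐ[𝕜] _).toRingHom f m)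
        = Polynomial.eval₂ g.toRingHom (Ideal.Quotient.mk 𝔭 f) m := by
    intro f m
    rw [Polynomial.hom_eval₂]
    have h1 : (Ideal.Quotient.mk 𝔭).comp (aeval π : MvPolynomial (Fin n) 𝕜 →ₐ[𝕜] _).toRingHom
        = g.toRingHom := RingHom.ext fun f => hg f
    rw [h1]
  obtain ⟨θ, F, α, β, δ, Gs, h1, h2, h3, h4, h5⟩ :=
    GRalgAux.prim' g.toRingHom hinj hfin (fun i : Fin N => Ideal.Quotient.mk 𝔭 (X i))
  obtain ⟨θ, rfl⟩ := Ideal.Quotient.mk_surjective θ
  refine ⟨n, π, θ, F, α, β, δ, Gs, fun f hf => ?_, fun f => ?_, h1, h2, ?_, fun i => ?_,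
    fun f hf => ?_⟩
  · apply hinj
    rw [← hg, map_zero]
    exact Ideal.Quotient.eq_zero_iff_mem.2 hf
  · obtain ⟨m, hm1, hm2⟩ := RingHom.Finite.to_isIntegral hfin (Ideal.Quotient.mk 𝔭 f)
    refine ⟨m, hm1, Ideal.Quotient.eq_zero_iff_mem.1 ?_⟩
    rw [hev]
    exact hm2
  · apply Ideal.Quotient.eq_zero_iff_mem.1
    rw [hev]
    exact h3
  · apply Ideal.Quotient.eq_zero_iff_mem.1
    rw [map_sub, map_mul, hev, hg, ← h4 i]
    exact sub_self _
  · have h6 := Ideal.Quotient.eq_zero_iff_mem.2 hf
    rw [hev] at h6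
    obtain ⟨q, hq⟩ := h5 f h6
    exact ⟨1, q, one_ne_zero, by rw [map_one, one_mul, hq]⟩

end Vale.Agent.P274
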