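import Mathlib

/-! The algebraic part of the Jacobian criterion. -/

open Set

namespace Vale.Agent.P274.GenAux

theorem exists_simple {S R : Type*} [CommRing S] [IsDomain S] [CharZero S] [CommRing R]
    [Algebra S R] (hinj : Function.Injective (algebraMap S R)) {y : R} (hy : IsAlgebraic S y) :
    ∃ p : Polynomial S, Polynomial.aeval y p = 0 ∧ Polynomial.aeval y p.derivative ≠ 0 := by
  obtain ⟨p, hp, h0⟩ := hy
  induction hn : p.natDegree using Nat.strong_induction_on generalizing p with
  | _ n ih =>
    by_cases h1 : Polynomial.aeval y p.derivative = 0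
    · have hd : p.natDegree ≠ 0 := fun hd => by
        rw [Polynomial.eq_C_of_natDegree_eq_zero hd, Polynomial.aeval_C] at h0
        refine hp ?_
        rw [Polynomial.eq_C_of_natDegree_eq_zero hd, hinj (h0.trans (map_zero _).symm), map_zero]
      exact ih _ (hn ▸ Polynomial.natDegree_derivative_lt hd) _
        (Polynomial.derivative_ne_zero.2 hd) h1 rfl
    · exact ⟨p, h0, h1⟩

section

variable {R W : Type*} [CommRing R] [Algebra ℂ R] [AddCommGroup W] [Module ℂ W]
  (ev : R →ₐ[ℂ] ℂ) (D : R →ₗ[ℂ] W) (hD : ∀ a b, D (a * b) = ev a • D b + ev b • D a)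

include hD

theorem der_one : D 1 = 0 := by
  have := hD 1 1
  rw [mul_one, map_one ev, one_smul] at this
  exact left_eq_add.1 this

theorem der_adjoin (t : Set R) {g : R} (hg : g ∈ Algebra.adjoin ℂ t) :
    D g ∈ Submodule.span ℂ (D '' t) := by
  induction hg using Algebra.adjoin_induction with
  | mem a ha => exact Submodule.subset_span (mem_image_of_mem D ha)
  | algebraMap c =>
    rw [Algebra.algebraMap_eq_smul_one, map_smul, der_one ev D hD, smul_zero]
    exact zero_mem _
  | add a b _ _ ha hb => rw [map_add]; exact add_mem ha hb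
  | mul a b _ _ ha hb =>
    rw [hD]
    exact add_mem (Submodule.smul_mem _ _ hb) (Submodule.smul_mem _ _ ha)

theorem der_aeval (t : Set R) (y : R) (p : Polynomial (Algebra.adjoin ℂ t)) :
    D (Polynomial.aeval y p) - ev (Polynomial.aeval y p.derivative) • D y ∈
      Submodule.span ℂ (D '' t) := by
  induction p using Polynomial.induction_on with
  | C a =>
    rw [Polynomial.aeval_C, Polynomial.derivative_C, map_zero, map_zero, zero_smul, sub_zero]
    exact der_adjoin ev D hD t a.2
  | add p q hp hq =>
    have := add_mem hp hq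
    simp only [map_add, add_smul]
    refine (congrArg (· ∈ _) ?_).mp this
    abel
  | monomial n a h =>
    rw [pow_succ, ← mul_assoc]
    generalize Polynomial.C a * Polynomial.X ^ n = q at h
    have := Submodule.smul_mem _ (ev y) h
    rw [Polynomial.derivative_mul, Polynomial.derivative_X, mul_one, Polynomial.aeval_mul,
      Polynomial.aeval_add, Polynomial.aeval_mul, Polynomial.aeval_X, hD, map_add ev, map_mul ev]
    refine (congrArg (· ∈ _) ?_).mp this
    rw [smul_sub, add_smul, smul_smul, mul_comm]
    abel

end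

theorem jac {R : Type*} [CommRing R] [IsDomain R] [Algebra ℂ R] {d n : ℕ} (x : Fin d → R)
    (φ : Fin n → R) (hφ : AlgebraicIndependent ℂ φ)
    (ha : ∀ j, IsAlgebraic (Algebra.adjoin ℂ (range x)) (φ j)) :
    ∃ u : R, u ≠ 0 ∧ ∀ (W : Type) [AddCommGroup W] [Module ℂ W] (ev : R →ₐ[ℂ] ℂ)
      (D : R →ₗ[ℂ] W), (∀ a b, D (a * b) = ev a • D b + ev b • D a) → ev u ≠ 0 →
      LinearIndependent ℂ (fun i => D (x i)) → LinearIndependent ℂ fun j => D (φ j) := by
  classical
  let M := AlgebraicIndependent.matroid ℂ R
  have hI : M.Indep (range φ) := AlgebraicIndependent.matroid_indep_iff.2 hφ.coe_range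
  obtain ⟨t, ht, hsub⟩ := hI.subset_isBasis_of_subset (X := range φ ∪ range x) subset_union_left
    (subset_univ _)
  have hcl : range φ ∪ range x ⊆ M.closure (range x) := by
    refine union_subset ?_ (M.subset_closure _ (subset_univ _))
    rintro _ ⟨j, rfl⟩
    rw [AlgebraicIndependent.matroid_closure_eq]
    exact ha j
  have hcard : t.encard ≤ d := by
    rw [ht.encard_eq_eRk]
    refine (M.eRk_mono hcl).trans ?_
    rw [M.eRk_closure_eq]
    refine (M.eRk_le_encard _).trans ?_
    rw [← image_univ]
    refine (encard_image_le _ _).trans ?_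
    simp
  have hfin : t.Finite := finite_of_encard_le_coe hcard
  haveI : Fintype t := hfin.fintype
  have hcard' : Fintype.card t ≤ d := by
    rw [← Set.toFinset_card, ← Nat.cast_le (α := ℕ∞), ← encard_eq_coe_toFinset_card]
    exact hcard
  haveI : CharZero R := charZero_of_injective_algebraMap (algebraMap ℂ R).injective
  have hx : ∀ i, IsAlgebraic (Algebra.adjoin ℂ t) (x i) := fun i =>
    (AlgebraicIndependent.matroid_isBasis_iff.1 ht).2.2 _ (Or.inr ⟨i, rfl⟩)
  choose p hp0 hp1 using fun i => exists_simple Subtype.val_injective (hx i)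
  refine ⟨∏ i, Polynomial.aeval (x i) (p i).derivative, Finset.prod_ne_zero_iff.2 fun i _ => hp1 i,
    fun W _ _ ev D hD hu hli => ?_⟩
  rw [map_prod, Finset.prod_ne_zero_iff] at hu
  have hmem : ∀ i, D (x i) ∈ Submodule.span ℂ (range fun a : t => D a) := fun i => by
    have := der_aeval ev D hD t (x i) (p i)
    rw [hp0, map_zero, zero_sub, neg_mem_iff, Submodule.smul_mem_iff _ (hu i (Finset.mem_univ i)),
      image_eq_range] at this
    exact this
  have hli' : LinearIndependent ℂ fun a : t => D a := by
    rw [linearIndependent_iff_card_le_finrank_span]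
    refine hcard'.trans ?_
    have h1 := linearIndependent_iff_card_eq_finrank_span.1 hli
    rw [Fintype.card_fin] at h1
    rw [h1]
    haveI : FiniteDimensional ℂ (Submodule.span ℂ (range fun a : t => D a)) :=
      FiniteDimensional.span_of_finite ℂ (finite_range _)
    exact Submodule.finrank_mono (Submodule.span_le.2 (range_subset_iff.2 hmem))
  exact hli'.comp (fun j => ⟨φ j, hsub ⟨j, rfl⟩⟩) fun i j e =>
    hφ.injective (congrArg Subtype.val e)

end Vale.Agent.P274.GenAux
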