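import Vale.Agent.P274.StB
import Vale.Agent.P274.GenA

open Set Filter Topology Metric MvPolynomial MeasureTheory

namespace Vale.Agent.P274

namespace GenAux

variable {d : ℕ}

/-- Restrictions to `B` of complex valued real analytic functions. -/
def An (B : Set (Fin d → ℝ)) : Subalgebra ℂ (B → ℂ) where
  carrier := {f | ∃ g : (Fin d → ℝ) → ℂ, AnalyticOnNhd ℝ g B ∧ ∀ v : B, f v = g v}
  mul_mem' := by
    rintro f f' ⟨g, hg, e⟩ ⟨g', hg', e'⟩
    exact ⟨g * g', hg.mul hg', fun v => by rw [Pi.mul_apply, Pi.mul_apply, e, e']⟩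
  add_mem' := by
    rintro f f' ⟨g, hg, e⟩ ⟨g', hg', e'⟩
    exact ⟨g + g', hg.add hg', fun v => by rw [Pi.add_apply, Pi.add_apply, e, e']⟩
  algebraMap_mem' c := ⟨fun _ => c, analyticOnNhd_const, fun _ => rfl⟩

variable {B : Set (Fin d → ℝ)}

/-- The class of an analytic function. -/
def mk (g : (Fin d → ℝ) → ℂ) (hg : AnalyticOnNhd ℝ g B) : An B := ⟨fun v => g v, g, hg, fun _ => rfl⟩

theorem exists_mk (f : An B) : ∃ g hg, f = mk g hg :=
  let ⟨g, hg, e⟩ := f.2; ⟨g, hg, Subtype.ext (funext e)⟩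

theorem mk_eq_zero (hB : IsPreconnected B) {g : (Fin d → ℝ) → ℂ} (hg : AnalyticOnNhd ℝ g B)
    {p : Fin d → ℝ} (hp : p ∈ B) (h : ∀ᶠ y in 𝓝 p, g y = 0) : mk g hg = 0 :=
  Subtype.ext (funext fun v => hg.eqOn_zero_of_preconnected_of_eventuallyEq_zero hB hp h v.2)

/-- Evaluation at a point. -/
def evp (p : B) : An B →ₐ[ℂ] ℂ := (Pi.evalAlgHom ℂ (fun _ : B => ℂ) p).comp (An B).val

theorem evp_mk (p : B) (g : (Fin d → ℝ) → ℂ) (hg : AnalyticOnNhd ℝ g B) :
    evp p (mk g hg) = g p := rfl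

theorem ext_evp {f f' : An B} (h : ∀ p, evp p f = evp p f') : f = f' := Subtype.ext (funext h)

theorem isDomain (hO : IsOpen B) (hB : IsPreconnected B) (hne : B.Nonempty) : IsDomain (An B) := by
  obtain ⟨p, hp⟩ := hne
  haveI : Nontrivial (An B) := (evp ⟨p, hp⟩).toRingHom.domain_nontrivial
  haveI : NoZeroDivisors (An B) := ⟨fun {f f'} h => by
    obtain ⟨g, hg, rfl⟩ := exists_mk f
    obtain ⟨g', hg', rfl⟩ := exists_mk f'
    by_cases h0 : mk g hg = 0
    · exact Or.inl h0
    · obtain ⟨q, hq⟩ : ∃ q : B, g q ≠ 0 := by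
        by_contra h1
        push Not at h1
        exact h0 (ext_evp fun q => h1 q)
      refine Or.inr (mk_eq_zero hB hg' q.2 ?_)
      filter_upwards [(hg q q.2).continuousAt.eventually_ne hq, hO.mem_nhds q.2] with y h1 h2
      have := congrArg (evp ⟨y, h2⟩) h
      rw [map_mul, map_zero, evp_mk, evp_mk] at this
      exact (mul_eq_zero.1 this).resolve_left h1⟩
  exact NoZeroDivisors.to_isDomain _

theorem fderiv_mk (hO : IsOpen B) (p : B) (g : (Fin d → ℝ) → ℂ) (hg : AnalyticOnNhd ℝ g B) :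
    fderiv ℝ (Function.extend Subtype.val (mk g hg).1 0) p = fderiv ℝ g p := by
  refine Filter.EventuallyEq.fderiv_eq ?_
  filter_upwards [hO.mem_nhds p.2] with y hy
  exact Subtype.val_injective.extend_apply (mk g hg).1 0 ⟨y, hy⟩

/-- The differential at a point. -/
noncomputable def dp (hO : IsOpen B) (p : B) : An B →ₗ[ℂ] ((Fin d → ℝ) →L[ℝ] ℂ) where
  toFun f := fderiv ℝ (Function.extend Subtype.val f.1 0) p
  map_add' f f' := by
    obtain ⟨g, hg, rfl⟩ := exists_mk f
    obtain ⟨g', hg', rfl⟩ := exists_mk f'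
    rw [show mk g hg + mk g' hg' = mk (g + g') (hg.add hg') from rfl, fderiv_mk hO, fderiv_mk hO,
      fderiv_mk hO, fderiv_add (hg p p.2).differentiableAt (hg' p p.2).differentiableAt]
  map_smul' c f := by
    obtain ⟨g, hg, rfl⟩ := exists_mk f
    have hc : AnalyticOnNhd ℝ (c • g) B := fun v hv => (hg v hv).const_smul
    rw [show c • mk g hg = mk (c • g) hc from rfl, fderiv_mk hO,
      fderiv_mk hO, fderiv_const_smul (hg p p.2).differentiableAt]
    rfl

theorem dp_mk (hO : IsOpen B) (p : B) (g : (Fin d → ℝ) → ℂ) (hg : AnalyticOnNhd ℝ g B) :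
    dp hO p (mk g hg) = fderiv ℝ g p := fderiv_mk hO p g hg

theorem dp_mul (hO : IsOpen B) (p : B) (f f' : An B) :
    dp hO p (f * f') = evp p f • dp hO p f' + evp p f' • dp hO p f := by
  obtain ⟨g, hg, rfl⟩ := exists_mk f
  obtain ⟨g', hg', rfl⟩ := exists_mk f'
  rw [show mk g hg * mk g' hg' = mk (g * g') (hg.mul hg') from rfl, dp_mk, dp_mk, dp_mk,
    fderiv_mul (hg p p.2).differentiableAt (hg' p p.2).differentiableAt, evp_mk, evp_mk]

/-- The coordinate functionals. -/
noncomputable def co {m : ℕ} (i : Fin m) : (Fin m → ℝ) →L[ℝ] ℂ :=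
  Complex.ofRealCLM.comp (ContinuousLinearMap.proj i)

theorem co_apply {m : ℕ} (i : Fin m) (v : Fin m → ℝ) : co i v = (v i : ℂ) := rfl

theorem co_indep : LinearIndependent ℂ fun i : Fin d => co i := by
  refine Fintype.linearIndependent_iff.2 fun c hc i => ?_
  have := congrArg (fun L : (Fin d → ℝ) →L[ℝ] ℂ => L (Pi.single i 1)) hc
  simp only [ContinuousLinearMap.sum_apply, ContinuousLinearMap.smul_apply, co_apply,
    ContinuousLinearMap.zero_apply] at this
  rw [Finset.sum_eq_single i (fun j _ hj => by simp [hj]) (by simp)] at this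
  simpa using this

/-- The coordinate functions. -/
noncomputable def xc (B : Set (Fin d → ℝ)) (i : Fin d) : An B :=
  mk (co i) fun v _ => (co i).analyticAt v

theorem integral {g : (Fin d → ℝ) → ℝ} (hg : AnalyticOnNhd ℝ (fun v => (g v : ℂ)) B)
    (M : Polynomial (MvPolynomial (Fin d) ℝ)) (hM : M.Monic) (h0 : ∀ x ∈ B, pev M (x, g x) = 0) :
    IsIntegral (Algebra.adjoin ℂ (range (xc B))) (mk _ hg) := by
  let ρ : MvPolynomial (Fin d) ℝ →+* Algebra.adjoin ℂ (range (xc B)) :=
    eval₂Hom ((algebraMap ℂ _).comp Complex.ofRealHom) fun i =>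
      ⟨xc B i, Algebra.subset_adjoin ⟨i, rfl⟩⟩
  refine ⟨M.map ρ, hM.map ρ, ext_evp fun p => ?_⟩
  have e : (evp p).toRingHom.comp ((algebraMap (Algebra.adjoin ℂ (range (xc B))) (An B)).comp ρ) =
      Complex.ofRealHom.comp (eval (p : Fin d → ℝ)) := by
    refine MvPolynomial.ringHom_ext (fun r => ?_) fun i => ?_
    · simp only [ρ, RingHom.comp_apply, eval₂Hom_C, eval_C]
      rfl
    · simp only [ρ, RingHom.comp_apply, eval₂Hom_X', eval_X]
      rfl
  have e1 := Polynomial.hom_eval₂ M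
    ((algebraMap (Algebra.adjoin ℂ (range (xc B))) (An B)).comp ρ) (evp p).toRingHom (mk _ hg)
  have e2 := Polynomial.hom_eval₂ M (eval (p : Fin d → ℝ)) Complex.ofRealHom (g p)
  have e3 := h0 p p.2
  rw [pev, Polynomial.eval_map] at e3
  rw [e3, map_zero] at e2
  rw [Polynomial.eval₂_map, map_zero]
  refine e1.trans ?_
  rw [e]
  exact e2.symm

theorem loc (hA : S_AN0) {m n : ℕ} (ι : (Fin m → ℝ) →L[ℝ] (Fin n → ℂ))
    (h : (Fin d → ℝ) → (Fin m → ℝ)) (hO : IsOpen B) (hB : IsPreconnected B) (hne : B.Nonempty)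
    (hh : AnalyticOnNhd ℝ h B)
    (hM : ∀ i, ∃ M : Polynomial (MvPolynomial (Fin d) ℝ), M.Monic ∧ ∀ x ∈ B, pev M (x, h x i) = 0)
    (hQ : ∀ Q : MvPolynomial (Fin n) ℂ, (∀ x ∈ B, eval (ι (h x)) Q = 0) → Q = 0) :
    ∀ᵐ x, x ∈ B → ∀ lam : (Fin n → ℂ) →L[ℂ] ℂ, (∀ ξ, lam (ι (fderiv ℝ h x ξ)) = 0) → lam = 0 := by
  haveI := isDomain hO hB hne
  let L : Fin n → (Fin m → ℝ) →L[ℝ] ℂ := fun j => (ContinuousLinearMap.proj j).comp ι
  have hφ : ∀ j, AnalyticOnNhd ℝ (fun v => L j (h v)) B := fun j v hv =>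
    ((L j).analyticAt _).comp (hh v hv)
  have hc : ∀ i, AnalyticOnNhd ℝ (fun v => (h v i : ℂ)) B := fun i v hv =>
    ((co i).analyticAt _).comp (hh v hv)
  let φ : Fin n → An B := fun j => mk _ (hφ j)
  have hind : AlgebraicIndependent ℂ φ := algebraicIndependent_iff.2 fun Q hQ0 => hQ Q fun x hx => by
    have := congrArg (evp ⟨x, hx⟩) hQ0
    rw [map_zero, MvPolynomial.comp_aeval_apply, MvPolynomial.aeval_eq_eval] at this
    exact this
  have halg : ∀ j, IsAlgebraic (Algebra.adjoin ℂ (range (xc B))) (φ j) := fun j => by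
    have e : φ j = ∑ i, L j (Pi.single i 1) • mk _ (hc i) := ext_evp fun p => by
      rw [map_sum]
      simp only [map_smul, evp_mk, φ]
      conv_lhs => rw [pi_eq_sum_univ' (h p)]
      simp [mul_comm]
    rw [e]
    refine IsIntegral.isAlgebraic (IsIntegral.sum _ fun i _ => ?_)
    obtain ⟨M, hM1, hM2⟩ := hM i
    rw [Algebra.smul_def, IsScalarTower.algebraMap_apply ℂ (Algebra.adjoin ℂ (range (xc B)))]
    exact isIntegral_algebraMap.mul (integral (hc i) M hM1 hM2)
  obtain ⟨u, hu, H⟩ := jac (xc B) φ hind halg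
  obtain ⟨g, hg, rfl⟩ := exists_mk u
  filter_upwards [hA d ℂ g B hO hg] with x hx hxB lam hlam
  have hgx : g x ≠ 0 := (hx hxB).resolve_right fun h1 => hu (mk_eq_zero hB hg hxB h1)
  have hx' : (fun i => dp hO ⟨x, hxB⟩ (xc B i)) = fun i => co i := funext fun i =>
    (dp_mk hO _ _ _).trans (co i).fderiv
  have hli := H _ (evp ⟨x, hxB⟩) (dp hO ⟨x, hxB⟩) (dp_mul hO _) hgx (hx' ▸ co_indep)
  have hd : ∀ j, dp hO ⟨x, hxB⟩ (φ j) = (L j).comp (fderiv ℝ h x) := fun j =>
    (dp_mk hO _ _ _).trans ((L j).hasFDerivAt.comp x (hh x hxB).differentiableAt.hasFDerivAt).fderiv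
  have hl : ∀ w, lam w = ∑ j, lam (Pi.single j 1) * w j := fun w => by
    conv_lhs => rw [pi_eq_sum_univ' w]
    simp [mul_comm]
  have h0 := Fintype.linearIndependent_iff.1 hli (fun j => lam (Pi.single j 1)) (by
    ext1 ξ
    have := hlam ξ
    rw [hl] at this
    simpa [hd, L] using this)
  ext1 w
  rw [hl]
  simp [h0]

end GenAux

/-- Sketch. By `ae_of_local` reduce to a ball `B ⊆ N`. Let `R` be the `ℂ`-subalgebra of functions
`B → ℂ` that are restrictions of functions analytic on `B` (real analytic, complex valued); it is a domain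
(identity theorem `AnalyticOnNhd.eqOn_zero_of_preconnected_of_eventuallyEq_zero`). In `R` we have
`x i` (coordinates) and `φ j = (ι (h ·)) j`, a `ℂ`-linear combination of the `h i`, hence integral over
`adjoin ℂ (range x)`; the `φ j` are algebraically independent by hypothesis. Work in the subalgebra
`A = adjoin ℂ (range x ∪ range φ)` (or its fraction field): it is algebraic over `adjoin (range x)`, so
its transcendence degree is `≤ d`; there is a transcendence basis `b` with
`range φ ⊆ b ⊆ range φ ∪ range x` (`exists_isTranscendenceBasis_between`), so `b` has at most `d`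
elements. Each `x i` is algebraic over `adjoin ℂ b`: take a nonzero `p` of least degree with
`p (x i) = 0`, then `u i = p' (x i) ≠ 0` in `R`. For `g ∈ adjoin ℂ b` the real differential of `g` at a
point lies in the `ℂ`-span of the differentials of `b` (adjoin induction); differentiating
`∑ a_l (x i)^l = 0` shows that `d (x i)` lies in this span where `u i ≠ 0`, i.e. a.e. (`S_AN0`). The `d`
covectors `d (x i)` are `ℂ`-independent, so the at most `d` covectors `d b` are independent, in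
particular the `d (φ j)`; if `lam ∘ ι ∘ dh = ∑ lam (e j) • d (φ j) = 0` then `lam = 0`. -/
theorem Gen_pf (h : S_AN0) : S_Gen := by
  intro m n d ι f N hN hf hM hQ
  refine ae_of_local (Eventually.of_forall fun x hx => ?_)
  obtain ⟨r, hr, hsub⟩ := Metric.isOpen_iff.1 hN x hx
  refine ⟨ball x r, ball_mem_nhds x hr, ?_⟩
  filter_upwards [GenAux.loc h ι f isOpen_ball (convex_ball x r).isPreconnected
    ⟨x, mem_ball_self hr⟩ (hf.mono hsub)
    (fun i => let ⟨M, h1, h2⟩ := hM i; ⟨M, h1, fun y hy => h2 y (hsub hy)⟩)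
    fun Q h1 => hQ Q x hx (mem_of_superset (ball_mem_nhds x hr) h1)] with y hy hyB _ using hy hyB

end Vale.Agent.P274
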