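import Vale.Agent.P274.Alg
import Vale.Agent.P274.SCV2

open Set Filter Topology Metric MvPolynomial

namespace Vale.Agent.P274

namespace HLpAux

theorem near_fibre {X Y : Type*} [TopologicalSpace X] [TopologicalSpace Y] [T2Space Y] {Z : Set X}
    (hZ : IsCompact Z) {p : X → Y} (hp : Continuous p) {t₁ : Y} {W : X → Prop}
    (h : ∀ z ∈ Z, p z = t₁ → ∀ᶠ w in 𝓝 z, W w) : ∀ᶠ t in 𝓝 t₁, ∀ z ∈ Z, p z = t → W z := by
  have h1 := ((hZ.diff (isOpen_interior (s := {w | W w}))).image hp).isClosed.isOpen_compl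
  filter_upwards [h1.mem_nhds (show t₁ ∉ _ from fun ⟨z, hz, e⟩ =>
    hz.2 (mem_interior_iff_mem_nhds.2 (h z hz.1 e)))] with t ht z hz e
  by_contra hW
  exact ht ⟨z, ⟨hz, fun h => hW (interior_subset h)⟩, e⟩

theorem disc {N : ℂ → ℂ} {A : ℂ → Prop} {ρ m μ : ℝ} {a : ℂ} (hA : ∀ l, ∀ᶠ w in 𝓝[≠] l, A w)
    (hd : ∀ l ∈ ball (0 : ℂ) ρ, A l → DifferentiableAt ℂ N l) (hm : 0 < m)
    (hb : ∀ l ∈ ball (0 : ℂ) ρ, m ≤ ‖N l‖ ∧ ‖N l‖ ≤ 1) (ha : a ∈ ball (0 : ℂ) (ρ / 2)) (haA : A a)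
    (h0 : ∀ᶠ l in 𝓝 0, μ ≤ ‖N l‖) : μ ≤ ‖N a‖ ^ (3 / 16 : ℝ) := by
  have hρ : 0 < ρ := by linarith [pos_of_mem_ball ha]
  have h1 : ∀ l ∈ ball (0 : ℂ) ρ, ∀ᶠ w in 𝓝[≠] l, w ∈ ball (0 : ℂ) ρ ∧ A w := fun l hl =>
    ((isOpen_ball.eventually_mem hl).filter_mono nhdsWithin_le_nhds).and (hA l)
  have h2 : ∀ l ∈ ball (0 : ℂ) ρ, Tendsto N (𝓝[≠] l) (𝓝 (limUnder (𝓝[≠] l) N)) := fun l hl =>
    Complex.tendsto_limUnder_of_differentiable_on_punctured_nhds_of_bounded_under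
      ((h1 l hl).mono fun w hw => hd w hw.1 hw.2) ⟨1 + ‖N l‖, eventually_map.2
        ((h1 l hl).mono fun w hw => norm_sub_le_of_le (hb w hw.1).2 le_rfl)⟩
  have h3 : ∀ l, l ∈ ball (0 : ℂ) ρ ∧ A l → limUnder (𝓝[≠] l) N = N l := fun l hl =>
    tendsto_nhds_unique (h2 l hl.1) ((hd l hl.1 hl.2).continuousAt.mono_left nhdsWithin_le_nhds)
  have h4 : ∀ l ∈ ball (0 : ℂ) ρ, AnalyticAt ℂ (fun l => limUnder (𝓝[≠] l) N) l := fun l hl => by
    refine Complex.analyticAt_of_differentiable_on_punctured_nhds_of_continuousAt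
      ((h1 l hl).mono fun w hw => (hd w hw.1 hw.2).congr_of_eventuallyEq ?_)
      (continuousAt_iff_punctured_nhds.2 ((h2 l hl).congr' ((h1 l hl).mono fun w hw =>
        (h3 w hw).symm)))
    rw [← nhdsNE_sup_pure, EventuallyEq, eventually_sup, eventually_pure]
    exact ⟨(h1 w hw.1).mono h3, h3 w hw⟩
  have h5 := (harnack_disc (fun l hl => (h4 l hl).differentiableAt.differentiableWithinAt)
    (fun l hl => ⟨norm_pos_iff.1 (hm.trans_le (ge_of_tendsto (h2 l hl).norm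
      ((h1 l hl).mono fun w hw => (hb w hw.1).1))), le_of_tendsto (h2 l hl).norm
      ((h1 l hl).mono fun w hw => (hb w hw.1).2)⟩) ha).1
  rw [h3 a ⟨ball_subset_ball (by linarith) ha, haA⟩] at h5
  exact (ge_of_tendsto (h2 0 (mem_ball_self hρ)).norm (h0.filter_mono nhdsWithin_le_nhds)).trans h5

variable {N n : ℕ} {𝔭 : Ideal (MvPolynomial (Fin N) ℂ)} {π : Fin n → MvPolynomial (Fin N) ℂ}
  {Δ : MvPolynomial (Fin n) ℂ}

theorem fibre (h : GRData 𝔭 n π Δ) : ∃ d : ℕ, d ≠ 0 ∧ ∀ Z ⊆ ZV 𝔭,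
    ∃ T : (Fin n → ℂ) → Finset (Fin N → ℂ), (∀ t, (T t).card ≤ d) ∧
      ∀ t z, z ∈ T t ↔ z ∈ Z ∧ ev π z = t := by
  classical
  choose m hm hz using fun i => h.integral_eval (X i)
  refine ⟨∏ i, (m i).natDegree + 1, by omega, fun Z hZ => ⟨fun t =>
    (Fintype.piFinset fun i => ((m i).map (eval t)).roots.toFinset).filter
      fun z => z ∈ Z ∧ ev π z = t, fun t => (Finset.card_filter_le _ _).trans ?_, fun t z => ?_⟩⟩
  · rw [Fintype.card_piFinset]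
    exact Nat.le_succ_of_le (Finset.prod_le_prod' fun i _ => (Multiset.toFinset_card_le _).trans
      ((Polynomial.card_roots' _).trans Polynomial.natDegree_map_le))
  · rw [Finset.mem_filter, and_iff_right_iff_imp, Fintype.mem_piFinset]
    rintro ⟨h1, rfl⟩ i
    rw [Multiset.mem_toFinset, Polynomial.mem_roots ((hm i).map _).ne_zero]
    simpa using hz i z (hZ h1)

theorem anal (h : GRData 𝔭 n π Δ) {s : Fin N → ℂ} {r : ℝ} {O : Set (Fin N → ℂ)}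
    (hO : closedBall s r ⊆ O) {T : (Fin n → ℂ) → Finset (Fin N → ℂ)}
    (hT : ∀ t z, z ∈ T t ↔ z ∈ ZV 𝔭 ∩ closedBall s r ∧ ev π z = t) {t₁ : Fin n → ℂ}
    (h1 : ∀ z ∈ T t₁, z ∈ ball s r) (h2 : eval t₁ Δ ≠ 0) {f : (Fin N → ℂ) → ℂ}
    (hf : HolOn (ZV 𝔭 ∩ O) f) : AnalyticAt ℂ (fun t => ∏ z ∈ T t, f z) t₁ := by
  classical
  have key : ∀ z ∈ T t₁, ∃ G : (Fin n → ℂ) → (Fin N → ℂ), AnalyticAt ℂ G t₁ ∧ G t₁ = z ∧
      (∀ᶠ t in 𝓝 t₁, G t ∈ T t) ∧ ∀ᶠ w in 𝓝 z, w ∈ ZV 𝔭 → G (ev π w) = w := fun z hz => by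
    obtain ⟨a, rfl⟩ := (hT _ z).1 hz
    obtain ⟨G, g1, g2, g3, g4⟩ := h.chart z a.1 h2
    refine ⟨G, g1, g2, ?_, g4⟩
    filter_upwards [g3, g1.continuousAt.eventually (isOpen_ball.mem_nhds (g2 ▸ h1 z hz))]
      with t b c using (hT _ _).2 ⟨⟨b.1, ball_subset_closedBall c⟩, b.2⟩
  choose! G g1 g2 g3 g4 using key
  refine (Finset.analyticAt_fun_prod (T t₁) fun z hz => hf.comp_analyticAt (g1 z hz)
    ((g3 z hz).mono fun t ht => ((hT _ _).1 ht).1.imp_right fun a => hO a)).congr ?_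
  have k1 : ∀ᶠ t in 𝓝 t₁, ∀ z ∈ T t₁, ∀ z' ∈ T t₁, z ≠ z' → G z t ≠ G z' t := by
    simp only [Finset.eventually_all]
    refine fun z hz z' hz' => eventually_imp_distrib_left.2 fun e => ?_
    exact ((g1 z hz).continuousAt.sub (g1 z' hz').continuousAt).eventually_ne
      (by simpa [g2 z hz, g2 z' hz', sub_eq_zero] using e) |>.mono fun t ht => sub_ne_zero.1 ht
  filter_upwards [k1, (Finset.eventually_all _).2 g3, near_fibre ((isCompact_closedBall s r).inter_left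
    (isClosed_ZV 𝔭)) (continuous_ev π) (W := fun w => ∃ z ∈ T t₁, w ∈ ZV 𝔭 → G z (ev π w) = w)
    fun z hz e => (g4 z ((hT _ _).2 ⟨hz, e⟩)).mono fun w hw => ⟨z, (hT _ _).2 ⟨hz, e⟩, hw⟩]
    with t a b c
  refine Finset.prod_bij (fun z _ => G z t) b (fun z hz z' hz' e => by_contra fun e' =>
    a z hz z' hz' e' e) (fun w hw => ?_) fun _ _ => rfl
  obtain ⟨d, rfl⟩ := (hT _ w).1 hw
  obtain ⟨z, hz, e⟩ := c w d rfl
  exact ⟨z, hz, e d.1⟩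

theorem step {I J : Ideal (MvPolynomial (Fin N) ℂ)} (hJ : I ≤ J) {s : Fin N → ℂ}
    {O : Set (Fin N → ℂ)} (h : s ∈ ZV J → ∃ c : ℝ, 0 < c ∧ ∀ᶠ x in 𝓝 s, x ∈ ZV J →
      ∀ f : (Fin N → ℂ) → ℂ, HolOn (ZV J ∩ O) f → (∀ y ∈ ZV J ∩ O, f y ≠ 0 ∧ ‖f y‖ ≤ 1) →
        ‖f s‖ ≤ ‖f x‖ ^ c) : ∃ c : ℝ, 0 < c ∧ ∀ᶠ x in 𝓝 s, x ∈ ZV J →
      ∀ f : (Fin N → ℂ) → ℂ, HolOn (ZV I ∩ O) f → (∀ y ∈ ZV I ∩ O, f y ≠ 0 ∧ ‖f y‖ ≤ 1) →
        ‖f s‖ ≤ ‖f x‖ ^ c := by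
  have hs : ZV J ∩ O ⊆ ZV I ∩ O := inter_subset_inter_left _ fun z hz g hg => hz g (hJ hg)
  by_cases h0 : s ∈ ZV J
  · obtain ⟨c, hc, h⟩ := h h0
    exact ⟨c, hc, h.mono fun x hx h1 f h2 h3 => hx h1 f (h2.mono hs) fun y hy => h3 y (hs hy)⟩
  · exact ⟨1, one_pos, ((isClosed_ZV J).isOpen_compl.eventually_mem h0).mono
      fun x hx h1 => (hx h1).elim⟩

theorem comb {U O : Set (Fin N → ℂ)} {s : Fin N → ℂ} (hO : O ∈ 𝓝 s) {A B : (Fin N → ℂ) → Prop}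
    (h : ∀ x ∈ U, A x ∨ B x) (hA : ∃ c : ℝ, 0 < c ∧ ∀ᶠ x in 𝓝 s, A x →
      ∀ f : (Fin N → ℂ) → ℂ, HolOn (U ∩ O) f → (∀ y ∈ U ∩ O, f y ≠ 0 ∧ ‖f y‖ ≤ 1) →
        ‖f s‖ ≤ ‖f x‖ ^ c) (hB : ∃ c : ℝ, 0 < c ∧ ∀ᶠ x in 𝓝 s, B x →
      ∀ f : (Fin N → ℂ) → ℂ, HolOn (U ∩ O) f → (∀ y ∈ U ∩ O, f y ≠ 0 ∧ ‖f y‖ ≤ 1) →
        ‖f s‖ ≤ ‖f x‖ ^ c) : ∃ c : ℝ, 0 < c ∧ ∀ᶠ x in 𝓝 s, x ∈ U →
      ∀ f : (Fin N → ℂ) → ℂ, HolOn (U ∩ O) f → (∀ y ∈ U ∩ O, f y ≠ 0 ∧ ‖f y‖ ≤ 1) →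
        ‖f s‖ ≤ ‖f x‖ ^ c := by
  obtain ⟨a, ha, hA⟩ := hA
  obtain ⟨b, hb, hB⟩ := hB
  refine ⟨min a b, lt_min ha hb, ?_⟩
  filter_upwards [hA, hB, hO] with x h1 h2 h3 hx f hf h4
  obtain ⟨h5, h6⟩ := h4 x ⟨hx, h3⟩
  rcases h x hx with h | h
  · exact (h1 h f hf h4).trans
      (Real.rpow_le_rpow_of_exponent_ge (norm_pos_iff.2 h5) h6 (min_le_left _ _))
  · exact (h2 h f hf h4).trans
      (Real.rpow_le_rpow_of_exponent_ge (norm_pos_iff.2 h5) h6 (min_le_right _ _))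

theorem mem_sup {I : Ideal (MvPolynomial (Fin N) ℂ)} {a : MvPolynomial (Fin N) ℂ} {x : Fin N → ℂ}
    (hx : x ∈ ZV I) (ha : eval x a = 0) : x ∈ ZV (I ⊔ Ideal.span {a}) := fun _ hg =>
  (sup_le (fun g hg => hx g hg) ((Ideal.span_singleton_le_iff_mem _).2 ha) :
    _ ≤ RingHom.ker (eval x)) hg

theorem lt_sup {I : Ideal (MvPolynomial (Fin N) ℂ)} {a : MvPolynomial (Fin N) ℂ} (ha : a ∉ I) :
    I < I ⊔ Ideal.span {a} :=
  left_lt_sup.2 fun h => ha ((Ideal.span_singleton_le_iff_mem _).1 h)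

end HLpAux

open HLpAux

/-- Sketch. By `GRData.integral_eval` for `X i`, each coordinate of a point of the fibre
`ZV 𝔭 ∩ ev π ⁻¹' {t}` is a root of a monic polynomial of degree `d i`, so all fibres are finite with at
most `d = ∏ d i` points (if convenient use `d + 1`). Let `t₀ = ev π s`. Choose `r` with
`closedBall s r ⊆ O` and fibre over `t₀` meeting `closedBall s r` only in `s`; `Z = ZV 𝔭 ∩ closedBall s r`
is compact (`isClosed_ZV`). Compactness lemma (C): if `V` is open and contains the fibre of `Z` over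
`t₁`, then for `t` near `t₁` the fibre of `Z` over `t` lies in `V` (the image of `Z \ V` is compact and
misses `t₁`). So there is `ρ > 0` with fibres of `Z` over `ball t₀ ρ` inside `ball s r`. Let `x ∈ ZV 𝔭`
near `s` with `a = ‖ev π x - t₀‖ < ρ/2`, `x ∈ ball s r`; if `a = 0` then `x = s` (use `c ≤ 1`,
`‖f s‖ ≤ 1`). Else `ℓ λ = t₀ + λ • v`, `v = a⁻¹ • (ev π x - t₀)`, `‖λ‖ < ρ`. The set `A` of `λ` with
`Δ(ℓ λ) = 0` is finite or at least discrete (nonzero analytic function of `λ`, nonzero at `a`).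
`N λ = ∏ f z` over the fibre of `Z` over `ℓ λ`. For `λ₁ ∉ A`, charts `G_z` at the fibre points and (C)
show that near `λ₁` the fibre is `{G_z (ℓ λ)}` (distinct points), so `N` is analytic at `λ₁`
(`HolOn.comp_analyticAt`). `m ^ d ≤ ‖N‖ ≤ 1` with `m = min ‖f‖ > 0` on `Z`. Removable singularities
(`Complex.differentiableOn_update_limUnder_of_bddAbove` or
`Complex.tendsto_limUnder_of_differentiable_on_punctured_nhds_of_bounded_under`): `N' λ = limUnder (𝓝[≠] λ) N`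
is differentiable on `ball 0 ρ`, equals `N` off `A`, `m^d ≤ ‖N'‖ ≤ 1`. By (C), for `λ → 0`,
`‖N λ‖ ≥ (‖f s‖ - ε)^d`, so `‖N' 0‖ ≥ ‖f s‖ ^ d`. `harnack_disc`: `‖N' 0‖ ≤ ‖N' a‖^(3/16) ≤ ‖f x‖^(3/16)`.
Take `c = 3 / (16 d)` (with `d ≥ 1`). -/
theorem HLp_pf : S_HLp := by
  intro N n 𝔭 π Δ h s hs O hO hsO
  obtain ⟨d, hd, hT⟩ := fibre h
  obtain ⟨T₀, -, hT₀⟩ := hT _ subset_rfl
  obtain ⟨r, hr, hrO⟩ := nhds_basis_closedBall.mem_iff.1 (inter_mem (hO.mem_nhds hsO)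
    (((T₀ (ev π s)).finite_toSet.sdiff (t := {s})).isClosed.isOpen_compl.mem_nhds fun h => h.2 rfl))
  obtain ⟨T, hc, hT⟩ := hT (ZV 𝔭 ∩ closedBall s r) inter_subset_left
  have hZ := (isCompact_closedBall s r).inter_left (isClosed_ZV 𝔭)
  have hZO : ZV 𝔭 ∩ closedBall s r ⊆ ZV 𝔭 ∩ O := fun z hz => ⟨hz.1, (hrO hz.2).1⟩
  have hC : ∀ {W : (Fin N → ℂ) → Prop}, (∀ᶠ w in 𝓝 s, W w) →
      ∀ᶠ t in 𝓝 (ev π s), ∀ z ∈ T t, W z := fun hW =>
    (near_fibre hZ (continuous_ev π) fun z hz e => by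
      rwa [show z = s from by_contra fun e' => (hrO hz.2).2 ⟨(hT₀ _ _).2 ⟨hz.1, e⟩, e'⟩]).mono
      fun t ht z hz => ht z ((hT _ _).1 hz).1 ((hT _ _).1 hz).2
  obtain ⟨ρ, hρ, hb⟩ := Metric.eventually_nhds_iff_ball.1 (hC (ball_mem_nhds s hr))
  refine ⟨3 / 16 * (d : ℝ)⁻¹, by positivity, ?_⟩
  filter_upwards [closedBall_mem_nhds s hr, (continuous_ev π).continuousAt.eventually
    (ball_mem_nhds _ (half_pos hρ))] with x hx hxρ hxZ hΔ f hf hf1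
  obtain ⟨a, v, ha, hv, e⟩ : ∃ (a : ℂ) (v : Fin n → ℂ), a ∈ ball (0 : ℂ) (ρ / 2) ∧ ‖v‖ ≤ 1 ∧
      ev π s + a • v = ev π x := by
    refine ⟨‖ev π x - ev π s‖, (‖ev π x - ev π s‖ : ℂ)⁻¹ • (ev π x - ev π s), ?_, ?_, ?_⟩
    · simpa [dist_eq_norm] using hxρ
    · simpa [norm_smul] using inv_mul_le_one
    · by_cases e : ev π x - ev π s = 0
      · simpa [e] using (sub_eq_zero.1 e).symm
      · rw [smul_inv_smul₀ (by simpa using e), add_sub_cancel]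
  have hl : ∀ l : ℂ, AnalyticAt ℂ (fun l : ℂ => ev π s + l • v) l := fun l => by fun_prop
  have hφ : AnalyticOnNhd ℂ (fun l : ℂ => eval (ev π s + l • v) Δ) univ := fun l _ =>
    (analyticAt_eval Δ _).comp (hl l)
  have low : ∀ {μ : ℝ} {t}, 0 ≤ μ → μ ≤ 1 → (∀ z ∈ T t, μ ≤ ‖f z‖) → μ ^ d ≤ ‖∏ z ∈ T t, f z‖ :=
    fun h0 h1 h2 => by
      rw [norm_prod]
      exact (pow_le_pow_of_le_one h0 h1 (hc _)).trans
        ((Finset.prod_const _).symm.trans_le (Finset.prod_le_prod (fun _ _ => h0) h2))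
  have one : ∀ t, ∀ z ∈ T t, ‖f z‖ ≤ 1 := fun t z hz => (hf1 z (hZO ((hT _ _).1 hz).1)).2
  obtain ⟨z₀, h₀, hm⟩ := hZ.exists_isMinOn ⟨x, hxZ, hx⟩ (hf.continuousOn.mono hZO).norm
  obtain ⟨m0, m1⟩ := hf1 z₀ (hZO h₀)
  refine le_of_forall_lt_imp_le_of_dense fun κ hκ => ?_
  rcases le_total κ 0 with h0 | h0
  · exact h0.trans (by positivity)
  have key := disc (N := fun l => ∏ z ∈ T (ev π s + l • v), f z)
    (A := fun l => eval (ev π s + l • v) Δ ≠ 0) (μ := κ ^ d)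
    (fun l => (hφ l trivial).eventually_eq_zero_or_eventually_ne_zero.resolve_left fun h =>
      hΔ (e ▸ hφ.eqOn_zero_of_preconnected_of_eventuallyEq_zero isPreconnected_univ trivial h
        (mem_univ a)))
    (fun l hl' hA => ((anal h (fun z hz => (hrO hz).1) hT (hb _ (by
      rw [mem_ball_zero_iff] at hl'
      rw [add_mem_ball_iff_norm, norm_smul]
      exact (mul_le_of_le_one_right (norm_nonneg _) hv).trans_lt hl')) hA hf).comp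
        (f := fun l : ℂ => ev π s + l • v) (hl l)).differentiableAt)
    (pow_pos (norm_pos_iff.2 m0) d) (fun l _ => ⟨low (norm_nonneg _) m1 fun z hz =>
      hm ((hT _ _).1 hz).1, by
        rw [norm_prod]
        exact Finset.prod_le_one (fun _ _ => norm_nonneg _) (one _)⟩) ha (e ▸ hΔ) (by
      have h1 := hC (eventually_nhdsWithin_iff.1
        ((hf.continuousOn s ⟨hs, hsO⟩).norm.eventually (lt_mem_nhds hκ)))
      have h2 : Tendsto (fun l : ℂ => ev π s + l • v) (𝓝 0) (𝓝 (ev π s)) := by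
        simpa using (hl 0).continuousAt.tendsto
      exact (h2.eventually h1).mono fun l hl => low h0 (hκ.le.trans (hf1 s ⟨hs, hsO⟩).2)
        fun z hz => (hl z hz (hZO ((hT _ _).1 hz).1)).le)
  classical
  rw [e, ← Finset.mul_prod_erase _ _ ((hT _ x).2 ⟨⟨hxZ, hx⟩, rfl⟩), norm_mul, norm_prod] at key
  rw [Real.rpow_mul (norm_nonneg _), Real.le_rpow_inv_iff_of_pos h0 (by positivity) (by positivity),
    Real.rpow_natCast]
  refine key.trans (Real.rpow_le_rpow (by positivity) (mul_le_of_le_one_right (norm_nonneg _)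
    (Finset.prod_le_one (fun _ _ => norm_nonneg _) fun z hz => one _ z
      (Finset.mem_of_mem_erase hz))) (by norm_num))

/-- Sketch. Noetherian induction on `I` (`IsNoetherian.induction` / well-founded `>` on ideals),
for all `s O`. If `I` is prime take `S_GR` data: `ZV I = good points ∪ ZV (I ⊔ span {aeval π Δ})`
(`eval_aeval_ev`, `aeval π Δ ∉ I` by `indep` and `ne`). If `I` is not prime (it is `≠ ⊤` as `s ∈ ZV I`)
take `a b ∉ I`, `a b ∈ I`: `ZV I = ZV (I ⊔ span {a}) ∪ ZV (I ⊔ span {b})`. For a bigger ideal `J`: if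
`s ∈ ZV J` use the induction hypothesis (`HolOn.mono`), otherwise points near `s` are not in `ZV J`
(`isClosed_ZV`). Take the minimum of the exponents (`Real.rpow_le_rpow_of_exponent_ge`). -/
theorem HL_pf (h1 : S_GR) (h2 : S_HLp) : S_HL := by
  intro N I
  induction I using IsNoetherian.induction with
  | hgt I ih =>
  intro s hs O hO hsO
  have key := fun a ha => step (lt_sup (I := I) (a := a) ha).le fun h =>
    ih _ (lt_sup ha) s h O hO hsO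
  by_cases hI : Ideal.IsPrime I
  · obtain ⟨n, π, Δ, h⟩ := h1 ℂ N I hI
    obtain ⟨c, hc, h3⟩ := h2 N n I π Δ h s hs O hO hsO
    refine comb (hO.mem_nhds hsO) (fun x hx => ?_) (key _ fun h4 => h.ne (h.indep Δ h4))
      ⟨c, hc, h3.mono fun x h (hx : _ ∧ _) => h hx.1 hx.2⟩
    exact (em _).imp (fun e => mem_sup hx ((eval_aeval_ev π x Δ).trans e)) fun e => ⟨hx, e⟩
  · obtain ⟨a, ha, b, hb, hab⟩ := (Ideal.not_isPrime_iff.1 hI).resolve_left fun e => by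
      simpa using hs 1 (e ▸ trivial)
    refine comb (hO.mem_nhds hsO) (fun x hx => ?_) (key a ha) (key b hb)
    exact (mul_eq_zero.1 ((map_mul _ _ _).symm.trans (hx _ hab))).imp (mem_sup hx) (mem_sup hx)

end Vale.Agent.P274
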