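import Vale.Agent.P274.StB

open Set Filter Topology Metric MvPolynomial MeasureTheory

namespace Vale.Agent.P274

namespace HNAux

open Polynomial

theorem eq_zero_of_toFn {n : ℕ} {p : ℂ[X]} (h : p.degree < n) (h0 : toFn n p = 0) : p = 0 := by
  ext i
  rcases lt_or_ge i n with hi | hi
  · exact congrFun h0 ⟨i, hi⟩
  · exact coeff_eq_zero_of_degree_lt (h.trans_le (by exact_mod_cast hi))

theorem degree_mul_lt {m n : ℕ} {p q : ℂ[X]} (hp : p.degree < m) (hq : q.degree ≤ n) :
    (p * q).degree < (m + n : ℕ) := by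
  rw [degree_mul, Nat.cast_add]
  exact (add_le_add_right hq _).trans_lt (WithBot.add_lt_add_right (WithBot.natCast_ne_bot n) hp)

theorem pf {Y : Type} [NormedAddCommGroup Y] [NormedSpace ℝ Y] {A : ℂ[X]} (hA : A.Monic)
    {a : Y → Fin A.natDegree → ℂ} {y₀ : Y} (ha : AnalyticAt ℝ a y₀) :
    PF A.natDegree (fun y => A + ofFn _ (a y)) y₀ := by
  have h : ∀ y, (ofFn _ (a y)).degree < A.degree := fun y =>
    (ofFn_degree_lt _).trans_eq (degree_eq_natDegree hA.ne_zero).symm
  refine ⟨Eventually.of_forall fun y => ⟨hA.add_of_left (h y),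
    natDegree_add_eq_left_of_degree_lt (h y)⟩, fun i => ?_⟩
  simp only [Polynomial.coeff_add]
  exact analyticAt_const.add ((((LinearMap.toContinuousLinearMap
    (Polynomial.lcoeff ℂ i ∘ₗ ofFn A.natDegree)).analyticAt _).restrictScalars (𝕜 := ℝ)).comp ha)

theorem inverse {E F G : Type} [NormedAddCommGroup E] [NormedSpace ℂ E] [FiniteDimensional ℂ E]
    [NormedAddCommGroup F] [NormedSpace ℂ F] [FiniteDimensional ℂ F] [NormedAddCommGroup G]
    [NormedSpace ℂ G] [FiniteDimensional ℂ G] (L : E × F →ₗ[ℂ] G) (β : E →ₗ[ℂ] F →ₗ[ℂ] G)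
    (hL : Function.Injective L) (hd : Module.finrank ℂ (E × F) = Module.finrank ℂ G) :
    ∃ g : G → E × F, AnalyticAt ℂ g 0 ∧ ∀ᶠ z in 𝓝 0, L (g z) + β (g z).1 (g z).2 = z := by
  have := FiniteDimensional.complete ℂ E
  have := FiniteDimensional.complete ℂ F
  let e := (L.linearEquivOfInjective hL hd).toContinuousLinearEquiv
  let b := β.toContinuousBilinearMap
  have h1 : ContDiffAt ℂ ⊤ (fun p : E × F => e p + b p.1 p.2) 0 :=
    ((e.analyticAt 0).add (b.analyticAt_bilinear 0)).contDiffAt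
  have h2 : HasFDerivAt (fun p : E × F => e p + b p.1 p.2) (e : E × F →L[ℂ] G) 0 :=
    (e.hasFDerivAt.add (b.isBoundedBilinearMap.hasFDerivAt 0)).congr_fderiv
      (ContinuousLinearMap.ext fun p => by simp)
  have h3 := (h1.to_localInverse h2 (by simp)).analyticAt
  have h4 := (h1.hasStrictFDerivAt' h2 (by simp)).eventually_right_inverse
  simp only [map_zero, Prod.snd_zero, add_zero] at h3 h4
  exact ⟨_, h3, h4⟩

end HNAux

open HNAux Polynomial in
/-- Sketch. Let `d₁, d₂` be the degrees, `d = d₁ + d₂`. For `a : Fin k → ℂ` let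
`mk a = X^k + ∑ i, C (a i) * X^i`. The map `Ψ : (Fin d₁ → ℂ) × (Fin d₂ → ℂ) → (Fin (d₁+d₂) → ℂ)`,
`Ψ (a,b) i = (mk a * mk b).coeff i` is polynomial, hence analytic (over `ℂ`; each coordinate is a finite
sum of products of affine functions, `Polynomial.coeff_mul`). Its derivative at the point of
`(A₀,B₀)` is `(a,b) ↦` coefficients of `a B₀ + A₀ b` (with `deg a < d₁`, `deg b < d₂`), injective by
coprimality and degrees, hence bijective. `HasStrictFDerivAt.toOpenPartialHomeomorph` with
`OpenPartialHomeomorph.analyticAt_symm'` gives an analytic local inverse; compose with the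
coefficient vector of `P y` (`AnalyticAt.restrictScalars`). Two monic polynomials of degree `d` with
the same coefficients below `d` are equal. -/
theorem HN_pf : S_HN := by
  intro Y _ _ d P y₀ A B hP hA hB hAB h0
  obtain rfl : A.natDegree + B.natDegree = d := by
    rw [← hP.1.self_of_nhds.2, h0, hA.natDegree_mul hB]
  have h1 : ∀ (a : Fin A.natDegree → ℂ) (b : Fin B.natDegree → ℂ),
      (ofFn _ a * B + A * ofFn _ b).degree < (A.natDegree + B.natDegree : ℕ) := fun a b =>
    (Polynomial.degree_add_le _ _).trans_lt (max_lt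
      (degree_mul_lt (ofFn_degree_lt a) degree_le_natDegree)
      (by rw [mul_comm, add_comm]; exact degree_mul_lt (ofFn_degree_lt b) degree_le_natDegree))
  obtain ⟨g, hg, hg'⟩ := inverse (toFn (A.natDegree + B.natDegree) ∘ₗ
    (LinearMap.mulRight ℂ B ∘ₗ ofFn A.natDegree).coprod (LinearMap.mulLeft ℂ A ∘ₗ ofFn B.natDegree))
    (((LinearMap.mul ℂ ℂ[X]).compl₁₂ (ofFn _) (ofFn _)).compr₂ (toFn _))
    ((injective_iff_map_eq_zero _).2 fun p hp => by
      have h2 := eq_zero_of_toFn (h1 p.1 p.2) hp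
      have h3 : ofFn _ p.1 = 0 := eq_zero_of_dvd_of_degree_lt
        (hAB.dvd_of_dvd_mul_right ⟨-ofFn _ p.2, by linear_combination h2⟩)
        ((ofFn_degree_lt _).trans_eq (degree_eq_natDegree hA.ne_zero).symm)
      rw [h3, zero_mul, zero_add, mul_eq_zero, or_iff_right hA.ne_zero] at h2
      exact Prod.ext (injective_ofFn _ (h3.trans (map_zero _).symm))
        (injective_ofFn _ (h2.trans (map_zero _).symm))) (by simp)
  let c : Y → Fin (A.natDegree + B.natDegree) → ℂ := fun y => toFn _ (P y - A * B)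
  have hc : AnalyticAt ℝ c y₀ := analyticAt_pi_iff.2 fun i => by
    change AnalyticAt ℝ (fun y => (P y - A * B).coeff i) y₀
    simp only [Polynomial.coeff_sub]
    exact (hP.2 i).sub analyticAt_const
  have hc0 : c y₀ = 0 := by simp only [c, h0, sub_self, map_zero]
  have h4 : AnalyticAt ℝ (fun y => g (c y)) y₀ :=
    AnalyticAt.comp (hc0 ▸ hg.restrictScalars (𝕜 := ℝ)) hc
  refine ⟨_, _, pf hA (analyticAt_fst.comp h4), pf hB (analyticAt_snd.comp h4), ?_⟩
  filter_upwards [hP.1, (hc0 ▸ hc.continuousAt.tendsto).eventually hg'] with y hy hy'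
  have h5 : (P y).degree = (A.natDegree + B.natDegree : ℕ) := by
    rw [degree_eq_natDegree hy.1.ne_zero, hy.2]
  have h6 : (P y - A * B).degree < (A.natDegree + B.natDegree : ℕ) :=
    (degree_sub_lt_left (by rw [h5, degree_eq_natDegree (hA.mul hB).ne_zero, hA.natDegree_mul hB])
      hy.1.ne_zero (hy.1.trans (hA.mul hB).symm)).trans_eq h5
  have h7 := eq_zero_of_toFn ((Polynomial.degree_sub_le _ _).trans_lt (max_lt h6
    ((Polynomial.degree_add_le _ _).trans_lt (max_lt (h1 (g (c y)).1 (g (c y)).2)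
      (degree_mul_lt (ofFn_degree_lt (g (c y)).1) (ofFn_degree_lt (g (c y)).2).le)))))
    (by rw [map_sub, map_add]; exact sub_eq_zero.2 hy'.symm)
  simp only [Function.comp]
  linear_combination h7

end Vale.Agent.P274
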