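import Vale.Agent.P274.StC
import Vale.Agent.P274.SCV1
import Vale.Agent.P274.Taut

open Set Filter Topology Metric

namespace Vale.Agent.P274

namespace HermAux

variable {k l : ℕ}

theorem pre (b : Bil k l) {C : Set (Fin k → ℝ)} (hC : IsPreconnected C) :
    IsPreconnected (rho b ⁻¹' C) := by
  have e : rho b ⁻¹' C = (fun p : (Fin k → ℝ) × (Fin k → ℝ) × (Fin l → ℂ) =>
      ((ofR k (p.1 + b p.2.2 p.2.2) + Complex.I • ofR k p.2.1, p.2.2) : EE k l)) ''
        (C ×ˢ univ) := by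
    refine Subset.antisymm (fun w hw => ⟨(rho b w, imL k w.1, w.2), ⟨hw, trivial⟩, ?_⟩) ?_
    · simp only [rho, sub_add_cancel, ofR_reL_add]
    · rintro _ ⟨p, hp, rfl⟩
      simpa only [mem_preimage, rho, map_add, reL_ofR, reL_I_ofR, add_zero, add_sub_cancel_right]
        using hp.1
  rw [e]
  exact (hC.prod isPreconnected_univ).image _ (by fun_prop)

theorem wall {b b' : Bil k l} {𝒢 : Set (Fin k → ℝ)} {Ω : Set (EE k l)} (h : WallP b 𝒢 Ω)
    (ho : IsOpen 𝒢) {g : EE k l → EE k l} (hg : Continuous g)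
    (hr : ∀ w, rho b' w ∈ 𝒢 → rho b (g w) ∈ 𝒢) : WallP b' 𝒢 (g ⁻¹' Ω) := by
  intro w hw
  obtain ⟨r, hr0, h1⟩ := Metric.isOpen_iff.1 (ho.preimage (continuous_rho b')) w hw
  refine ⟨r, hr0, fun ⟨y, hy, hy'⟩ => image_subset_iff.1 (h.subset
    ((convex_ball w r).isPreconnected.image g hg.continuousOn) ?_ ⟨g y, ⟨y, hy, rfl⟩, hy'⟩)⟩
  rintro _ ⟨z, hz, rfl⟩
  exact hr z (h1 hz)

theorem bihol {g g' : EE k l → EE k l} (hg : Differentiable ℂ g) (hg' : Differentiable ℂ g')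
    (h1 : ∀ w, g (g' w) = w) (h2 : ∀ w, g' (g w) = w) (Ω : Set (EE k l)) :
    Bihol Ω (g ⁻¹' Ω) g' g where
  maps := fun w hw => by rwa [mem_preimage, h1]
  maps' := fun _ hw => hw
  left := fun w _ => h1 w
  right := fun w _ => h2 w
  hol := holOn_of_analyticOnNhd ((analyticOnNhd_of_differentiable hg').mono (subset_univ _))
  hol' := holOn_of_analyticOnNhd ((analyticOnNhd_of_differentiable hg).mono (subset_univ _))

theorem fam {N : ℕ} {U : Set (Fin N → ℂ)} {b b' : Bil k l} {𝒢 : Set (Fin k → ℝ)}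
    {Ω : Set (EE k l)} (h : Fam U b 𝒢 Ω) (hc : Cone 𝒢) {g g' : EE k l → EE k l}
    (hg : Differentiable ℂ g) (hg' : Differentiable ℂ g') (h1 : ∀ w, g (g' w) = w)
    (h2 : ∀ w, g' (g w) = w) {s : ℝ} (hs : 0 < s) (hr : ∀ w, rho b (g w) = s • rho b' w) :
    Fam U b' 𝒢 (g ⁻¹' Ω) where
  bih := let ⟨_, _, hb⟩ := h.bih; ⟨_, _, hb.trans (bihol hg hg' h1 h2 Ω)⟩
  opn := h.opn.preimage hg.continuous
  pos := fun w hw i => by
    have := h.pos _ hw i
    rw [hr, Pi.smul_apply, smul_eq_mul] at this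
    exact nonneg_of_mul_nonneg_right this hs
  wall := wall h.wall hc.opn hg.continuous fun w hw => hr w ▸ hc.smul _ hw s hs

theorem freq {b : Bil k l} {𝒢 : Set (Fin k → ℝ)} {Ω : Set (EE k l)} (hd : Dense 𝒢)
    (ho : IsOpen Ω) {w : EE k l} (hw : w ∈ Ω) : ∃ᶠ ν in 𝓝 (rho b w),
      ν ∈ 𝒢 ∧ ((w.1 + ofR k (ν - rho b w), w.2) : EE k l) ∈ Ω := by
  refine (mem_closure_iff_frequently.1 (hd _)).and_eventually ?_
  have hc : Continuous fun ν : Fin k → ℝ => ((w.1 + ofR k (ν - rho b w), w.2) : EE k l) := by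
    fun_prop
  exact (ho.preimage hc).mem_nhds (by simpa using hw)

theorem rho_shift (b : Bil k l) (w : EE k l) (ν : Fin k → ℝ) :
    rho b (w.1 + ofR k (ν - rho b w), w.2) = ν := by
  simp only [rho, map_add, reL_ofR]
  abel

/-- The symmetric complex bilinear form whose real part is the pluriharmonic part of `b`. -/
noncomputable def Q (b : Bil k l) (a : Fin l → ℂ) : (Fin l → ℂ) →L[ℂ] (Fin k → ℂ) :=
  (1 / 4 : ℂ) • (ell b a - Complex.I • ell b (Complex.I • a))

theorem Q_symm {b : Bil k l} (hb : ∀ u v, b u v = b v u) (a u : Fin l → ℂ) :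
    Q b a u = Q b u a := by
  ext i
  simp only [Q, ell_apply, _root_.smul_apply, _root_.sub_apply,
    hb u a, hb u (Complex.I • a), hb (Complex.I • u) a, hb (Complex.I • u) (Complex.I • a),
    Pi.smul_apply, Pi.sub_apply, smul_eq_mul]
  ring

theorem differentiable_Q {b : Bil k l} (hb : ∀ u v, b u v = b v u) :
    Differentiable ℂ fun u => Q b u u := by
  let q : (Fin l → ℂ) →L[ℂ] (Fin l → ℂ) →L[ℂ] (Fin k → ℂ) := LinearMap.toContinuousLinearMap
    { toFun := Q b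
      map_add' := fun a a' => by
        ext1 u
        rw [Q_symm hb, map_add, Q_symm hb u, Q_symm hb u]
        rfl
      map_smul' := fun c a => by
        ext1 u
        rw [Q_symm hb, map_smul, Q_symm hb u]
        rfl }
  exact q.differentiable.clm_apply differentiable_id

theorem reL_Q (b : Bil k l) (u : Fin l → ℂ) :
    reL k (Q b u u) = (1 / 2 : ℝ) • (b u u - b (Complex.I • u) (Complex.I • u)) := by
  ext i
  simp [Q, ell_apply]
  ring

end HermAux

open HermAux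

/-- Sketch. For a preconnected `C`, `rho b ⁻¹' C` is preconnected (image of `C ×ˢ univ` under
`(ν, t, u) ↦ (ofR (ν + b u u) + I • ofR t, u)`). With `ν₀ = rho b w₀`, the preimage of the ray
`{s • ν₀ | 0 < s}` lies in `Ω` (`WallP.subset`), so `c ‖u‖² ≤ s ν₀ i + b u u i` for all `s > 0`, and
`c ‖u‖² ≤ b u u i`. For `w ∈ Ω` and `ν' ∈ 𝒢` close to `rho b w`, `(w.1 + ofR (ν' - rho b w), w.2) ∈ Ω`, so the
fibre over `ν'` lies in `Ω`, contains `(ofR ν', 0)`, so `0 ≤ ν' i`; by density `0 ≤ rho b w i`.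
Let `b' u v = (b u v + b (I • u) (I • v)) / 2`, `q a = (1/4) • (ell b a - I • ell b (I • a))`, complex linear
in `a`; `Sh (Z,u) = (Z - q u u, u)` is a polynomial automorphism with `rho b' (Sh w) = rho b w`;
`Ω' = Sh '' Ω`. For `WallP` use a ball inside `rho ⁻¹ 𝒢` and `WallP.subset`. -/
theorem Herm_pf : S_Herm := by
  rintro N k l U b 𝒢 Ω hb hc hbih ho ⟨c, hc0, hpos⟩ hw ⟨w₀, h₀, h₀'⟩
  have h1 : ∀ u i, c * ‖u‖ ^ 2 ≤ b u u i := fun u i => by
    have hs : rho b ⁻¹' ((fun s : ℝ => s • rho b w₀) '' Ioi 0) ⊆ Ω :=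
      hw.subset (pre b (isPreconnected_Ioi.image _ (by fun_prop)))
        (fun w ⟨s, hs, h⟩ => h ▸ hc.smul _ h₀' s hs) ⟨w₀, ⟨1, mem_Ioi.2 one_pos, one_smul _ _⟩, h₀⟩
    have ht : Tendsto (fun s : ℝ => s * rho b w₀ i + b u u i) (𝓝[>] 0) (𝓝 (b u u i)) := by
      have : Continuous fun s : ℝ => s * rho b w₀ i + b u u i := by fun_prop
      simpa using (this.tendsto 0).mono_left nhdsWithin_le_nhds
    refine ge_of_tendsto ht (eventually_nhdsWithin_of_forall fun s hs' => ?_)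
    simpa using hpos (ofR k (s • rho b w₀ + b u u), u) (hs ⟨s, hs', by simp [rho]⟩) i
  have hF : Fam U b 𝒢 Ω := ⟨hbih, ho, fun w hΩ i => by
    refine (isClosed_le continuous_const (continuous_apply i)).closure_subset
      (mem_closure_iff_frequently.2 ((freq (b := b) hc.dense ho hΩ).mono fun ν hν => ?_))
    have hs : rho b ⁻¹' {ν} ⊆ Ω := hw.subset (pre b isPreconnected_singleton)
      (fun w h => (mem_singleton_iff.1 h).symm ▸ hν.1) ⟨_, rho_shift b w ν, hν.2⟩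
    simpa using hpos (ofR k ν, 0) (hs (by simp [rho])) i, hw⟩
  let J : (Fin l → ℂ) →L[ℝ] (Fin l → ℂ) := ContinuousLinearMap.lsmul ℝ ℂ Complex.I
  let b' : Bil k l := (1 / 2 : ℝ) • (b + b.bilinearComp J J)
  have e : ∀ u v, b' u v = (1 / 2 : ℝ) • (b u v + b (Complex.I • u) (Complex.I • v)) :=
    fun _ _ => rfl
  have hQ := differentiable_Q hb
  have hr : ∀ w : EE k l, rho b (w.1 + Q b w.2 w.2, w.2) = (1 : ℝ) • rho b' w := fun w => by
    simp only [rho, map_add, reL_Q, e]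
    module
  refine ⟨b', (fun w : EE k l => ((w.1 + Q b w.2 w.2, w.2) : EE k l)) ⁻¹' Ω,
    ⟨fun u v => by rw [e, e, hb u, hb (Complex.I • u)], fun u v => ?_, c, hc0, fun u i => ?_⟩,
    fam hF hc (g' := fun w => (w.1 - Q b w.2 w.2, w.2))
      ((differentiable_fst.add (hQ.comp differentiable_snd)).prodMk differentiable_snd)
      ((differentiable_fst.sub (hQ.comp differentiable_snd)).prodMk differentiable_snd)
      (fun w => by simp) (fun w => by simp) one_pos hr,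
    (w₀.1 - Q b w₀.2 w₀.2, w₀.2), by simpa using h₀, ?_⟩
  · simp only [e, smul_smul, Complex.I_mul_I, neg_one_smul, map_neg,
      _root_.neg_apply, neg_neg, add_comm]
  · have h2 := h1 (Complex.I • u) i
    rw [norm_smul, Complex.norm_I, one_mul] at h2
    rw [e, Pi.smul_apply, Pi.add_apply, smul_eq_mul]
    linarith [h1 u i]
  · have := hr (w₀.1 - Q b w₀.2 w₀.2, w₀.2)
    rw [one_smul] at this
    rw [← this]
    simpa using h₀'

/-- Sketch. General lemma: if `g, g'` are entire inverse maps of `EE k l` with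
`rho b (g w) = s • rho b w`, `0 < s`, then `Fam U b 𝒢 (g ⁻¹' Ω)` (`WallP.subset` applied to the image of a
ball inside `rho ⁻¹ 𝒢`). Use `Herm.tr_neg`, `rho_tr`, `sc_sc`, `rho_sc`. Radial invariance: `ν = rho b w`,
choose `ν j ∈ 𝒢`, `ν j → ν` with `(w.1 + ofR (ν j - ν), w.2) ∈ Ω`; the discs
`f j ζ = (w.1 - ofR ν + ζ • ofR (ν j), w.2)` on `{ζ | 0 < ζ.re}` have `rho = ζ.re • ν j ∈ 𝒢`, so lie in `Ω`
(`WallP.subset`); apply `Div.tautIn_bihol`. -/
theorem FamSym_pf : S_FamSym := by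
  intro N k l Γ _ U act b 𝒢 Ω hD hb hc hF
  refine ⟨fun t a => fam hF hc (differentiable_tr b t a) (differentiable_tr b (-t) (-a))
      (fun w => by simpa using hb.tr_neg (-t) (-a) w) (hb.tr_neg t a) one_pos
      fun w => by rw [rho_tr hb.symm, one_smul],
    fun δ hδ => fam hF hc (differentiable_sc δ) (differentiable_sc δ⁻¹)
      (fun w => by rw [sc_sc, mul_inv_cancel₀ hδ.ne', sc_one])
      (fun w => by rw [sc_sc, inv_mul_cancel₀ hδ.ne', sc_one]) (pow_pos hδ 2) (rho_sc b δ),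
    fun w hw s hs => ?_⟩
  obtain ⟨ν, hν, hν'⟩ := exists_seq_forall_of_frequently (freq (b := b) hc.dense hF.opn hw)
  obtain ⟨ψ, θ, hB⟩ := hF.bih
  have hT : IsPreconnected {ζ : ℂ | 0 < ζ.re} := (convex_halfSpace_re_gt 0).isPreconnected
  have := hD.tautIn_bihol hB (fun j ζ => (w.1 - ofR k (rho b w) + ζ • ofR k (ν j), w.2))
    (fun ζ => (w.1 - ofR k (rho b w) + ζ • ofR k (rho b w), w.2)) {ζ : ℂ | 0 < ζ.re}
    (isOpen_lt continuous_const Complex.continuous_re) hT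
    (fun j => ⟨by fun_prop, mapsTo_iff_image_subset.2 (hF.wall.subset (hT.image _ (by fun_prop))
      ?_ ⟨_, ⟨1, by simp, rfl⟩, ?_⟩)⟩) (fun ζ _ => ?_) (mapsTo_univ _ _)
    ⟨1, by simp, by simpa using hw⟩ (show (s : ℂ) ∈ {ζ : ℂ | 0 < ζ.re} from hs)
  · convert this using 2
    ext i
    simp
    ring
  · rintro _ ⟨ζ, hζ, rfl⟩
    convert hc.smul _ (hν' j).1 _ hζ using 1
    ext i
    simp [rho]
  · convert (hν' j).2 using 2
    ext i
    simp
    ring
  · have hc : Continuous fun ν : Fin k → ℝ =>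
        ((w.1 - ofR k (rho b w) + ζ • ofR k ν, w.2) : EE k l) := by fun_prop
    exact (hc.tendsto _).comp hν

end Vale.Agent.P274
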