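import Vale.Agent.P274.StD
import Vale.Agent.P274.SCV1

open Set Filter Topology Metric MeasureTheory Asymptotics

namespace Vale.Agent.P274

namespace JetAux

variable {E F G : Type} [NormedAddCommGroup E] [NormedSpace ℂ E] [NormedAddCommGroup F]
  [NormedSpace ℂ F] [NormedAddCommGroup G] [NormedSpace ℂ G] {e : E} {k l : ℕ}

/-- vanishing to order `k` at `e` -/
def Ord (e : E) (k : ℕ) (f : E → F) : Prop := f =O[𝓝 e] fun x => ‖x - e‖ ^ k

omit [NormedSpace ℂ E] [NormedSpace ℂ F] in
theorem Ord.mono {f : E → F} (h : Ord e l f) (hk : k ≤ l) : Ord e k f := by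
  refine IsBigO.trans h (IsBigO.of_bound' ?_)
  filter_upwards [closedBall_mem_nhds e one_pos] with x hx
  rw [norm_pow, norm_pow, norm_norm]
  exact pow_le_pow_of_le_one (norm_nonneg _) (mem_closedBall_iff_norm.1 hx) hk

omit [NormedSpace ℂ E] [NormedSpace ℂ F] in
theorem Ord.zero {f : E → F} (h : Ord e (k + 1) f) : f e = 0 :=
  (IsBigO.eq_zero_imp h).self_of_nhds (by simp)

omit [NormedSpace ℂ E] [NormedSpace ℂ F] in
theorem ord_zero {f : E → F} (h : ContinuousAt f e) : Ord e 0 f := by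
  simpa [Ord] using h.tendsto.isBigO_one ℝ

omit [NormedSpace ℂ E] in
theorem ord_id : Ord e 1 fun x => x - e := by
  simpa [Ord] using isBigO_refl (fun x => x - e) (𝓝 e)

omit [NormedSpace ℂ E] in
theorem Ord.app {A : E → F →L[ℂ] G} {v : E → F} (hA : Ord e k A) (hv : Ord e l v) :
    Ord e (k + l) fun x => A x (v x) :=
  (IsBigO.of_norm_le fun x => (A x).le_opNorm (v x)).trans
    (((IsBigO.norm_left hA).mul (IsBigO.norm_left hv)).congr_right fun _ => (pow_add _ _ _).symm)

variable [CompleteSpace F]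

theorem Ord.succ {f : E → F} (hf : AnalyticAt ℂ f e) (h0 : f e = 0) (h : Ord e k (fderiv ℂ f)) :
    Ord e (k + 1) f := by
  obtain ⟨C, hC, h⟩ := IsBigO.exists_nonneg h
  obtain ⟨r, hr, h1⟩ := Metric.eventually_nhds_iff_ball.1 (hf.eventually_analyticAt.and h.bound)
  refine IsBigO.of_bound C ?_
  filter_upwards [ball_mem_nhds e hr] with x hx
  have h2 : ∀ y ∈ closedBall e ‖x - e‖, y ∈ ball e r := fun y hy =>
    closedBall_subset_ball (mem_ball_iff_norm.1 hx) hy
  have h3 := (convex_closedBall e ‖x - e‖).norm_image_sub_le_of_norm_fderiv_le (𝕜 := ℂ)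
    (C := C * ‖x - e‖ ^ k) (fun y hy => (h1 y (h2 y hy)).1.differentiableAt)
    (fun y hy => (h1 y (h2 y hy)).2.trans (mul_le_mul_of_nonneg_left (by
      rw [norm_pow, norm_norm]
      exact pow_le_pow_left₀ (norm_nonneg _) (mem_closedBall_iff_norm.1 hy) k) hC))
    (mem_closedBall_self (norm_nonneg _)) (mem_closedBall_iff_norm.2 le_rfl)
  rw [h0, sub_zero, mul_assoc, ← pow_succ] at h3
  rwa [norm_pow, norm_norm]

theorem Ord.fderiv {f : E → F} (hf : AnalyticAt ℂ f e) (h : Ord e (k + 1) f) :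
    Ord e k (fderiv ℂ f) := by
  obtain ⟨C, hC, h⟩ := IsBigO.exists_nonneg h
  obtain ⟨r, hr, h1⟩ := Metric.eventually_nhds_iff_ball.1 (hf.eventually_analyticAt.and h.bound)
  refine IsBigO.of_bound (2 * C * 2 ^ (k + 1)) ?_
  filter_upwards [ball_mem_nhds e (half_pos hr)] with x hx
  rw [norm_pow, norm_norm]
  have h2 : Tendsto (fun s : ℝ => 2 * C * 2 ^ (k + 1) * s ^ k) (𝓝[>] ‖x - e‖)
      (𝓝 (2 * C * 2 ^ (k + 1) * ‖x - e‖ ^ k)) :=
    (Continuous.tendsto (by fun_prop) _).mono_left nhdsWithin_le_nhds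
  refine ge_of_tendsto h2 ?_
  filter_upwards [Ioo_mem_nhdsGT (mem_ball_iff_norm.1 hx)] with s hs
  have h3 : 0 < s := (norm_nonneg _).trans_lt hs.1
  have h4 : ∀ y ∈ ball x s, ‖y - e‖ < 2 * s := fun y hy => by
    linarith [norm_sub_le_norm_sub_add_norm_sub y x e, mem_ball_iff_norm.1 hy, hs.1]
  have h5 : ∀ y ∈ ball x s, y ∈ ball e r := fun y hy =>
    mem_ball_iff_norm.2 (by linarith [h4 y hy, hs.2])
  refine (norm_fderiv_le_of_bdd (M := C * (2 * s) ^ (k + 1)) h3
    (fun y hy => (h1 y (h5 y hy)).1.differentiableAt.differentiableWithinAt)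
    fun y hy => (h1 y (h5 y hy)).2.trans (mul_le_mul_of_nonneg_left ?_ hC)).trans_eq ?_
  · rw [norm_pow, norm_norm]
    exact pow_le_pow_left₀ (norm_nonneg _) (h4 y hy).le _
  · field_simp
    ring

theorem Ord.fderiv' {f : E → F} (hf : AnalyticAt ℂ f e) (h : Ord e k f) :
    Ord e (k - 1) (_root_.fderiv ℂ f) := by
  rcases k with _ | k
  · exact ord_zero hf.fderiv.continuousAt
  · exact h.fderiv hf

theorem ord_one {f : E → F} (hf : AnalyticAt ℂ f e) (h : f e = 0) : Ord e 1 f :=
  Ord.succ hf h (ord_zero hf.fderiv.continuousAt)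

theorem ord_two {f : E → F} (hf : AnalyticAt ℂ f e) (h : f e = 0) (h' : fderiv ℂ f e = 0) :
    Ord e 2 f := Ord.succ hf h (ord_one hf.fderiv h')

theorem euler (k : ℕ) : ∀ (F : Type) [NormedAddCommGroup F] [NormedSpace ℂ F] [CompleteSpace F]
    (f : E → F), AnalyticAt ℂ f e → Ord e k f →
      Ord e (k + 1) fun x => fderiv ℂ f x (x - e) - (k : ℂ) • f x := by
  induction k with
  | zero =>
    intro F _ _ _ f hf _
    simpa using (ord_zero hf.fderiv.continuousAt).app ord_id
  | succ k ih =>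
    intro F _ _ _ f hf h
    refine Ord.succ ((((ContinuousLinearMap.id ℂ (E →L[ℂ] F)).analyticAt_bilinear _).comp₂
      hf.fderiv (analyticAt_id.sub analyticAt_const)).sub (hf.const_smul))
      (by simp [h.zero]) ((ih _ _ hf.fderiv (h.fderiv hf)).congr' ?_ EventuallyEq.rfl)
    filter_upwards [hf.eventually_analyticAt] with x hx
    refine Eq.trans ?_ ((hx.fderiv.differentiableAt.hasFDerivAt.clm_apply
      ((hasFDerivAt_id x).sub_const e)).sub
      (hx.differentiableAt.hasFDerivAt.const_smul ((k + 1 : ℕ) : ℂ))).fderiv.symm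
    ext v
    have h1 := (hx.contDiffAt.isSymmSndFDerivAt (n := ⊤) le_top).eq v (x - e)
    simp [h1, add_smul, -map_sub]
    abel

end JetAux

open JetAux in
/-- Sketch. Basic lemma: if `W` is analytic at `e` and `W = O(‖x - e‖^(r+1))` then
`fderiv ℂ W = O(‖x - e‖^r)` (Cauchy estimate `norm_fderiv_le_of_bdd` on `ball x ‖x - e‖`; for `x = e`
directly). Taylor: `HasFPowerSeriesAt.isBigO_sub_partialSum_pow`. For the last part write
`Eu x = (x - e) + O(2)`, `fderiv Eu x = id + O(1)`, so it suffices to show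
`fderiv W x (x - e) - r • W x = O(r+1)` when `W = O(r)`: write `W = H (x - e) + R` with `H v = p r (v,…,v)`
homogeneous of degree `r` (lower terms vanish since `W = O(r)`), `R = O(r+1)`, and Euler's identity
`fderiv H v v = r • H v` (differentiate `H (t • v) = t^r • H v` at `t = 1`). -/
theorem Jet_pf : S_Jet := by
  intro E _ _ _ e
  have := FiniteDimensional.complete ℂ E
  refine ⟨fun W hW => ⟨⟨Ord.zero, ord_one hW⟩, fun h => ⟨Ord.zero h, (Ord.fderiv hW h).zero⟩,
    fun h => ord_two hW h.1 h.2⟩, fun W V hW hV h => ?_, fun W Eu hW hE h0 h1 r _ h => ?_⟩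
  · exact IsBigO.sub (((ord_zero hV.fderiv.continuousAt).app h).mono (by norm_num))
      ((Ord.fderiv hW h).app (ord_zero hV.continuousAt))
  · have h2 : Ord e 2 fun x => Eu x - (x - e) :=
      ord_two (hE.sub (analyticAt_id.sub analyticAt_const)) (by simp [h0])
        ((hE.differentiableAt.hasFDerivAt.sub ((hasFDerivAt_id e).sub_const e)).fderiv.trans
          (sub_eq_zero.2 h1))
    have h3 : Ord e 1 fun x => fderiv ℂ Eu x - ContinuousLinearMap.id ℂ E :=
      ord_one (hE.fderiv.sub analyticAt_const) (by rw [h1, sub_self])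
    refine (IsBigO.sub (IsBigO.add (((Ord.fderiv' hW h).app h2).mono (k := r + 1) (by omega))
      (euler r E W hW h)) ((h3.app h).mono (k := r + 1) (by omega))).congr_left fun x => ?_
    simp only [map_sub, sub_apply, ContinuousLinearMap.id_apply,
      ← Complex.coe_smul, Complex.ofReal_natCast, sub_smul, one_smul]
    abel

end Vale.Agent.P274
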