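import Vale.Agent.P274.StC
import Vale.Agent.P274.SCV2
import Vale.Agent.P274.Taut

open Set Filter Topology Metric

namespace Vale.Agent.P274

namespace KLAux

theorem ulim {J F : Type*} [NormedAddCommGroup F] [ProperSpace F] (𝔲 : Ultrafilter J)
    {f : J → F} {M : ℝ} (h : ∀ᶠ j in 𝔲, ‖f j‖ ≤ M) : Tendsto f 𝔲 (𝓝 (limUnder 𝔲 f)) := by
  obtain ⟨a, -, ha⟩ := (isCompact_closedBall (0 : F) M).ultrafilter_le_nhds (𝔲.map f)
    (le_principal_iff.2 (h.mono fun j hj => mem_closedBall_zero_iff.2 hj))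
  exact tendsto_nhds_limUnder ⟨a, ha⟩

theorem tlu_comp {ι α β γ : Type*} [TopologicalSpace α] [UniformSpace β] [UniformSpace γ]
    {F : ι → α → β} {f : α → β} {l : Filter ι} {s : Set α}
    (h : TendstoLocallyUniformlyOn F f l s) (hf : ContinuousOn f s) {k : β → γ}
    (hk : Continuous k) : TendstoLocallyUniformlyOn (fun j x => k (F j x)) (fun x => k (f x)) l s := by
  rw [tendstoLocallyUniformlyOn_iff_forall_tendsto] at h ⊢
  intro x hx
  have t1 : Tendsto (fun y : ι × α => f y.2) (l ×ˢ 𝓝[s] x) (𝓝 (f x)) :=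
    (hf x hx).tendsto.comp tendsto_snd
  exact (((hk.tendsto _).comp t1).prodMk_nhds
    ((hk.tendsto _).comp (t1.congr_uniformity (h x hx)))).mono_right (nhds_le_uniformity _)

variable {E₀ E : Type*} [NormedAddCommGroup E₀] [NormedSpace ℂ E₀] [FiniteDimensional ℂ E₀]
  [NormedAddCommGroup E] [NormedSpace ℂ E] [FiniteDimensional ℂ E]

theorem analyticAt_det (A : E →L[ℂ] E) : AnalyticAt ℂ (fun A : E →L[ℂ] E => A.det) A := by
  classical
  let b := Module.finBasis ℂ E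
  have e : (fun A : E →L[ℂ] E => A.det) = fun A => ∑ σ : Equiv.Perm (Fin (Module.finrank ℂ E)),
      ((Equiv.Perm.sign σ : ℤ) : ℂ) * ∏ i, b.coord (σ i) (A (b i)) := by
    funext A
    rw [ContinuousLinearMap.det, ← LinearMap.det_toMatrix b, Matrix.det_apply']
    simp [LinearMap.toMatrix_apply]
  rw [e]
  refine Finset.analyticAt_fun_sum _ fun σ _ => analyticAt_const.fun_mul
    (Finset.analyticAt_fun_prod _ fun i _ => ?_)
  exact (((b.coord (σ i)).toContinuousLinearMap).comp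
    (ContinuousLinearMap.apply ℂ E (b i))).analyticAt A

omit [FiniteDimensional ℂ E] in
theorem det_ne {f g : E → E} {t : E} (hf : DifferentiableAt ℂ f t)
    (hg : DifferentiableAt ℂ g (f t)) (h : ∀ᶠ s in 𝓝 t, g (f s) = s) :
    (fderiv ℂ f t).det ≠ 0 ∧ (fderiv ℂ g (f t)).det ≠ 0 := by
  have e : (fderiv ℂ g (f t)).comp (fderiv ℂ f t) = ContinuousLinearMap.id ℂ E :=
    (hg.hasFDerivAt.comp t hf.hasFDerivAt).unique ((hasFDerivAt_id t).congr_of_eventuallyEq h)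
  have e2 : (fderiv ℂ g (f t)).det * (fderiv ℂ f t).det = 1 := by
    rw [ContinuousLinearMap.det, ContinuousLinearMap.det, ← LinearMap.det_comp,
      ← ContinuousLinearMap.toLinearMap_comp, e, ContinuousLinearMap.coe_id, LinearMap.det_id]
  exact ⟨right_ne_zero_of_mul_eq_one e2, left_ne_zero_of_mul_eq_one e2⟩

/-- A chart valid on a ball. -/
structure Chart (U O : Set E₀) (G : E → E₀) (χ : E₀ → E) (V : Set E) : Prop where
  op : IsOpen O
  hG : AnalyticOnNhd ℂ G V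
  maps : ∀ t ∈ V, G t ∈ U ∩ O
  left : ∀ t ∈ V, χ (G t) = t
  hχ : AnalyticOnNhd ℂ χ O
  right : ∀ y ∈ U ∩ O, G (χ y) = y

theorem exists_chart {U O : Set E₀} {x : E₀} (h : Reg E U x) (hO : O ∈ 𝓝 x) :
    ∃ (G : E → E₀) (χ : E₀ → E) (r : ℝ) (O' : Set E₀), 0 < r ∧ O' ⊆ O ∧ x ∈ O' ∧
      Chart U O' G χ (ball (χ x) r) := by
  have : CompleteSpace E₀ := FiniteDimensional.complete ℂ E₀
  have : CompleteSpace E := FiniteDimensional.complete ℂ E
  obtain ⟨G, χ, h1, h2, h3, h4, h5⟩ := h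
  obtain ⟨O', a1, a2, a3⟩ := _root_.eventually_nhds_iff.1
    ((eventually_nhdsWithin_iff.1 h5).and (h2.eventually_analyticAt.and hO))
  have h6 : ∀ᶠ t in 𝓝 (χ x), G t ∈ O' :=
    h1.continuousAt.eventually_mem (h3.symm ▸ a2.mem_nhds a3)
  obtain ⟨r, hr, hb⟩ := Metric.eventually_nhds_iff_ball.1
    (h1.eventually_analyticAt.and (h4.and h6))
  exact ⟨G, χ, r, O', hr, fun y hy => (a1 y hy).2.2, a3, a2, fun t ht => (hb t ht).1,
    fun t ht => ⟨(hb t ht).2.1.1, (hb t ht).2.2⟩, fun t ht => (hb t ht).2.1.2,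
    fun y hy => (a1 y hy).2.1, fun y hy => (a1 y hy.2).1 hy.1⟩

/-- The data of the kernel convergence theorem together with the limits. -/
structure Dat {Γ J : Type*} [Group Γ] (U : Set E₀) (act : Γ → E₀ → E₀) (l : Filter J)
    (ψ : J → E₀ → E) (θ : J → E → E₀) (Ω : J → Set E) (ψ' : E₀ → E) (θ' : E → E₀) : Prop where
  div : Div U act
  reg : ∀ x ∈ U, Reg E U x
  h1 : ∀ᶠ j in l, IsOpen (Ω j) ∧ DifferentiableOn ℂ (θ j) (Ω j) ∧ MapsTo (θ j) (Ω j) U ∧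
    ∀ w ∈ Ω j, ψ j (θ j w) = w
  h2 : ∀ x ∈ U, ∃ O, IsOpen O ∧ x ∈ O ∧ ∃ M : ℝ, ∀ᶠ j in l, HolOn (U ∩ O) (ψ j) ∧
    ∀ y ∈ U ∩ O, ψ j y ∈ Ω j ∧ θ j (ψ j y) = y ∧ ‖ψ j y‖ ≤ M
  lψ : ∀ x ∈ U, Tendsto (fun j => ψ j x) l (𝓝 (ψ' x))
  lθ : ∀ w, (∀ᶠ j in l, w ∈ Ω j) → Tendsto (fun j => θ j w) l (𝓝 (θ' w))

variable {Γ J : Type*} [Group Γ] {U : Set E₀} {act : Γ → E₀ → E₀} {l : Filter J} [l.NeBot]
  {ψ : J → E₀ → E} {θ : J → E → E₀} {Ω : J → Set E} {ψ' : E₀ → E} {θ' : E → E₀}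

theorem Dat.hol (h : Dat U act l ψ θ Ω ψ' θ') :
    HolOn U ψ' ∧ TendstoLocallyUniformlyOn ψ ψ' l U := by
  have : CompleteSpace E := FiniteDimensional.complete ℂ E
  refine holOn_limit h.reg (fun x hx => ?_) h.lψ
  obtain ⟨O, h1, h2, M, h3⟩ := h.h2 x hx
  exact ⟨O, h1, h2, M, h3.mono fun j hj => ⟨hj.1, fun y hy => (hj.2 y hy).2.2⟩⟩

/-- The ball lemma. -/
theorem Dat.ball (h : Dat U act l ψ θ Ω ψ' θ') {w w₁ : E} {r : ℝ}
    (hb : ∀ᶠ j in l, ball w r ⊆ Ω j) (h₁ : w₁ ∈ ball w r) {K : Set E₀} (hK : IsCompact K)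
    (hKU : K ⊆ U) (hj : ∀ᶠ j in l, θ j w₁ ∈ K) :
    DifferentiableOn ℂ θ' (ball w r) ∧ TendstoLocallyUniformlyOn θ θ' l (ball w r) ∧
      ∀ v ∈ ball w r, θ' v ∈ U ∧ ψ' (θ' v) = v := by
  have : CompleteSpace E₀ := FiniteDimensional.complete ℂ E₀
  obtain ⟨M, -, hM⟩ := h.div.bdd.exists_pos_norm_le
  have loc : ∀ v ∈ Metric.ball w r, ∃ ρ > 0, ∀ᶠ j in l,
      DifferentiableOn ℂ (θ j) (Metric.ball v ρ) ∧ MapsTo (θ j) (Metric.ball v ρ) U := by
    intro v hv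
    obtain ⟨ρ, hρ, hs⟩ := Metric.isOpen_iff.1 isOpen_ball v hv
    refine ⟨ρ, hρ, ?_⟩
    filter_upwards [hb, h.h1] with j a b
    exact ⟨b.2.1.mono (hs.trans a), b.2.2.1.mono_left (hs.trans a)⟩
  have lim : ∀ v ∈ Metric.ball w r, Tendsto (fun j => θ j v) l (𝓝 (θ' v)) := fun v hv =>
    h.lθ v (hb.mono fun j a => a hv)
  obtain ⟨a1, a2, -⟩ := weierstrass isOpen_ball (fun v hv => by
    obtain ⟨ρ, hρ, hs⟩ := loc v hv
    exact ⟨ρ, hρ, M, hs.mono fun j a => ⟨a.1, fun y hy => hM _ (a.2 hy)⟩⟩) lim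
  refine ⟨a1, a2, fun v hv => ?_⟩
  obtain ⟨ρ, hρ, K', k1, k2, k3⟩ :=
    h.div.taut (convex_ball w r).isPreconnected loc h₁ hK hKU hj v hv
  have k4 := k3.mono fun j a => a (mem_ball_self hρ)
  have hU : θ' v ∈ U := k2 (k1.isClosed.mem_of_tendsto (lim v hv) k4)
  refine ⟨hU, tendsto_nhds_unique (h.hol.2.tendsto_comp (h.hol.1.continuousOn _ hU) hU
    (tendsto_nhdsWithin_iff.2 ⟨lim v hv, k4.mono fun j a => k2 a⟩))
    (tendsto_const_nhds.congr' ?_)⟩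
  filter_upwards [hb, h.h1] with j a b
  exact (b.2.2.2 v (a hv)).symm

/-- Points over which the inverse maps converge. -/
def Good (U : Set E₀) (l : Filter J) (θ : J → E → E₀) (Ω : J → Set E) (w : E) : Prop :=
  ∃ r > 0, (∀ᶠ j in l, ball w r ⊆ Ω j) ∧ ∃ K, IsCompact K ∧ K ⊆ U ∧ ∀ᶠ j in l, θ j w ∈ K

theorem Dat.of_good (h : Dat U act l ψ θ Ω ψ' θ') {x : E₀} (hx : x ∈ U)
    (hg : Good U l θ Ω (ψ' x)) : θ' (ψ' x) = x ∧ DifferentiableAt ℂ θ' (ψ' x) ∧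
      ∀ᶠ v in 𝓝 (ψ' x), θ' v ∈ U ∧ ψ' (θ' v) = v := by
  obtain ⟨r, hr, hb, K, k1, k2, k3⟩ := hg
  obtain ⟨a1, a2, a3⟩ := h.ball hb (mem_ball_self hr) k1 k2 k3
  refine ⟨?_, a1.differentiableAt (ball_mem_nhds _ hr),
    eventually_of_mem (ball_mem_nhds _ hr) a3⟩
  refine tendsto_nhds_unique (a2.tendsto_comp (a1.continuousOn _ (mem_ball_self hr))
    (mem_ball_self hr) (tendsto_nhdsWithin_iff.2 ⟨h.lψ x hx,
      (h.lψ x hx).eventually (ball_mem_nhds _ hr)⟩)) (tendsto_const_nhds.congr' ?_)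
  obtain ⟨O, -, h2, M, h3⟩ := h.h2 x hx
  exact h3.mono fun j hj => (hj.2 x ⟨hx, h2⟩).2.1.symm

/-- In a chart either all points are good or none. -/
theorem Dat.chart (h : Dat U act l ψ θ Ω ψ' θ') {O : Set E₀} {G : E → E₀} {χ : E₀ → E} {c : E}
    {r M : ℝ} (hc : Chart U O G χ (Metric.ball c r))
    (hM : ∀ᶠ j in l, HolOn (U ∩ O) (ψ j) ∧
      ∀ y ∈ U ∩ O, ψ j y ∈ Ω j ∧ θ j (ψ j y) = y ∧ ‖ψ j y‖ ≤ M) {s t : E}
    (hs : s ∈ Metric.ball c r) (ht : t ∈ Metric.ball c r) (hg : Good U l θ Ω (ψ' (G s))) :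
    Good U l θ Ω (ψ' (G t)) := by
  have : CompleteSpace E := FiniteDimensional.complete ℂ E
  have : ProperSpace E := FiniteDimensional.proper ℂ E
  have hd : ∀ᶠ j in l, DifferentiableOn ℂ (fun t => ψ j (G t)) (Metric.ball c r) :=
    hM.mono fun j a => a.1.comp_differentiableOn hc.hG.differentiableOn hc.maps
  obtain ⟨w1, -, w3⟩ := weierstrass (l := l) (f := fun j t => ψ j (G t)) (g := fun t => ψ' (G t))
    isOpen_ball (fun v hv => by
      obtain ⟨ρ, hρ, hs⟩ := Metric.isOpen_iff.1 isOpen_ball v hv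
      refine ⟨ρ, hρ, M, ?_⟩
      filter_upwards [hM, hd] with j a b
      exact ⟨b.mono hs, fun y hy => (a.2 _ (hc.maps y (hs hy))).2.2⟩)
    fun v hv => h.lψ _ (hc.maps v hv).1
  have an : ∀ {f : E → E}, DifferentiableOn ℂ f (Metric.ball c r) →
      AnalyticOnNhd ℂ (fun t => (fderiv ℂ f t).det) (Metric.ball c r) := fun hf v hv =>
    (analyticAt_det _).comp ((analyticOnNhd_of_differentiableOn isOpen_ball hf).fderiv v hv)
  have n1 : (fderiv ℂ (fun t => ψ' (G t)) s).det ≠ 0 := by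
    obtain ⟨a1, a2, a3⟩ := h.of_good (hc.maps s hs).1 hg
    have e : χ (θ' (ψ' (G s))) = s := by rw [a1, hc.left s hs]
    have := (det_ne (f := fun v => χ (θ' v)) (g := fun t => ψ' (G t))
      (DifferentiableAt.comp (g := χ) _
        (by rw [a1]; exact (hc.hχ _ (hc.maps s hs).2).differentiableAt) a2)
      (by rw [e]; exact w1.differentiableAt (isOpen_ball.mem_nhds hs))
      (by
        filter_upwards [a3, a2.continuousAt.eventually_mem
          (a1.symm ▸ hc.op.mem_nhds (hc.maps s hs).2)] with v b1 b2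
        rw [hc.right _ ⟨b1.1, b2⟩, b1.2])).2
    rwa [e] at this
  obtain ⟨ρ, hρ, hsub⟩ := Metric.isOpen_iff.1 isOpen_ball t ht
  have n2 : (fderiv ℂ (fun t => ψ' (G t)) t).det ≠ 0 := fun h0 => by
    refine n1 ((an w1).eqOn_zero_of_preconnected_of_eventuallyEq_zero
      (convex_ball c r).isPreconnected ht (hurwitz (l := l)
        (f := fun j t => (fderiv ℂ (fun t => ψ j (G t)) t).det) hρ ?_
        ((an w1).continuousOn.mono hsub) ((tlu_comp w3
          (analyticOnNhd_of_differentiableOn isOpen_ball w1).fderiv.continuousOn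
            ContinuousLinearMap.continuous_det).mono hsub) h0) hs)
    filter_upwards [hM, hd, h.h1] with j a b d
    refine ⟨(an b).differentiableOn.mono hsub, fun y hy => ?_⟩
    have m := a.2 _ (hc.maps y (hsub hy))
    refine (det_ne (g := fun v => χ (θ j v)) (b.differentiableAt (isOpen_ball.mem_nhds (hsub hy)))
      (DifferentiableAt.comp (g := χ) _
        (by rw [m.2.1]; exact (hc.hχ _ (hc.maps y (hsub hy)).2).differentiableAt)
        (d.2.1.differentiableAt (d.1.mem_nhds m.1))) ?_).1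
    filter_upwards [isOpen_ball.mem_nhds (hsub hy)] with v hv
    rw [(a.2 _ (hc.maps v hv)).2.1, hc.left v hv]
  obtain ⟨r', hr', hb⟩ := ball_subset_image hρ rfl (hd.mono fun j a => a.mono hsub) (w1.mono hsub)
    (h.lψ _ (hc.maps t ht).1) (w3.mono hsub) (by
      by_contra hn
      exact n2 (LinearMap.det_eq_zero_iff_ker_ne_bot.2 fun e => hn (LinearMap.ker_eq_bot.1 e)))
  have hsub' : closedBall t (ρ / 2) ⊆ Metric.ball c r :=
    (closedBall_subset_ball (half_lt_self hρ)).trans hsub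
  refine ⟨r', hr', ?_, G '' closedBall t (ρ / 2), (isCompact_closedBall _ _).image_of_continuousOn
    (hc.hG.continuousOn.mono hsub'), ?_, ?_⟩
  · filter_upwards [hM, hb] with j a b v hv
    obtain ⟨y, hy, rfl⟩ := b hv
    exact (a.2 _ (hc.maps y (hsub' hy))).1
  · rintro _ ⟨y, hy, rfl⟩
    exact (hc.maps y (hsub' hy)).1
  · filter_upwards [hM, hb] with j a b
    obtain ⟨y, hy, e⟩ := b (mem_ball_self hr')
    exact ⟨y, hy, by rw [← e]; exact (a.2 _ (hc.maps y (hsub' hy))).2.1.symm⟩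

theorem Dat.good (h : Dat U act l ψ θ Ω ψ' θ') {x y : E₀} (hx : x ∈ U) (hy : y ∈ U)
    (hg : Good U l θ Ω (ψ' x)) : Good U l θ Ω (ψ' y) := by
  refine h.div.conn.isPreconnected.induction₂'
    (fun a b => Good U l θ Ω (ψ' a) → Good U l θ Ω (ψ' b)) (fun a ha => ?_)
    (fun _ _ _ _ _ _ h1 h2 h => h2 (h1 h)) hx hy hg
  obtain ⟨O, h1, h2, M, h3⟩ := h.h2 a ha
  obtain ⟨G, χ, r, O', hr, o1, o2, hc⟩ := exists_chart (h.reg a ha) (h1.mem_nhds h2)
  have hs : U ∩ O' ⊆ U ∩ O := inter_subset_inter_right _ o1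
  have hM := h3.mono fun j a => And.intro (a.1.mono hs) fun y hy => a.2 y (hs hy)
  filter_upwards [self_mem_nhdsWithin, mem_nhdsWithin_of_mem_nhds (hc.op.mem_nhds o2),
    mem_nhdsWithin_of_mem_nhds ((hc.hχ a o2).continuousAt.eventually_mem (ball_mem_nhds _ hr))]
    with b b1 b2 b3
  have e1 := h.chart hc hM (mem_ball_self hr) b3
  have e2 := h.chart hc hM b3 (mem_ball_self hr)
  rw [hc.right a ⟨ha, o2⟩, hc.right b ⟨b1, b2⟩] at e1 e2
  exact ⟨e1, e2⟩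

end KLAux

/-- Sketch. `ψ' x = limUnder 𝔲 (ψ · x)`, `θ' w = limUnder 𝔲 (θ · w)` (bounded families in proper
spaces), `Ω' = ψ' '' U`. `holOn_limit`: `HolOn U ψ'`, `ψ j → ψ'` locally uniformly on `U`.
(A) Ball lemma: if `ball w r ⊆ Ω j` eventually and `θ j w₁` is eventually in a compact subset of `U` for
some `w₁` in the ball, then by `Div.taut` and `weierstrass`, `θ'` is holomorphic on the ball with
values in `U`, and `ψ' (θ' w') = w'` (`TendstoLocallyUniformlyOn.tendsto_comp`).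
(B) Call `x ∈ U` nondegenerate if some `g` differentiable at `ψ' x` has `g (ψ' x) = x` and
`∀ᶠ w in 𝓝 (ψ' x), g w ∈ U ∧ ψ' (g w) = w`. In a chart `(G, χ)` valid on a ball `V`, `G t` is nondegenerate iff
`fderiv (ψ' ∘ G) t` is bijective (chain rule; inverse function theorem). `θ' w₀` is nondegenerate by (A).
The determinants of `fderiv (ψ j ∘ G) t` do not vanish on `V` eventually (`χ ∘ θ j ∘ ψ j ∘ G = id`), are
holomorphic in `t` and converge locally uniformly; by `hurwitz` the nondegenerate points form a clopen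
subset of `U`, so all of `U`.
(C) At `x ∈ U`, `ball_subset_image` gives `ball (ψ' x) r ⊆ ψ j '' (G '' closedBall) ⊆ Ω j` eventually, with
`θ j (ψ' x)` in the compact `G '' closedBall ⊆ U`; so (A) applies, `Ω'` is open, and
`θ' (ψ' x) = x` since `θ j (ψ j x) = x`, `ψ j x → ψ' x` and `θ j → θ'` locally uniformly on the ball. -/
theorem KL_pf : S_KL := by
  intro E₀ E _ _ _ _ _ _ Γ _ U act hD hR J 𝔲 ψ θ Ω w₀ r₀ K h1 h2 hr hK hKU h0
  have : ProperSpace E := FiniteDimensional.proper ℂ E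
  have : ProperSpace E₀ := FiniteDimensional.proper ℂ E₀
  obtain ⟨M, -, hM⟩ := hD.bdd.exists_pos_norm_le
  set ψ' : E₀ → E := fun x => limUnder 𝔲 fun j => ψ j x
  set θ' : E → E₀ := fun w => limUnder 𝔲 fun j => θ j w
  have h : KLAux.Dat U act 𝔲 ψ θ Ω ψ' θ' := ⟨hD, hR, h1, h2, fun x hx => by
      obtain ⟨O, -, a, M, b⟩ := h2 x hx
      exact KLAux.ulim 𝔲 (b.mono fun j hj => (hj.2 x ⟨hx, a⟩).2.2), fun w hw =>
    KLAux.ulim 𝔲 (M := M) (by
      filter_upwards [hw, h1] with j a b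
      exact hM _ (b.2.2.1 a))⟩
  obtain ⟨a1, a2⟩ := (h.ball (h0.mono fun j a => a.1) (mem_ball_self hr) hK hKU
    (h0.mono fun j a => a.2)).2.2 w₀ (mem_ball_self hr)
  have g : ∀ x ∈ U, KLAux.Good U 𝔲 θ Ω (ψ' x) := fun x hx => h.good a1 hx (by
    rw [a2]
    exact ⟨r₀, hr, h0.mono fun j a => a.1, K, hK, hKU, h0.mono fun j a => a.2⟩)
  have hO : IsOpen (ψ' '' U) := isOpen_iff_mem_nhds.2 (by
    rintro _ ⟨x, hx, rfl⟩
    filter_upwards [(h.of_good hx (g x hx)).2.2] with v hv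
    exact ⟨_, hv.1, hv.2⟩)
  refine ⟨ψ', θ', ψ' '' U, hO, ⟨mapsTo_image _ _, ?_, fun x hx => (h.of_good hx (g x hx)).1, ?_,
    h.hol.1, holOn_of_differentiableOn hO ?_⟩, ⟨_, a1, a2⟩, h.lψ, ?_, ?_⟩
  · rintro _ ⟨x, hx, rfl⟩
    rwa [(h.of_good hx (g x hx)).1]
  · rintro _ ⟨x, hx, rfl⟩
    rw [(h.of_good hx (g x hx)).1]
  · rintro _ ⟨x, hx, rfl⟩
    exact (h.of_good hx (g x hx)).2.1.differentiableWithinAt
  · rintro _ ⟨x, hx, rfl⟩
    obtain ⟨r, hr, hb, -⟩ := g x hx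
    exact ⟨r, hr, hb⟩
  · rintro w r hb ⟨_, hw, x, hx, rfl⟩ v hv
    obtain ⟨-, -, -, K', k1, k2, k3⟩ := g x hx
    have := (h.ball hb hw k1 k2 k3).2.2 v hv
    exact ⟨_, this.1, this.2⟩

end Vale.Agent.P274
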