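import Vale.Agent.P274.StC
import Vale.Agent.P274.Flow
import Vale.Agent.P274.Taut

open Set Filter Topology Metric

namespace Vale.Agent.P274

namespace ModelAux

variable {k l : ℕ}

/-- The Cayley type maps. -/
noncomputable def cay (i₀ : Fin k) (p q : ℂ) (w : EE k l) : EE k l :=
  (fun i => (w.1 i + p)⁻¹ + q, (w.1 i₀ + p)⁻¹ • w.2)

theorem cay_cay (i₀ : Fin k) {p q p' q' : ℂ} (h1 : q + p' = 0) (h2 : p + q' = 0) {w : EE k l}
    (hw : w.1 i₀ + p ≠ 0) : cay i₀ p' q' (cay i₀ p q w) = w := by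
  refine Prod.ext (funext fun i => ?_) ?_
  · simp only [cay, add_assoc, h1, add_zero, inv_inv, h2]
  · simp only [cay, add_assoc, h1, add_zero, inv_inv, smul_smul, mul_inv_cancel₀ hw, one_smul]

theorem differentiableAt_cay (i₀ : Fin k) (p q : ℂ) {w : EE k l} (hw : ∀ i, w.1 i + p ≠ 0) :
    DifferentiableAt ℂ (cay i₀ p q) w := by
  have h : ∀ i, DifferentiableAt ℂ (fun w : EE k l => (w.1 i + p)⁻¹) w := fun i =>
    DifferentiableAt.inv (by fun_prop) (hw i)
  exact (differentiableAt_pi.2 fun i => (h i).add_const q).prodMk ((h i₀).smul differentiableAt_snd)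

theorem ell_smul (b : Bil k l) (s : ℝ) (a u : Fin l → ℂ) :
    ell b (s • a) u = s • ell b a u := by
  ext i
  simp only [ell_apply, map_smul, _root_.smul_apply, Pi.smul_apply, Pi.sub_apply, ofR_apply,
    smul_eq_mul, Complex.real_smul]
  ring

theorem ell_self {b : Bil k l} (h : Herm b) (a : Fin l → ℂ) :
    ell b a a = (2 : ℝ) • ofR k (b a a) := by
  ext i
  simp [ell_apply, h.self_I]

theorem ell_I {b : Bil k l} (h : Herm b) (a u : Fin l → ℂ) :
    ell b (-(Complex.I • a)) u = Complex.I • ell b a u := by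
  have h1 : b (Complex.I • a) u = -b a (Complex.I • u) := by
    rw [← h.rot, smul_smul, Complex.I_mul_I, neg_one_smul, map_neg, _root_.neg_apply]
  ext i
  simp only [ell_apply, map_neg, _root_.neg_apply, h.rot, h1, Pi.smul_apply, Pi.sub_apply,
    Pi.neg_apply, ofR_apply, smul_eq_mul, neg_neg]
  linear_combination (2 * (b a (Complex.I • u) i : ℂ)) * Complex.I_mul_I

theorem herm_smul {b : Bil k l} (h : Herm b) (c : ℂ) (u : Fin l → ℂ) :
    b (c • u) (c • u) = (Complex.normSq c) • b u u := by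
  have hc : c • u = c.re • u + c.im • (Complex.I • u) := by
    ext i; apply Complex.ext <;> simp <;> ring
  have h1 : b (Complex.I • u) u = 0 := by rw [h.symm, h.self_I]
  rw [hc]
  simp only [map_add, map_smul, _root_.add_apply, _root_.smul_apply, h.rot, h.self_I, h1,
    Complex.normSq_apply]
  module

/-- The Heisenberg fields. -/
noncomputable def hf (b : Bil k l) (t : Fin k → ℝ) (a : Fin l → ℂ) (w : EE k l) : EE k l :=
  (ell b a w.2 + Complex.I • ofR k t, a)

theorem differentiable_hf (b : Bil k l) (t : Fin k → ℝ) (a : Fin l → ℂ) :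
    Differentiable ℂ (hf b t a) := by
  unfold hf; fun_prop

theorem tr_smul (b : Bil k l) (t : Fin k → ℝ) (a : Fin l → ℂ) (s : ℝ) (w : EE k l) :
    tr b (s • t) (s • a) w = (w.1 + s • (ell b a w.2 + Complex.I • ofR k t) +
      (s ^ 2) • ofR k (b a a), w.2 + s • a) := by
  refine Prod.ext ?_ rfl
  simp only [tr, ell_smul, map_smul, _root_.smul_apply, smul_comm Complex.I s]
  module

theorem flow_hf {b : Bil k l} (h : Herm b) (C : Set (Fin k → ℝ)) (t : Fin k → ℝ)
    (a : Fin l → ℂ) : Flow (rho b ⁻¹' C) (hf b t a) fun s => tr b (s • t) (s • a) where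
  maps s w hw := by rwa [mem_preimage, rho_tr h.symm]
  hol s := (differentiable_tr b _ _).differentiableOn
  zero w _ := by rw [tr_smul]; simp
  add s s' w _ := by
    simp only [tr_smul, map_add, ContinuousLinearMap.map_smul_of_tower, ell_self h]
    refine Prod.ext ?_ ?_ <;> dsimp only <;> module
  deriv w _ s := by
    simp only [tr_smul, hf, map_add, ContinuousLinearMap.map_smul_of_tower, ell_self h]
    refine HasDerivAt.prodMk ?_ ?_
    · refine ((((hasDerivAt_id s).smul_const _).const_add _).add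
        ((hasDerivAt_pow 2 s).smul_const _)).congr_deriv ?_
      simp only [Nat.cast_ofNat, Nat.add_one_sub_one, pow_one]
      module
    · simpa using ((hasDerivAt_id s).smul_const a).const_add w.2

theorem flow_euler (b : Bil k l) {C : Set (Fin k → ℝ)}
    (hC : ∀ ν ∈ C, ∀ s : ℝ, 0 < s → s • ν ∈ C) :
    Flow (rho b ⁻¹' C) (fun w => (w.1, (1 / 2 : ℝ) • w.2)) fun s => sc (Real.exp (s / 2)) where
  maps s w hw := by
    rw [mem_preimage, rho_sc]
    exact hC _ hw _ (by positivity)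
  hol s := (differentiable_sc _).differentiableOn
  zero w _ := by simp
  add s s' w _ := by rw [sc_sc, add_div, Real.exp_add]
  deriv w _ s := by
    have h1 : HasDerivAt (fun s : ℝ => Real.exp (s / 2)) (Real.exp (s / 2) * (1 / 2)) s :=
      ((hasDerivAt_id s).div_const 2).exp
    refine HasDerivAt.prodMk (((h1.pow 2).smul_const w.1).congr_deriv ?_)
      ((h1.smul_const w.2).congr_deriv ?_)
    · simp only [sc, Nat.cast_ofNat, Nat.add_one_sub_one, pow_one]
      module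
    · simp only [sc]
      module

theorem flow_rot {b : Bil k l} (h : Herm b) (C : Set (Fin k → ℝ)) :
    Flow (rho b ⁻¹' C) (fun w => (0, (-(Complex.I / 2)) • w.2))
      fun s w => (w.1, Complex.exp ((-(s / 2) : ℝ) * Complex.I) • w.2) where
  maps s w hw := by
    rw [mem_preimage, rho]
    dsimp only
    rw [herm_smul h, Complex.normSq_eq_norm_sq, Complex.norm_exp_ofReal_mul_I, one_pow, one_smul]
    exact hw
  hol s := by fun_prop
  zero w _ := by simp
  add s s' w _ := by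
    rw [smul_smul, ← Complex.exp_add]
    congr 3
    push_cast
    ring
  deriv w _ s := by
    have h1 : HasDerivAt (fun s : ℝ => Complex.exp ((-(s / 2) : ℝ) * Complex.I))
        (Complex.exp ((-(s / 2) : ℝ) * Complex.I) * ((-(1 / 2) : ℝ) * Complex.I)) s :=
      ((((hasDerivAt_id s).div_const 2).neg.ofReal_comp).mul_const Complex.I).cexp
    refine HasDerivAt.prodMk (hasDerivAt_const s w.1) ((h1.smul_const w.2).congr_deriv ?_)
    rw [smul_smul]
    congr 1
    push_cast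
    ring

end ModelAux

open ModelAux in
/-- Sketch. On `Ω`, `re (Z i) ≥ b u u i ≥ c ‖u‖² ≥ 0`. Let `i₀ = ⟨0, hk⟩`,
`g₀ (Z,u) = (fun i => (Z i + 1)⁻¹, (Z i₀ + 1)⁻¹ • u)`, `g₀' (W,v) = (fun i => (W i)⁻¹ - 1, (W i₀)⁻¹ • v)`,
`B₀ = {w | (∀ i, w.1 i ≠ 0) ∧ g₀' w ∈ Ω}`; `‖(Z i₀ + 1)⁻¹ • u‖² ≤ re (Z i₀) / (c ‖Z i₀ + 1‖²) ≤ 1/c`. Compose with
a linear isomorphism `EE k l ≃L[ℂ] (Fin (k+l) → ℂ)` (`ContinuousLinearEquiv.ofFinrankEq`). -/
theorem Cayley_pf : S_Cayley := by
  intro k l b Ω hk hb hΩ hpos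
  obtain ⟨c, hc, hcb⟩ := hb.pos
  set i₀ : Fin k := ⟨0, hk⟩
  have h1 : ∀ w ∈ Ω, ∀ i, c * ‖w.2‖ ^ 2 ≤ (w.1 i).re := fun w hw i => by
    have := hpos w hw i
    simp only [rho, Pi.sub_apply, reL_apply] at this
    linarith [hcb w.2 i]
  have h2 : ∀ w ∈ Ω, ∀ i, (w.1 i).re + 1 ≤ ‖w.1 i + 1‖ := fun w _ i => by
    simpa using Complex.re_le_norm (w.1 i + 1)
  have h3 : ∀ w ∈ Ω, ∀ i, 1 ≤ ‖w.1 i + 1‖ := fun w hw i => by
    have : 0 ≤ c * ‖w.2‖ ^ 2 := by positivity
    linarith [h1 w hw i, h2 w hw i]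
  have h4 : ∀ w ∈ Ω, ∀ i, w.1 i + 1 ≠ 0 := fun w hw i =>
    norm_pos_iff.1 (one_pos.trans_le (h3 w hw i))
  have hS : IsOpen {w : EE k l | ∀ i, w.1 i + 0 ≠ 0} := by
    rw [ofPred_forall]
    exact isOpen_iInter_of_finite fun i => isOpen_ne_fun (by fun_prop) continuous_const
  set B₀ := {w : EE k l | ∀ i, w.1 i + 0 ≠ 0} ∩ cay i₀ 0 (-1) ⁻¹' Ω
  have hB₀ : IsOpen B₀ := ContinuousOn.isOpen_inter_preimage
    (fun w hw => (differentiableAt_cay i₀ 0 (-1) hw).continuousAt.continuousWithinAt) hS hΩ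
  have hl : ∀ w ∈ Ω, cay i₀ 0 (-1) (cay i₀ 1 0 w) = w := fun w hw =>
    cay_cay i₀ (by simp) (by simp) (h4 w hw i₀)
  have hbi : Bihol Ω B₀ (cay i₀ 1 0) (cay i₀ 0 (-1)) :=
    ⟨fun w hw => ⟨fun i => by simpa [cay] using h4 w hw i, by rwa [mem_preimage, hl w hw]⟩,
      fun w hw => hw.2, hl, fun w hw => cay_cay i₀ (by simp) (by simp) (hw.1 i₀),
      holOn_of_differentiableOn hΩ fun w hw =>
        (differentiableAt_cay i₀ 1 0 (h4 w hw)).differentiableWithinAt,
      holOn_of_differentiableOn hB₀ fun w hw =>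
        (differentiableAt_cay i₀ 0 (-1) hw.1).differentiableWithinAt⟩
  have hbd : Bornology.IsBounded B₀ := by
    rw [← hbi.image_eq]
    refine isBounded_iff_forall_norm_le.2 ⟨1 + 1 / c, ?_⟩
    rintro _ ⟨w, hw, rfl⟩
    have hc' : 0 < 1 / c := by positivity
    refine norm_prod_le_iff.2 ⟨(pi_norm_le_iff_of_nonneg (by linarith)).2 fun i => ?_, ?_⟩
    · have := inv_le_one_of_one_le₀ (h3 w hw i)
      simp only [cay, add_zero, norm_inv]
      linarith
    · have h5 := h3 w hw i₀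
      have h6 : c * ‖w.2‖ ^ 2 ≤ ‖w.1 i₀ + 1‖ := by linarith [h1 w hw i₀, h2 w hw i₀]
      simp only [cay, norm_smul, norm_inv]
      rw [inv_mul_le_iff₀ (by linarith)]
      rcases le_total ‖w.2‖ 1 with h7 | h7
      · nlinarith
      · have h8 : ‖w.2‖ ≤ ‖w.1 i₀ + 1‖ * (1 / c) := by
          rw [mul_one_div, le_div_iff₀ hc]
          nlinarith [mul_nonneg (mul_nonneg hc.le (norm_nonneg w.2)) (sub_nonneg.2 h7)]
        nlinarith
  let L : EE k l ≃L[ℂ] (Fin (k + l) → ℂ) := ContinuousLinearEquiv.ofFinrankEq (by simp)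
  have hL : Bihol B₀ (L '' B₀) L L.symm :=
    ⟨mapsTo_image _ _, by
      rintro _ ⟨w, hw, rfl⟩
      simpa using hw, fun w _ => L.symm_apply_apply w, fun w _ => L.apply_symm_apply w,
      holOn_of_analyticOnNhd fun w _ => L.analyticAt w,
      holOn_of_analyticOnNhd fun w _ => L.symm.analyticAt w⟩
  exact ⟨L '' B₀, _, _, L.toHomeomorph.isOpenMap _ hB₀,
    (L : EE k l →L[ℂ] (Fin (k + l) → ℂ)).lipschitz.isBounded_image hbd, hbi.trans hL⟩

open ModelAux in
/-- Sketch. `s ↦ tr b (s • t) (s • a)` is the flow of `X t a w = (ell b a w.2 + I • ofR t, a)`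
(`ell b a a = 2 • ofR (b a a)` by `Herm.self_I`; `ell b (I • a) = -I • ell b a` by `Herm.rot`). For
`v = (Z₀, a)` take `X (imL Z₀) (a/2)` and `X (-reL Z₀) (-(I/2) • a)`. Euler field: `X w = (w.1, (1/2) • w.2)` with
flow `sc (exp (s/2))`, and `Y w = (0, -(I/2) • w.2)` with flow `(w.1, exp (-I s/2) • w.2)`, which preserves
`rho b` (`Herm.rot`, `Herm.self_I`). -/
theorem MF_pf : S_MF := by
  intro k l b C hb hC
  refine ⟨fun v => ⟨_, _, _, _, differentiable_hf b _ _, differentiable_hf b _ _,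
    flow_hf hb C (imL k v.1) ((1 / 2 : ℂ) • v.2),
    flow_hf hb C (-reL k v.1) (-(Complex.I • (1 / 2 : ℂ) • v.2)), fun w => ?_⟩,
    _, _, _, _, by fun_prop, by fun_prop, flow_euler b hC, flow_rot hb C, fun w => ?_⟩
  · refine Prod.ext ?_ ?_
    · simp only [hf, ell_I hb, Prod.fst_add, Prod.smul_fst, smul_add, map_neg, smul_neg]
      rw [smul_smul Complex.I Complex.I, smul_smul Complex.I Complex.I, Complex.I_mul_I]
      conv_rhs => rw [← ofR_reL_add v.1]
      module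
    · simp only [hf, Prod.snd_add, Prod.smul_snd, smul_neg]
      rw [smul_smul Complex.I Complex.I, Complex.I_mul_I]
      module
  · refine Prod.ext (by simp) (funext fun i => ?_)
    simp only [Prod.snd_add, Prod.smul_snd, Pi.add_apply, Pi.smul_apply, smul_eq_mul,
      Complex.real_smul]
    push_cast
    linear_combination (-(w.2 i) / 2) * Complex.I_mul_I

/-- Sketch. `Ω = rho b ⁻¹' C`; take `B, g, g'` from `S_Cayley`, `Div.transport` along `Bihol.trans`,
`𝔤` from `S_SymD`. For `e ∈ B`, `e₀ = g' e`: push the fields of `S_MF` forward (`Flow.cpl_ad`);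
`X = Ad X_E - Ad X_c`, `Y = Ad Y_E - Ad Y_c` (constant field `e₀`) are in `𝔤` and on `B`,
`X y + I • Y y = fderiv g (g' y) (g' y - e₀)`, which vanishes at `e` and has derivative
`fderiv g e₀ ∘ fderiv g' e = id`. For the spanning condition use the constant field `fderiv g' e v`. -/
theorem PartD_pf (h1 : S_Cayley) (h2 : S_MF) (h3 : S_SymD) : S_PartD := by
  intro N k l Γ _ U act b 𝒢 C hD hk hb hC hF
  obtain ⟨ψ, θ, hψ⟩ := hF.bih
  have hΩ := hF.opn
  obtain ⟨B, g, g', hB, hbd, hg⟩ := h1 k l b _ hk hb hΩ hF.pos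
  have hD' := hD.transport (hψ.trans hg) hB hbd
  obtain ⟨𝔤, h𝔤, hs⟩ := h3 _ Γ B _ hD' hB
  obtain ⟨m1, m2⟩ := h2 k l b C hb hC
  have key : ∀ V : EE k l → EE k l, (∃ X Y φ ψ, Differentiable ℂ X ∧ Differentiable ℂ Y ∧
      Flow (rho b ⁻¹' C) X φ ∧ Flow (rho b ⁻¹' C) Y ψ ∧ ∀ w, X w + Complex.I • Y w = V w) →
      ∃ X Y, Cpl B X ∧ Cpl B Y ∧ ∀ y ∈ B, X y + Complex.I • Y y =
        fderiv ℂ g (g' y) (V (g' y)) := by
    rintro V ⟨X, Y, φ, φ', a1, a2, a3, a4, a5⟩
    refine ⟨_, _, a3.cpl_ad hΩ hB hg a1.differentiableOn, a4.cpl_ad hΩ hB hg a2.differentiableOn,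
      fun y hy => ?_⟩
    simp only [Ad, indicator_of_mem hy]
    rw [← map_smul, ← map_add, a5]
  refine ⟨_, B, _, _, ⟨hB, hD'.conn, hbd, fun e he => ?_⟩, hψ.trans hg⟩
  have hge : AnalyticAt ℂ g (g' e) := hg.hol.analyticAt (hΩ.mem_nhds (hg.maps' he))
  have hge' : AnalyticAt ℂ g' e := hg.hol'.analyticAt (hB.mem_nhds he)
  have hid : (fderiv ℂ g (g' e)).comp (fderiv ℂ g' e) = ContinuousLinearMap.id ℂ _ := by
    rw [← fderiv_comp e hge.differentiableAt hge'.differentiableAt, ← fderiv_id (x := e)]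
    refine EventuallyEq.fderiv_eq ?_
    filter_upwards [hB.mem_nhds he] with y hy using hg.right y hy
  refine hs e he ?_ fun v => ?_
  · obtain ⟨X, Y, a1, a2, a3⟩ := key (fun w => w) m2
    obtain ⟨X', Y', b1, b2, b3⟩ := key (fun _ => g' e) (m1 (g' e))
    have c1 := (h𝔤 _).1 (𝔤.sub_mem ((h𝔤 _).2 a1) ((h𝔤 _).2 b1))
    have c2 := (h𝔤 _).1 (𝔤.sub_mem ((h𝔤 _).2 a2) ((h𝔤 _).2 b2))
    have c3 : ∀ y ∈ B, (X - X') y + Complex.I • (Y - Y') y =
        fderiv ℂ g (g' y) (g' y - g' e) := fun y hy => by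
      rw [map_sub, ← a3 y hy, ← b3 y hy, Pi.sub_apply, Pi.sub_apply, smul_sub]
      abel
    refine ⟨_, _, c1, c2, by rw [c3 e he, sub_self, map_zero], ?_⟩
    have d1 := (c1.1.differentiableAt (hB.mem_nhds he)).hasFDerivAt.add
      ((c2.1.differentiableAt (hB.mem_nhds he)).hasFDerivAt.const_smul Complex.I)
    have d2 := (hge.fderiv.comp hge').differentiableAt.hasFDerivAt.clm_apply
      (hge'.differentiableAt.hasFDerivAt.sub_const (g' e))
    rw [sub_self, map_zero, add_zero, Function.comp_apply, hid] at d2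
    refine d1.unique (d2.congr_of_eventuallyEq ?_)
    filter_upwards [hB.mem_nhds he] with y hy using c3 y hy
  · obtain ⟨X, Y, a1, a2, a3⟩ := key (fun _ => fderiv ℂ g' e v) (m1 _)
    exact ⟨X, Y, a1, a2, (a3 e he).trans (DFunLike.congr_fun hid v)⟩

end Vale.Agent.P274
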