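import Vale.Agent.P274.StB

open Set Filter Topology Metric MvPolynomial MeasureTheory

namespace Vale.Agent.P274

namespace MonAux

theorem prod_top {R ι : Type*} [CommRing R] (s : Finset ι) (f : ι → Polynomial R) (n : ι → ℕ)
    (h : ∀ i, (f i).natDegree ≤ 1) :
    (∏ i ∈ s, f i ^ n i).natDegree ≤ ∑ i ∈ s, n i ∧
      (∏ i ∈ s, f i ^ n i).coeff (∑ i ∈ s, n i) = ∏ i ∈ s, (f i).coeff 1 ^ n i := by
  classical
  induction s using Finset.induction_on with
  | empty => simp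
  | insert a s ha ih =>
    have h1 : (f a ^ n a).natDegree ≤ n a :=
      Polynomial.natDegree_pow_le.trans (by simpa using Nat.mul_le_mul_left (n a) (h a))
    rw [Finset.prod_insert ha, Finset.sum_insert ha, Finset.prod_insert ha]
    refine ⟨Polynomial.natDegree_mul_le.trans (add_le_add h1 ih.1), ?_⟩
    rw [Polynomial.coeff_mul_add_eq_of_natDegree_le h1 ih.1, ih.2]
    have h2 := Polynomial.coeff_pow_of_natDegree_le (m := n a) (h a)
    rw [mul_one] at h2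
    rw [h2]

/-- The linear substitution, as polynomials in the last variable. -/
noncomputable def lin {m : ℕ} (u : Fin (m + 1) → ℝ) (i : Fin (m + 1)) :
    Polynomial (MvPolynomial (Fin m) ℝ) :=
  Polynomial.C (Fin.cons (α := fun _ => MvPolynomial (Fin m) ℝ) 0 X i) +
    Polynomial.C (C (u i)) * Polynomial.X

theorem lin_deg {m : ℕ} (u : Fin (m + 1) → ℝ) (i : Fin (m + 1)) : (lin u i).natDegree ≤ 1 := by
  unfold lin
  compute_degree

theorem lin_coeff {m : ℕ} (u : Fin (m + 1) → ℝ) (i : Fin (m + 1)) :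
    (lin u i).coeff 1 = C (u i) := by
  simp [lin, Polynomial.coeff_C]

/-- The change of coordinates. -/
noncomputable def sig {m : ℕ} (u : Fin (m + 1) → ℝ) (hu : u 0 ≠ 0) :
    ((Fin m → ℝ) × ℝ) ≃ₗ[ℝ] (Fin (m + 1) → ℝ) where
  toFun p := fun i => Fin.cons (α := fun _ => ℝ) 0 p.1 i + u i * p.2
  invFun ξ := (fun i => ξ i.succ - u i.succ * (ξ 0 / u 0), ξ 0 / u 0)
  map_add' p q := by
    funext i
    refine Fin.cases ?_ (fun j => ?_) i <;> simp <;> ring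
  map_smul' c p := by
    funext i
    refine Fin.cases ?_ (fun j => ?_) i <;> simp <;> ring
  left_inv p := by
    have h : u 0 * p.2 / u 0 = p.2 := by field_simp
    refine Prod.ext (funext fun j => ?_) ?_ <;> simp [h]
  right_inv ξ := by
    funext i
    refine Fin.cases ?_ (fun j => ?_) i
    · simp; field_simp
    · simp

theorem sig_apply {m : ℕ} (u : Fin (m + 1) → ℝ) (hu : u 0 ≠ 0) (p : (Fin m → ℝ) × ℝ)
    (i : Fin (m + 1)) : sig u hu p i = Fin.cons (α := fun _ => ℝ) 0 p.1 i + u i * p.2 := rfl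

theorem pev_lin {m : ℕ} (u : Fin (m + 1) → ℝ) (hu : u 0 ≠ 0) (p : (Fin m → ℝ) × ℝ)
    (i : Fin (m + 1)) : pev (lin u i) p = sig u hu p i := by
  rw [sig_apply]
  refine Fin.cases ?_ (fun j => ?_) i <;> simp [pev, lin]

theorem pev_mul {m : ℕ} (P Q : Polynomial (MvPolynomial (Fin m) ℝ)) (p : (Fin m → ℝ) × ℝ) :
    pev (P * Q) p = pev P p * pev Q p := by simp [pev]

theorem pev_add {m : ℕ} (P Q : Polynomial (MvPolynomial (Fin m) ℝ)) (p : (Fin m → ℝ) × ℝ) :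
    pev (P + Q) p = pev P p + pev Q p := by simp [pev]

theorem pev_neg {m : ℕ} (P : Polynomial (MvPolynomial (Fin m) ℝ)) (p : (Fin m → ℝ) × ℝ) :
    pev (-P) p = -pev P p := by simp [pev]

theorem pev_pow {m : ℕ} (P : Polynomial (MvPolynomial (Fin m) ℝ)) (n : ℕ)
    (p : (Fin m → ℝ) × ℝ) : pev (P ^ n) p = pev P p ^ n := by simp [pev]

theorem pev_C {m : ℕ} (a : MvPolynomial (Fin m) ℝ) (p : (Fin m → ℝ) × ℝ) :
    pev (Polynomial.C a) p = eval p.1 a := by simp [pev]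

theorem pev_aeval {m : ℕ} (u : Fin (m + 1) → ℝ) (hu : u 0 ≠ 0) (p : (Fin m → ℝ) × ℝ)
    (D : MvPolynomial (Fin (m + 1)) ℝ) : pev (aeval (lin u) D) p = eval (sig u hu p) D := by
  induction D using MvPolynomial.induction_on with
  | C a => rw [aeval_C, Polynomial.algebraMap_apply, pev_C]; simp
  | add P Q hP hQ => rw [map_add, pev_add, hP, hQ, map_add]
  | mul_X P i hP => rw [map_mul, pev_mul, hP, aeval_X, pev_lin u hu, map_mul, eval_X]

theorem aeval_top {m : ℕ} (u : Fin (m + 1) → ℝ) (D : MvPolynomial (Fin (m + 1)) ℝ) :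
    (aeval (lin u) D).natDegree ≤ D.totalDegree ∧
      (aeval (lin u) D).coeff D.totalDegree =
        C (eval u (homogeneousComponent D.totalDegree D)) := by
  have e : aeval (lin u) D =
      ∑ s ∈ D.support, Polynomial.C (C (coeff s D)) * ∏ i, lin u i ^ s i := by
    rw [aeval_def, eval₂_eq']
    rfl
  have hd : ∀ s ∈ D.support, ∑ i, s i ≤ D.totalDegree := fun s hs => by
    rw [← Finsupp.degree_eq_sum]; exact le_totalDegree hs
  rw [e]
  constructor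
  · refine Polynomial.natDegree_sum_le_of_forall_le _ _ fun s hs => ?_
    exact (Polynomial.natDegree_C_mul_le _ _).trans
      ((prod_top _ _ _ (lin_deg u)).1.trans (hd s hs))
  · rw [Polynomial.finsetSum_coeff, homogeneousComponent_apply, map_sum, map_sum,
      Finset.sum_filter]
    refine Finset.sum_congr rfl fun s hs => ?_
    rw [Polynomial.coeff_C_mul]
    split_ifs with h
    · rw [← h, Finsupp.degree_eq_sum, (prod_top _ _ _ (lin_deg u)).2, eval_monomial,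
        Finsupp.prod_fintype _ _ (by simp)]
      simp [lin_coeff]
    · rw [Polynomial.coeff_eq_zero_of_natDegree_lt, mul_zero]
      refine (prod_top _ _ _ (lin_deg u)).1.trans_lt (lt_of_le_of_ne (hd s hs) ?_)
      rwa [← Finsupp.degree_eq_sum]

theorem top_ne {n : ℕ} {D : MvPolynomial (Fin n) ℝ} (hD : D ≠ 0) :
    homogeneousComponent D.totalDegree D ≠ 0 := by
  obtain ⟨s, hs, h⟩ := Finset.exists_mem_eq_sup D.support (support_nonempty.2 hD)
    (fun s => s.sum fun _ e => e)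
  intro h0
  have h1 := coeff_homogeneousComponent D.totalDegree D s
  rw [h0, if_pos (show s.degree = D.totalDegree from h.symm)] at h1
  exact mem_support_iff.1 hs h1.symm

/-- A separable multiple of the radical, with denominators cleared. -/
theorem exists_sep {R : Type*} [CommRing R] [IsDomain R] [CharZero R] {D : Polynomial R}
    (hD : D.Monic) : ∃ (P α β : Polynomial R) (a : R) (r : ℕ), a ≠ 0 ∧ D ∣ P ^ r ∧
      α * P + β * P.derivative = Polynomial.C a := by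
  let K := FractionRing R
  have hinj : Function.Injective (algebraMap R K) := IsFractionRing.injective R K
  have clr : ∀ f : Polynomial K, ∃ (b : R) (g : Polynomial R), b ≠ 0 ∧
      g.map (algebraMap R K) = Polynomial.C (algebraMap R K b) * f := fun f => by
    obtain ⟨b, hb, h⟩ := IsLocalization.integerNormalization_spec (nonZeroDivisors R) f
    refine ⟨b, _, nonZeroDivisors.ne_zero hb, h.trans ?_⟩
    rw [← Polynomial.smul_eq_C_mul, algebraMap_smul]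
  obtain ⟨q, r, hq, -, hr⟩ := exists_squarefree_dvd_pow_of_ne_zero (hD.map (algebraMap R K)).ne_zero
  obtain ⟨A, B, hAB⟩ := PerfectField.separable_iff_squarefree.2 hq
  obtain ⟨b, P, hb, hP⟩ := clr q
  obtain ⟨b₁, α, hb₁, hα⟩ := clr A
  obtain ⟨b₂, β, hb₂, hβ⟩ := clr B
  refine ⟨P, Polynomial.C b₂ * α, Polynomial.C b₁ * β, b * b₁ * b₂, r,
    mul_ne_zero (mul_ne_zero hb hb₁) hb₂, ?_, ?_⟩
  · rw [← Polynomial.map_dvd_map _ hinj hD, Polynomial.map_pow, hP, mul_pow]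
    exact hr.mul_left _
  · apply Polynomial.map_injective _ hinj
    simp only [Polynomial.map_add, Polynomial.map_mul, Polynomial.map_C, hα, hβ, hP,
      ← Polynomial.derivative_map, Polynomial.derivative_C_mul, map_mul]
    linear_combination (Polynomial.C (algebraMap R K b) * Polynomial.C (algebraMap R K b₁) *
      Polynomial.C (algebraMap R K b₂)) * hAB

theorem hasDerivAt_pev {m : ℕ} (P : Polynomial (MvPolynomial (Fin m) ℝ)) (w : Fin m → ℝ) (t : ℝ) :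
    HasDerivAt (fun t => pev P (w, t)) (pev P.derivative (w, t)) t := by
  have := (P.map (eval w)).hasDerivAt t
  rwa [Polynomial.derivative_map] at this

/-- Near a simple zero, a horizontal face lies in `O`. -/
theorem face {V : Type*} [NormedAddCommGroup V] [NormedSpace ℝ V] {F F' G : V × ℝ → ℝ}
    (hF : Continuous F) (hF' : Continuous F')
    (hd : ∀ w t, HasDerivAt (fun t => F (w, t)) (F' (w, t)) t) (hG : ∀ z, G z = 0 → F z = 0)
    {O W : Set (V × ℝ)} (hO : IsOpen O) (hfr : Fr G W O) {w₀ : V} {t₀ : ℝ}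
    (hW : W ∈ 𝓝 (w₀, t₀)) (h0 : F (w₀, t₀) = 0) (hpos : 0 < F' (w₀, t₀))
    (hcl : (w₀, t₀) ∈ closure O) {I : Set ℝ} (hI : I ∈ 𝓝 t₀) :
    ∃ t₁ ∈ I, ∀ᶠ w in 𝓝 w₀, (w, t₁) ∈ O := by
  have h1 : ∀ᶠ z in 𝓝 (w₀, t₀), z ∈ W ∧ 0 < F' z ∧ z.2 ∈ I :=
    (show ∀ᶠ z in 𝓝 (w₀, t₀), z ∈ W from hW).and
      ((hF'.continuousAt.eventually (lt_mem_nhds hpos)).and
        (continuousAt_snd.eventually (show ∀ᶠ t in 𝓝 (w₀, t₀).2, t ∈ I from hI)))
  obtain ⟨ε, hε, hb⟩ := Metric.eventually_nhds_iff_ball.1 h1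
  have hbox : ∀ w ∈ ball w₀ ε, ∀ t ∈ Icc (t₀ - ε / 2) (t₀ + ε / 2),
      (w, t) ∈ W ∧ 0 < F' (w, t) ∧ t ∈ I := fun w hw t ht => by
    refine hb (w, t) ?_
    rw [← ball_prod_same]
    refine ⟨hw, ?_⟩
    rw [Real.ball_eq_Ioo]
    exact ⟨by linarith [ht.1], by linarith [ht.2]⟩
  have hmono : ∀ w ∈ ball w₀ ε,
      StrictMonoOn (fun t => F (w, t)) (Icc (t₀ - ε / 2) (t₀ + ε / 2)) := fun w hw =>
    strictMonoOn_of_deriv_pos (convex_Icc _ _)
      (fun t _ => (hd w t).continuousAt.continuousWithinAt) fun t ht => by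
        rw [(hd w t).deriv]; exact (hbox w hw t (interior_subset ht)).2.1
  have hl : t₀ - ε / 2 ∈ Icc (t₀ - ε / 2) (t₀ + ε / 2) := ⟨le_rfl, by linarith⟩
  have hr : t₀ + ε / 2 ∈ Icc (t₀ - ε / 2) (t₀ + ε / 2) := ⟨by linarith, le_rfl⟩
  have hm : t₀ ∈ Icc (t₀ - ε / 2) (t₀ + ε / 2) := ⟨by linarith, by linarith⟩
  have hneg : F (w₀, t₀ - ε / 2) < 0 :=
    (hmono w₀ (mem_ball_self hε) hl hm (by linarith)).trans_eq h0
  have hpos' : 0 < F (w₀, t₀ + ε / 2) :=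
    h0.symm.trans_lt (hmono w₀ (mem_ball_self hε) hm hr (by linarith))
  have hc : ∀ t, Continuous fun w : V => F (w, t) := fun t =>
    hF.comp (continuous_id.prodMk continuous_const)
  have h2 : ∀ᶠ w in 𝓝 w₀, w ∈ ball w₀ ε ∧ F (w, t₀ - ε / 2) < 0 ∧ 0 < F (w, t₀ + ε / 2) :=
    (show ∀ᶠ w in 𝓝 w₀, w ∈ ball w₀ ε from ball_mem_nhds w₀ hε).and
      (((hc _).continuousAt.eventually (gt_mem_nhds hneg)).and
        ((hc _).continuousAt.eventually (lt_mem_nhds hpos')))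
  obtain ⟨δ, hδ, hb2⟩ := Metric.eventually_nhds_iff_ball.1 h2
  have hface : ∀ t ∈ Icc (t₀ - ε / 2) (t₀ + ε / 2), (∀ w ∈ ball w₀ δ, F (w, t) ≠ 0) →
      ∀ w₁ ∈ ball w₀ δ, (w₁, t) ∈ O → ∃ t₁ ∈ I, ∀ᶠ w in 𝓝 w₀, (w, t₁) ∈ O := by
    intro t ht hne w₁ hw₁ hO₁
    refine ⟨t, (hbox w₀ (mem_ball_self hε) t ht).2.2, ?_⟩
    have := hfr.subset (T := ball w₀ δ ×ˢ {t})
      ((convex_ball w₀ δ).isPreconnected.prod isPreconnected_singleton)
      (by rintro ⟨w, s⟩ ⟨hw, rfl⟩; exact (hbox w (hb2 w hw).1 _ ht).1)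
      (by rintro ⟨w, s⟩ ⟨hw, rfl⟩ h; exact hne w hw (hG _ h))
      ⟨(w₁, t), ⟨hw₁, rfl⟩, subset_closure hO₁⟩
    filter_upwards [ball_mem_nhds w₀ hδ] with w hw using this ⟨hw, rfl⟩
  have hseg : ∀ w₁ ∈ ball w₀ δ, ∀ s₁ s₂, Icc s₁ s₂ ⊆ Icc (t₀ - ε / 2) (t₀ + ε / 2) →
      (∀ t ∈ Icc s₁ s₂, F (w₁, t) ≠ 0) → ∀ s ∈ Icc s₁ s₂, (w₁, s) ∈ O →
      ∀ t ∈ Icc s₁ s₂, (w₁, t) ∈ O := by
    intro w₁ hw₁ s₁ s₂ hsub hne s hs hOs t ht
    exact hfr.subset (T := {w₁} ×ˢ Icc s₁ s₂) (isPreconnected_singleton.prod isPreconnected_Icc)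
      (by rintro ⟨w, s⟩ ⟨rfl, hs⟩; exact (hbox _ (hb2 _ hw₁).1 _ (hsub hs)).1)
      (by rintro ⟨w, s⟩ ⟨rfl, hs⟩ h; exact hne s hs (hG _ h))
      ⟨(w₁, s), ⟨rfl, hs⟩, subset_closure hOs⟩ ⟨rfl, ht⟩
  obtain ⟨⟨w₁, t₁⟩, ⟨hw₁, ht₁⟩, hO₁⟩ := mem_closure_iff_nhds.1 hcl
    (ball w₀ δ ×ˢ Ioo (t₀ - ε / 2) (t₀ + ε / 2))
    (prod_mem_nhds (ball_mem_nhds w₀ hδ) (Ioo_mem_nhds (by linarith) (by linarith)))
  have ht₁' : t₁ ∈ Icc (t₀ - ε / 2) (t₀ + ε / 2) := Ioo_subset_Icc_self ht₁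
  have hm₁ := hmono w₁ (hb2 w₁ hw₁).1
  rcases lt_or_ge (F (w₁, t₁)) 0 with h | h
  · have hsub : Icc (t₀ - ε / 2) t₁ ⊆ Icc (t₀ - ε / 2) (t₀ + ε / 2) :=
      Icc_subset_Icc_right ht₁'.2
    refine hface _ hl (fun w hw => (hb2 w hw).2.1.ne) w₁ hw₁ ?_
    refine hseg w₁ hw₁ _ _ hsub (fun t ht => ?_) t₁ ⟨ht₁'.1, le_rfl⟩ hO₁ _ ⟨le_rfl, ht₁'.1⟩
    exact ((hm₁.monotoneOn (hsub ht) ht₁' ht.2).trans_lt h).ne
  · have h3 : ∀ᶠ t in 𝓝 t₁, (w₁, t) ∈ O :=
      (continuous_const.prodMk continuous_id).continuousAt.eventually (hO.mem_nhds hO₁)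
    obtain ⟨t₂, h4, h5⟩ := ((h3.filter_mono nhdsWithin_le_nhds).and
      (show ∀ᶠ t in 𝓝[>] t₁, t ∈ Ioc t₁ (t₀ + ε / 2) from Ioc_mem_nhdsGT ht₁.2)).exists
    have hsub : Icc t₂ (t₀ + ε / 2) ⊆ Icc (t₀ - ε / 2) (t₀ + ε / 2) :=
      Icc_subset_Icc_left (ht₁'.1.trans h5.1.le)
    refine hface _ hr (fun w hw => (hb2 w hw).2.2.ne') w₁ hw₁ ?_
    refine hseg w₁ hw₁ _ _ hsub (fun t ht => ?_) t₂ ⟨le_rfl, h5.2⟩ h4 _ ⟨h5.2, le_rfl⟩
    exact (h.trans_lt (hm₁ ht₁' (hsub ht) (h5.1.trans_le ht.1))).ne'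

end MonAux

/-- Sketch. Let `d = totalDegree D`, `D_d = homogeneousComponent d D ≠ 0`; choose `u` with
`eval u D_d ≠ 0` and `u 0 ≠ 0` (`dense_eval_ne` for `X 0 * D_d`), `σ (w, t) = Fin.cons 0 w + t • u`.
Put `D₁ = aeval (fun i => C (Fin.cons 0 X i) + X * C (C (u i))) D ∈ ℝ[w][T]` (an `aeval` into
`Polynomial (MvPolynomial (Fin m) ℝ)`); each monomial of degree `k` gives a polynomial of degree `≤ k`
in `T` with `T^k` coefficient `C (monomial at u)`, so `D₁` has degree `≤ d` and coefficient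
`C (eval u D_d)` in degree `d`; `D' = C (C c⁻¹) * D₁`. Last clause: induction on `E'`, since the
coordinates of `σ.symm ξ` are linear forms in `ξ`. -/
theorem Mon_pf : S_Mon := by
  intro m D hD
  obtain ⟨u, hu⟩ := (dense_eval_ne (mul_ne_zero (X_ne_zero (0 : Fin (m + 1)))
    (MonAux.top_ne hD))).nonempty
  rw [Set.mem_ofPred_eq, map_mul, eval_X] at hu
  have hu0 : u 0 ≠ 0 := left_ne_zero_of_mul hu
  have hc := right_ne_zero_of_mul hu
  obtain ⟨h1, h2⟩ := MonAux.aeval_top u D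
  refine ⟨(MonAux.sig u hu0).toContinuousLinearEquiv,
    Polynomial.C (C (eval u (homogeneousComponent D.totalDegree D))⁻¹) * aeval (MonAux.lin u) D,
    _, hc, ?_, fun p => ?_, fun E' => ?_⟩
  · refine Polynomial.monic_of_natDegree_le_of_coeff_eq_one D.totalDegree
      ((Polynomial.natDegree_C_mul_le _ _).trans h1) ?_
    rw [Polynomial.coeff_C_mul, h2, ← map_mul, inv_mul_cancel₀ hc, map_one]
  · rw [MonAux.pev_mul, MonAux.pev_C, MonAux.pev_aeval u hu0, eval_C, ← mul_assoc,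
      mul_inv_cancel₀ hc, one_mul]
    rfl
  · let π : Fin m → MvPolynomial (Fin (m + 1)) ℝ :=
      fun j => X j.succ - C (u j.succ / u 0) * X 0
    refine ⟨Polynomial.eval₂ (aeval π : MvPolynomial (Fin m) ℝ →ₐ[ℝ] _).toRingHom
      (C (u 0)⁻¹ * X 0) E', fun p => ?_⟩
    rw [eval_eval₂_ev, pev]
    have e1 : ev π ((MonAux.sig u hu0).toContinuousLinearEquiv p) = p.1 := by
      funext j
      simp only [ev, π, map_sub, map_mul, eval_X, eval_C, LinearEquiv.coe_toContinuousLinearEquiv',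
        MonAux.sig_apply, Fin.cons_succ, Fin.cons_zero]
      field_simp
      ring
    have e2 : eval ((MonAux.sig u hu0).toContinuousLinearEquiv p) (C (u 0)⁻¹ * X 0) = p.2 := by
      simp only [map_mul, eval_X, eval_C, LinearEquiv.coe_toContinuousLinearEquiv',
        MonAux.sig_apply, Fin.cons_zero]
      field_simp
      ring
    rw [e1, e2]

/-- Sketch. Over `K = Frac ℝ[w]` let `p = D.map`, `q` a squarefree (hence separable, characteristic
zero) polynomial with `q ∣ p` and `p ∣ q ^ r` (e.g. `UniqueFactorizationMonoid.radical p`). Clear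
denominators (`IsLocalization.integerNormalization`): `D̂ ∈ ℝ[w][T]` and nonzero `a₁ a₂ a₃ ∈ ℝ[w]` with
`C a₁ * D = D̂ * A`, `C a₂ * D̂ ^ r = D * B`, `α D̂ + β D̂' = C a₃`; `D' = a₁ a₂ a₃`. Where `D' w ≠ 0` the
real zeros of `D(w,·)` and `D̂(w,·)` coincide and are simple for `D̂`. Let `w₀ ∈ B`, `D' w₀ ≠ 0`,
`w₀ ∈ closure O'` (otherwise the second alternative holds). By compactness of `Icc a b` there is
`t₀ ∈ Icc a b` with `(w₀,t₀) ∈ closure (O ∩ B ×ˢ Ioo a b)`. If `pev D (w₀,t₀) ≠ 0`, `Fr.mem_nhds` gives a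
neighbourhood of `(w₀,t₀)` in `O`, which contains `B'' ×ˢ {t₁}` with `t₁ ∈ Ioo a b`. Otherwise
`a < t₀ < b` and `∂_T D̂ ≠ 0` on a box `B'' ×ˢ Icc (t₀-η) (t₀+η)` (`B''` a ball, `D' ≠ 0` on it), so
`D̂(w,·)` is strictly monotone there with opposite signs at the two ends for `w ∈ B''`. A point of
`O` in the open box can be moved vertically inside `O` to a point with `D̂ ≠ 0`; the vertical segment
from it to the face with the same sign together with that face is preconnected and avoids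
`D = 0`, so the face lies in `O` (`Fr.subset`). -/
theorem PL_pf : S_PL := by
  intro m D hD
  obtain ⟨P, α, β, c, r, hc, ⟨Q, hQ⟩, hbez⟩ := MonAux.exists_sep hD
  have hG : ∀ z, pev D z = 0 → pev P z = 0 := fun z hz => by
    have h := congrArg (fun S => pev S z) hQ
    simp only [MonAux.pev_mul, MonAux.pev_pow, hz, zero_mul] at h
    exact eq_zero_of_pow_eq_zero h
  refine ⟨c, hc, fun O W hO hfr B a b hB hab hBW hend w₀ hw₀ hne => ?_⟩
  by_cases hcl : ∃ t₀ ∈ Icc a b, ∃ᶠ z in 𝓝 (w₀, t₀), z ∈ O ∧ z.2 ∈ Ioo a b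
  swap
  · right
    have h1 := (isCompact_Icc (a := a) (b := b)).eventually_forall_of_forall_eventually
      (x₀ := w₀) (P := fun w t => ¬ ((w, t) ∈ O ∧ t ∈ Ioo a b)) fun t ht => by
        by_contra h
        exact hcl ⟨t, ht, by simpa only [Filter.Frequently] using h⟩
    filter_upwards [h1] with w hw ⟨t, ht, hO'⟩ using hw t (Ioo_subset_Icc_self ht) ⟨hO', ht⟩
  left
  obtain ⟨t₀, ht₀, hfq⟩ := hcl
  have hcl : (w₀, t₀) ∈ closure O := mem_closure_iff_frequently.2 (hfq.mono fun z hz => hz.1)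
  suffices h : ∃ t₁ ∈ Ioo a b, ∀ᶠ w in 𝓝 w₀, (w, t₁) ∈ O by
    obtain ⟨t₁, ht₁, h⟩ := h
    exact h.mono fun w hw => ⟨t₁, ht₁, hw⟩
  by_cases hz : pev D (w₀, t₀) = 0
  · have hI : t₀ ∈ Ioo a b := ⟨lt_of_le_of_ne ht₀.1 fun h => (hend w₀ hw₀).1 (h ▸ hz),
      lt_of_le_of_ne ht₀.2 fun h => (hend w₀ hw₀).2 (h ▸ hz)⟩
    have hW : W ∈ 𝓝 (w₀, t₀) :=
      mem_of_superset (prod_mem_nhds (hB.mem_nhds hw₀) (Icc_mem_nhds hI.1 hI.2)) hBW
    have hd : pev P.derivative (w₀, t₀) ≠ 0 := fun h0 => by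
      have h := congrArg (fun S => pev S (w₀, t₀)) hbez
      simp only [MonAux.pev_mul, MonAux.pev_add, MonAux.pev_C, hG _ hz, h0, mul_zero,
        add_zero] at h
      exact hne h.symm
    rcases hd.lt_or_gt with h | h
    · refine MonAux.face (continuous_pev (-P)) (continuous_pev (-P).derivative)
        (MonAux.hasDerivAt_pev (-P)) (fun z hz => ?_) hO hfr hW ?_ ?_ hcl (Ioo_mem_nhds hI.1 hI.2)
      · rw [MonAux.pev_neg, hG z hz, neg_zero]
      · rw [MonAux.pev_neg, hG _ hz, neg_zero]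
      · rw [Polynomial.derivative_neg, MonAux.pev_neg]; linarith
    · exact MonAux.face (continuous_pev P) (continuous_pev P.derivative)
        (MonAux.hasDerivAt_pev P) hG hO hfr hW (hG _ hz) h hcl (Ioo_mem_nhds hI.1 hI.2)
  · have h1 := hfr.mem_nhds (hBW ⟨hw₀, ht₀⟩) hz hcl
    obtain ⟨U, hU, V, hV, hUV⟩ := mem_nhds_prod_iff.1 h1
    obtain ⟨z, h2, h3⟩ := (hfq.and_eventually
      (continuousAt_snd.eventually (show ∀ᶠ t in 𝓝 (w₀, t₀).2, t ∈ V from hV))).exists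
    refine ⟨z.2, h2.2, ?_⟩
    filter_upwards [hU] with w hw using hUV ⟨hw, h3⟩

end Vale.Agent.P274
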