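import Vale.Agent.P274.StB

open Set Filter Topology Metric MeasureTheory

namespace Vale.Agent.P274

namespace PUAux

open Polynomial

section PF

variable {Y : Type*} [NormedAddCommGroup Y] [NormedSpace ℝ Y] {k : ℕ} {P : Y → ℂ[X]} {y₀ : Y}

theorem pf_eventually (h : PF k P y₀) : ∀ᶠ y in 𝓝 y₀, PF k P y := by
  have h1 : ∀ᶠ y in 𝓝 y₀, ∀ i ∈ Finset.range (k + 1), AnalyticAt ℝ (fun y => (P y).coeff i) y :=
    (eventually_all_finset _).2 fun i _ => (h.2 i).eventually_analyticAt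
  filter_upwards [h.1.eventually_nhds, h1] with y h2 h3
  refine ⟨h2, fun i => ?_⟩
  by_cases hi : i < k + 1
  · exact h3 i (Finset.mem_range.2 hi)
  · refine (analyticAt_const (v := (0 : ℂ))).congr (h2.mono fun z hz => ?_)
    exact (coeff_eq_zero_of_natDegree_lt (by omega)).symm

theorem coeff_taylor {F : ℂ[X]} (h : F.natDegree = k) (r : ℂ) (n : ℕ) :
    (taylor r F).coeff n =
      ∑ i ∈ Finset.range (k + 1), F.coeff i * (r ^ (i - n) * (i.choose n : ℂ)) := by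
  conv_lhs => rw [F.as_sum_range' (k + 1) (by omega), map_sum, finset_sum_coeff]
  simp only [taylor_monomial, coeff_C_mul, coeff_X_add_C_pow]

theorem pf_taylor (h : PF k P y₀) {c : Y → ℂ} (hc : AnalyticAt ℝ c y₀) :
    PF k (fun y => taylor (c y) (P y)) y₀ := by
  refine ⟨h.1.mono fun y hy => ⟨?_, by rw [natDegree_taylor, hy.2]⟩, fun n => ?_⟩
  · rw [Monic, leadingCoeff_taylor]
    exact hy.1
  · refine (Finset.analyticAt_fun_sum (Finset.range (k + 1)) fun i _ => (h.2 i).fun_mul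
      ((hc.fun_pow (i - n)).fun_mul (analyticAt_const (v := (i.choose n : ℂ))))).congr ?_
    exact h.1.mono fun y hy => (coeff_taylor hy.2 _ n).symm

theorem taylor_next {F : ℂ[X]} (h1 : F.Monic) (h : F.natDegree = k + 1) :
    (taylor (-F.coeff k / (k + 1)) F).coeff k = 0 := by
  have h2 : F.coeff (k + 1) = 1 := h ▸ h1.coeff_natDegree
  have h3 : (k : ℂ) + 1 ≠ 0 := by exact_mod_cast k.succ_ne_zero
  rw [coeff_taylor h, Finset.sum_range_succ, Finset.sum_range_succ, Finset.sum_eq_zero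
    fun i hi => by rw [Nat.choose_eq_zero_of_lt (Finset.mem_range.1 hi)]; simp, h2]
  simp only [Nat.sub_self, pow_zero, Nat.choose_self, Nat.add_sub_cancel_left, pow_one,
    Nat.choose_succ_self_right]
  push_cast
  field_simp
  ring

end PF

theorem exists_factor {F : ℂ[X]} {k i : ℕ} (h1 : F.Monic) (h : F.natDegree = k + 1)
    (h2 : F.coeff k = 0) (hi : i < k + 1) (h3 : F.coeff i ≠ 0) : ∃ A B : ℂ[X], A.Monic ∧ B.Monic ∧
      IsCoprime A B ∧ F = A * B ∧ A.natDegree < k + 1 ∧ B.natDegree < k + 1 := by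
  obtain ⟨z, hz⟩ := Complex.exists_root (f := F) (natDegree_pos_iff_degree_pos.1 (by omega))
  obtain ⟨B, hB, hd⟩ := exists_eq_pow_rootMultiplicity_mul_and_not_dvd F h1.ne_zero z
  have hμ := (rootMultiplicity_pos h1.ne_zero).2 hz
  generalize rootMultiplicity z F = μ at hB hμ
  have hA : ((X - C z) ^ μ).Monic := (monic_X_sub_C z).pow μ
  have hBm : B.Monic := hA.of_mul_monic_left (hB ▸ h1)
  have hdeg : μ + B.natDegree = k + 1 := by
    rw [← h, hB, hA.natDegree_mul hBm, natDegree_pow, natDegree_X_sub_C, mul_one]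
  refine ⟨_, B, hA, hBm, ((irreducible_X_sub_C z).coprime_iff_not_dvd.2 hd).pow_left, hB, ?_,
    by omega⟩
  rw [natDegree_pow, natDegree_X_sub_C, mul_one]
  by_contra hc
  have hB1 : B = 1 := hBm.natDegree_eq_zero.1 (by omega)
  rw [hB, hB1, mul_one, show μ = k + 1 by omega, sub_eq_add_neg, ← C_neg,
    coeff_X_add_C_pow] at h2 h3
  have h4 : (k : ℂ) + 1 ≠ 0 := by exact_mod_cast k.succ_ne_zero
  have h5 : -z = 0 := by simpa [h4] using h2
  rw [h5, zero_pow (by omega), zero_mul] at h3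
  exact h3 rfl

variable {d : ℕ}

/-- the substitution in the last variable -/
def sb (q : ℕ) (p : (Fin d → ℝ) × ℝ) : (Fin d → ℝ) × ℝ := (p.1, p.2 ^ q)

theorem sb_zero {q : ℕ} (hq : 0 < q) (x : Fin d → ℝ) : sb q (x, 0) = (x, 0) := by
  simp [sb, hq.ne']

theorem sb_an (q : ℕ) (p : (Fin d → ℝ) × ℝ) : AnalyticAt ℝ (sb q) p :=
  analyticAt_fst.prod (analyticAt_snd.fun_pow q)

theorem sb_tend {q : ℕ} (hq : 0 < q) (x : Fin d → ℝ) :
    Tendsto (sb q) (𝓝 (x, 0)) (𝓝 (x, 0)) := by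
  simpa only [sb_zero hq] using (sb_an q (x, 0)).continuousAt.tendsto

theorem sb_comp {q : ℕ} (hq : 0 < q) {x : Fin d → ℝ} {r : (Fin d → ℝ) × ℝ → ℂ}
    (hr : AnalyticAt ℝ r (x, 0)) : AnalyticAt ℝ (fun p => r (sb q p)) (x, 0) :=
  AnalyticAt.comp (g := r) (by rwa [sb_zero hq]) (sb_an q _)

theorem sb_sb (q q' : ℕ) (p : (Fin d → ℝ) × ℝ) : sb q (sb q' p) = sb (q * q') p := by
  simp [sb, ← pow_mul, mul_comm]

/-- `P` splits analytically after the substitution of exponent `q` -/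
def Gd (q : ℕ) (P : (Fin d → ℝ) × ℝ → ℂ[X]) (x : Fin d → ℝ) : Prop :=
  ∃ L : List ((Fin d → ℝ) × ℝ → ℂ), (∀ r ∈ L, AnalyticAt ℝ r (x, 0)) ∧
    ∀ᶠ p in 𝓝 (x, (0 : ℝ)), P (sb q p) = (L.map fun r => X - C (r p)).prod

variable {q : ℕ} {P Q : (Fin d → ℝ) × ℝ → ℂ[X]} {x : Fin d → ℝ}

theorem Gd.pow (h : Gd q P x) {q' : ℕ} (hq : 0 < q') : Gd (q * q') P x := by
  obtain ⟨L, h1, h2⟩ := h
  refine ⟨L.map fun r p => r (sb q' p), ?_, ?_⟩
  · simpa using fun r hr => sb_comp hq (h1 r hr)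
  · filter_upwards [(sb_tend hq x).eventually h2] with p hp
    rw [← sb_sb, hp, List.map_map]
    rfl

theorem Gd.mul (hq : 0 < q) (h : Gd q P x) (h' : Gd q Q x) {R : (Fin d → ℝ) × ℝ → ℂ[X]}
    (e : ∀ᶠ p in 𝓝 (x, (0 : ℝ)), R p = P p * Q p) : Gd q R x := by
  obtain ⟨L, h1, h2⟩ := h
  obtain ⟨L', h3, h4⟩ := h'
  refine ⟨L ++ L', fun r hr => (List.mem_append.1 hr).elim (h1 r) (h3 r), ?_⟩
  filter_upwards [h2, h4, (sb_tend hq x).eventually e] with p a b c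
  rw [c, a, b, List.map_append, List.prod_append]

theorem Gd.scale (hq : 0 < q) (h : Gd q Q x) {q₀ : ℕ} {s : (Fin d → ℝ) × ℝ → ℂ}
    (hs : AnalyticAt ℝ s (x, 0))
    (e : ∀ᶠ p in 𝓝 (x, (0 : ℝ)), P (sb q₀ p) = (Q p).scaleRoots (s p)) : Gd (q₀ * q) P x := by
  obtain ⟨L, h1, h2⟩ := h
  refine ⟨L.map fun r p => r p * s (sb q p), ?_, ?_⟩
  · simpa using fun r hr => (h1 r hr).fun_mul (sb_comp hq hs)
  · filter_upwards [h2, (sb_tend hq x).eventually e] with p a b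
    rw [← sb_sb, b, a, List.map_map]
    clear a h1 h2
    induction L with
    | nil => simp
    | cons r L ih => simp [mul_scaleRoots_of_noZeroDivisors, ih]

theorem Gd.shift (hq : 0 < q) {c : (Fin d → ℝ) × ℝ → ℂ} (hc : AnalyticAt ℝ c (x, 0))
    (h : Gd q (fun p => taylor (c p) (P p)) x) : Gd q P x := by
  obtain ⟨L, h1, h2⟩ := h
  refine ⟨L.map fun r p => r p + c (sb q p), ?_, ?_⟩
  · simpa using fun r hr => (h1 r hr).fun_add (sb_comp hq hc)
  · filter_upwards [h2] with p a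
    apply taylor_injective (c (sb q p))
    rw [a, List.map_map]
    clear a h1 h2
    induction L with
    | nil => simp
    | cons r L ih =>
      simp only [List.map_cons, List.prod_cons, taylor_mul, ← ih, Function.comp, map_sub, taylor_X,
        taylor_C, map_add]
      ring

theorem slice {S : (Fin d → ℝ) × ℝ → Prop} (h : ∀ᶠ p in 𝓝 (x, (0 : ℝ)), S p) :
    ∀ᶠ y in 𝓝 x, S (y, 0) :=
  (Continuous.prodMk_left (0 : ℝ)).continuousAt.eventually h

/-- the rescaled family -/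
theorem exists_rescale {k : ℕ} (hP : PF (k + 1) P (x, 0))
    (h0 : ∀ᶠ p in 𝓝 (x, (0 : ℝ)), (P p).coeff k = 0)
    (hD : ∀ i, (∀ᶠ p in 𝓝 (x, (0 : ℝ)), (P p).coeff i = 0) ∨ ∃ (e : ℕ) (g : (Fin d → ℝ) × ℝ → ℂ),
      AnalyticAt ℝ g (x, 0) ∧ g (x, 0) ≠ 0 ∧ ∀ᶠ p in 𝓝 (x, (0 : ℝ)), (P p).coeff i = p.2 ^ e • g p) :
    (∀ᶠ p in 𝓝 (x, (0 : ℝ)), P p = X ^ (k + 1)) ∨ ∃ (q e i : ℕ) (Q : (Fin d → ℝ) × ℝ → ℂ[X]),
      0 < q ∧ PF (k + 1) Q (x, 0) ∧ (Q (x, 0)).coeff k = 0 ∧ i < k + 1 ∧ (Q (x, 0)).coeff i ≠ 0 ∧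
      ∀ᶠ p in 𝓝 (x, (0 : ℝ)), P (sb q p) = (Q p).scaleRoots ((p.2 : ℂ) ^ e) := by
  classical
  have key : ∀ i, ∃ (e : ℕ) (g : (Fin d → ℝ) × ℝ → ℂ), AnalyticAt ℝ g (x, 0) ∧
      (∀ᶠ p in 𝓝 (x, (0 : ℝ)), (P p).coeff i = (p.2 : ℂ) ^ e * g p) ∧ (g (x, 0) = 0 → g = 0) ∧
      (i = k → g = 0) := by
    intro i
    by_cases h : ∀ᶠ p in 𝓝 (x, (0 : ℝ)), (P p).coeff i = 0
    · exact ⟨0, 0, analyticAt_const, by simpa using h, fun _ => rfl, fun _ => rfl⟩
    · obtain ⟨e, g, a, b, c⟩ := (hD i).resolve_left h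
      exact ⟨e, g, a, by simpa using c, fun h' => absurd h' b, fun h' => absurd (h' ▸ h0) h⟩
  choose e g g1 g2 g3 g4 using key
  have g5 : ∀ᶠ p in 𝓝 (x, (0 : ℝ)), ∀ i ∈ Finset.range (k + 1),
      (P p).coeff i = (p.2 : ℂ) ^ e i * g i p := (eventually_all_finset _).2 fun i _ => g2 i
  by_cases hS : ((Finset.range (k + 1)).filter fun i => g i (x, 0) ≠ 0).Nonempty
  swap
  · left
    filter_upwards [g5, hP.1] with p a b
    rw [b.1.as_sum, b.2, Finset.sum_eq_zero, add_zero]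
    intro i hi
    rw [a i hi, g3 i (by_contra fun h => hS ⟨i, Finset.mem_filter.2 ⟨hi, h⟩⟩)]
    simp
  right
  obtain ⟨i₀, hi₀, hmin⟩ := Finset.exists_min_image _ (fun i => (e i : ℝ) / (k + 1 - i : ℕ)) hS
  obtain ⟨i1, i2⟩ := Finset.mem_filter.1 hi₀
  rw [Finset.mem_range] at i1
  have hle : ∀ i < k + 1, g i (x, 0) ≠ 0 → e i₀ * (k + 1 - i) ≤ (k + 1 - i₀) * e i := by
    intro i hi hg
    have := hmin i (Finset.mem_filter.2 ⟨Finset.mem_range.2 hi, hg⟩)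
    rw [div_le_div_iff₀ (Nat.cast_pos.2 (by omega)) (Nat.cast_pos.2 (by omega)), mul_comm (e i : ℝ)]
      at this
    exact_mod_cast this
  have hq : 0 < k + 1 - i₀ := by omega
  obtain ⟨a, ha⟩ : ∃ a : ℕ → (Fin d → ℝ) × ℝ → ℂ, ∀ i p, a i p =
      (p.2 : ℂ) ^ ((k + 1 - i₀) * e i - e i₀ * (k + 1 - i)) * g i (sb (k + 1 - i₀) p) :=
    ⟨_, fun _ _ => rfl⟩
  have hco : ∀ p n, (X ^ (k + 1) + ∑ i ∈ Finset.range (k + 1), monomial i (a i p) : ℂ[X]).coeff n =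
      if n < k + 1 then a n p else if n = k + 1 then 1 else 0 := by
    intro p n
    simp only [coeff_add, coeff_X_pow, finset_sum_coeff, coeff_monomial, Finset.sum_ite_eq',
      Finset.mem_range]
    split_ifs <;> first | omega | simp
  have hmon : ∀ p, (X ^ (k + 1) + ∑ i ∈ Finset.range (k + 1), monomial i (a i p) : ℂ[X]).Monic ∧
      (X ^ (k + 1) + ∑ i ∈ Finset.range (k + 1), monomial i (a i p) : ℂ[X]).natDegree = k + 1 := by
    intro p
    have h1 : (X ^ (k + 1) + ∑ i ∈ Finset.range (k + 1), monomial i (a i p) : ℂ[X]).natDegree ≤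
        k + 1 := natDegree_le_iff_coeff_eq_zero.2 fun n hn => by
      rw [hco, if_neg (by omega), if_neg (by omega)]
    have h2 := hco p (k + 1)
    rw [if_neg (lt_irrefl _), if_pos rfl] at h2
    exact ⟨monic_of_natDegree_le_of_coeff_eq_one _ h1 h2,
      natDegree_eq_of_le_of_coeff_ne_zero h1 (h2 ▸ one_ne_zero)⟩
  refine ⟨k + 1 - i₀, e i₀, i₀,
    fun p => X ^ (k + 1) + ∑ i ∈ Finset.range (k + 1), monomial i (a i p), hq,
    ⟨Eventually.of_forall hmon, fun n => ?_⟩, ?_, i1, ?_, ?_⟩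
  · simp only [hco]
    split_ifs
    · simp only [ha]
      exact (((Complex.ofRealCLM.analyticAt _).comp analyticAt_snd).fun_pow _).fun_mul
        (sb_comp hq (g1 n))
    · exact analyticAt_const
    · exact analyticAt_const
  · rw [hco, if_pos k.lt_succ_self, ha, g4 k rfl]
    simp
  · rw [hco, if_pos i1, ha, sb_zero hq, mul_comm (e i₀), Nat.sub_self, pow_zero, one_mul]
    exact i2
  · filter_upwards [(sb_tend hq x).eventually g5, (sb_tend hq x).eventually hP.1] with p b c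
    ext n
    rw [coeff_scaleRoots, hco, (hmon p).2]
    split_ifs with h1 h2
    · rw [b n (Finset.mem_range.2 h1), ha]
      by_cases hg : g n (x, 0) = 0
      · simp [g3 n hg]
      · rw [mul_right_comm, ← pow_mul, ← pow_add, Nat.sub_add_cancel (hle n h1 hg), pow_mul]
        simp [sb]
    · have := c.1.coeff_natDegree
      rw [c.2] at this
      rw [h2, Nat.sub_self, pow_zero, one_mul, this]
    · rw [zero_mul, coeff_eq_zero_of_natDegree_lt (by omega)]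

theorem main (h1 : S_DI) (h2 : S_HN) (k : ℕ) : ∀ (P : (Fin d → ℝ) × ℝ → ℂ[X])
    (N : Set (Fin d → ℝ)), IsOpen N → (∀ x ∈ N, PF k P (x, 0)) →
    ∀ᵐ x, x ∈ N → ∃ q, 0 < q ∧ Gd q P x := by
  induction k using Nat.strong_induction_on with
  | _ k ih =>
  intro P N hN hP
  rcases k with _ | k
  · refine Eventually.of_forall fun x hx => ⟨1, one_pos, [], by simp, ?_⟩
    filter_upwards [(sb_tend one_pos x).eventually (hP x hx).1] with p hp
    exact hp.1.natDegree_eq_zero.1 hp.2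
  have hc : ∀ x ∈ N, AnalyticAt ℝ (fun p => -(P p).coeff k / (k + 1)) (x, 0) := fun x hx => by
    simpa only [div_eq_mul_inv] using ((hP x hx).2 k).fun_neg.fun_mul analyticAt_const
  obtain ⟨P₁, e₁⟩ : ∃ P₁, P₁ = fun p => taylor (-(P p).coeff k / (k + 1)) (P p) := ⟨_, rfl⟩
  have hP₁ : ∀ x ∈ N, PF (k + 1) P₁ (x, 0) := fun x hx => e₁ ▸ pf_taylor (hP x hx) (hc x hx)
  have h0 : ∀ x ∈ N, ∀ᶠ p in 𝓝 (x, (0 : ℝ)), (P₁ p).coeff k = 0 := fun x hx =>
    e₁ ▸ (hP x hx).1.mono fun p hp => taylor_next hp.1 hp.2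
  suffices h : ∀ᵐ x, x ∈ N → ∃ q, 0 < q ∧ Gd q P₁ x by
    filter_upwards [h] with x hx hxN
    obtain ⟨q, hq, hG⟩ := hx hxN
    exact ⟨q, hq, Gd.shift hq (hc x hxN) (e₁ ▸ hG)⟩
  refine ae_of_local ?_
  filter_upwards [ae_all_iff.2 fun i : ℕ =>
    h1 d ℂ (fun p => (P₁ p).coeff i) N hN fun x hx => (hP₁ x hx).2 i] with x hx hxN
  rcases exists_rescale (hP₁ x hxN) (h0 x hxN) fun i => hx i hxN with h | h
  · refine ⟨_, slice h.eventually_nhds, Eventually.of_forall fun y hy _ =>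
      ⟨1, one_pos, List.replicate (k + 1) 0,
        fun r hr => List.eq_of_mem_replicate hr ▸ analyticAt_const, ?_⟩⟩
    filter_upwards [(sb_tend one_pos y).eventually hy] with p hp
    simp [hp]
  obtain ⟨q, e, i, Q, hq, a1, a2, a3, a4, a5⟩ := h
  obtain ⟨A₀, B₀, b1, b2, b3, b4, b5, b6⟩ :=
    exists_factor a1.1.self_of_nhds.1 a1.1.self_of_nhds.2 a2 a3 a4
  obtain ⟨A, B, c1, c2, c3⟩ := h2 _ _ Q _ A₀ B₀ a1 b1 b2 b3 b4
  obtain ⟨N', hN', No, Nm⟩ := _root_.eventually_nhds_iff.1 (slice ((pf_eventually c1).and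
    ((pf_eventually c2).and (c3.eventually_nhds.and a5.eventually_nhds))))
  refine ⟨N', No.mem_nhds Nm, ?_⟩
  filter_upwards [ih _ b5 A N' No fun y hy => (hN' y hy).1,
    ih _ b6 B N' No fun y hy => (hN' y hy).2.1] with y e1 e2 hy _
  obtain ⟨q₁, hq₁, G₁⟩ := e1 hy
  obtain ⟨q₂, hq₂, G₂⟩ := e2 hy
  refine ⟨_, mul_pos hq (mul_pos hq₁ hq₂), Gd.scale (mul_pos hq₁ hq₂)
    (Gd.mul (mul_pos hq₁ hq₂) (G₁.pow hq₂) (mul_comm q₂ q₁ ▸ G₂.pow hq₁) (hN' y hy).2.2.1)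
    (((Complex.ofRealCLM.analyticAt _).comp analyticAt_snd).fun_pow _) (hN' y hy).2.2.2⟩

end PUAux

/-- Puiseux expansion with parameters. -/
theorem PU_pf (h1 : S_DI) (h2 : S_HN) : S_PU := by
  intro d k P N hN hP
  filter_upwards [PUAux.main h1 h2 k P N hN hP] with x hx hxN
  obtain ⟨q, hq, L, hL⟩ := hx hxN
  exact ⟨q, L, hq, hL⟩

end Vale.Agent.P274
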