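import Vale.Agent.P274.StB

open Set Filter Topology Metric MvPolynomial MeasureTheory

namespace Vale.Agent.P274

namespace ST1Aux

variable {m : ℕ}

theorem hasseDeriv_map {R S : Type*} [CommRing R] [CommRing S] (f : R →+* S) (k : ℕ)
    (D : Polynomial R) :
    Polynomial.hasseDeriv k (D.map f) = (Polynomial.hasseDeriv k D).map f := by
  ext n
  simp [Polynomial.hasseDeriv_coeff]

/-- The cofactor in the Taylor expansion. -/
noncomputable def cof (D : Polynomial (MvPolynomial (Fin m) ℝ)) (μ : ℕ)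
    (q : ((Fin m → ℝ) × ℝ) × ℝ) : ℝ :=
  ∑ k ∈ Finset.range (D.natDegree + 1),
    pev (Polynomial.hasseDeriv (μ + k) D) q.1 * (q.2 - q.1.2) ^ k

theorem continuous_cof (D : Polynomial (MvPolynomial (Fin m) ℝ)) (μ : ℕ) :
    Continuous (cof D μ) :=
  continuous_finsetSum _ fun _ _ => ((continuous_pev _).comp continuous_fst).mul
    ((continuous_snd.sub (continuous_snd.comp continuous_fst)).pow _)

theorem cof_self (D : Polynomial (MvPolynomial (Fin m) ℝ)) (μ : ℕ) (p : (Fin m → ℝ) × ℝ) :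
    cof D μ (p, p.2) = pev (Polynomial.hasseDeriv μ D) p := by
  rw [cof, Finset.sum_range_succ']
  simp

theorem taylor (D : Polynomial (MvPolynomial (Fin m) ℝ)) {μ : ℕ} {p : (Fin m → ℝ) × ℝ}
    (h : ∀ ν < μ, pev (Polynomial.hasseDeriv ν D) p = 0) (T : ℝ) :
    pev D (p.1, T) = (T - p.2) ^ μ * cof D μ (p, T) := by
  have h1 : (Polynomial.taylor p.2 (D.map (eval p.1))).natDegree < μ + (D.natDegree + 1) := by
    rw [Polynomial.natDegree_taylor]
    have := Polynomial.natDegree_map_le (p := D) (f := eval p.1)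
    omega
  have h2 : ∀ k, (Polynomial.taylor p.2 (D.map (eval p.1))).coeff k =
      pev (Polynomial.hasseDeriv k D) p := fun k => by
    rw [Polynomial.taylor_coeff, hasseDeriv_map, pev]
  rw [pev, ← Polynomial.taylor_eval_sub p.2, Polynomial.eval_eq_sum_range' h1,
    Finset.sum_range_add, Finset.sum_eq_zero fun k hk => by
      rw [h2, h k (Finset.mem_range.1 hk), zero_mul], zero_add, cof, Finset.mul_sum]
  refine Finset.sum_congr rfl fun k _ => ?_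
  rw [h2, pow_add]
  ring

theorem exists_lift {X : Type*} [TopologicalSpace X] {O : Set (X × ℝ)} {a b : ℝ} {w : X}
    (hw : w ∈ closure {w | ∃ t ∈ Ioo a b, (w, t) ∈ O}) : ∃ t ∈ Icc a b, (w, t) ∈ closure O := by
  have h1 : IsClosed {q : X × Icc a b | (q.1, (q.2 : ℝ)) ∈ closure O} :=
    isClosed_closure.preimage (by fun_prop)
  have h2 := closure_minimal (s := {w | ∃ t ∈ Ioo a b, (w, t) ∈ O}) (fun w hw => by
    obtain ⟨t, ht, h⟩ := hw
    exact ⟨(w, ⟨t, Ioo_subset_Icc_self ht⟩), subset_closure h, rfl⟩)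
    (isClosedMap_fst_of_compactSpace _ h1) hw
  obtain ⟨q, hq, rfl⟩ := h2
  exact ⟨q.2, q.2.2, hq⟩

theorem slide {X : Type*} [TopologicalSpace X] {D : X × ℝ → ℝ} {W O : Set (X × ℝ)}
    (h : Fr D W O) {w : X} {a b s t : ℝ} (hs : s ∈ Icc a b) (ht : t ∈ Icc a b)
    (hW : ∀ T ∈ Icc a b, (w, T) ∈ W) (hD : ∀ T ∈ Icc a b, T ≠ t → D (w, T) ≠ 0)
    (hc : (w, s) ∈ closure O) : (w, t) ∈ closure O := by
  have key : ∀ S : Set ℝ, IsPreconnected S → s ∈ S → t ∈ closure S → S ⊆ Icc a b → t ∉ S →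
      (w, t) ∈ closure O := fun S h1 h2 h3 h4 h5 => by
    have hcont : Continuous fun T : ℝ => (w, T) := by fun_prop
    have h6 : (fun T : ℝ => (w, T)) '' S ⊆ O := by
      refine h.subset (h1.image _ hcont.continuousOn) ?_ ?_ ⟨_, ⟨s, h2, rfl⟩, hc⟩
      · rintro _ ⟨T, hT, rfl⟩
        exact hW T (h4 hT)
      · rintro _ ⟨T, hT, rfl⟩
        exact hD T (h4 hT) fun e => h5 (e ▸ hT)
    exact closure_mono h6 (mem_closure_image hcont.continuousAt h3)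
  rcases lt_trichotomy s t with e | e | e
  · exact key (Ico s t) isPreconnected_Ico ⟨le_rfl, e⟩ (by rw [closure_Ico e.ne]; exact ⟨e.le, le_rfl⟩)
      (fun T hT => ⟨hs.1.trans hT.1, hT.2.le.trans ht.2⟩) fun hT => lt_irrefl _ hT.2
  · exact e ▸ hc
  · exact key (Ioc t s) isPreconnected_Ioc ⟨e, le_rfl⟩ (by rw [closure_Ioc e.ne]; exact ⟨le_rfl, e.le⟩)
      (fun T hT => ⟨ht.1.trans hT.1.le, hT.2.trans hs.2⟩) fun hT => lt_irrefl _ hT.1

/-- The inductive step in product coordinates. -/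
theorem step {D : Polynomial (MvPolynomial (Fin m) ℝ)} {D' : (Fin m → ℝ) → ℝ}
    {Y O W : Set ((Fin m → ℝ) × ℝ)} {μ : ℕ}
    (hμ : ∀ p ∈ Y, ∀ ν < μ, pev (Polynomial.hasseDeriv ν D) p = 0) (hO : IsOpen O)
    (hW : IsOpen W) (hF : Fr (pev D) W O)
    (hPL : ∀ (B : Set (Fin m → ℝ)) (a b : ℝ), IsOpen B → a < b → B ×ˢ Icc a b ⊆ W →
      (∀ w ∈ B, pev D (w, a) ≠ 0 ∧ pev D (w, b) ≠ 0) → Fr D' B {w | ∃ t ∈ Ioo a b, (w, t) ∈ O})
    {p : (Fin m → ℝ) × ℝ} (hpW : p ∈ W) (hpY : p ∈ Y) (hpO : p ∈ closure O)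
    (hp : pev (Polynomial.hasseDeriv μ D) p ≠ 0)
    (ih : ∀ O' W' : Set (Fin m → ℝ), IsOpen O' → IsOpen W' → Fr D' W' O' → p.1 ∈ W' →
      p.1 ∈ closure O' → ∀ᶠ w in 𝓝 p.1, w ∈ Prod.fst '' Y → w ∈ closure O') :
    ∀ᶠ q in 𝓝 p, q ∈ Y → q ∈ closure O := by
  have h1 : ∀ᶠ q in 𝓝 (p, p.2), cof D μ q ≠ 0 ∧ (q.1.1, q.2) ∈ W := by
    refine ((continuous_cof D μ).continuousAt.eventually_ne (by rwa [cof_self])).and ?_
    have : Continuous fun q : ((Fin m → ℝ) × ℝ) × ℝ => (q.1.1, q.2) := by fun_prop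
    exact this.continuousAt.preimage_mem_nhds (hW.mem_nhds hpW)
  obtain ⟨ε, hε, h2⟩ := Metric.eventually_nhds_iff.1 h1
  set a := p.2 - ε / 2 with ha
  set b := p.2 + ε / 2 with hb
  have hab : p.2 ∈ Ioo a b := ⟨by linarith, by linarith⟩
  have h3 : ∀ w ∈ ball p.1 ε, ∀ t ∈ Icc a b, ∀ T ∈ Icc a b,
      cof D μ ((w, t), T) ≠ 0 ∧ (w, T) ∈ W := fun w hw t ht T hT => by
    refine h2 (y := ((w, t), T)) ?_
    rw [Prod.dist_eq, Prod.dist_eq, Real.dist_eq, Real.dist_eq]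
    exact max_lt (max_lt hw (abs_lt.2 ⟨by linarith [ht.1], by linarith [ht.2]⟩))
      (abs_lt.2 ⟨by linarith [hT.1], by linarith [hT.2]⟩)
  have h4 : ∀ q ∈ Y, q.1 ∈ ball p.1 ε → q.2 ∈ Icc a b → ∀ T ∈ Icc a b, T ≠ q.2 →
      pev D (q.1, T) ≠ 0 := fun q hq h5 h6 T hT hne => by
    rw [taylor D (hμ q hq)]
    exact mul_ne_zero (pow_ne_zero _ (sub_ne_zero.2 hne)) (h3 _ h5 _ h6 T hT).1
  set B := ball p.1 ε ∩ {w | pev D (w, a) ≠ 0 ∧ pev D (w, b) ≠ 0} with hB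
  have hBo : IsOpen B := isOpen_ball.inter
    ((isOpen_ne_fun ((continuous_pev D).comp (by fun_prop)) continuous_const).inter
      (isOpen_ne_fun ((continuous_pev D).comp (by fun_prop)) continuous_const))
  have hab' := hab.1.trans hab.2
  have hpB : p.1 ∈ B := ⟨mem_ball_self hε,
    h4 p hpY (mem_ball_self hε) (Ioo_subset_Icc_self hab) a ⟨le_rfl, hab'.le⟩ hab.1.ne,
    h4 p hpY (mem_ball_self hε) (Ioo_subset_Icc_self hab) b ⟨hab'.le, le_rfl⟩ hab.2.ne'⟩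
  have hO' : {w | ∃ t ∈ Ioo a b, (w, t) ∈ O} = Prod.fst '' (Prod.snd ⁻¹' Ioo a b ∩ O) := by
    ext w
    constructor
    · rintro ⟨t, ht, h⟩
      exact ⟨(w, t), ⟨ht, h⟩, rfl⟩
    · rintro ⟨q, hq, rfl⟩
      exact ⟨q.2, hq.1, hq.2⟩
  have hI : IsOpen (Prod.snd ⁻¹' Ioo a b : Set ((Fin m → ℝ) × ℝ)) :=
    isOpen_Ioo.preimage continuous_snd
  have h5 := ih _ B (by rw [hO']; exact isOpenMap_fst _ (hI.inter hO)) hBo
    (hPL B a b hBo hab' (fun q hq => (h3 _ hq.1.1 _ hq.2 _ hq.2).2) fun w hw => hw.2) hpB (by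
      rw [hO']
      exact mem_closure_image continuousAt_fst (hI.inter_closure ⟨hab, hpO⟩))
  filter_upwards [continuousAt_fst.eventually h5, hI.mem_nhds hab,
    continuousAt_fst.preimage_mem_nhds (ball_mem_nhds p.1 hε)] with q h6 h7 h8 hq
  obtain ⟨s, hs, h9⟩ := exists_lift (h6 ⟨q, hq, rfl⟩)
  have h10 := Ioo_subset_Icc_self h7
  exact slide hF hs h10 (fun T hT => (h3 _ h8 _ hT _ hT).2) (h4 q hq h8 h10) h9

end ST1Aux

/-- Sketch. Induction on `m`. If `D` does not vanish identically on `Y` take `E = D` (`Fr.mem_nhds`);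
this covers `m = 0` (`D` is a nonzero constant). Otherwise take `σ, D₁` from `S_Mon`, transport
`Y, O, W` by the homeomorphism `σ` to `(Fin m → ℝ) × ℝ`. Let `μ` be minimal such that
`Polynomial.hasseDeriv μ D₁` does not vanish identically on `σ⁻¹ Y` (exists: for `μ = natDegree` it is
`1`), `Y' = Prod.fst '' σ⁻¹ Y` is `Irr` (last clause of `S_Mon` with `E' = C f`), `D'` from `S_PL`, `E'`
from the induction hypothesis for `(D', Y')`; `E` corresponds to `hasseDeriv μ D₁ * C E'` (nonzero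
somewhere on `Y` by `Irr`). At `(w₀,t₀) ∈ σ⁻¹ Y` with `E ≠ 0`: by Taylor (`Polynomial.taylor`,
`Polynomial.taylor_coeff`), for `(w,t) ∈ σ⁻¹ Y`, `D₁(w,T) = (T-t)^μ R(w,t,T)` with `R` continuous and
`R(w₀,t₀,t₀) ≠ 0`; choose `η` and an open `B ∋ w₀` with `R ≠ 0` for `w ∈ B`, `t, T ∈ [t₀-η,t₀+η]`,
`B ×ˢ Icc ⊆ W` and `D₁ ≠ 0` at the two ends. `O' = {w | ∃ t ∈ Ioo, (w,t) ∈ O}` is open,
`w₀ ∈ closure O'`. For `(w,t) ∈ σ⁻¹ Y` near `(w₀,t₀)`: `w ∈ closure O'`, so by compactness some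
`(w,t*) ∈ closure O` with `t* ∈ Icc`; if `t* ≠ t` the half-open vertical segment from `t*` to `t`
avoids `D₁ = 0`, lies in `O` by `Fr.subset`, and `(w,t)` is in its closure. -/
theorem ST1_pf (h1 : S_Mon) (h2 : S_PL) : S_ST1 := by
  intro m
  induction m with
  | zero =>
    intro D _ Y hY
    obtain ⟨y, hy⟩ := hY.1
    exact ⟨1, ⟨y, hy, by simp⟩, fun O W _ _ _ ξ₀ _ _ hc _ =>
      Eventually.of_forall fun ξ _ => Subsingleton.elim ξ₀ ξ ▸ hc⟩
  | succ m ih =>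
    intro D hD Y hY
    obtain ⟨σ, D₁, c, hc, hm, hσ, hE⟩ := h1 m D hD
    obtain ⟨D', hD', hPL⟩ := h2 m D₁ hm
    have hC : ∀ f : MvPolynomial (Fin m) ℝ, ∃ E : MvPolynomial (Fin (m + 1)) ℝ,
        ∀ y, eval y E = eval (σ.symm y).1 f := fun f => by
      obtain ⟨E, h⟩ := hE (Polynomial.C f)
      refine ⟨E, fun y => ?_⟩
      have := h (σ.symm y)
      rw [σ.apply_symm_apply] at this
      simpa [pev] using this
    have hmem : ∀ y ∈ Y, σ.symm y ∈ σ ⁻¹' Y := fun y hy => by simpa using hy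
    have hY' : Irr (Prod.fst '' (σ ⁻¹' Y)) := by
      obtain ⟨y, hy⟩ := hY.1
      refine ⟨⟨_, _, hmem y hy, rfl⟩, fun f g h => ?_⟩
      obtain ⟨F, hF⟩ := hC f
      obtain ⟨G, hG⟩ := hC g
      refine (hY.2 F G fun y hy => ?_).imp (fun h' => ?_) fun h' => ?_
      · rw [map_mul, hF, hG, ← map_mul]
        exact h _ ⟨_, hmem y hy, rfl⟩
      · rintro _ ⟨p, hp, rfl⟩
        simpa [hF] using h' _ hp
      · rintro _ ⟨p, hp, rfl⟩
        simpa [hG] using h' _ hp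
    obtain ⟨E', ⟨_, ⟨p', hp', rfl⟩, hp''⟩, hE'⟩ := ih D' hD' _ hY'
    have hex : ∃ μ, ∃ p ∈ σ ⁻¹' Y, pev (Polynomial.hasseDeriv μ D₁) p ≠ 0 :=
      ⟨D₁.natDegree, p', hp', by
        rw [Polynomial.hasseDeriv_natDegree_eq_C, hm.leadingCoeff]
        simp [pev]⟩
    classical
    obtain ⟨E₁, hE₁⟩ := hE (Polynomial.hasseDeriv (Nat.find hex) D₁)
    obtain ⟨E₂, hE₂⟩ := hC E'
    refine ⟨E₁ * E₂, ?_, fun O W hO hW hF ξ₀ h3 h4 h5 h6 => ?_⟩
    · by_contra h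
      push Not at h
      rcases hY.2 _ _ h with h' | h'
      · obtain ⟨p, hp, h''⟩ := Nat.find_spec hex
        exact h'' (hE₁ p ▸ h' _ hp)
      · exact hp'' (by simpa [hE₂] using h' _ hp')
    · obtain ⟨p, rfl⟩ := σ.surjective ξ₀
      rw [map_mul, mul_ne_zero_iff, hE₁, hE₂, σ.symm_apply_apply] at h6
      have hcl : ∀ q, q ∈ closure (σ ⁻¹' O) ↔ σ q ∈ closure O := fun q => by
        have := σ.toHomeomorph.preimage_closure O
        exact (Set.ext_iff.1 this q).symm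
      have hF' : Fr (pev D₁) (σ ⁻¹' W) (σ ⁻¹' O) := fun q hq h =>
        (hF (σ q) hq ((hσ q).trans_ne (mul_ne_zero hc h))).imp
          (fun h' => σ.continuous.continuousAt.eventually h')
          fun h' => σ.continuous.continuousAt.eventually h'
      have hO' := hO.preimage σ.continuous
      have h7 := ST1Aux.step (Y := σ ⁻¹' Y) (μ := Nat.find hex) (fun q hq ν hν => by
          by_contra h
          exact Nat.find_min hex hν ⟨q, hq, h⟩) hO' (hW.preimage σ.continuous) hF'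
        (hPL _ _ hO' hF') h3 h4 ((hcl p).2 h5) h6.1
        fun O' W' a1 a2 a3 a4 a5 => hE' O' W' a1 a2 a3 _ a4 ⟨p, h4, rfl⟩ a5 h6.2
      have h8 : Tendsto σ.symm (𝓝 (σ p)) (𝓝 p) := by
        simpa using σ.symm.continuous.tendsto (σ p)
      filter_upwards [h8.eventually h7] with ξ h9 hξ
      simpa [hcl] using h9 (hmem ξ hξ)

end Vale.Agent.P274
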