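import Vale.Agent.P274.StB

open Set Filter Topology Metric MvPolynomial MeasureTheory

namespace Vale.Agent.P274

namespace ST2Aux

variable {m d : ℕ}

/-- The complexified fibre polynomial. -/
noncomputable def Pc (D : Polynomial (MvPolynomial (Fin m) ℝ)) (w : Fin m → ℝ) : Polynomial ℂ :=
  D.map ((algebraMap ℝ ℂ).comp (eval w))

theorem eval_Pc (D : Polynomial (MvPolynomial (Fin m) ℝ)) (w : Fin m → ℝ) (t : ℝ) :
    (Pc D w).eval (t : ℂ) = (pev D (w, t) : ℂ) := by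
  rw [Pc, ← Polynomial.map_map, Polynomial.eval_map]
  exact Polynomial.eval₂_at_apply (algebraMap ℝ ℂ) t

theorem pf_Pc {Y : Type*} [NormedAddCommGroup Y] [NormedSpace ℝ Y]
    {D : Polynomial (MvPolynomial (Fin m) ℝ)} (hD : D.Monic) {g : Y → (Fin m → ℝ)} {y : Y}
    (hg : AnalyticAt ℝ g y) : PF D.natDegree (fun p => Pc D (g p)) y := by
  refine ⟨Eventually.of_forall fun p => ⟨hD.map _, hD.natDegree_map _⟩, fun i => ?_⟩
  simp only [Pc, Polynomial.coeff_map]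
  exact (Complex.ofRealCLM.analyticAt _).comp ((analyticAt_eval (D.coeff i) _).comp hg)

theorem root_iff {A : Type*} (L : List A) (f : A → ℂ) (z : ℂ) :
    (L.map fun r => Polynomial.X - Polynomial.C (f r)).prod.eval z = 0 ↔ ∃ r ∈ L, f r = z := by
  induction L with
  | nil => simp
  | cons a L ih =>
    rw [List.map_cons, List.prod_cons, Polynomial.eval_mul, mul_eq_zero, ih]
    simp [sub_eq_zero, eq_comm]

theorem slice {X : Type*} [TopologicalSpace X] {x : X} {Q : X × ℝ → Prop}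
    (h : ∀ᶠ p in 𝓝 (x, (0 : ℝ)), Q p) : ∀ᶠ x' in 𝓝 x, Q (x', 0) :=
  ((Continuous.prodMk_left (0 : ℝ)).tendsto x).eventually h

theorem ae_loc {A P : (Fin d → ℝ) → Prop} {N : Set (Fin d → ℝ)}
    (h : ∀ᵐ x, x ∈ N → A x → ∃ N', IsOpen N' ∧ x ∈ N' ∧ ∀ᵐ y, y ∈ N' → A y → P y) :
    ∀ᵐ x, x ∈ N → A x → P x := by
  have := ae_of_local (μ := volume) (A := fun x => x ∈ N ∧ A x) (P := P) (by
    filter_upwards [h] with x hx hA
    obtain ⟨N', h1, h2, h3⟩ := hx hA.1 hA.2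
    exact ⟨N', h1.mem_nhds h2, h3.mono fun y hy a b => hy a b.2⟩)
  exact this.mono fun x hx a b => hx ⟨a, b⟩

theorem ae_list {A : Type*} (L : List A) {P : A → (Fin d → ℝ) → Prop}
    (h : ∀ r ∈ L, ∀ᵐ x, P r x) : ∀ᵐ x, ∀ r ∈ L, P r x :=
  (ae_ball_iff L.finite_toSet.countable).2 h

theorem ev_list {A X : Type*} (L : List A) {l : Filter X} {P : A → X → Prop}
    (h : ∀ r ∈ L, ∀ᶠ x in l, P r x) : ∀ᶠ x in l, ∀ r ∈ L, P r x :=
  (eventually_all_finite L.finite_toSet).2 h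

/-- There is a family of arcs entering `O`. -/
def Concl {V : Type*} [NormedAddCommGroup V] [NormedSpace ℝ V] (h : (Fin d → ℝ) → V) (O : Set V)
    (x : Fin d → ℝ) : Prop :=
  ∃ c : (Fin d → ℝ) × ℝ → V, AnalyticAt ℝ c (x, 0) ∧
    (∀ᶠ x' in 𝓝 x, c (x', 0) = h x') ∧ ∀ᶠ p in 𝓝 (x, (0 : ℝ)), 0 < p.2 → c p ∈ O

theorem triv {V : Type*} [NormedAddCommGroup V] [NormedSpace ℝ V] {h : (Fin d → ℝ) → V}
    {O : Set V} {x : Fin d → ℝ} (hh : AnalyticAt ℝ h x) (hO : O ∈ 𝓝 (h x)) : Concl h O x := by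
  have h1 : AnalyticAt ℝ (fun p : (Fin d → ℝ) × ℝ => h p.1) (x, 0) :=
    AnalyticAt.comp (g := h) hh analyticAt_fst
  refine ⟨fun p => h p.1, h1, Eventually.of_forall fun _ => rfl, ?_⟩
  filter_upwards [h1.continuousAt.eventually hO] with p hp _ using hp

theorem order_of {x : Fin d → ℝ} {u v : (Fin d → ℝ) × ℝ → ℝ}
    (h : (∀ᶠ p in 𝓝 (x, (0 : ℝ)), u p - v p = 0) ∨ ∃ (e : ℕ) (g : (Fin d → ℝ) × ℝ → ℝ),
      AnalyticAt ℝ g (x, 0) ∧ g (x, 0) ≠ 0 ∧ ∀ᶠ p in 𝓝 (x, (0 : ℝ)), u p - v p = p.2 ^ e • g p) :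
    (∀ᶠ p in 𝓝 (x, (0 : ℝ)), 0 < p.2 → u p ≤ v p) ∨
      ∀ᶠ p in 𝓝 (x, (0 : ℝ)), 0 < p.2 → v p < u p := by
  rcases h with h | ⟨e, g, h1, h2, h3⟩
  · exact Or.inl (h.mono fun p hp _ => (sub_eq_zero.1 hp).le)
  · rcases h2.lt_or_gt with h4 | h4
    · left
      filter_upwards [h3, h1.continuousAt.eventually (gt_mem_nhds h4)] with p a b c
      have := mul_pos (pow_pos c e) (neg_pos.2 b)
      rw [smul_eq_mul] at a
      linarith
    · right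
      filter_upwards [h3, h1.continuousAt.eventually (lt_mem_nhds h4)] with p a b c
      have := mul_pos (pow_pos c e) b
      rw [smul_eq_mul] at a
      linarith

theorem an_re {Y : Type*} [NormedAddCommGroup Y] [NormedSpace ℝ Y] {r : Y → ℂ} {y : Y}
    (h : AnalyticAt ℝ r y) : AnalyticAt ℝ (fun p => (r p).re) y :=
  (Complex.reCLM.analyticAt _).comp h

/-- The data available after step (2). -/
structure Box (D : Polynomial (MvPolynomial (Fin m) ℝ)) (O W : Set ((Fin m → ℝ) × ℝ))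
    (h : (Fin d → ℝ) → (Fin m → ℝ)) (η : (Fin d → ℝ) → ℝ) (B : Set (Fin m → ℝ)) (a b : ℝ)
    (x : Fin d → ℝ) : Prop where
  mon : D.Monic
  hO : IsOpen O
  fr : Fr (pev D) W O
  hB : IsOpen B
  sub : B ×ˢ Icc a b ⊆ W
  hh : AnalyticAt ℝ h x
  hη : AnalyticAt ℝ η x
  mem : h x ∈ B
  ioo : η x ∈ Ioo a b
  root : ∀ᶠ x' in 𝓝 x, ∀ ζ, (Pc D (h x')).eval ζ = 0 → ζ.re = η x' ∨ ζ.re ∉ Icc a b

variable {D : Polynomial (MvPolynomial (Fin m) ℝ)} {O W : Set ((Fin m → ℝ) × ℝ)}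
  {h : (Fin d → ℝ) → (Fin m → ℝ)} {η : (Fin d → ℝ) → ℝ} {B : Set (Fin m → ℝ)} {a b : ℝ}

theorem last (h6 : S_Band) {x : Fin d → ℝ} (H : Box D O W h η B a b x)
    {c : (Fin d → ℝ) × ℝ → (Fin m → ℝ)} (hc : AnalyticAt ℝ c (x, 0))
    (hc0 : ∀ᶠ x' in 𝓝 x, c (x', 0) = h x')
    (hcO : ∀ᶠ p in 𝓝 (x, (0 : ℝ)), 0 < p.2 → ∃ t ∈ Ioo a b, (c p, t) ∈ O)
    {L : List ((Fin d → ℝ) × ℝ → ℂ)} (hL : ∀ r ∈ L, AnalyticAt ℝ r (x, 0))
    (hP : ∀ᶠ p in 𝓝 (x, (0 : ℝ)),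
      Pc D (c p) = (L.map fun r => Polynomial.X - Polynomial.C (r p)).prod)
    (hord : ∀ r ∈ L, ∀ r' ∈ L, (∀ᶠ p in 𝓝 (x, (0 : ℝ)), 0 < p.2 → (r p).re ≤ (r' p).re) ∨
      ∀ᶠ p in 𝓝 (x, (0 : ℝ)), 0 < p.2 → (r' p).re < (r p).re)
    (hcl : (h x, η x) ∈ closure O) : Concl (fun x => (h x, η x)) O x := by
  have hW : (h x, η x) ∈ W := H.sub ⟨H.mem, Ioo_subset_Icc_self H.ioo⟩
  by_cases h0 : pev D (h x, η x) = 0
  swap
  · exact triv (H.hh.prod H.hη) (H.fr.mem_nhds hW h0 hcl)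
  have hroot : ∀ᶠ x' in 𝓝 x, ∀ r ∈ L, (r (x', 0)).re = η x' ∨ (r (x', 0)).re ∉ Icc a b := by
    filter_upwards [slice hP, hc0, H.root] with x' k1 k2 k3 r hr
    refine k3 _ ?_
    rw [← k2, k1, root_iff L fun r => r (x', 0)]
    exact ⟨r, hr, rfl⟩
  obtain ⟨τ, k1, k2, k3⟩ := h6 m d D O W c η x a b L H.hO H.fr hc H.hη H.ioo.1 H.ioo.2 hL
    (by
      filter_upwards [hP] with p hp t ht
      rw [← root_iff L fun r => r p, ← hp, eval_Pc, ht, Complex.ofReal_zero])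
    (fun r hr => by
      refine (hroot.self_of_nhds r hr).imp_left fun k => ?_
      have k1 : ∀ᶠ p in 𝓝 (x, (0 : ℝ)), (r p).re ∈ Ioo a b :=
        (an_re (hL r hr)).continuousAt.eventually (isOpen_Ioo.mem_nhds (by simpa only [k] using H.ioo))
      filter_upwards [slice k1, hroot] with x' k2 k3
      exact (k3 r hr).resolve_right fun k4 => k4 (Ioo_subset_Icc_self k2))
    (by
      have k1 := hP.self_of_nhds
      rw [hc0.self_of_nhds] at k1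
      obtain ⟨r, hr, k2⟩ := (root_iff L (fun r => r (x, 0)) (η x)).1
        (by rw [← k1, eval_Pc, h0, Complex.ofReal_zero])
      exact ⟨r, hr, by rw [k2, Complex.ofReal_re]⟩)
    hord
    (by
      have k1 : ∀ᶠ p in 𝓝 (x, (0 : ℝ)), c p ∈ B :=
        hc.continuousAt.eventually (H.hB.mem_nhds (hc0.self_of_nhds ▸ H.mem))
      filter_upwards [k1] with p hp t ht using H.sub ⟨hp, ht⟩)
    hcO
  refine ⟨fun p => (c p, τ p), hc.prod k1, ?_, k3⟩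
  filter_upwards [hc0, k2] with x' a1 a2
  rw [a1, a2]

theorem stage5 (h4 : S_DI) (h6 : S_Band) {N : Set (Fin d → ℝ)} (hN : IsOpen N)
    (H : ∀ x ∈ N, Box D O W h η B a b x) {c : (Fin d → ℝ) × ℝ → (Fin m → ℝ)}
    {L : List ((Fin d → ℝ) × ℝ → ℂ)}
    (hc : ∀ x ∈ N, AnalyticAt ℝ c (x, 0) ∧ (∀ᶠ x' in 𝓝 x, c (x', 0) = h x') ∧
      (∀ᶠ p in 𝓝 (x, (0 : ℝ)), 0 < p.2 → ∃ t ∈ Ioo a b, (c p, t) ∈ O) ∧
      (∀ r ∈ L, AnalyticAt ℝ r (x, 0)) ∧ ∀ᶠ p in 𝓝 (x, (0 : ℝ)),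
        Pc D (c p) = (L.map fun r => Polynomial.X - Polynomial.C (r p)).prod) :
    ∀ᵐ x, x ∈ N → (h x, η x) ∈ closure O → Concl (fun x => (h x, η x)) O x := by
  have key := ae_list L fun r hr => ae_list L fun r' hr' =>
    h4 d ℝ (fun p => (r p).re - (r' p).re) N hN fun x hx =>
      (an_re ((hc x hx).2.2.2.1 r hr)).sub (an_re ((hc x hx).2.2.2.1 r' hr'))
  filter_upwards [key] with x k hx hcl
  obtain ⟨k1, k2, k3, k4, k5⟩ := hc x hx
  exact last h6 (H x hx) k1 k2 k3 k4 k5 (fun r hr r' hr' => order_of (k r hr r' hr' hx)) hcl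

theorem stage4 (h4 : S_DI) (h5 : S_PU) (h6 : S_Band) {N : Set (Fin d → ℝ)} (hN : IsOpen N)
    (hD : D.Monic) (H : ∀ x ∈ N, Box D O W h η B a b x) {c : (Fin d → ℝ) × ℝ → (Fin m → ℝ)}
    (hc : ∀ x ∈ N, AnalyticAt ℝ c (x, 0) ∧ (∀ᶠ x' in 𝓝 x, c (x', 0) = h x') ∧
      ∀ᶠ p in 𝓝 (x, (0 : ℝ)), 0 < p.2 → ∃ t ∈ Ioo a b, (c p, t) ∈ O) :
    ∀ᵐ x, x ∈ N → (h x, η x) ∈ closure O → Concl (fun x => (h x, η x)) O x := by
  refine ae_loc ?_
  filter_upwards [h5 d D.natDegree (fun p => Pc D (c p)) N hN fun x hx => pf_Pc hD (hc x hx).1]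
    with x k hx _
  obtain ⟨q, L, hq, hL, hP⟩ := k hx
  have k1 : ∀ᶠ x' in 𝓝 x, ∀ r ∈ L, AnalyticAt ℝ r (x', 0) :=
    ev_list L fun r hr => slice (hL r hr).eventually_analyticAt
  obtain ⟨N', a1, a2, a3⟩ := _root_.eventually_nhds_iff.1
    ((k1.and (slice hP.eventually_nhds)).and (hN.mem_nhds hx))
  refine ⟨N', a2, a3, stage5 h4 h6 a2 (fun y hy => H y (a1 y hy).2)
    (c := fun p => c (p.1, p.2 ^ q)) (L := L) fun y hy => ?_⟩
  obtain ⟨⟨b1, b2⟩, b3⟩ := a1 y hy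
  obtain ⟨c1, c2, c3⟩ := hc y b3
  have e1 : AnalyticAt ℝ (fun p : (Fin d → ℝ) × ℝ => (p.1, p.2 ^ q)) (y, 0) :=
    analyticAt_fst.prod (analyticAt_snd.fun_pow q)
  have e2 : (fun p : (Fin d → ℝ) × ℝ => (p.1, p.2 ^ q)) (y, 0) = (y, 0) := by
    simp only [zero_pow hq.ne']
  have e3 : Tendsto (fun p : (Fin d → ℝ) × ℝ => (p.1, p.2 ^ q)) (𝓝 (y, 0)) (𝓝 (y, 0)) := by
    simpa only [zero_pow hq.ne'] using e1.continuousAt.tendsto
  refine ⟨AnalyticAt.comp_of_eq c1 e1 e2, ?_, ?_, b1, b2⟩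
  · simpa only [zero_pow hq.ne'] using c2
  · filter_upwards [e3.eventually c3] with p hp h0 using hp (pow_pos h0 q)

theorem stage3 (h4 : S_DI) (h5 : S_PU) (h6 : S_Band) {D' : MvPolynomial (Fin m) ℝ}
    (ih : ∀ (h : (Fin d → ℝ) → (Fin m → ℝ)) (N : Set (Fin d → ℝ)) (O W : Set (Fin m → ℝ)),
      IsOpen N → AnalyticOnNhd ℝ h N → IsOpen O → IsOpen W → Fr (fun ξ => eval ξ D') W O →
      ∀ᵐ x, x ∈ N → h x ∈ W → h x ∈ closure O → Concl h O x)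
    {N : Set (Fin d → ℝ)} (hN : IsOpen N) (hD : D.Monic) (hO : IsOpen O) (hB : IsOpen B)
    (H : ∀ x ∈ N, Box D O W h η B a b x)
    (hfr : Fr (fun w => eval w D') B {w | ∃ t ∈ Ioo a b, (w, t) ∈ O}) :
    ∀ᵐ x, x ∈ N → (h x, η x) ∈ closure O → Concl (fun x => (h x, η x)) O x := by
  have e : {w | ∃ t ∈ Ioo a b, (w, t) ∈ O} = Prod.fst '' (Prod.snd ⁻¹' Ioo a b ∩ O) := by
    ext w
    constructor
    · rintro ⟨t, h1, h2⟩
      exact ⟨(w, t), ⟨h1, h2⟩, rfl⟩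
    · rintro ⟨⟨w, t⟩, ⟨h1, h2⟩, rfl⟩
      exact ⟨t, h1, h2⟩
  have hI : IsOpen (Prod.snd ⁻¹' Ioo a b : Set ((Fin m → ℝ) × ℝ)) :=
    isOpen_Ioo.preimage continuous_snd
  have hO' : IsOpen {w | ∃ t ∈ Ioo a b, (w, t) ∈ O} := by
    rw [e]
    exact isOpenMap_fst _ (hI.inter hO)
  refine ae_loc ?_
  filter_upwards [ih h N _ B hN (fun x hx => (H x hx).hh) hO' hB hfr] with x k hx hcl
  obtain ⟨c, k1, k2, k3⟩ := k hx (H x hx).mem (by
    rw [e]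
    exact image_closure_subset_closure_image continuous_fst
      ⟨(h x, η x), hI.inter_closure ⟨(H x hx).ioo, hcl⟩, rfl⟩)
  obtain ⟨N', a1, a2, a3⟩ := _root_.eventually_nhds_iff.1
    (((slice k1.eventually_analyticAt).and (k2.eventually_nhds.and
      (slice k3.eventually_nhds))).and (hN.mem_nhds hx))
  exact ⟨N', a2, a3, stage4 h4 h5 h6 a2 hD (fun y hy => H y (a1 y hy).2) (c := c)
    fun y hy => (a1 y hy).1⟩

theorem exists_box {x : Fin d → ℝ} (hD : D.Monic) (hO : IsOpen O) (hW : IsOpen W)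
    (hfr : Fr (pev D) W O) (hh : AnalyticAt ℝ h x) (hη : AnalyticAt ℝ η x) (hx : (h x, η x) ∈ W)
    {L : List ((Fin d → ℝ) → ℂ)} (hL : ∀ r ∈ L, ContinuousAt r x)
    (hP : ∀ᶠ y in 𝓝 x, Pc D (h y) = (L.map fun r => Polynomial.X - Polynomial.C (r y)).prod)
    (h0 : ∀ r ∈ L, (r x).re - η x ≠ 0 ∨ ∀ᶠ y in 𝓝 x, (r y).re - η y = 0) :
    ∃ B a b, IsOpen B ∧ a < b ∧ B ×ˢ Icc a b ⊆ W ∧
      (∀ w ∈ B, pev D (w, a) ≠ 0 ∧ pev D (w, b) ≠ 0) ∧ ∀ᶠ y in 𝓝 x, Box D O W h η B a b y := by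
  obtain ⟨B₀, hB₀, T, hT, hsub⟩ := mem_nhds_prod_iff.1 (hW.mem_nhds hx)
  obtain ⟨ε, hε, hεT⟩ := Metric.mem_nhds_iff.1 hT
  have k1 : ∀ᶠ δ in 𝓝 (0 : ℝ), ∀ r ∈ L, (r x).re - η x ≠ 0 → δ < |(r x).re - η x| :=
    ev_list L fun r _ => by
      by_cases k : (r x).re - η x = 0
      · exact Eventually.of_forall fun _ k' => absurd k k'
      · filter_upwards [gt_mem_nhds (abs_pos.2 k)] with δ a _ using a
  obtain ⟨δ, ⟨hδ1, hδ2⟩, hδ0⟩ := (((k1.and (gt_mem_nhds hε)).filter_mono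
    (nhdsWithin_le_nhds (s := Ioi (0 : ℝ)))).and self_mem_nhdsWithin).exists
  have hδ : 0 < δ := hδ0
  have far : ∀ r ∈ L, (r x).re - η x ≠ 0 → (r x).re ∉ Icc (η x - δ) (η x + δ) := by
    intro r hr k k'
    have := hδ1 r hr k
    rw [lt_abs] at this
    rcases this with a | a <;> linarith [k'.1, k'.2]
  have hend : ∀ t ∈ Icc (η x - δ) (η x + δ), t ≠ η x → ∀ᶠ w in 𝓝 (h x), pev D (w, t) ≠ 0 := by
    intro t ht hne
    refine ((continuous_pev D).comp (Continuous.prodMk_left t)).continuousAt.eventually_ne ?_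
    intro k
    obtain ⟨r, hr, k2⟩ := (root_iff L (fun r => r x) t).1
      (by rw [← hP.self_of_nhds, eval_Pc, show pev D (h x, t) = 0 from k, Complex.ofReal_zero])
    have k3 : (r x).re = t := by rw [k2, Complex.ofReal_re]
    exact far r hr (by rw [k3]; exact sub_ne_zero.2 hne) (k3 ▸ ht)
  obtain ⟨B, a1, a2, a3⟩ := _root_.eventually_nhds_iff.1
    (((hend (η x - δ) ⟨le_rfl, by linarith⟩ (by linarith)).and
      (hend (η x + δ) ⟨by linarith, le_rfl⟩ (by linarith))).and hB₀)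
  have hsub' : B ×ˢ Icc (η x - δ) (η x + δ) ⊆ W := by
    refine (prod_mono (fun w hw => (a1 w hw).2) fun t ht => hεT ?_).trans hsub
    rw [mem_ball, Real.dist_eq, abs_lt]
    constructor <;> linarith [ht.1, ht.2]
  refine ⟨B, η x - δ, η x + δ, a2, by linarith, hsub', fun w hw => (a1 w hw).1, ?_⟩
  have k2 : ∀ᶠ y in 𝓝 x, ∀ r ∈ L, (r y).re = η y ∨ (r y).re ∉ Icc (η x - δ) (η x + δ) :=
    ev_list L fun r hr => by
      rcases h0 r hr with k | k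
      · have : ∀ᶠ y in 𝓝 x, (r y).re ∈ (Icc (η x - δ) (η x + δ))ᶜ :=
          (Complex.continuous_re.continuousAt.comp (hL r hr)).eventually
            (isClosed_Icc.isOpen_compl.mem_nhds (far r hr k))
        exact this.mono fun y hy => Or.inr hy
      · exact k.mono fun y hy => Or.inl (sub_eq_zero.1 hy)
  have k3 : ∀ᶠ y in 𝓝 x, ∀ ζ, (Pc D (h y)).eval ζ = 0 →
      ζ.re = η y ∨ ζ.re ∉ Icc (η x - δ) (η x + δ) := by
    filter_upwards [hP, k2] with y b1 b2 ζ b3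
    rw [b1, root_iff L fun r => r y] at b3
    obtain ⟨r, hr, rfl⟩ := b3
    exact b2 r hr
  have k4 : ∀ᶠ y in 𝓝 x, η y ∈ Ioo (η x - δ) (η x + δ) :=
    hη.continuousAt.eventually (isOpen_Ioo.mem_nhds ⟨by linarith, by linarith⟩)
  filter_upwards [hh.eventually_analyticAt, hη.eventually_analyticAt,
    hh.continuousAt.eventually (a2.mem_nhds a3), k4, k3.eventually_nhds] with y b1 b2 b3 b4 b5
  exact ⟨hD, hO, hfr, a2, hsub', b1, b2, b3, b4, b5⟩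

theorem step (h2 : S_PL) (h3 : S_AN0) (h4 : S_DI) (h5 : S_PU) (h6 : S_Band)
    (ih : ∀ D' : MvPolynomial (Fin m) ℝ, D' ≠ 0 →
      ∀ (h : (Fin d → ℝ) → (Fin m → ℝ)) (N : Set (Fin d → ℝ)) (O W : Set (Fin m → ℝ)),
      IsOpen N → AnalyticOnNhd ℝ h N → IsOpen O → IsOpen W → Fr (fun ξ => eval ξ D') W O →
      ∀ᵐ x, x ∈ N → h x ∈ W → h x ∈ closure O → Concl h O x)
    {N : Set (Fin d → ℝ)} (hN : IsOpen N) (hD : D.Monic) (hO : IsOpen O) (hW : IsOpen W)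
    (hfr : Fr (pev D) W O) (hh : AnalyticOnNhd ℝ h N) (hη : AnalyticOnNhd ℝ η N) :
    ∀ᵐ x, x ∈ N → ((h x, η x) ∈ W ∧ (h x, η x) ∈ closure O) →
      Concl (fun x => (h x, η x)) O x := by
  obtain ⟨D', hD', hPL⟩ := h2 m D hD
  refine ae_loc ?_
  filter_upwards [h5 d D.natDegree (fun p => Pc D (h p.1)) N hN fun x hx =>
    pf_Pc hD (AnalyticAt.comp (g := h) (hh x hx) analyticAt_fst)] with x k hx _
  obtain ⟨q, L, -, hL, hP⟩ := k hx
  have k1 : ∀ᶠ x' in 𝓝 x, ∀ r ∈ L, AnalyticAt ℝ r (x', 0) :=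
    ev_list L fun r hr => slice (hL r hr).eventually_analyticAt
  obtain ⟨N₁, a1, a2, a3⟩ := _root_.eventually_nhds_iff.1
    ((k1.and (slice hP).eventually_nhds).and (hN.mem_nhds hx))
  refine ⟨N₁, a2, a3, ae_loc ?_⟩
  have an : ∀ r ∈ L, ∀ y ∈ N₁, AnalyticAt ℝ (fun y => r (y, 0)) y := fun r hr y hy =>
    AnalyticAt.comp (g := r) ((a1 y hy).1.1 r hr) (analyticAt_id.prod analyticAt_const)
  filter_upwards [ae_list L fun r hr => h3 d ℝ (fun y => (r (y, 0)).re - η y) N₁ a2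
    fun y hy => (an_re (an r hr y hy)).sub (hη y (a1 y hy).2)] with y k hy hA
  obtain ⟨B, a, b, b1, b2, b3, b4, b5⟩ := exists_box hD hO hW hfr (hh y (a1 y hy).2)
    (hη y (a1 y hy).2) hA.1 (L := L.map fun r y => r (y, 0))
    (fun r hr => by
      obtain ⟨s, hs, rfl⟩ := List.mem_map.1 hr
      exact (an s hs y hy).continuousAt)
    (by simpa only [List.map_map, Function.comp_def] using (a1 y hy).1.2)
    (fun r hr => by
      obtain ⟨s, hs, rfl⟩ := List.mem_map.1 hr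
      exact k s hs hy)
  obtain ⟨N₂, c1, c2, c3⟩ := _root_.eventually_nhds_iff.1 b5
  exact ⟨N₂, c2, c3, (stage3 h4 h5 h6 (ih D' hD') c2 hD hO b1 c1
    (hPL O W hO hfr B a b b1 b2 b3 b4)).mono fun z hz e1 e2 => hz e1 e2.2⟩

end ST2Aux

/-- Sketch. Induction on `m` (for all `d D h N O W`). Trivial case, used throughout: if
`eval (h x) D ≠ 0` then `O ∈ 𝓝 (h x)` (`Fr.mem_nhds`) and `c p = h p.1` works; this settles `m = 0`.
Step: take `σ, D₁` from `S_Mon`, `D'` from `S_PL`; write `σ.symm (h x) = (h' x, η x)`, transport `O, W`.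
Let `Pc w = D₁.map ((algebraMap ℝ ℂ).comp (eval w))` (monic of degree `k`; `PF` for `p ↦ Pc (g p)` when `g` is
analytic). Use `ae_of_local` repeatedly.
(1) `S_PU` for `p ↦ Pc (h' p.1)`: a.e. `x` has analytic roots `r⁰ (x',0)` of `Pc (h' x')` on an open `N₁ ∋ x`.
(2) `S_AN0` on `N₁` for `(r⁰ (x',0)).re - η x'`: at a.e. `x₁` each is `≠ 0` or locally `0`. Choose `a < η x₁ < b`
close to `η x₁`, an open `B ∋ h' x₁` with `B ×ˢ Icc a b ⊆ W`, `pev D₁ ≠ 0` at the ends, and an open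
`N₂ ∋ x₁` such that for `x ∈ N₂`: `h' x ∈ B`, `η x ∈ Ioo a b`, every complex root `ζ` of `Pc (h' x)` has
`ζ.re = η x` or `ζ.re ∉ Icc a b`.
(3) Induction hypothesis for `D', h', N₂, O' = {w | ∃ t ∈ Ioo a b, (w,t) ∈ O}, B`: a.e. `x₂ ∈ N₂` with
`h x₂ ∈ closure O` has an arc family `c'`, valid at all points of an open `N₃ ∋ x₂`.
(4) `S_PU` for `p ↦ Pc (c' p)` on `N₃`: `q, L` valid on an open `N₄`; (5) `S_DI` on `N₄` for the finitely
many `(r p).re - (r' p).re` gives the order hypothesis of `S_Band` (sign of `s^e • unit`).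
Apply `S_Band` to `p ↦ c' (p.1, p.2^q)`; `c p = σ (c' (p.1,p.2^q), τ p)`. -/
theorem ST2_pf (h1 : S_Mon) (h2 : S_PL) (h3 : S_AN0) (h4 : S_DI) (h5 : S_PU) (h6 : S_Band) :
    S_ST2 := by
  intro m d
  induction m with
  | zero =>
    intro D hD h N O W _ hh _ _ hfr
    refine Eventually.of_forall fun x hx hW hcl => ST2Aux.triv (hh x hx) (hfr.mem_nhds hW ?_ hcl)
    intro h0
    exact hD (MvPolynomial.funext fun ξ => by rw [Subsingleton.elim ξ (h x), h0, map_zero])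
  | succ m ih =>
    intro D hD h N O W hN hh hO hW hfr
    obtain ⟨σ, D₁, c, hc, hm, he, -⟩ := h1 m D hD
    have hs : ∀ x ∈ N, AnalyticAt ℝ (fun x => σ.symm (h x)) x := fun x hx =>
      (σ.symm.analyticAt _).comp (hh x hx)
    have hfr' : Fr (pev D₁) (σ ⁻¹' W) (σ ⁻¹' O) := by
      intro ξ hξ h0
      exact (hfr (σ ξ) hξ (fun k => mul_ne_zero hc h0 ((he ξ).symm.trans k))).imp
        (σ.continuous.tendsto ξ).eventually (σ.continuous.tendsto ξ).eventually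
    filter_upwards [ST2Aux.step h2 h3 h4 h5 h6 ih (h := fun x => (σ.symm (h x)).1)
      (η := fun x => (σ.symm (h x)).2) hN hm (hO.preimage σ.continuous) (hW.preimage σ.continuous)
      hfr' (fun x hx => analyticAt_fst.comp (hs x hx)) (fun x hx => analyticAt_snd.comp (hs x hx))]
      with x k hx hxW hcl
    obtain ⟨c, k1, k2, k3⟩ := k hx ⟨by simpa using hxW, by
      rw [← show σ ⁻¹' closure O = closure (σ ⁻¹' O) from σ.toHomeomorph.preimage_closure O]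
      simpa using hcl⟩
    refine ⟨fun p => σ (c p), (σ.analyticAt _).comp k1, ?_, k3⟩
    filter_upwards [k2] with y hy
    rw [hy]
    exact σ.apply_symm_apply _

end Vale.Agent.P274
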