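import Vale.Agent.P274.Alg
import Vale.Agent.P274.SCV2

open Set Filter Topology Metric MvPolynomial

namespace Vale.Agent.P274

namespace SmoothAux

variable {N : ℕ} {U : Set (Fin N → ℂ)}

theorem alg (hU : U.Nonempty) : ∃ (𝔭 : Ideal (MvPolynomial (Fin N) ℂ)) (F : MvPolynomial (Fin N) ℂ),
    𝔭.IsPrime ∧ ∀ g, g ∈ 𝔭 ↔ ∀ z ∈ U, eval z F ≠ 0 → eval z g = 0 := by
  have ex : ∀ F : MvPolynomial (Fin N) ℂ, ∃ K : Ideal (MvPolynomial (Fin N) ℂ),
      ∀ g, g ∈ K ↔ ∀ z ∈ U, eval z F ≠ 0 → eval z g = 0 := fun F =>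
    ⟨⨅ z ∈ U, ⨅ _ : eval z F ≠ 0, RingHom.ker (eval z), by simp⟩
  obtain ⟨K, hK⟩ := ex 1
  obtain ⟨z, hz⟩ := hU
  obtain ⟨𝔭, ⟨h0, F, hF⟩, hm⟩ := set_has_maximal_iff_noetherian.2 inferInstance
    {K : Ideal (MvPolynomial (Fin N) ℂ) | 1 ∉ K ∧ ∃ F, ∀ g, g ∈ K ↔
      ∀ z ∈ U, eval z F ≠ 0 → eval z g = 0}
    ⟨K, fun h => by simpa using (hK 1).1 h z hz, 1, hK⟩
  refine ⟨𝔭, F, ⟨(Ideal.ne_top_iff_one _).2 h0, fun {a b} hab => or_iff_not_imp_left.2 fun ha => ?_⟩,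
    hF⟩
  obtain ⟨K, hK⟩ := ex (a * F)
  simp only [map_mul, mul_ne_zero_iff] at hK
  have h1 : 𝔭 ≤ K := fun g hg => (hK g).2 fun z hz h => (hF g).1 hg z hz h.2
  rw [eq_of_le_of_not_lt h1 (hm K ⟨fun h => ha ((hF a).2 fun z hz h2 => by_contra fun h3 => by
    simpa using (hK 1).1 h z hz ⟨h3, h2⟩), a * F, by simpa only [map_mul, mul_ne_zero_iff] using hK⟩),
    hK]
  exact fun z hz h => by simpa [h.1] using (hF _).1 hab z hz h.2

theorem peak (hU : Bornology.IsBounded U) {P : MvPolynomial (Fin N) ℂ} {z₀ : Fin N → ℂ}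
    (h0 : z₀ ∈ U) (hP : eval z₀ P ≠ 0) : ∃ p ∈ closure U, eval p P ≠ 0 ∧
      ∃ h : MvPolynomial (Fin N) ℂ, eval p h = 0 ∧ ∀ z ∈ U, ∀ i, ‖z i - p i‖ ^ 2 ≤ (eval z h).re := by
  have hc := hU.isCompact_closure
  obtain ⟨B, hB⟩ := hc.bddAbove_image (f := fun z => ∑ i, ‖z i‖ ^ 2) (by fun_prop)
  let Q : Option (Fin N) → MvPolynomial (Fin N) ℂ := fun k =>
    k.elim (C (((|B| + 1 : ℝ) : ℂ) / eval z₀ P) * P) X
  obtain ⟨p, hp, hm⟩ := hc.exists_isMaxOn ⟨z₀, subset_closure h0⟩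
    (f := fun z => ∑ k, ‖eval z (Q k)‖ ^ 2) (continuous_finsetSum _ fun k _ =>
      (continuous_eval' (Q k)).norm.fun_pow 2).continuousOn
  refine ⟨p, hp, fun e => ?_, ∑ k, C (-2 * star (eval p (Q k))) * (Q k - C (eval p (Q k))),
    by simp, fun z hz i => ?_⟩
  · have h1 : ∑ k, ‖eval z₀ (Q k)‖ ^ 2 ≤ ∑ k, ‖eval p (Q k)‖ ^ 2 := hm (subset_closure h0)
    have h2 : ∑ i, ‖p i‖ ^ 2 ≤ B := hB ⟨p, hp, rfl⟩
    simp only [Fintype.sum_option, Q, Option.elim, map_mul, eval_C, eval_X, e, mul_zero,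
      div_mul_cancel₀ _ hP, Complex.norm_real, Real.norm_eq_abs, sq_abs, norm_zero] at h1
    nlinarith [le_abs_self B, abs_nonneg B,
      Finset.sum_nonneg fun i (_ : i ∈ Finset.univ) => sq_nonneg ‖z₀ i‖]
  · have h1 : ∑ k, ‖eval z (Q k)‖ ^ 2 ≤ ∑ k, ‖eval p (Q k)‖ ^ 2 := hm (subset_closure hz)
    have h2 : ∀ a b : ℂ, (-2 * star b * (a - b)).re = ‖a - b‖ ^ 2 - ‖a‖ ^ 2 + ‖b‖ ^ 2 :=
      fun a b => by simp [Complex.sq_norm, Complex.normSq_apply]; ring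
    simp only [map_sum, map_mul, map_sub, eval_C, Complex.re_sum, h2, Finset.sum_add_distrib,
      Finset.sum_sub_distrib]
    have h3 := Finset.single_le_sum (f := fun k => ‖eval z (Q k) - eval p (Q k)‖ ^ 2)
      (fun _ _ => sq_nonneg _) (Finset.mem_univ (some i))
    rw [show Q (some i) = X i from rfl, eval_X, eval_X] at h3
    linarith

theorem sq0 {a b : ℕ → ℂ} {c : ℝ} (hc : 0 < c) (hb : Tendsto b atTop (𝓝 0))
    (h : ∀ᶠ j in atTop, ‖a j‖ ≤ ‖b j‖ ^ c) : Tendsto a atTop (𝓝 0) :=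
  squeeze_zero_norm' h (by simpa [hc.ne'] using hb.norm.rpow_const (Or.inr hc.le))

end SmoothAux

open SmoothAux

/-- Sketch. Let `J` be the ideal of polynomials vanishing on `U` (`J ≠ ⊤`, `U` nonempty), so
`U = ZV J ∩ O`. Let `𝔭` be a minimal prime over `J` (finitely many: Noetherian,
`Ideal.finite_minimalPrimes_of_isNoetherianRing`), `F ∉ 𝔭` lying in all other minimal primes
(`Ideal.IsPrime.prod_le`/incomparability). For `z ∈ ZV J` with `F z ≠ 0` we get `z ∈ ZV 𝔭` (the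
maximal ideal `ker (eval z) ⊇ J` contains a minimal prime, `Ideal.exists_minimalPrimes_le`). For
`g ∉ 𝔭`, `g F ∉ J`, so some `z ∈ U` has `g z ≠ 0`, `F z ≠ 0`. Take `S_GR` data, `P = aeval π Δ * F ∉ 𝔭`.
At `x ∈ U` with `P x ≠ 0`: `Reg (Fin n → ℂ) U x` with `χ = ev π` and the chart `G` (near `x`,
`U = ZV 𝔭`). Let `S = {x ∈ U | ¬ Reg}`: `S ⊆ {P = 0}` and `S` is invariant (`Div.bihol`, `Bihol.reg`).
Peak point: pick `z₀ ∈ U` with `P z₀ ≠ 0`, `λ` with `‖λ P z₀‖² > sup_U ∑ ‖z i‖²`; let `p` maximize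
`φ z = ∑ ‖z i‖² + ‖λ P z‖²` on the compact `closure U`; then `P p ≠ 0`. The polynomial function
`h z = -2 (∑ (z i - p i) * conj (p i) + (λ P z - λ P p) * conj (λ P p))` satisfies
`∑ ‖z i - p i‖² ≤ re (h z)` on `closure U`. Take `z j ∈ U → p`, `γ j` with `x j = act (γ j) (z j) ∈ K`,
a subsequence (or ultrafilter) `x j → x₀ ∈ K`, `f j y = (h (act (γ j)⁻¹ y) + 1/(j+1)) / M`, holomorphic on
`U`, nonvanishing, norm `≤ 1`, `f j (x j) → 0`. `T = {s ∈ U | f j s → 0}`: `x₀ ∈ T` and `T` is closed in `U`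
by `S_HL` (at `s`, with `I`, `O` from the hypothesis), and `T` is a neighbourhood in `U` of its regular
points (`Reg.harnack`). If `s ∈ T ∩ S` then `act (γ j)⁻¹ s → p` and lies in `S ⊆ {P = 0}`, so `P p = 0`,
absurd. So `T ∩ S = ∅`, `T` is clopen in `U`, `T = U`, `S = ∅`. Finally every `g ∈ 𝔭` vanishes near `z₀` in
`U`, so on `U` by `HolOn.eq_zero`: `U ⊆ ZV 𝔭 ⊆ ZV J`, `U = ZV 𝔭 ∩ O`. -/
theorem Smooth_pf (h1 : S_GR) (h2 : S_HL) : S_Smooth := by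
  rintro N Γ _ U act hD ⟨I, O, hO, hU⟩
  obtain ⟨𝔭, F, h𝔭, hF⟩ := alg hD.conn.nonempty
  obtain ⟨n, π, Δ, hG⟩ := h1 ℂ N 𝔭 h𝔭
  have hI : ZV 𝔭 ∩ O ⊆ U := hU ▸ inter_subset_inter_left _ fun z hz g hg =>
    hz g ((hF g).2 fun w hw _ => (hU ▸ hw).1 g hg)
  have hZ : ∀ x, eval x F ≠ 0 → ∀ᶠ y in 𝓝[U] x, y ∈ ZV 𝔭 := fun x hx => by
    filter_upwards [self_mem_nhdsWithin, nhdsWithin_le_nhds
      ((continuous_eval' F).continuousAt.eventually_ne hx)] with y a b g hg using (hF g).1 hg y a b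
  obtain ⟨z₀, h0, hP⟩ : ∃ z ∈ U, eval z (aeval π Δ * F) ≠ 0 := by
    by_contra! h
    exact hG.ne (hG.indep Δ ((hF _).2 fun z hz e => by simpa [e] using h z hz))
  have hR : ∀ x ∈ U, eval x (aeval π Δ * F) ≠ 0 → Reg (Fin n → ℂ) U x := fun x hx e => by
    rw [map_mul, mul_ne_zero_iff, eval_aeval_ev] at e
    obtain ⟨G, g1, g2, g3, g4⟩ := hG.chart x ((hZ x e.2).self_of_nhdsWithin hx) e.1
    refine ⟨G, ev π, g1, analyticAt_ev π x, g2, ?_, ?_⟩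
    · filter_upwards [g3, g1.continuousAt.eventually (hO.mem_nhds (g2.symm ▸ (hU ▸ hx).2))]
        with t a b using ⟨hI ⟨a.1, b⟩, a.2⟩
    · filter_upwards [hZ x e.2, nhdsWithin_le_nhds g4] with y a b using b a
  obtain ⟨p, hp, hpP, h, hh0, hh⟩ := peak hD.bdd h0 hP
  have hre : ∀ z ∈ U, 0 ≤ (eval z h).re := fun z hz => by
    rcases isEmpty_or_nonempty (Fin N) with _ | ⟨⟨i⟩⟩
    · simp [Subsingleton.elim z p, hh0]
    · exact (sq_nonneg _).trans (hh z hz i)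
  obtain ⟨M, hM⟩ := hD.bdd.isCompact_closure.exists_bound_of_continuousOn
    (continuous_eval' h).continuousOn
  have hM0 : 0 < M + 1 := by linarith [norm_nonneg (eval p h), hM p hp]
  obtain ⟨z, hz, hzp⟩ := mem_closure_iff_seq_limit.1 hp
  obtain ⟨K, hK, hKU, hγ⟩ := hD.cocompact
  choose γ hγ using fun j => hγ _ (hz j)
  obtain ⟨x₀, hx₀, φ, hφ, hx⟩ := hK.tendsto_subseq hγ
  let f : ℕ → (Fin N → ℂ) → ℂ := fun j y =>
    (eval (act (γ (φ j))⁻¹ y) h + (1 / (j + 1 : ℝ) : ℝ)) / (M + 1 : ℝ)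
  have fh : ∀ j, HolOn U (f j) := fun j => (hD.hol _).comp_left
    (g := fun w => (eval w h + (1 / (j + 1 : ℝ) : ℝ)) / (M + 1 : ℝ)) fun x _ =>
      ((analyticAt_eval h _).add analyticAt_const).div_const
  have fn : ∀ j y, ‖f j y‖ * (M + 1) = ‖eval (act (γ (φ j))⁻¹ y) h + (1 / (j + 1 : ℝ) : ℝ)‖ :=
    fun j y => by
      rw [norm_div, Complex.norm_real, Real.norm_of_nonneg hM0.le, div_mul_cancel₀ _ hM0.ne']
  have fl : ∀ j y, (eval (act (γ (φ j))⁻¹ y) h).re + 1 / (j + 1 : ℝ) ≤ ‖f j y‖ * (M + 1) :=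
    fun j y => (Complex.re_le_norm (_ + ((1 / (j + 1 : ℝ) : ℝ) : ℂ))).trans_eq (fn j y).symm
  have fb : ∀ j, ∀ y ∈ U, f j y ≠ 0 ∧ ‖f j y‖ ≤ 1 := fun j y hy => by
    have a := hD.maps (γ (φ j))⁻¹ hy
    refine ⟨norm_pos_iff.1 (pos_of_mul_pos_left ((add_pos_of_nonneg_of_pos (hre _ a)
      Nat.one_div_pos_of_nat).trans_le (fl j y)) hM0.le), (mul_le_iff_le_one_left hM0).1 ?_⟩
    rw [fn]
    refine norm_add_le_of_le (hM _ (subset_closure a)) ?_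
    rw [Complex.norm_real, Real.norm_of_nonneg (by positivity)]
    exact (div_le_one (by positivity)).2 (le_add_of_nonneg_left j.cast_nonneg)
  have hH : ∀ s ∈ U, ∃ c : ℝ, 0 < c ∧ ∀ᶠ x in 𝓝 s, x ∈ U → ∀ j, ‖f j s‖ ≤ ‖f j x‖ ^ c :=
    fun s hs => by
      obtain ⟨c, hc, h3⟩ := h2 N I s (hU ▸ hs).1 O hO (hU ▸ hs).2
      exact ⟨c, hc, h3.mono fun x a b j => a (hU ▸ b).1 _ (hU ▸ fh j) (hU ▸ fb j)⟩
  have T0 : Tendsto (fun j => f j x₀) atTop (𝓝 0) := by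
    obtain ⟨c, hc, h3⟩ := hH x₀ (hKU hx₀)
    refine sq0 hc (b := fun j => f j (act (γ (φ j)) (z (φ j)))) ?_
      ((hx.eventually h3).mono fun j a => a (hKU (hγ _)) j)
    simp only [f, fun j => (hD.bihol (γ (φ j))).left _ (hz _)]
    simpa [hh0] using ((((continuous_eval' h).tendsto p).comp (hzp.comp hφ.tendsto_atTop)).add
      (tendsto_one_div_add_atTop_nhds_zero_nat (𝕜 := ℝ)).ofReal).div_const ((M + 1 : ℝ) : ℂ)
  have TR : ∀ s ∈ U, Tendsto (fun j => f j s) atTop (𝓝 0) → Reg (Fin n → ℂ) U s := fun s hs a => by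
    have b : Tendsto (fun j => act (γ (φ j))⁻¹ s) atTop (𝓝 p) := tendsto_pi_nhds.2 fun i =>
      tendsto_sub_nhds_zero_iff.1 (sq0 (b := fun j => f j s * (M + 1 : ℝ)) (c := (2 : ℕ)⁻¹)
        (by norm_num) (by simpa using a.mul_const _) (Eventually.of_forall fun j => by
          rw [Real.le_rpow_inv_iff_of_pos (norm_nonneg _) (norm_nonneg _) (by norm_num),
            Real.rpow_natCast, norm_mul, Complex.norm_real, Real.norm_of_nonneg hM0.le]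
          exact ((hh _ (hD.maps _ hs) i).trans
            (le_add_of_nonneg_right (by positivity))).trans (fl j s)))
    obtain ⟨j, hj⟩ := (b.eventually ((continuous_eval' _).continuousAt.eventually_ne hpP)).exists
    exact (hD.bihol (γ (φ j))).right s hs ▸
      (hD.bihol (γ (φ j))).reg (hD.maps _ hs) (hR _ (hD.maps _ hs) hj)
  have hA : ∀ x ∈ U, Reg (Fin n → ℂ) U x := fun x hx => TR x hx
    (hD.conn.isPreconnected.induction₂' (fun x y => Tendsto (fun j => f j x) atTop (𝓝 0) →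
      Tendsto (fun j => f j y) atTop (𝓝 0)) (fun s hs => by
        obtain ⟨c, hc, h3⟩ := hH s hs
        refine Eventually.and (eventually_imp_distrib_left.2 fun a => ?_) ?_
        · exact (TR s hs a).harnack.mono fun y hy => sq0 (by norm_num) a
            (Eventually.of_forall fun j => (hy _ (fh j) (fb j)).2)
        · filter_upwards [self_mem_nhdsWithin, nhdsWithin_le_nhds h3] with y a b d
            using sq0 hc d (Eventually.of_forall (b a)))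
      (fun _ _ _ _ _ _ a b c => b (a c)) (hKU hx₀) hx T0)
  refine ⟨𝔭, n, π, Δ, h𝔭, hG, ⟨O, hO, hI.antisymm' fun y hy => ⟨fun g hg => ?_, (hU ▸ hy).2⟩⟩,
    fun g hg => by_contra fun e => hg ((hF g).2 fun z hz _ => by_contra fun e' => e ⟨z, hz, e'⟩), hA⟩
  exact (holOn_of_analyticOnNhd fun x _ => analyticAt_eval g x).eq_zero hD.conn.isPreconnected hA
    h0 ((hZ z₀ fun e => hP (by simp [e])).mono fun y hy => hy g hg) y hy

end Vale.Agent.P274
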