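import Vale.Agent.P274.Flow

open Set Filter Topology Metric MeasureTheory Asymptotics

namespace Vale.Agent.P274

namespace SumAux

theorem tlu_iff {ι α β : Type*} [TopologicalSpace α] [UniformSpace β] {F : ι → α → β} {f : α → β}
    {p : Filter ι} {s : Set α} (hf : ContinuousOn f s) :
    TendstoLocallyUniformlyOn F f p s ↔
      ∀ x ∈ s, Tendsto (fun y : ι × α => F y.1 y.2) (p ×ˢ 𝓝[s] x) (𝓝 (f x)) := by
  rw [tendstoLocallyUniformlyOn_iff_forall_tendsto]
  refine forall₂_congr fun x hx => ?_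
  have h1 : Tendsto (fun y : ι × α => f y.2) (p ×ˢ 𝓝[s] x) (𝓝 (f x)) :=
    (hf x hx).tendsto.comp tendsto_snd
  exact ⟨fun h => h1.congr_uniformity h,
    fun h => (h1.prodMk_nhds h).mono_right (nhds_le_uniformity _)⟩

variable {E : Type*} [NormedAddCommGroup E] [NormedSpace ℂ E] [FiniteDimensional ℂ E] {B : Set E}

theorem tend_sum (hB : IsOpen B) (hb : Bornology.IsBounded B) {X Y : E → E} {φ ψ : ℝ → E → E}
    (hX : ContinuousOn X B) (hY : ContinuousOn Y B) (h1 : Flow B X φ) (h2 : Flow B Y ψ) :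
    TendstoLocallyUniformlyOn (fun (t : ℝ) x => t⁻¹ • (φ t (ψ t x) - x)) (X + Y) (𝓝[≠] 0) B := by
  rw [tlu_iff (hX.add hY)]
  intro x hx
  have a1 := (tlu_iff hX).1 (h1.quot hB hb hX) x hx
  have a2 := (tlu_iff hY).1 (h2.quot hB hb hY) x hx
  have a3 : Tendsto (fun y : ℝ × E => ψ y.1 y.2) (𝓝[≠] 0 ×ˢ 𝓝[B] x) (𝓝[B] x) := by
    have c := (h2.continuousOn hB hb (0, x) ⟨mem_univ _, hx⟩).tendsto
    rw [nhdsWithin_prod_eq, nhdsWithin_univ] at c
    simp only [h2.zero x hx] at c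
    refine tendsto_nhdsWithin_iff.2 ⟨c.mono_left (prod_mono nhdsWithin_le_nhds le_rfl), ?_⟩
    filter_upwards [tendsto_snd.eventually (self_mem_nhdsWithin (s := B) (a := x))] with y hy
    exact h2.maps _ hy
  have a4 := a1.comp (tendsto_fst.prodMk a3)
  refine (a4.add a2).congr fun y => ?_
  simp only [Function.comp, ← smul_add]
  congr 1
  abel

theorem tend_nat : Tendsto (fun j : ℕ => (j : ℝ)⁻¹) atTop (𝓝[≠] 0) := by
  refine tendsto_nhdsWithin_iff.2 ⟨tendsto_inv_atTop_nhds_zero_nat, ?_⟩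
  filter_upwards [eventually_gt_atTop 0] with j hj
  simpa using hj.ne'

theorem exp_unique {A : Type*} [NormedRing A] [NormedAlgebra ℂ A] [CompleteSpace A] {M : A}
    {L : ℝ → A} (hL : ∀ t, HasDerivAt L (M * L t) t) (h0 : L 0 = 1) (t : ℝ) :
    L t = NormedSpace.exp ((t : ℂ) • M) := by
  let _ : NormedAlgebra ℚ A := NormedAlgebra.restrictScalars ℚ ℂ A
  have h1 : ∀ s : ℝ, HasDerivAt (fun u : ℝ => NormedSpace.exp ((u : ℂ) • (-M)))
      (NormedSpace.exp ((s : ℂ) • (-M)) * (-M)) s := fun s => by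
    have := (hasDerivAt_exp_smul_const (𝕂 := ℂ) (-M) (s : ℂ)).scomp s
      (Complex.ofRealCLM.hasDerivAt (x := s))
    simpa [Function.comp_def] using this
  have h2 : ∀ s : ℝ, HasDerivAt (fun u : ℝ => NormedSpace.exp ((u : ℂ) • (-M)) * L u) 0 s :=
    fun s => by
    exact ((h1 s).fun_mul (hL s)).congr_deriv (by simp [mul_assoc])
  have h3 := is_const_of_deriv_eq_zero (fun s => (h2 s).differentiableAt) (fun s => (h2 s).deriv)
    t 0
  simp only [Complex.ofReal_zero, zero_smul, NormedSpace.exp_zero, h0, mul_one] at h3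
  have h4 : NormedSpace.exp ((t : ℂ) • M) * NormedSpace.exp ((t : ℂ) • (-M)) = 1 := by
    rw [← NormedSpace.exp_add_of_commute (((Commute.refl M).neg_right.smul_left _).smul_right _)]
    simp
  rw [← one_mul (L t), ← h4, mul_assoc, h3, mul_one]

theorem iso1 (hB : IsOpen B) (hb : Bornology.IsBounded B) {e : E} (he : e ∈ B) {X : E → E}
    {φ : ℝ → E → E} (hX : DifferentiableOn ℂ X B) (h : Flow B X φ) (h0 : X e = 0) :
    (∀ t, φ t e = e ∧ fderiv ℂ (φ t) e = NormedSpace.exp ((t : ℂ) • fderiv ℂ X e)) ∧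
      ∃ C : ℝ, ∀ t : ℝ, ‖NormedSpace.exp ((t : ℂ) • fderiv ℂ X e)‖ ≤ C := by
  have : CompleteSpace E := FiniteDimensional.complete ℂ E
  have h1 : ∀ t, φ t e = e := fun t => congrFun (curve_unique hB hX (c₁ := fun t => φ t e)
    (c₂ := fun _ => e) (fun t => ⟨h.maps t he, h.deriv e he t⟩)
    (fun t => ⟨he, h0 ▸ hasDerivAt_const t e⟩) (h.zero e he)) t
  have h2 : ∀ t, fderiv ℂ (φ t) e = NormedSpace.exp ((t : ℂ) • fderiv ℂ X e) := by
    refine exp_unique (fun t => ?_) ?_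
    · have := h.hasDerivAt_fderiv hB hb hX he t
      rw [h1 t] at this
      exact this
    · have : φ 0 =ᶠ[𝓝 e] id := eventually_of_mem (hB.mem_nhds he) h.zero
      rw [this.fderiv_eq, fderiv_id]
      rfl
  refine ⟨fun t => ⟨h1 t, h2 t⟩, ?_⟩
  obtain ⟨r, hr, hrB⟩ := Metric.isOpen_iff.1 hB e he
  obtain ⟨M, hM⟩ := hb.exists_norm_le
  refine ⟨2 * M / r, fun t => ?_⟩
  rw [← h2 t]
  exact norm_fderiv_le_of_bdd hr ((h.hol t).mono hrB) fun y hy => hM _ (h.maps t (hrB hy))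

theorem hasDerivAt_det {n : Type*} [Fintype n] [DecidableEq n] {A : ℝ → Matrix n n ℝ}
    {A' : Matrix n n ℝ} (h : ∀ i j, HasDerivAt (fun t => A t i j) (A' i j) 0) (h0 : A 0 = 1) :
    HasDerivAt (fun t => (A t).det) A'.trace 0 := by
  let D : ContinuousMultilinearMap ℝ (fun _ : n => n → ℝ) ℝ :=
    ⟨(Matrix.detRowAlternating : (n → ℝ) [⋀^n]→ₗ[ℝ] ℝ).toMultilinearMap,
      (continuous_id (X := Matrix n n ℝ)).matrix_det⟩
  have h1 : HasDerivAt (fun t => (fun i j => A t i j : n → n → ℝ)) (fun i j => A' i j) 0 :=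
    hasDerivAt_pi.2 fun i => hasDerivAt_pi.2 fun j => h i j
  have h2 := (D.hasFDerivAt _).comp_hasDerivAt 0 h1
  refine HasDerivAt.congr_deriv h2 (Eq.symm ?_)
  rw [ContinuousMultilinearMap.linearDeriv_apply, Matrix.trace]
  refine Finset.sum_congr rfl fun i _ => ?_
  have h3 := Matrix.cramer_transpose_apply (1 : Matrix n n ℝ) (A' i) i
  rw [Matrix.transpose_one, Matrix.cramer_one] at h3
  rw [h0]
  exact h3

theorem eq_exp {δ : ℝ → ℝ} {c : ℝ} (hm : ∀ s t, δ (s + t) = δ s * δ t) (h0 : δ 0 = 1)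
    (hd : HasDerivAt δ c 0) : δ 1 = Real.exp c := by
  have h1 : ∀ t, HasDerivAt δ (δ t * c) t := fun t => by
    have a : HasDerivAt (fun s => δ (s - t)) c t := by
      have := HasDerivAt.comp_sub_const (f := δ) (f' := c) t t (by rwa [sub_self])
      exact this
    refine (a.const_mul (δ t)).congr_of_eventuallyEq (Eventually.of_forall fun s => ?_)
    simp only [← hm, add_sub_cancel]
  have h2 : ∀ t, HasDerivAt (fun t => Real.exp (-c * t) * δ t) 0 t := fun t => by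
    exact ((((hasDerivAt_id' t).const_mul (-c)).exp).fun_mul (h1 t)).congr_deriv (by ring)
  have h3 := is_const_of_deriv_eq_zero (fun s => (h2 s).differentiableAt) (fun s => (h2 s).deriv)
    1 0
  simp only [mul_one, mul_zero, Real.exp_zero, h0] at h3
  rw [Real.exp_neg, inv_mul_eq_one₀ (Real.exp_ne_zero c)] at h3
  exact h3.symm

theorem ad_zero (hB : IsOpen B) {X Z : E → E} {φ : ℝ → E → E} (h : Flow B X φ)
    (hZ : ∀ x, x ∉ B → Z x = 0) : Ad B (φ 0) (φ (-0)) Z = Z := by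
  rw [Ad_congr (g := fun x => x) (g' := fun x => x) hB (mapsTo_id B) h.zero
    (fun y hy => by rw [neg_zero, h.zero y hy]), Ad_id hZ]

theorem tend_br (hB : IsOpen B) (hb : Bornology.IsBounded B) {X Y : E → E} {φ : ℝ → E → E}
    (hX : DifferentiableOn ℂ X B) (hY : Cpl B Y) (h : Flow B X φ) :
    Tendsto (fun t : ℝ => t⁻¹ • (Ad B (φ t) (φ (-t)) Y - Y)) (𝓝[≠] 0) (𝓝 (-br B X Y)) := by
  refine tendsto_pi_nhds.2 fun y => ?_
  have h1 := (h.hasDerivAt_Ad hB hb hX hY.1 y 0).tendsto_slope_zero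
  rw [ad_zero hB h hY.2.1, ad_zero hB h (Z := br B X Y) (fun x hx => indicator_of_notMem hx _)] at h1
  simpa using h1

theorem br_mem (hB : IsOpen B) (hb : Bornology.IsBounded B) {𝔤 : Submodule ℝ (E → E)}
    (h𝔤 : ∀ X, X ∈ 𝔤 ↔ Cpl B X) [FiniteDimensional ℝ 𝔤] {X Y : E → E} (hX : X ∈ 𝔤) (hY : Y ∈ 𝔤) :
    br B X Y ∈ 𝔤 := by
  obtain ⟨h1, -, φ, h⟩ := (h𝔤 X).1 hX
  obtain ⟨h2, -, ψ, h'⟩ := (h𝔤 Y).1 hY
  rw [← neg_mem_iff]
  refine 𝔤.closed_of_finiteDimensional.mem_of_tendsto (tend_br hB hb h1 ((h𝔤 Y).1 hY) h)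
    (Eventually.of_forall fun t => 𝔤.smul_mem _ (𝔤.sub_mem ?_ hY))
  exact (h𝔤 _).2 (h'.cpl_ad hB hB (h.bihol hB t) h2)

omit [FiniteDimensional ℂ E] in
theorem br_add_left (hB : IsOpen B) {X X' : E → E} (hX : DifferentiableOn ℂ X B)
    (hX' : DifferentiableOn ℂ X' B) (Y : E → E) : br B (X + X') Y = br B X Y + br B X' Y := by
  funext x
  by_cases hx : x ∈ B
  · simp only [br, indicator_of_mem hx, Pi.add_apply, map_add,
      fderiv_add (hX.differentiableAt (hB.mem_nhds hx)) (hX'.differentiableAt (hB.mem_nhds hx)),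
      add_apply]
    abel
  · simp [br, indicator_of_notMem hx]

omit [FiniteDimensional ℂ E] in
theorem br_smul_left (hB : IsOpen B) {X : E → E} (hX : DifferentiableOn ℂ X B) (c : ℝ)
    (Y : E → E) : br B (c • X) Y = c • br B X Y := by
  funext x
  by_cases hx : x ∈ B
  · simp only [br, indicator_of_mem hx, Pi.smul_apply, ContinuousLinearMap.map_smul_of_tower,
      fderiv_const_smul (hX.differentiableAt (hB.mem_nhds hx)), smul_apply,
      smul_sub]
  · simp [br, indicator_of_notMem hx]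

omit [FiniteDimensional ℂ E] in
theorem br_swap (X Y : E → E) : br B X Y = -br B Y X := by
  funext x
  by_cases hx : x ∈ B
  · simp [br, indicator_of_mem hx]
  · simp [br, indicator_of_notMem hx]

end SumAux

open SumAux

/-- Sketch. `0`: flow `fun _ x => x`. Scalars: `Flow.smul`. Sum: apply `S_TC` to
`g j = φ (1/j) ∘ ψ (1/j)` (`Flow.bihol`, `Bihol.trans`); `j • (g j x - x) = j • (φ (1/j) y - y) + j • (ψ (1/j) x - x)`
with `y = ψ (1/j) x → x` locally uniformly; use `Flow.quot`, `Flow.continuousOn`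
(e.g. through `tendstoLocallyUniformlyOn_iff_forall_tendsto`/`tendstoLocallyUniformlyOn_iff_filter`). -/
theorem Sum_pf (h : S_TC) : S_Sum := by
  intro E _ _ _ B d r₀ hB hb hC
  refine ⟨{ carrier := {X | Cpl B X}, add_mem' := ?_, zero_mem' := ?_, smul_mem' := ?_ },
    fun X => Iff.rfl⟩
  · rintro X Y ⟨hX, hX0, φ, h1⟩ ⟨hY, hY0, ψ, h2⟩
    refine ⟨hX.add hY, fun x hx => by simp [hX0 x hx, hY0 x hx], ?_⟩
    refine h E B d r₀ hB hb hC _ _ _
      (fun j => (h2.bihol hB (j : ℝ)⁻¹).trans (h1.bihol hB (j : ℝ)⁻¹))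
      (hX.add hY).continuousOn ?_
    have h3 := tend_sum hB hb hX.continuousOn hY.continuousOn h1 h2
    rw [tlu_iff (hX.add hY).continuousOn] at h3 ⊢
    intro x hx
    simpa [Function.comp_def] using (h3 x hx).comp (tend_nat.prodMap tendsto_id)
  · exact ⟨differentiableOn_const 0, fun _ _ => rfl, fun _ x => x, fun _ => mapsTo_id B,
      fun _ => differentiableOn_id, fun _ _ => rfl, fun _ _ _ _ => rfl,
      fun x _ t => hasDerivAt_const t x⟩
  · rintro c X ⟨hX, hX0, φ, h1⟩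
    exact ⟨hX.const_smul c, fun x hx => by simp [hX0 x hx], _, h1.smul c⟩

/-- Sketch. (1) `curve_unique` with the constant curve; `L t = fderiv ℂ (φ t) e` solves
`L' = (fderiv X e) * L`, `L 0 = 1` (`Flow.hasDerivAt_fderiv`), so `exp (-t M) * L t` is constant
(`hasDerivAt_exp_smul_const`); the bound is `norm_fderiv_le_of_bdd`. (2) then `φ t = id` on `B` by
`S_Cartan`, differentiate. (3) the real linear map `X ↦ (X e, fderiv ℂ X e)` on `𝔤` is injective. -/
theorem Iso_pf (h : S_Cartan) : S_Iso := by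
  intro E _ _ _ B hB hc hb e he
  have h2 : ∀ X, Cpl B X → X e = 0 → fderiv ℂ X e = 0 → X = 0 := by
    rintro X ⟨hX, hX0, φ, h1⟩ h0 h0'
    funext x
    by_cases hx : x ∈ B
    · have h3 : ∀ t, φ t x = x := fun t => by
        have h4 := (iso1 hB hb he hX h1 h0).1 t
        rw [h0', smul_zero, NormedSpace.exp_zero] at h4
        exact h E B hB hc hb (φ t) e he (h1.hol t) (h1.maps t) h4.1 h4.2 x hx
      have h5 := h1.deriv x hx 0
      simp only [h3] at h5
      exact h5.unique (hasDerivAt_const _ _)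
    · exact hX0 x hx
  refine ⟨fun X φ hX h1 h0 => iso1 hB hb he hX h1 h0, h2, fun 𝔤 h𝔤 => ?_⟩
  have hd : ∀ X : 𝔤, DifferentiableAt ℂ (X : E → E) e := fun X =>
    ((h𝔤 X).1 X.2).1.differentiableAt (hB.mem_nhds he)
  let J : 𝔤 →ₗ[ℝ] E × (E →L[ℂ] E) :=
    { toFun := fun X => ((X : E → E) e, fderiv ℂ (X : E → E) e)
      map_add' := fun X Y => by
        simp only [Submodule.coe_add, Pi.add_apply, fderiv_add (hd X) (hd Y), Prod.mk_add_mk]
      map_smul' := fun c X => by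
        simp only [Submodule.coe_smul, Pi.smul_apply, fderiv_const_smul (hd X), RingHom.id_apply,
          Prod.smul_mk] }
  have : Module.Finite ℝ (E × (E →L[ℂ] E)) := Module.Finite.trans ℂ _
  refine FiniteDimensional.of_injective J ((injective_iff_map_eq_zero J).2 fun X hX => ?_)
  exact Subtype.ext (h2 X ((h𝔤 X).1 X.2) (congrArg Prod.fst hX) (congrArg Prod.snd hX))

/-- Sketch. For `X Y ∈ 𝔤` with flow `φ` of `X`, `t⁻¹ • (Ad (φ t) Y - Y) ∈ 𝔤` (`exists_AdL`, `Ad_id`,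
`Ad_congr`) tends pointwise to `-br B X Y` (`Flow.hasDerivAt_Ad` at `0`); `𝔤` is closed in the product
topology (`Submodule.closed_of_finiteDimensional`). Bilinearity: `fderiv_add`, `fderiv_const_smul` on the
open `B` (`LinearMap.mk₂`). Let `L t` be the adjoint map of `φ t`: `L (s+t) = L s * L t` (`Ad_Ad`), the
matrix entries of `L t` in a basis have derivative `-(ad X)` at `0` (linear functionals on the
finite-dimensional Hausdorff space `𝔤` are continuous), so `δ t = det (L t)` is multiplicative with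
derivative `-trace (ad X)` at `0` (`Matrix.det_one_add_smul` and differentiability of `det`, or the
Leibniz formula `Matrix.det_apply` with `HasDerivAt.finset_prod`), hence `δ t = exp (-t trace)`. -/
theorem Br_pf : S_Br := by
  intro E _ _ _ B hB hb 𝔤 h𝔤 hf
  have hd : ∀ X : 𝔤, DifferentiableOn ℂ (X : E → E) B := fun X => ((h𝔤 X).1 X.2).1
  let ad : 𝔤 →ₗ[ℝ] 𝔤 →ₗ[ℝ] 𝔤 := LinearMap.mk₂ ℝ
    (fun X Y : 𝔤 => (⟨br B X Y, br_mem hB hb h𝔤 X.2 Y.2⟩ : 𝔤))
    (fun X X' Y => Subtype.ext (br_add_left hB (hd X) (hd X') Y))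
    (fun c X Y => Subtype.ext (br_smul_left hB (hd X) c Y))
    (fun X Y Y' => Subtype.ext (by
      simp only [Submodule.coe_add]
      rw [br_swap, br_add_left hB (hd Y) (hd Y'), neg_add, ← br_swap, ← br_swap]))
    (fun c X Y => Subtype.ext (by
      simp only [Submodule.coe_smul]
      rw [br_swap, br_smul_left hB (hd Y), ← smul_neg, ← br_swap]))
  have had : ∀ X Y : 𝔤, (ad X Y : E → E) = br B X Y := fun _ _ => rfl
  refine ⟨ad, had, fun X φ h L hL => ?_⟩
  choose Λ hΛ using fun t => exists_AdL hB h𝔤 (h.bihol hB t)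
  have e1 : L = Λ 1 := LinearMap.ext fun Y => Subtype.ext ((hL Y).trans (hΛ 1 Y).symm)
  have e0 : Λ 0 = 1 := LinearMap.ext fun Y => Subtype.ext
    ((hΛ 0 Y).trans (ad_zero hB h ((h𝔤 Y).1 Y.2).2.1))
  have em : ∀ s t, Λ (s + t) = Λ s * Λ t := fun s t => LinearMap.ext fun Y => Subtype.ext (by
    rw [Module.End.mul_apply, hΛ, hΛ, hΛ, Ad_Ad hB hB (h.bihol hB t) (h.bihol hB s)]
    exact Ad_congr hB (fun y hy => h.maps _ (h.maps _ hy)) (h.add s t)
      (fun y hy => by rw [← h.add _ _ y hy]; congr 1; ring) _)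
  have ed : ∀ (ℓ : 𝔤 →ₗ[ℝ] ℝ) (Y : 𝔤), HasDerivAt (fun t => ℓ (Λ t Y)) (ℓ (-ad X Y)) 0 := by
    intro ℓ Y
    have h1 : Tendsto (fun t : ℝ => t⁻¹ • (Λ t Y - Y)) (𝓝[≠] 0) (𝓝 (-ad X Y)) := by
      rw [tendsto_subtype_rng]
      simpa [hΛ, had] using tend_br hB hb (hd X) ((h𝔤 Y).1 Y.2) h
    rw [hasDerivAt_iff_tendsto_slope_zero]
    simpa [e0, Function.comp_def] using (ℓ.continuous_of_finiteDimensional.tendsto _).comp h1
  let b := Module.finBasis ℝ 𝔤
  have h1 := hasDerivAt_det (A := fun t => LinearMap.toMatrix b b (Λ t))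
    (A' := LinearMap.toMatrix b b (-ad X))
    (fun i j => by simpa [LinearMap.toMatrix_apply] using ed (b.coord i) (b j))
    (by simp only [e0, LinearMap.toMatrix_one])
  simp only [LinearMap.det_toMatrix, ← LinearMap.trace_eq_matrix_trace] at h1
  rw [map_neg (LinearMap.trace ℝ 𝔤)] at h1
  rw [e1]
  exact eq_exp (δ := fun t => LinearMap.det (Λ t)) (fun s t => by simp only [em, map_mul])
    (by simp only [e0, map_one]) h1

end Vale.Agent.P274
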