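import Vale.Agent.P274.StB

open Set Filter Topology Metric MvPolynomial MeasureTheory

namespace Vale.Agent.P274

namespace SuppAux

variable {X Y E : Type} [NormedAddCommGroup X] [NormedSpace ℝ X] [FiniteDimensional ℝ X]
  [NormedAddCommGroup Y] [NormedSpace ℝ Y] [FiniteDimensional ℝ Y]
  [NormedAddCommGroup E] [InnerProductSpace ℝ E] [FiniteDimensional ℝ E]

theorem null_image [MeasurableSpace Y] [BorelSpace Y] [MeasurableSpace E] [BorelSpace E]
    (ν : Measure Y) [ν.IsAddHaarMeasure] (ρ : Measure E) [ρ.IsAddHaarMeasure]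
    (h : Module.finrank ℝ E = Module.finrank ℝ Y) {Ξ : Y → E} {M : Set Y}
    (hΞ : DifferentiableOn ℝ Ξ M) (hM : ν M = 0) : ρ (Ξ '' M) = 0 := by
  let Λ : E ≃L[ℝ] Y := ContinuousLinearEquiv.ofFinrankEq h
  have h1 := addHaar_image_eq_zero_of_differentiableOn_of_addHaar_eq_zero ν
    (Λ.differentiable.comp_differentiableOn hΞ) hM
  have h2 := Measure.absolutelyContinuous_isAddHaarMeasure (ρ.map Λ) ν h1
  refine measure_mono_null ?_ (Measure.preimage_null_of_map_null Λ.continuous.aemeasurable h2)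
  rintro _ ⟨p, hp, rfl⟩
  exact ⟨p, hp, rfl⟩

omit [FiniteDimensional ℝ X] [FiniteDimensional ℝ E] in
theorem fermat {ψ : X → E} {N : Set X} {K : Set E} {x : X} (hN : N ∈ 𝓝 x)
    (hψ : DifferentiableAt ℝ ψ x) (hK : ∀ y ∈ N, ψ y ∈ K) {a : E}
    (h : ∀ w ∈ K, ‖w - a‖ ≤ ‖ψ x - a‖) (v : X) : inner ℝ (fderiv ℝ ψ x v) (ψ x - a) = 0 := by
  have h1 : IsLocalMax (fun y => ‖ψ y - a‖ ^ 2) x := by
    filter_upwards [hN] with y hy using pow_le_pow_left₀ (norm_nonneg _) (h _ (hK y hy)) 2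
  have h2 := congrArg (· v) (h1.hasFDerivAt_eq_zero (hψ.hasFDerivAt.sub_const a).norm_sq)
  rw [real_inner_comm, inner_sub_left]
  simpa using h2

theorem frame {ψ : X → E} {N : Set X} (hN : IsOpen N) (hψ : AnalyticOnNhd ℝ ψ N) {x₀ : X}
    (hx : x₀ ∈ N) (hi : Function.Injective (fderiv ℝ ψ x₀)) :
    ∃ (N' : Set X) (P : Submodule ℝ E) (W : X → E →L[ℝ] E), IsOpen N' ∧ x₀ ∈ N' ∧ N' ⊆ N ∧
      Module.finrank ℝ E = Module.finrank ℝ (X × P) ∧ DifferentiableOn ℝ W N' ∧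
      ∀ x ∈ N', ∀ b, (∀ v, inner ℝ (fderiv ℝ ψ x v) b = 0) → ∃ c : P, W x c = b := by
  obtain ⟨R, hR⟩ := (fderiv ℝ ψ x₀).toLinearMap.exists_leftInverse_of_injective
    (LinearMap.ker_eq_bot.2 hi)
  let T : X → E →L[ℝ] E := fun x =>
    1 + (fderiv ℝ ψ x - fderiv ℝ ψ x₀) ∘L LinearMap.toContinuousLinearMap R
  have h1 : ∀ x v, T x (fderiv ℝ ψ x₀ v) = fderiv ℝ ψ x v := fun x v => by
    have h2 : R (fderiv ℝ ψ x₀ v) = v := LinearMap.congr_fun hR v
    simp [T, h2]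
  have h2 : DifferentiableOn ℝ (fun x => star (T x)) N :=
    (((hψ.fderiv.differentiableOn.sub_const _).clm_comp (differentiableOn_const _)).const_add
      _).star
  refine ⟨N ∩ (fun x => star (T x)) ⁻¹' {u | IsUnit u}, (fderiv ℝ ψ x₀).toLinearMap.rangeᗮ,
    fun x => Ring.inverse (star (T x)), h2.continuousOn.isOpen_inter_preimage hN Units.isOpen,
    ⟨hx, by simp [T]⟩, inter_subset_left, ?_,
    (h2.mono inter_subset_left).inverse fun x hx => hx.2, fun x hx b hb => ⟨⟨star (T x) b, ?_⟩, ?_⟩⟩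
  · rw [Module.finrank_prod, ← LinearMap.finrank_range_of_inj (f := (fderiv ℝ ψ x₀).toLinearMap) hi,
      Submodule.finrank_add_finrank_orthogonal]
  · rintro _ ⟨v, rfl⟩
    rw [ContinuousLinearMap.star_eq_adjoint, ContinuousLinearMap.adjoint_inner_right]
    exact (congrArg (inner ℝ · b) (h1 x v)).trans (hb v)
  · exact congrArg (· b) (Ring.inverse_mul_cancel _ hx.2)

theorem loc [MeasurableSpace X] [BorelSpace X] [MeasurableSpace E] [BorelSpace E]
    (μ : Measure X) [μ.IsAddHaarMeasure] (ρ : Measure E) [ρ.IsAddHaarMeasure]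
    {ψ : X → E} {N : Set X} {K : Set E} (hN : IsOpen N) (hψ : AnalyticOnNhd ℝ ψ N)
    (hK : ∀ x ∈ N, ψ x ∈ K)
    (h : ∀ᵐ x ∂μ, x ∈ N → ¬ ((∃ b, ∀ w ∈ K, ‖w - (ψ x - b)‖ ≤ ‖b‖) ∧
      ∀ u, (∀ b, (∀ w ∈ K, ‖w - (ψ x - b)‖ ≤ ‖b‖) → inner ℝ u b = 0) → u ∈ range (fderiv ℝ ψ x)))
    {x₀ : X} (hx : x₀ ∈ N) (hi : Function.Injective (fderiv ℝ ψ x₀)) :
    ∃ N' ∈ 𝓝[N] x₀, N' ⊆ N ∧ ∀ᵐ a ∂ρ, ∀ x ∈ N', ¬ ∀ w ∈ K, ‖w - a‖ ≤ ‖ψ x - a‖ := by
  obtain ⟨N', P, W, h1, h2, h3, h4, h5, h6⟩ := frame hN hψ hx hi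
  refine ⟨N', mem_nhdsWithin_of_mem_nhds (h1.mem_nhds h2), h3, ?_⟩
  have h7 : DifferentiableOn ℝ (fun p : X × P => W p.1 p.2) (N' ×ˢ univ) :=
    (h5.comp differentiableOn_fst fun p hp => hp.1).clm_apply
      (P.subtypeL.differentiable.comp differentiable_snd).differentiableOn
  have h8 : DifferentiableOn ℝ (fun p : X × P => ψ p.1 - W p.1 p.2) (N' ×ˢ univ) :=
    (hψ.differentiableOn.comp differentiableOn_fst fun p hp => h3 hp.1).sub h7
  have h9 : IsClosed {q : E × E | ∀ w ∈ K, ‖w - q.1‖ ≤ ‖q.2‖} := by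
    simp only [ofPred_forall]
    exact isClosed_iInter fun w => isClosed_iInter fun _ => isClosed_le (by fun_prop) (by fun_prop)
  have h10 := (h1.prod isOpen_univ).measurableSet.diff ((h8.continuousOn.prodMk
    h7.continuousOn).isOpen_inter_preimage (h1.prod isOpen_univ) h9.isOpen_compl).measurableSet
  have h11 := null_image (μ.prod Measure.addHaar) ρ h4 (h8.mono sdiff_subset)
    (Measure.measure_prod_null_of_ae_null h10 ?_)
  · filter_upwards [measure_eq_zero_iff_ae_notMem.1 h11] with a ha x hx' hw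
    obtain ⟨c, hc⟩ := h6 x hx' _ (fermat (hN.mem_nhds (h3 hx')) (hψ x (h3 hx')).differentiableAt
      hK hw)
    refine ha ⟨(x, c), ⟨⟨hx', trivial⟩, fun h' => h'.2 ?_⟩, ?_⟩
    · simpa only [mem_ofPred_eq, hc, sub_sub_cancel] using hw
    · simp only [hc, sub_sub_cancel]
  · filter_upwards [h] with x hx'
    have h12 : ∀ c : P, (x, c) ∈ N' ×ˢ (univ : Set P) \ (N' ×ˢ (univ : Set P) ∩
        (fun p : X × P => (ψ p.1 - W p.1 p.2, W p.1 p.2)) ⁻¹'
          {q : E × E | ∀ w ∈ K, ‖w - q.1‖ ≤ ‖q.2‖}ᶜ) →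
        x ∈ N' ∧ ∀ w ∈ K, ‖w - (ψ x - W x c)‖ ≤ ‖W x c‖ :=
      fun c hc => ⟨hc.1.1, not_not.1 fun h' => hc.2 ⟨hc.1, h'⟩⟩
    by_cases h13 : ∃ c : P, x ∈ N' ∧ ∀ w ∈ K, ‖w - (ψ x - W x c)‖ ≤ ‖W x c‖
    · obtain ⟨c₀, h13, h14⟩ := h13
      obtain ⟨u, h15⟩ := not_forall.1 fun h' => hx' (h3 h13) ⟨⟨_, h14⟩, h'⟩
      obtain ⟨h15, h16⟩ := Classical.not_imp.1 h15
      refine measure_mono_null (fun c hc => h15 _ (h12 c hc).2) (Measure.addHaar_submodule _
        (LinearMap.ker (innerSL ℝ u ∘L W x ∘L P.subtypeL).toLinearMap) fun h17 => h16 ?_)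
      have h18 : u ∈ (fderiv ℝ ψ x).toLinearMap.rangeᗮᗮ := fun b hb => by
        obtain ⟨c, rfl⟩ := h6 x h13 b fun v => hb _ ⟨v, rfl⟩
        rw [real_inner_comm]
        exact h17.ge (Submodule.mem_top (x := c))
      rwa [Submodule.orthogonal_orthogonal] at h18
    · exact measure_mono_null (fun c hc => h13 ⟨c, h12 c hc⟩) measure_empty

end SuppAux

/-- Sketch. By contradiction; cover `N` by countably many small open sets (Lindelöf,
`TopologicalSpace.countable_cover_nhdsWithin`), so it suffices to show: every `x₀ ∈ N` has an open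
neighbourhood `N' ⊆ N` for which the set of `a` having a farthest point `ψ x`, `x ∈ N'`, is null. Let
`A x = fderiv ℝ ψ x`, `A₀ = A x₀`, `N₀ = (range A₀)ᗮ`, and `N'` such that `S x = adjoint (A x) ∘ A₀` is
invertible (use `EuclideanSpace ℝ (Fin d)` or matrices for the adjoint, or replace adjoints by the
covectors `⟪A x (e i), ·⟫`). `Ξ (x, c) = c + A₀ ((S x)⁻¹ (adjoint (A x) (ψ x - c)))` is differentiable on
`N' ×ˢ univ`, `dim (X × N₀) = L`. If `ψ x` is farthest from `a` on `K ⊇ ψ '' N` then `ψ x - a ⊥ range (A x)`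
(Fermat) and `a = Ξ (x, c)` with `c` the orthogonal projection of `a` on `N₀`. The set
`M = {(x,c) | x ∈ N' ∧ ∀ w ∈ K, ‖w - Ξ (x,c)‖ ≤ ‖ψ x - Ξ (x,c)‖}` is measurable (relatively closed). For a.e.
`x` its fibre is empty or there is `u ∉ range (A x)` orthogonal to all `b = ψ x - Ξ (x,c)`; the affine map
`c ↦ ⟪u, ψ x - Ξ (x,c)⟫` is not identically zero (`c ↦ ψ x - Ξ (x,c)` is onto `(range (A x))ᗮ`), so the
fibre lies in a proper affine subspace and is null (`Measure.addHaar_affineSubspace`). So `M` is null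
(`Measure.measure_prod_null`), and so is `Ξ '' M` (transport by a linear isomorphism
`X × N₀ ≃ EuclideanSpace` and `addHaar_image_eq_zero_of_differentiableOn_of_addHaar_eq_zero`). -/
theorem Supp_pf : S_Supp := by
  intro d L ψ N K hN hψ hi hK h1 h2
  choose! f hf hf' hf'' using fun x hx => SuppAux.loc volume volume hN hψ hK h2 hx (hi x hx)
  obtain ⟨t, ht, htc, hc⟩ := TopologicalSpace.countable_cover_nhdsWithin hf
  refine h1 (((ae_ball_iff htc).2 fun x hx => hf'' x (ht hx)).mono fun a ha x hx => ?_)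
  obtain ⟨y, hy, h3⟩ := mem_iUnion₂.1 (hc hx)
  exact ha y hy x h3

end Vale.Agent.P274
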