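import Vale.Agent.P274.Flow

open Set Filter Topology Metric MeasureTheory Asymptotics

namespace Vale.Agent.P274

namespace SymAux

open Module LinearMap in
/-- The linear algebra of an endomorphism with `T ^ 3 = T` and trace zero. -/
theorem lin {V E : Type*} [AddCommGroup V] [Module ℝ V] [FiniteDimensional ℝ V] [AddCommGroup E]
    [Module ℝ E] [FiniteDimensional ℝ E] (T : V →ₗ[ℝ] V) (h3 : ∀ v, T (T (T v)) = T v)
    (htr : trace ℝ V T = 0) (a b : V →ₗ[ℝ] E) (ha : ∀ v, a (T v) = -a v)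
    (hs : Function.Surjective a) (hb : ∀ v, T v = v → b v = 0 → v = 0) (y : E) :
    ∃ v, T v = v ∧ b v = y := by
  have m1 : ∀ v, v ∈ ker (T - LinearMap.id) ↔ T v = v := fun v => by simp [sub_eq_zero]
  have m2 : ∀ v, v ∈ ker (T + LinearMap.id) ↔ T v = -v := fun v => by
    simp [add_eq_zero_iff_eq_neg]
  have p1 : IsProj (ker (T - LinearMap.id)) ((1 / 2 : ℝ) • (T ∘ₗ T + T)) :=
    ⟨fun v => (m1 _).2 (by simp [h3, add_comm]), fun v hv => by
      have := (m1 v).1 hv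
      simp only [LinearMap.smul_apply, LinearMap.add_apply, comp_apply, this]
      module⟩
  have p2 : IsProj (ker (T + LinearMap.id)) ((1 / 2 : ℝ) • (T ∘ₗ T - T)) :=
    ⟨fun v => (m2 _).2 (by
      simp only [LinearMap.smul_apply, LinearMap.sub_apply, comp_apply, map_smul, map_sub, h3]
      module), fun v hv => by
      have := (m2 v).1 hv
      simp only [LinearMap.smul_apply, LinearMap.sub_apply, comp_apply, this, map_neg]
      module⟩
  have e1 := p1.trace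
  have e2 := p2.trace
  rw [map_smul, map_add, htr, add_zero] at e1
  rw [map_smul, map_sub, htr, sub_zero, e1] at e2
  have e3 : finrank ℝ (T - LinearMap.id).ker = finrank ℝ (T + LinearMap.id).ker := by
    exact_mod_cast e2
  have e4 : finrank ℝ E ≤ finrank ℝ (T + LinearMap.id).ker :=
    finrank_le_finrank_of_surjective (f := a ∘ₗ (ker (T + LinearMap.id)).subtype) fun z => by
      obtain ⟨v, rfl⟩ := hs z
      refine ⟨⟨_, p2.map_mem v⟩, ?_⟩
      simp only [comp_apply, Submodule.subtype_apply, LinearMap.smul_apply, LinearMap.sub_apply,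
        map_smul, map_sub, ha]
      module
  have e5 : Function.Injective (b ∘ₗ (ker (T - LinearMap.id)).subtype) :=
    (injective_iff_map_eq_zero _).2 fun v hv => Subtype.ext (hb v ((m1 _).1 v.2) hv)
  obtain ⟨v, hv⟩ := (injective_iff_surjective_of_finrank_eq_finrank (le_antisymm
    (finrank_le_finrank_of_injective e5) (e3 ▸ e4))).1 e5 y
  exact ⟨v, (m1 _).1 v.2, hv⟩

open LinearMap in
theorem trace_blocks {V : Type*} [AddCommGroup V] [Module ℝ V] [FiniteDimensional ℝ V]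
    (a b : V →ₗ[ℝ] V) (ha : trace ℝ V a = 0) :
    trace ℝ (V × V) ((a ∘ₗ fst ℝ V V - b ∘ₗ snd ℝ V V).prod (a ∘ₗ snd ℝ V V + b ∘ₗ fst ℝ V V)) =
      0 := by
  have h1 : (a ∘ₗ fst ℝ V V - b ∘ₗ snd ℝ V V) ∘ₗ inl ℝ V V = a := by ext; simp
  have h2 : (a ∘ₗ snd ℝ V V + b ∘ₗ fst ℝ V V) ∘ₗ inr ℝ V V = a := by ext; simp
  have h3 : (a ∘ₗ fst ℝ V V - b ∘ₗ snd ℝ V V).prod (a ∘ₗ snd ℝ V V + b ∘ₗ fst ℝ V V) =
      inl ℝ V V ∘ₗ (a ∘ₗ fst ℝ V V - b ∘ₗ snd ℝ V V) +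
        inr ℝ V V ∘ₗ (a ∘ₗ snd ℝ V V + b ∘ₗ fst ℝ V V) := by
    refine LinearMap.ext fun v => ?_
    simp
  rw [h3, map_add, trace_comp_comm' _ (inl ℝ V V), trace_comp_comm' _ (inr ℝ V V), h1, h2, ha,
    add_zero]

variable {E : Type} [NormedAddCommGroup E] [NormedSpace ℂ E]

theorem eq_of_pm {x y x' y' : E} (h1 : x + Complex.I • y = x' + Complex.I • y')
    (h2 : x - Complex.I • y = x' - Complex.I • y') : x = x' ∧ y = y' := by
  have h3 : x = x' := by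
    have : (2 : ℂ) • x = (2 : ℂ) • x' := by linear_combination (norm := module) h1 + h2
    exact smul_right_injective E two_ne_zero this
  rw [h3] at h1
  exact ⟨h3, smul_right_injective E Complex.I_ne_zero (add_left_cancel h1)⟩

/-- The complexification map with the complex number `c`. -/
noncomputable def kap (𝔤 : Submodule ℝ (E → E)) (c : ℂ) : 𝔤 × 𝔤 →ₗ[ℝ] (E → E) where
  toFun v x := (v.1 : E → E) x + c • (v.2 : E → E) x
  map_add' v w := by
    funext x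
    simp only [Prod.fst_add, Prod.snd_add, Submodule.coe_add, Pi.add_apply, smul_add]
    abel
  map_smul' r v := by
    funext x
    simp only [Prod.smul_fst, Prod.smul_snd, Submodule.coe_smul, Pi.smul_apply, RingHom.id_apply,
      smul_add, smul_comm r c]

theorem kap_apply (𝔤 : Submodule ℝ (E → E)) (c : ℂ) (v : 𝔤 × 𝔤) (x : E) :
    kap 𝔤 c v x = (v.1 : E → E) x + c • (v.2 : E → E) x := rfl

theorem fderiv_kap (𝔤 : Submodule ℝ (E → E)) (c : ℂ) (v : 𝔤 × 𝔤) {x : E}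
    (h1 : DifferentiableAt ℂ (v.1 : E → E) x) (h2 : DifferentiableAt ℂ (v.2 : E → E) x) :
    fderiv ℂ (kap 𝔤 c v) x = fderiv ℂ (v.1 : E → E) x + c • fderiv ℂ (v.2 : E → E) x :=
  (h1.hasFDerivAt.add (h2.hasFDerivAt.const_smul c)).fderiv

theorem exp_smul_id [FiniteDimensional ℂ E] (c : ℂ) :
    NormedSpace.exp (c • ContinuousLinearMap.id ℂ E) =
      Complex.exp c • ContinuousLinearMap.id ℂ E := by
  have := NormedSpace.algebraMap_exp_comm (𝔸 := E →L[ℂ] E) c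
  rw [Algebra.algebraMap_eq_smul_one, Algebra.algebraMap_eq_smul_one] at this
  rw [Complex.exp_eq_exp_ℂ]
  exact this.symm

/-- A complete field with a zero at `e` and linear part `-I` gives the symmetry. -/
theorem sym_of_rot [FiniteDimensional ℂ E] (h1 : S_Cartan) (h2 : S_Iso) {B : Set E}
    (hB : IsOpen B) (hc : IsPreconnected B) (hb : Bornology.IsBounded B) {e : E} (he : e ∈ B)
    {Y : E → E} (hY : Cpl B Y) (h0 : Y e = 0)
    (hd : fderiv ℂ Y e = (-Complex.I) • ContinuousLinearMap.id ℂ E) :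
    ∃ σ : E → E, DifferentiableOn ℂ σ B ∧ MapsTo σ B B ∧ (∀ y ∈ B, σ (σ y) = y) ∧ σ e = e ∧
      ∀ᶠ y in 𝓝[≠] e, σ y ≠ y := by
  obtain ⟨hY1, -, ψ, hψ⟩ := hY
  have h3 := ((h2 E B hB hc hb e he).1 Y ψ hY1 hψ h0).1
  have h4 : ∀ t : ℝ, fderiv ℂ (ψ t) e =
      Complex.exp (-(t * Complex.I)) • ContinuousLinearMap.id ℂ E := fun t => by
    rw [(h3 t).2, hd, smul_smul, exp_smul_id, mul_neg]
  refine ⟨ψ Real.pi, hψ.hol _, hψ.maps _, fun y hy => ?_, (h3 _).1, ?_⟩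
  · rw [← hψ.add _ _ y hy]
    refine h1 E B hB hc hb _ e he (hψ.hol _) (hψ.maps _) (h3 _).1 ?_ y hy
    rw [h4, Complex.exp_neg, Complex.ofReal_add, add_mul, Complex.exp_add, Complex.exp_pi_mul_I]
    simp
  · have h5 := ((hψ.hol Real.pi).differentiableAt (hB.mem_nhds he)).hasFDerivAt
    rw [h4, Complex.exp_neg, Complex.exp_pi_mul_I] at h5
    have h6 := (h5.sub (hasFDerivAt_id e)).eventually_ne (c := 0) ⟨1,
      AddMonoidHomClass.antilipschitz_of_bound _ fun x => by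
        have : ((-1 : ℂ)⁻¹ • ContinuousLinearMap.id ℂ E - ContinuousLinearMap.id ℂ E) x =
            (-2 : ℂ) • x := by
          simp only [_root_.sub_apply, _root_.smul_apply,
            ContinuousLinearMap.id_apply, inv_neg, inv_one]
          module
        rw [this, norm_smul]
        simp only [norm_neg, Complex.norm_ofNat, NNReal.coe_one]
        linarith [norm_nonneg x]⟩
    filter_upwards [h6] with y hy
    exact sub_ne_zero.1 hy

end SymAux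

open SymAux in
/-- Sketch. Let `X₀, Y₀` be the given pair, `Eu = X₀ + I • Y₀`. On `V = 𝔤 × 𝔤` let
`κ (X,Y) = X + I • Y` and `T (X,Y) = (ad X₀ X - ad Y₀ Y, ad X₀ Y + ad Y₀ X)`; near `e`,
`κ (T v) x = fderiv (κ v) x (Eu x) - fderiv Eu x (κ v x)`. `trace T = 2 trace (ad X₀) = 0` (the
off-diagonal part `N (X,Y) = (-ad Y₀ Y, ad Y₀ X)` is conjugate to `-N` by `(X,Y) ↦ (X,-Y)`;
`LinearMap.trace_prodMap'`, `LinearMap.trace_conj'`). By `S_Jet` (`r = 0,1,2`), `κ ((T-1) T (T+1) v) = O(3)`,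
so `(T-1) T (T+1) = 0` by `S_F2`. `p₁ = T (T+1)/2`, `p₋ = T (T-1)/2` are idempotent, `T = p₁ - p₋`, so their
ranges `V₁`, `V₋` have the same dimension (`LinearMap.IsProj.trace`). `v ↦ κ v e` is onto `E` and
`κ (T v) e = -κ v e`, so `κ (p₋ v) e = κ v e` and `finrank V₋ ≥ finrank ℝ E`. For `v = (X,Y) ∈ V₁`:
`T v = v`, so `κ v e = 0` and then `κ v = O(2)`, `fderiv (κ v) e = 0`. The map `V₁ → E`,
`(X,Y) ↦ X e - I • Y e` is injective (`X e = Y e = 0`, first clause of `S_F2` with `c = 0`, `S_Iso`), hence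
onto. Choose `(X₁,Y₁) ∈ V₁` with the same value as `(X₀,Y₀)`; `X = X₀ - X₁`, `Y = Y₀ - Y₁` vanish at `e` and
`fderiv X e + I • fderiv Y e = id`, so `fderiv Y e = -I • id`. Let `ψ` be the flow of `Y`, `σ = ψ π`:
`fderiv σ e = exp (-(I π) • id) = -id`, `σ ∘ σ = ψ (2π)` has derivative `id`, so is the identity by
`S_Cartan`; `y ↦ σ y - y` has derivative `-2 • id` at `e`, so `e` is an isolated fixed point. -/
theorem Sym_pf (h1 : S_Cartan) (h2 : S_Iso) (h3 : S_Jet) (h4 : S_F2) : S_Sym := by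
  rintro E _ _ _ B hB hc hb 𝔤 h𝔤 hfin ad had htr e he ⟨X₀, Y₀, hX₀, hY₀, h00, h01⟩ hs
  have : CompleteSpace E := FiniteDimensional.complete ℂ E
  have hcp : ∀ X : 𝔤, Cpl B X := fun X => (h𝔤 _).1 X.2
  have hbr : ∀ X Y, Cpl B X → Cpl B Y → Cpl B (br B X Y) := fun X Y hX hY => by
    rw [← had ⟨X, (h𝔤 _).2 hX⟩ ⟨Y, (h𝔤 _).2 hY⟩]
    exact hcp _
  have hF := h4 E B hB hc hb hbr e he
  obtain ⟨j1, -, j3⟩ := h3 E e
  have hdf : ∀ X : 𝔤, ∀ x ∈ B, DifferentiableAt ℂ (X : E → E) x := fun X x hx =>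
    (hcp X).1.differentiableAt (hB.mem_nhds hx)
  have han : ∀ v, AnalyticAt ℂ (kap 𝔤 Complex.I v) e := fun v =>
    (analyticOnNhd_of_differentiableOn hB (hcp v.1).1 e he).add
      ((analyticOnNhd_of_differentiableOn hB (hcp v.2).1 e he).const_smul (c := Complex.I))
  have hfd : ∀ v, ∀ x ∈ B, fderiv ℂ (kap 𝔤 Complex.I v) x = fderiv ℂ (v.1 : E → E) x +
      Complex.I • fderiv ℂ (v.2 : E → E) x := fun v x hx =>
    fderiv_kap 𝔤 _ v (hdf _ x hx) (hdf _ x hx)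
  set v₀ : 𝔤 × 𝔤 := (⟨X₀, (h𝔤 _).2 hX₀⟩, ⟨Y₀, (h𝔤 _).2 hY₀⟩) with hv₀
  set T : 𝔤 × 𝔤 →ₗ[ℝ] 𝔤 × 𝔤 :=
    (ad v₀.1 ∘ₗ LinearMap.fst ℝ 𝔤 𝔤 - ad v₀.2 ∘ₗ LinearMap.snd ℝ 𝔤 𝔤).prod
      (ad v₀.1 ∘ₗ LinearMap.snd ℝ 𝔤 𝔤 + ad v₀.2 ∘ₗ LinearMap.fst ℝ 𝔤 𝔤) with hT
  have hT1 : ∀ v, ∀ x ∈ B, kap 𝔤 Complex.I (T v) x =
      fderiv ℂ (kap 𝔤 Complex.I v) x (kap 𝔤 Complex.I v₀ x) -
        fderiv ℂ (kap 𝔤 Complex.I v₀) x (kap 𝔤 Complex.I v x) := fun v x hx => by
    have e1 : (T v).1 = ad v₀.1 v.1 - ad v₀.2 v.2 := rfl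
    have e2 : (T v).2 = ad v₀.1 v.2 + ad v₀.2 v.1 := rfl
    rw [hfd v x hx, hfd v₀ x hx]
    simp only [kap_apply, e1, e2, Submodule.coe_sub, Submodule.coe_add, Pi.sub_apply,
      Pi.add_apply, had, br, indicator_of_mem hx, _root_.add_apply,
      _root_.smul_apply, map_add, map_smul, smul_add, smul_sub, smul_smul,
      Complex.I_mul_I]
    module
  have hT2 : ∀ v (r : ℕ), r ≤ 2 → (kap 𝔤 Complex.I v =O[𝓝 e] fun x => ‖x - e‖ ^ r) →
      kap 𝔤 Complex.I (T v - ((r : ℝ) - 1) • v) =O[𝓝 e] fun x => ‖x - e‖ ^ (r + 1) :=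
    fun v r hr hv => by
      refine (j3 _ _ (han v) (han v₀) h00 ((hfd v₀ e he).trans h01) r hr hv).congr' ?_
        EventuallyEq.rfl
      filter_upwards [hB.mem_nhds he] with x hx
      rw [map_sub, map_smul, Pi.sub_apply, Pi.smul_apply, hT1 v x hx]
  have a0 : ∀ v, kap 𝔤 Complex.I (T v + v) =O[𝓝 e] fun x => ‖x - e‖ ^ 1 := fun v => by
    have := hT2 v 0 (by norm_num) (by
      simpa using (han v).continuousAt.tendsto.isBigO_one ℝ)
    simpa using this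
  have a1 : ∀ v, (kap 𝔤 Complex.I v =O[𝓝 e] fun x => ‖x - e‖ ^ 1) →
      kap 𝔤 Complex.I (T v) =O[𝓝 e] fun x => ‖x - e‖ ^ 2 := fun v hv => by
    simpa using hT2 v 1 (by norm_num) hv
  have a2 : ∀ v, T (T (T v)) = T v := fun v => by
    have b1 := hT2 _ 2 le_rfl (a1 _ (a0 v))
    obtain ⟨b2, b3⟩ := (hF _ _ (hcp _) (hcp _)).2 b1
    have b4 : T (T (T v + v)) - (((2 : ℕ) : ℝ) - 1) • T (T v + v) = 0 :=
      Prod.ext (Subtype.ext b2) (Subtype.ext b3)
    simp only [map_add] at b4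
    linear_combination (norm := module) b4
  have a3 : ∀ v, kap 𝔤 Complex.I (T v) e = -kap 𝔤 Complex.I v e := fun v => by
    have := ((j1 _ (han _)).1).1 (a0 v)
    rwa [map_add, Pi.add_apply, add_eq_zero_iff_eq_neg] at this
  have a4 : ∀ v, T v = v → kap 𝔤 Complex.I v e = 0 ∧ fderiv ℂ (kap 𝔤 Complex.I v) e = 0 :=
    fun v hv => by
      have b1 := a3 v
      rw [hv] at b1
      have b2 : kap 𝔤 Complex.I v e = 0 := by
        have : (2 : ℂ) • kap 𝔤 Complex.I v e = (2 : ℂ) • 0 := by linear_combination (norm := module) b1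
        exact smul_right_injective E two_ne_zero this
      have b3 := a1 v (((j1 _ (han _)).1).2 b2)
      rw [hv] at b3
      exact ((j1 _ (han _)).2).1 b3
  obtain ⟨v₁, b1, b2⟩ := lin T a2 (trace_blocks _ _ (htr _))
    (LinearMap.proj e ∘ₗ kap 𝔤 Complex.I) (LinearMap.proj e ∘ₗ kap 𝔤 (-Complex.I)) a3
    (fun y => by
      obtain ⟨X, Y, hX, hY, h⟩ := hs y
      exact ⟨(⟨X, (h𝔤 _).2 hX⟩, ⟨Y, (h𝔤 _).2 hY⟩), h⟩)
    (fun v hv h => by
      obtain ⟨c1, c2⟩ := a4 v hv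
      have c0 : kap 𝔤 (-Complex.I) v e = 0 := h
      rw [kap_apply] at c0 c1
      obtain ⟨c3, c4⟩ := eq_of_pm (x := (v.1 : E → E) e) (y := (v.2 : E → E) e) (x' := 0)
        (y' := 0) (by simpa using c1)
        (by simpa [sub_eq_add_neg] using c0)
      rw [hfd v e he] at c2
      have c5 := (hF _ _ (hcp v.1) (hcp v.2)).1 0 c3 c4 (by simpa using c2)
      have c6 : fderiv ℂ (v.2 : E → E) e = 0 := by simpa using c5
      have c7 : fderiv ℂ (v.1 : E → E) e = 0 := by simpa [c6] using c2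
      have c8 := (h2 E B hB hc hb e he).2.1
      exact Prod.ext (Subtype.ext (c8 _ (hcp _) c3 c7)) (Subtype.ext (c8 _ (hcp _) c4 c6)))
    (kap 𝔤 (-Complex.I) v₀ e)
  obtain ⟨c1, c2⟩ := a4 v₁ b1
  have c0 : kap 𝔤 (-Complex.I) v₁ e = kap 𝔤 (-Complex.I) v₀ e := b2
  rw [kap_apply, kap_apply, neg_smul, neg_smul, ← sub_eq_add_neg, ← sub_eq_add_neg] at c0
  obtain ⟨c3, c4⟩ := eq_of_pm (c1.trans h00.symm) c0
  have c5 : ((v₀ - v₁).1 : E → E) e = 0 := sub_eq_zero.2 c3.symm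
  have c6 : ((v₀ - v₁).2 : E → E) e = 0 := sub_eq_zero.2 c4.symm
  have c7 := (hF _ _ (hcp _) (hcp _)).1 1 c5 c6 (by
    rw [← hfd _ e he, map_sub, fderiv_sub (han _).differentiableAt (han _).differentiableAt, c2,
      hfd v₀ e he, sub_zero, Complex.ofReal_one, one_smul]
    exact h01)
  exact sym_of_rot h1 h2 hB hc hb he (hcp _) c6 (by simpa using c7)

end Vale.Agent.P274
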