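import Vale.Agent.P274.StD
import Vale.Agent.P274.SCV1

open Set Filter Topology Metric MeasureTheory Asymptotics

namespace Vale.Agent.P274

namespace TCAux

variable {E : Type} [NormedAddCommGroup E] [NormedSpace ℂ E]

theorem exists_pow {B : Set E} {g g' : E → E} (h : Bihol B B g g') :
    ∃ P : ℤ → E → E, (∀ m, MapsTo (P m) B B) ∧ (∀ m, DifferentiableOn ℂ (P m) B) ∧
      (∀ x ∈ B, P 0 x = x) ∧ (∀ x ∈ B, P 1 x = g x) ∧
      ∀ a b, ∀ x ∈ B, P (a + b) x = P a (P b x) := by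
  classical
  let e : Equiv.Perm B := ⟨h.maps.restrict g B B, h.maps'.restrict g' B B,
    fun x => Subtype.ext (h.left x x.2), fun x => Subtype.ext (h.right x x.2)⟩
  obtain ⟨P, hP⟩ : ∃ P : ℤ → E → E, ∀ m x (hx : x ∈ B), P m x = (e ^ m) ⟨x, hx⟩ :=
    ⟨fun m x => if hx : x ∈ B then (e ^ m) ⟨x, hx⟩ else x, fun m x hx => dif_pos hx⟩
  have h1 : ∀ m, MapsTo (P m) B B := fun m x hx => by
    rw [hP m x hx]
    exact Subtype.prop _
  have h2 : ∀ x ∈ B, P 0 x = x := fun x hx => by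
    rw [hP 0 x hx]
    rfl
  have h3 : ∀ x ∈ B, P 1 x = g x := fun x hx => by
    rw [hP 1 x hx, zpow_one]
    rfl
  have h3' : ∀ x ∈ B, P (-1) x = g' x := fun x hx => by
    rw [hP (-1) x hx, zpow_neg_one]
    rfl
  have h4 : ∀ a b, ∀ x ∈ B, P (a + b) x = P a (P b x) := fun a b x hx => by
    rw [hP _ x hx, hP a _ (h1 b hx), zpow_add, Equiv.Perm.mul_apply]
    congr 2
    exact Subtype.ext (hP b x hx).symm
  refine ⟨P, h1, fun m => ?_, h2, h3, h4⟩
  induction m using Int.induction_on with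
  | zero => exact differentiableOn_id.congr h2
  | succ n ih =>
    refine (h.hol.comp_differentiableOn ih (h1 _)).congr fun x hx => ?_
    rw [add_comm, h4 _ _ x hx, h3 _ (h1 _ hx)]
  | pred n ih =>
    refine (h.hol'.comp_differentiableOn ih (h1 _)).congr fun x hx => ?_
    rw [sub_eq_neg_add, h4 _ _ x hx, h3' _ (h1 _ hx)]

theorem dist_pow {B : Set E} {d : E → E → ℝ} {r₀ : ℝ} (hd : Car B d r₀) {P : ℤ → E → E}
    (h1 : ∀ m, MapsTo (P m) B B) (h2 : ∀ m, DifferentiableOn ℂ (P m) B)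
    (h4 : ∀ a b, ∀ x ∈ B, P (a + b) x = P a (P b x)) {x : E} (hx : x ∈ B) {δ : ℝ}
    (hδ : d (P 1 x) x ≤ δ) (m m' : ℤ) : d (P m x) (P m' x) ≤ |(m : ℝ) - m'| * δ := by
  have key : ∀ (m : ℤ) (n : ℕ), d (P (m + n) x) (P m x) ≤ n * δ := by
    intro m n
    induction n with
    | zero => simp [hd.refl _ (h1 m hx)]
    | succ n ih =>
      have k1 := hd.tri _ (h1 (m + n + 1) hx) _ (h1 (m + n) hx) _ (h1 m hx)
      have k2 := hd.contr _ (h2 (m + n)) (h1 _) _ (h1 1 hx) _ hx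
      rw [← h4 _ _ x hx] at k2
      push_cast
      rw [← add_assoc]
      linarith
  rcases le_total m m' with h | h
  · obtain ⟨n, rfl⟩ := Int.le.dest h
    rw [hd.symm _ (h1 _ hx) _ (h1 _ hx)]
    simpa using key m n
  · obtain ⟨n, rfl⟩ := Int.le.dest h
    simpa using key m' n

theorem sum_incr {u : ℤ → E} {v : E} {c : ℝ} {N : ℤ}
    (h : ∀ m, |m| ≤ N → ‖u (m + 1) - u m - v‖ ≤ c) (m : ℤ) (hm : |m| ≤ N) :
    ‖u m - u 0 - (m : ℝ) • v‖ ≤ c * |(m : ℝ)| := by
  induction m using Int.induction_on with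
  | zero => simp
  | succ n ih =>
    rw [abs_le] at hm
    have h1 : |(n : ℤ)| ≤ N := by rw [abs_le]; omega
    have e : u (n + 1) - u 0 - (((n : ℤ) + 1 : ℤ) : ℝ) • v =
        (u (n + 1) - u n - v) + (u n - u 0 - ((n : ℤ) : ℝ) • v) := by
      push_cast
      rw [add_smul, one_smul]
      abel
    rw [e]
    refine (norm_add_le_of_le (h n h1) (ih h1)).trans_eq ?_
    push_cast
    rw [abs_of_nonneg (by positivity), abs_of_nonneg (by positivity)]
    ring
  | pred n ih =>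
    have h1 : |(-n : ℤ)| ≤ N := by
      rw [abs_le] at hm ⊢
      omega
    have e : u (-n - 1) - u 0 - ((-(n : ℤ) - 1 : ℤ) : ℝ) • v =
        (u (-n) - u 0 - ((-(n : ℤ) : ℤ) : ℝ) • v) - (u (-n - 1 + 1) - u (-n - 1) - v) := by
      rw [sub_add_cancel]
      push_cast
      rw [sub_smul, one_smul]
      abel
    rw [e]
    refine (norm_sub_le_of_le (ih h1) (h _ hm)).trans_eq ?_
    push_cast
    have : (0 : ℝ) ≤ n := Nat.cast_nonneg n
    rw [abs_of_nonpos (by linarith), abs_of_nonpos (by linarith)]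
    ring

theorem floor_sub (a b : ℝ) : |(⌊a⌋ : ℝ) - ⌊b⌋| ≤ |a - b| + 1 := by
  rw [abs_le]
  constructor <;> linarith [Int.floor_le a, Int.floor_le b, Int.lt_floor_add_one a,
    Int.lt_floor_add_one b, le_abs_self (a - b), neg_abs_le (a - b)]

theorem floor_lim (h : ℝ) : Tendsto (fun j : ℕ => (⌊j * h⌋ : ℝ) / j) atTop (𝓝 h) := by
  rw [tendsto_iff_norm_sub_tendsto_zero]
  refine squeeze_zero' (Eventually.of_forall fun _ => norm_nonneg _) ?_
    tendsto_one_div_atTop_nhds_zero_nat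
  filter_upwards [eventually_gt_atTop 0] with j hj
  have hj' : (0 : ℝ) < j := by exact_mod_cast hj
  have e : (⌊j * h⌋ : ℝ) / j - h = (⌊j * h⌋ - j * h) / j := by field_simp
  rw [e, Real.norm_eq_abs, abs_div, abs_of_pos hj']
  refine div_le_div_of_nonneg_right ?_ hj'.le
  rw [abs_le]
  constructor <;> linarith [Int.floor_le (j * h), Int.lt_floor_add_one (j * h)]

theorem step_le {B : Set E} {d : E → E → ℝ} {r₀ : ℝ} (hd : Car B d r₀) {g : ℕ → E → E}
    {x v : E} (hx : x ∈ B) (h : Tendsto (fun j : ℕ => (j : ℝ) • (g j x - x)) atTop (𝓝 v)) :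
    ∃ L : ℝ, 0 ≤ L ∧ ∀ᶠ j : ℕ in atTop, d (g j x) x ≤ L / j := by
  obtain ⟨r, hr, L, hL, -, hu⟩ := hd.upper x hx
  refine ⟨L * (‖v‖ + 1), by positivity, ?_⟩
  filter_upwards [h.norm.eventually (gt_mem_nhds (lt_add_one ‖v‖)), eventually_gt_atTop 0,
    (tendsto_const_div_atTop_nhds_zero_nat (‖v‖ + 1)).eventually (gt_mem_nhds hr)] with j h1 hj h2
  have hj' : (0 : ℝ) < j := by exact_mod_cast hj
  rw [norm_smul, Real.norm_eq_abs, abs_of_pos hj'] at h1
  have h3 : ‖g j x - x‖ ≤ (‖v‖ + 1) / j := by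
    rw [le_div_iff₀' hj']
    exact h1.le
  refine (hu _ (mem_ball_iff_norm.2 (h3.trans_lt h2)) _ (mem_ball_self hr)).trans ?_
  rw [mul_div_assoc]
  exact mul_le_mul_of_nonneg_left h3 hL

theorem stay {B : Set E} {d : E → E → ℝ} {r₀ : ℝ} (hd : Car B d r₀) {u : ℕ → ℤ → E} {x : E}
    (hx : x ∈ B) (h0 : ∀ j, u j 0 = x) (hB : ∀ j m, u j m ∈ B) {L : ℝ} (hL : 0 ≤ L)
    (h : ∀ᶠ j : ℕ in atTop, ∀ m m' : ℤ, d (u j m) (u j m') ≤ |(m : ℝ) - m'| * (L / j)) (t : ℝ) :
    ∃ K, IsCompact K ∧ K ⊆ B ∧ ∀ᶠ j : ℕ in atTop, u j ⌊j * t⌋ ∈ K := by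
  have hr := half_pos hd.pos
  obtain ⟨n, hn0, hn⟩ := ((eventually_gt_atTop 0).and
    ((tendsto_const_div_atTop_nhds_zero_nat (|t| * L)).eventually (gt_mem_nhds hr))).exists
  have hn' : (0 : ℝ) < n := by exact_mod_cast hn0
  obtain ⟨K, h1, h2, h3⟩ := hd.reach isCompact_singleton (singleton_subset_iff.2 hx) n
  refine ⟨K, h1, h2, ?_⟩
  filter_upwards [h, eventually_gt_atTop 0,
    (tendsto_const_div_atTop_nhds_zero_nat L).eventually (gt_mem_nhds hr)] with j k1 hj k2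
  have hj' : (0 : ℝ) < j := by exact_mod_cast hj
  have := h3 (fun i => u j ⌊j * t * (i / n)⌋) (by simp [h0]) fun i _ => ⟨hB _ _, ?_⟩
  · rwa [div_self hn'.ne', mul_one] at this
  · refine (k1 _ _).trans ((mul_le_mul_of_nonneg_right (floor_sub _ _) (by positivity)).trans ?_)
    have e : (j : ℝ) * t * (i / n) - j * t * ((i + 1 : ℕ) / n) = -(j * t / n) := by
      push_cast
      ring
    rw [e, abs_neg, abs_div, abs_mul, abs_of_pos hj', abs_of_pos hn']
    have e2 : ((j : ℝ) * |t| / n + 1) * (L / j) = |t| * L / n + L / j := by field_simp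
    rw [e2]
    linarith

end TCAux

open TCAux in
/-- Sketch. Let `e j : Equiv.Perm B` be induced by `g j`, and `P j m x` the value of `(e j)^m` (`m : ℤ`),
extended arbitrarily off `B`; each `P j m` is holomorphic on `B` (induction, `HolOn.comp`) and a
`d`-isometry (`Car.contr`). For `x ∈ B` there is `L` with `d (g j x) x ≤ L / j` eventually (`Car.upper`), so
`d (P j m x) (P j m' x) ≤ |m - m'| L / j`. Fix an ultrafilter `𝔲 ≤ atTop`. For `t : ℝ` the points
`P j ⌊j t⌋ x` lie eventually in a compact subset of `B` (`Car.reach` with a chain of `n` steps,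
`y i = P j ⌊j t i / n⌋ x`, `n` large), so `φ t x = lim` exists in `B`; `φ t` is holomorphic by
`weierstrass` (`B` is bounded). Group law: `d (P j a (y j)) (P j a y) = d (y j) y → 0` if `y j → y ∈ B`,
`|⌊j(s+t)⌋ - ⌊js⌋ - ⌊jt⌋| ≤ 1`, and `Car.lower`. Derivative at `0`: given `ε`, on a ball around `x` and for
large `j`, `‖j • (g j z - z) - X x‖ ≤ ε`; for small `|h|` the points `P j i x`, `|i| ≤ |⌊j h⌋| + 1`, stay in the
ball (`Car.lower`), and summing the increments gives `‖P j m x - x - (m/j) • X x‖ ≤ ε |m| / j`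
(induction on `m`, upwards and downwards), so `‖φ h x - x - h • X x‖ ≤ ε |h|`. At a general `t` use the
group law. -/
theorem TC_pf : S_TC := by
  intro E _ _ _ B d r₀ hB hbd hd g g' X hg hX hlim
  choose P h1 h2 h0 h3 h4 using fun j => exists_pow (hg j)
  have hL : ∀ x ∈ B, ∃ L : ℝ, 0 ≤ L ∧ ∀ᶠ j : ℕ in atTop, ∀ m m' : ℤ,
      d (P j m x) (P j m' x) ≤ |(m : ℝ) - m'| * (L / j) := by
    intro x hx
    obtain ⟨L, k1, k2⟩ := step_le hd hx (hlim.tendsto_at hx)
    refine ⟨L, k1, k2.mono fun j hj => dist_pow hd (h1 j) (h2 j) (h4 j) hx ?_⟩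
    rwa [h3 j x hx]
  obtain ⟨𝔲, hu⟩ : ∃ 𝔲 : Ultrafilter ℕ, (𝔲 : Filter ℕ) ≤ atTop := ⟨.of atTop, Ultrafilter.of_le _⟩
  have hφ : ∀ (t : ℝ) (x : E), ∃ y, x ∈ B → y ∈ B ∧
      Tendsto (fun j : ℕ => P j ⌊j * t⌋ x) 𝔲 (𝓝 y) := by
    intro t x
    by_cases hx : x ∈ B
    · obtain ⟨L, k1, k2⟩ := hL x hx
      obtain ⟨K, k3, k4, k5⟩ := stay hd (u := fun j m => P j m x) hx (fun j => h0 j x hx)
        (fun j m => h1 j m hx) k1 k2 t
      obtain ⟨y, k6, k7⟩ := k3.ultrafilter_le_nhds (𝔲.map fun j : ℕ => P j ⌊j * t⌋ x)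
        (le_principal_iff.2 (hu k5))
      exact ⟨y, fun _ => ⟨k4 k6, k7⟩⟩
    · exact ⟨x, fun h => absurd h hx⟩
  choose φ hφ using hφ
  obtain ⟨R, hR, hlow⟩ := hd.lower
  have hzero : ∀ x ∈ B, φ 0 x = x := fun x hx => by
    refine tendsto_nhds_unique (hφ 0 x hx).2 (tendsto_const_nhds.congr fun j => ?_)
    rw [mul_zero, Int.floor_zero, h0 j x hx]
  have hadd : ∀ s t, ∀ x ∈ B, φ (s + t) x = φ s (φ t x) := by
    intro s t x hx
    obtain ⟨hy, hy'⟩ := hφ t x hx
    obtain ⟨L, k1, k2⟩ := hL x hx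
    obtain ⟨r, hr, L', hL', -, hup⟩ := hd.upper _ hy
    refine tendsto_nhds_unique (hφ (s + t) x hx).2 ((hφ s _ hy).2.congr_dist ?_)
    have lim : Tendsto (fun j : ℕ => R * (L' * ‖φ t x - P j ⌊j * t⌋ x‖ + L / j)) 𝔲 (𝓝 0) := by
      have a1 := ((tendsto_const_nhds (x := φ t x)).sub hy').norm.const_mul L'
      have a2 := (tendsto_const_div_atTop_nhds_zero_nat L).mono_left hu
      simpa using (a1.add a2).const_mul R
    refine squeeze_zero' (Eventually.of_forall fun _ => dist_nonneg) ?_ lim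
    filter_upwards [hu k2, hy'.eventually (ball_mem_nhds _ hr)] with j a1 a2
    rw [dist_eq_norm]
    refine (hlow _ (h1 j _ hy) _ (h1 j _ hx)).trans (mul_le_mul_of_nonneg_left ?_ hR.le)
    refine (hd.tri _ (h1 j _ hy) _ (h1 j (⌊j * s⌋ + ⌊j * t⌋) hx) _ (h1 j _ hx)).trans
      (add_le_add ?_ ((a1 _ _).trans (mul_le_of_le_one_left (by positivity) ?_)))
    · rw [h4 j _ _ x hx]
      exact (hd.contr _ (h2 j _) (h1 j _) _ hy _ (h1 j _ hx)).trans
        (hup _ (mem_ball_self hr) _ a2)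
    · rw [mul_add]
      have b1 := Int.le_floor_add (j * s) (j * t)
      have b2 := Int.le_floor_add_floor (j * s) (j * t)
      have b3 : |⌊j * s⌋ + ⌊j * t⌋ - ⌊j * s + j * t⌋| ≤ 1 := by
        rw [abs_le]
        omega
      exact_mod_cast b3
  have hder : ∀ x ∈ B, HasDerivAt (fun s => φ s x) (X x) 0 := by
    intro x hx
    rw [hasDerivAt_iff_isLittleO, isLittleO_iff]
    intro ε hε
    obtain ⟨L, k1, k2⟩ := hL x hx
    obtain ⟨T, hT, k3⟩ := Metric.tendstoLocallyUniformlyOn_iff.1 hlim _ (half_pos hε) x hx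
    obtain ⟨ρ, hρ, k4⟩ := Metric.mem_nhdsWithin_iff.1
      (inter_mem hT ((hX x hx).eventually (ball_mem_nhds _ (half_pos hε))))
    have k5 : ∀ᶠ h : ℝ in 𝓝 0, R * (|h| * L) < ρ := by
      have : Continuous fun h : ℝ => R * (|h| * L) := by fun_prop
      exact this.continuousAt.eventually_lt continuousAt_const (by simpa using hρ)
    filter_upwards [k5] with h k6
    rw [hzero x hx, sub_zero, Real.norm_eq_abs h]
    have fl := floor_lim h
    refine le_of_tendsto_of_tendsto (((hφ h x hx).2.sub_const x).sub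
      ((fl.mono_left hu).smul_const (X x))).norm ((fl.mono_left hu).abs.const_mul ε) (hu ?_)
    filter_upwards [k2, k3, eventually_gt_atTop 0,
      ((fl.abs.mul_const L).const_mul R).eventually (gt_mem_nhds k6)] with j a1 a2 hj a3
    have hj' : (0 : ℝ) < j := by exact_mod_cast hj
    have := sum_incr (u := fun m => P j m x) (v := (j : ℝ)⁻¹ • X x) (c := ε / j)
      (N := |⌊j * h⌋|) (fun m hm => ?_) _ le_rfl
    · rw [h0 j x hx, smul_smul, ← div_eq_mul_inv] at this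
      refine this.trans_eq ?_
      rw [abs_div, abs_of_pos hj']
      ring
    · have b0 := h1 j m hx
      have b1 : dist (P j m x) x < ρ := by
        have c1 := a1 m 0
        rw [h0 j x hx, Int.cast_zero, sub_zero] at c1
        have c2 : |(m : ℝ)| ≤ |(⌊j * h⌋ : ℝ)| := by exact_mod_cast hm
        rw [dist_eq_norm]
        refine ((hlow _ b0 _ hx).trans (mul_le_mul_of_nonneg_left (c1.trans ?_) hR.le)).trans_lt a3
        rw [abs_div, abs_of_pos hj', div_mul_eq_mul_div, ← mul_div_assoc]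
        gcongr
      obtain ⟨b2, b3⟩ := k4 ⟨b1, b0⟩
      have b4 := a2 _ b2
      have b5 : dist ((j : ℝ) • (g j (P j m x) - P j m x)) (X x) ≤ ε := by
        have b6 : dist (X (P j m x)) (X x) < ε / 2 := b3
        linarith [dist_triangle_left ((j : ℝ) • (g j (P j m x) - P j m x)) (X x) (X (P j m x))]
      have e : P j (m + 1) x - P j m x - (j : ℝ)⁻¹ • X x =
          (j : ℝ)⁻¹ • ((j : ℝ) • (g j (P j m x) - P j m x) - X x) := by
        rw [add_comm, h4 j _ _ x hx, h3 j _ b0, smul_sub, inv_smul_smul₀ hj'.ne']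
      rw [e, norm_smul, ← dist_eq_norm, Real.norm_eq_abs, abs_of_pos (inv_pos.2 hj'),
        div_eq_inv_mul]
      exact mul_le_mul_of_nonneg_left b5 (inv_pos.2 hj').le
  refine ⟨φ, fun t x hx => (hφ t x hx).1, fun t => ?_, hzero, hadd, fun x hx t => ?_⟩
  · obtain ⟨M, hM⟩ := hbd.exists_norm_le
    refine (weierstrass (l := 𝔲) (f := fun (j : ℕ) x => P j ⌊j * t⌋ x) hB (fun x hx => ?_)
      fun x hx => (hφ t x hx).2).1
    obtain ⟨r, hr, hrB⟩ := Metric.isOpen_iff.1 hB x hx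
    exact ⟨r, hr, M, Eventually.of_forall fun j =>
      ⟨(h2 j _).mono hrB, fun y hy => hM _ (h1 j _ (hrB hy))⟩⟩
  · have k := hder _ (hφ t x hx).1
    rw [← sub_self t] at k
    refine (k.comp_sub_const t t).congr_of_eventuallyEq (Eventually.of_forall fun s => ?_)
    show φ s x = φ (s - t) (φ t x)
    rw [← hadd _ _ x hx, sub_add_cancel]

end Vale.Agent.P274
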