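import Vale.Agent.P274.Flow

open Set Filter Topology Metric MeasureTheory Asymptotics

namespace Vale.Agent.P274

/-- Sketch. Let `q = finrank ℝ 𝔤`, `b : (Fin q → ℝ) ≃ₗ[ℝ] 𝔤`, `β = 𝔤.subtype ∘ₗ b`; choose flows `Φ v` of
`β v`. Apply `S_UniAbs` with `Y = B` (Borel structure of `E`), `a γ = restrict (act γ)`, `μ` from `S_Vol`,
`Fl v = restrict (Φ v 1)` (continuity: `S_FlowC`; `Φ (-v) 1 = Φ v (-1)` on `B` by `Flow.smul`,
`Flow.unique`), `𝔅` from `S_Ball`, `A γ` and `L v` the conjugates by `b` of the maps of `exists_AdL` for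
`Div.bihol γ` and `Flow.bihol 1` (`LinearMap.det_conj`), bijectivity from `Ad_Ad`, `Ad_congr`, `Ad_id`;
`Fl (A γ v) (a γ y) = a γ (Fl v y)` from `Flow.ad` and `Flow.unique`; `L v v = v` is `Flow.ad_self`.
Compact subsets of the subtype: `Subtype.isCompact_iff`. -/
theorem Uni_pf (h1 : S_Vol) (h2 : S_UniAbs) (h3 : S_FlowC) (h4 : S_Ball) : S_Uni := by
  intro E _ _ _ Γ _ B act d r₀ hD hB hC 𝔤 h𝔤 hfin τ hτ
  borelize E
  have : ProperSpace E := FiniteDimensional.proper ℂ E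
  have : LocallyCompactSpace B := hB.locallyCompactSpace
  obtain ⟨q, ⟨b⟩⟩ : ∃ q : ℕ, Nonempty ((Fin q → ℝ) ≃ₗ[ℝ] 𝔤) :=
    ⟨_, ⟨(Module.finBasis ℝ 𝔤).equivFun.symm⟩⟩
  obtain ⟨β, hb⟩ : ∃ β : (Fin q → ℝ) →ₗ[ℝ] (E → E), ∀ v, β v = (b v : E → E) :=
    ⟨𝔤.subtype ∘ₗ b.toLinearMap, fun _ => rfl⟩
  have hβ : ∀ v, Cpl B (β v) := fun v => (h𝔤 _).1 (hb v ▸ (b v).2)
  have hinj : Function.Injective β := fun v w h =>
    b.injective (Subtype.ext ((hb v).symm.trans (h.trans (hb w))))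
  choose Φ hΦ using fun v => (hβ v).2.2
  obtain ⟨μ, m1, m2, m3⟩ := h1 E B hB hD.bdd hD.conn.nonempty
  obtain ⟨𝔅, c1, c2, c3, c4⟩ := h4 E B d r₀ hB hD.conn.isPreconnected hD.bdd hC q β hinj hβ
  have hAd : ∀ g g' : E → E, Bihol B B g g' → ∃ A : (Fin q → ℝ) →ₗ[ℝ] (Fin q → ℝ),
      (∀ v, β (A v) = Ad B g g' (β v)) ∧ ∃ L : 𝔤 →ₗ[ℝ] 𝔤,
        (∀ Y : 𝔤, (L Y : E → E) = Ad B g g' Y) ∧ LinearMap.det A = LinearMap.det L := by
    intro g g' hg
    obtain ⟨L, hL⟩ := exists_AdL hB h𝔤 hg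
    refine ⟨b.symm.toLinearMap ∘ₗ L ∘ₗ b.toLinearMap, fun v => ?_, L, hL,
      LinearMap.det_conj L b.symm⟩
    rw [hb, hb, ← hL]
    exact congrArg _ (b.apply_symm_apply _)
  choose A hA _ using fun γ => hAd _ _ (hD.bihol γ)
  choose L hL hL' using fun v => hAd _ _ ((hΦ v).bihol hB 1)
  have key := h2 B q Γ (fun γ => (hD.bihol γ).maps.restrict _ B B) μ
    (fun v => ((hΦ v).bihol hB 1).maps.restrict _ B B) 𝔅 A L (τ ∘ₗ b.toLinearMap)
    (fun y => Subtype.ext (hD.one y y.2)) (fun γ δ y => Subtype.ext (hD.mul γ δ y y.2))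
    (fun K K' hK hK' => ?_) ?_ m1 m2 (fun γ => m3 _ _ (hD.bihol γ)) ?_
    (fun v => m3 _ _ ((hΦ v).bihol hB 1)) (fun v y => Subtype.ext ?_) c1 c2 c3 (fun γ => ?_)
    (fun γ y v => c4 _ _ (hD.bihol γ) y v _ (hA γ v)) (fun γ y v => Subtype.ext ?_)
    (fun v y w => c4 _ _ ((hΦ v).bihol hB 1) y w _ (hL v w)) (fun v => hinj ?_) fun v => ?_
  · ext X
    simpa using LinearMap.congr_fun key (b.symm X)
  · refine (hD.proper _ _ (hK.image continuous_subtype_val) (Subtype.coe_image_subset B K)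
      (hK'.image continuous_subtype_val) (Subtype.coe_image_subset B K')).subset ?_
    rintro γ ⟨x, hx, hx'⟩
    exact ⟨x, mem_image_of_mem _ hx, mem_image_of_mem Subtype.val hx'⟩
  · obtain ⟨K, k1, k2, k3⟩ := hD.cocompact
    refine ⟨Subtype.val ⁻¹' K, ?_, fun y => k3 y y.2⟩
    rw [Subtype.isCompact_iff, Subtype.image_preimage_coe, inter_eq_right.2 k2]
    exact k1
  · exact ((h3 E B d r₀ hB hC q β Φ fun v => ⟨(hβ v).1, hΦ v⟩).comp_continuous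
      (f := fun p : (Fin q → ℝ) × B => (p.1, (p.2 : E))) (by fun_prop)
      fun p => ⟨trivial, p.2.2⟩).subtype_mk _
  · have h5 : Flow B (β (-v)) fun t => Φ v (-1 * t) := by
      rw [map_neg, ← neg_one_smul ℝ (β v)]
      exact (hΦ v).smul (-1)
    refine ((hΦ (-v)).unique hB (hβ _).1 h5 1 ((hΦ v).maps 1 y.2)).trans ?_
    rw [mul_one]
    exact ((hΦ v).bihol hB 1).left y y.2
  · have h5 : ∀ v, Ad B (act γ⁻¹) (act γ) (β (A γ v)) = β v := fun v => by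
      rw [hA, Ad_Ad hB hB (hD.bihol γ) (hD.bihol γ).symm,
        Ad_congr (g := fun x => x) (g' := fun x => x) hB (mapsTo_id B) (hD.bihol γ).left
          (hD.bihol γ).left, Ad_id (hβ v).2.1]
    have h6 : Function.Injective (A γ) := fun v w h => hinj (by rw [← h5 v, h, h5])
    exact ⟨h6, LinearMap.injective_iff_surjective.1 h6⟩
  · have h5 := (hΦ v).ad hB (hD.bihol γ)
    rw [← hA] at h5
    refine ((hΦ (A γ v)).unique hB (hβ _).1 h5 1 (hD.maps γ y.2)).trans ?_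
    rw [(hD.bihol γ).left y y.2]
    rfl
  · rw [hL]
    exact (hΦ v).ad_self hB (hβ v).2.1 1
  · obtain ⟨L', l1, l2⟩ := hL' v
    rw [l2]
    exact hτ (b v) (Φ v) (hb v ▸ hΦ v) L' l1

end Vale.Agent.P274
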