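import Vale.Agent.P274.StD

open Set Filter Topology Metric MeasureTheory Asymptotics
open scoped ENNReal

namespace Vale.Agent.P274

namespace UniAbsAux

variable {Y : Type} {q : ℕ}

theorem exists_phi [MeasurableSpace Y] {Γ : Type} [Group Γ] [Countable Γ] {a : Γ → Y → Y}
    {μ : Measure Y} {K : Set Y} (hK : MeasurableSet K) (hμ : μ K ≠ ∞)
    (hm : ∀ γ, Measurable (a γ)) (h1 : ∀ γ δ y, a (γ * δ) y = a γ (a δ y))
    (h2 : ∀ y, {γ | a γ y ∈ K}.Finite) (h3 : ∀ y, ∃ γ, a γ y ∈ K) :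
    ∃ φ : Y → ℝ≥0∞, Measurable φ ∧ (∀ y, ∑' γ, φ (a γ y) = 1) ∧ ∫⁻ y, φ y ∂μ ≠ ∞ := by
  have m0 : Measurable (K.indicator (1 : Y → ℝ≥0∞)) := measurable_one.indicator hK
  obtain ⟨n, hn⟩ : ∃ n : Y → ℝ≥0∞, n = fun y => ∑' γ, K.indicator 1 (a γ y) := ⟨_, rfl⟩
  have m1 : Measurable n := hn ▸ Measurable.tsum fun γ => m0.comp (hm γ)
  have n1 : ∀ y, 1 ≤ n y := fun y => by
    obtain ⟨γ, hγ⟩ := h3 y
    rw [hn]
    exact le_of_eq_of_le (by rw [indicator_of_mem hγ]; rfl)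
      (ENNReal.le_tsum (f := fun γ => K.indicator 1 (a γ y)) γ)
  have n2 : ∀ y, n y ≠ ∞ := fun y => by
    rw [hn]
    dsimp only
    rw [tsum_eq_sum (s := (h2 y).toFinset) fun γ hγ => indicator_of_notMem (by simpa using hγ) _]
    exact ENNReal.sum_ne_top.2 fun γ _ => ne_top_of_le_ne_top ENNReal.one_ne_top
      (indicator_le_self' (fun _ _ => zero_le_one) _)
  have n3 : ∀ δ y, n (a δ y) = n y := fun δ y => by
    simp only [hn, ← h1]
    exact (Equiv.mulRight δ).tsum_eq fun γ => K.indicator (1 : Y → ℝ≥0∞) (a γ y)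
  refine ⟨fun y => K.indicator 1 y * (n y)⁻¹, m0.mul m1.inv, fun y => ?_, ?_⟩
  · simp only [n3]
    rw [ENNReal.tsum_mul_right, ← ENNReal.mul_inv_cancel (zero_lt_one.trans_le (n1 y)).ne' (n2 y),
      hn]
  · refine ne_top_of_le_ne_top hμ ((lintegral_mono fun y => ?_).trans
      (lintegral_indicator_one hK).le)
    exact mul_le_of_le_one_right' (ENNReal.inv_le_one.2 (n1 y))

/-- the normalised indicator function of the fibres -/
noncomputable def wt (𝔅 : Set (Y × (Fin q → ℝ))) (p : Y × (Fin q → ℝ)) : ℝ≥0∞ :=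
  𝔅.indicator 1 p * (volume (Prod.mk p.1 ⁻¹' 𝔅))⁻¹

theorem wt_eq {𝔅 : Set (Y × (Fin q → ℝ))} {y y' : Y} {f : (Fin q → ℝ) →ₗ[ℝ] (Fin q → ℝ)}
    (hf : LinearMap.det f ≠ 0) (h : ∀ v, (y', f v) ∈ 𝔅 ↔ (y, v) ∈ 𝔅) (v : Fin q → ℝ) :
    wt 𝔅 (y, v) = ENNReal.ofReal |LinearMap.det f| * wt 𝔅 (y', f v) := by
  have e : Prod.mk y' ⁻¹' 𝔅 = f '' (Prod.mk y ⁻¹' 𝔅) := by
    ext w
    obtain ⟨v, rfl⟩ := (f.equivOfDetNeZero hf).surjective w
    exact ⟨fun hw => ⟨v, (h v).1 hw, rfl⟩, fun ⟨u, hu, e⟩ => by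
      have := (h u).2 hu
      rwa [e] at this⟩
  have d0 : ENNReal.ofReal |LinearMap.det f| ≠ 0 := (ENNReal.ofReal_pos.2 (abs_pos.2 hf)).ne'
  have e2 : 𝔅.indicator (1 : Y × (Fin q → ℝ) → ℝ≥0∞) (y, v) = 𝔅.indicator 1 (y', f v) := by
    by_cases hv : (y, v) ∈ 𝔅
    · rw [indicator_of_mem hv, indicator_of_mem ((h v).2 hv)]; rfl
    · rw [indicator_of_notMem hv, indicator_of_notMem (mt (h v).1 hv)]
  rw [wt, wt, e, Measure.addHaar_image_linearMap, e2,
    ENNReal.mul_inv (Or.inl d0) (Or.inl ENNReal.ofReal_ne_top), mul_left_comm, ← mul_assoc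
      (ENNReal.ofReal _), ENNReal.mul_inv_cancel d0 ENNReal.ofReal_ne_top, one_mul]

theorem lin_lin {f : (Fin q → ℝ) →ₗ[ℝ] (Fin q → ℝ)} (hf : LinearMap.det f ≠ 0)
    {g : (Fin q → ℝ) → ℝ≥0∞} (hg : Measurable g) :
    ∫⁻ v, ENNReal.ofReal |LinearMap.det f| * g (f v) = ∫⁻ v, g v := by
  have m : Measurable f := f.continuous_of_finiteDimensional.measurable
  have m' : Measurable fun v => g (f v) := hg.comp m
  rw [lintegral_const_mul _ m', ← lintegral_map hg m,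
    Measure.map_linearMap_addHaar_eq_smul_addHaar _ hf, lintegral_smul_measure, smul_eq_mul,
    ← mul_assoc, ← ENNReal.ofReal_mul (abs_nonneg _), ← abs_mul, mul_inv_cancel₀ hf]
  simp

variable [MeasurableSpace Y] {𝔅 : Set (Y × (Fin q → ℝ))} {μ : Measure Y}

theorem measurable_wt (h : MeasurableSet 𝔅) : Measurable (wt 𝔅) :=
  (measurable_one.indicator h).mul
    ((measurable_measure_prodMk_left h).comp measurable_fst).inv

theorem lin_wt (h : MeasurableSet 𝔅) {y : Y} (h0 : volume (Prod.mk y ⁻¹' 𝔅) ≠ 0)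
    (h1 : volume (Prod.mk y ⁻¹' 𝔅) ≠ ∞) : ∫⁻ v, wt 𝔅 (y, v) = 1 := by
  have e : ∀ v, 𝔅.indicator (1 : Y × (Fin q → ℝ) → ℝ≥0∞) (y, v) =
      (Prod.mk y ⁻¹' 𝔅).indicator 1 v := fun v => rfl
  simp only [wt, e]
  rw [lintegral_mul_const _ (measurable_one.indicator (measurable_prodMk_left h)),
    lintegral_indicator_one (measurable_prodMk_left h), ENNReal.mul_inv_cancel h0 h1]

theorem inv_a (h : MeasurableSet 𝔅) {a : Y → Y} (ha : MeasurePreserving a μ μ)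
    {A : (Fin q → ℝ) →ₗ[ℝ] (Fin q → ℝ)} (hA : LinearMap.det A ≠ 0)
    (hB : ∀ y v, (a y, A v) ∈ 𝔅 ↔ (y, v) ∈ 𝔅) {f : Y × (Fin q → ℝ) → ℝ≥0∞} (hf : Measurable f) :
    ∫⁻ p, wt 𝔅 p * f (a p.1, A p.2) ∂μ.prod volume = ∫⁻ p, wt 𝔅 p * f p ∂μ.prod volume := by
  have m : Measurable fun p => wt 𝔅 p * f p := (measurable_wt h).mul hf
  have mA : Measurable A := A.continuous_of_finiteDimensional.measurable
  have m' : Measurable fun p : Y × (Fin q → ℝ) => wt 𝔅 p * f (a p.1, A p.2) :=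
    (measurable_wt h).mul (hf.comp ((ha.measurable.comp measurable_fst).prodMk
      (mA.comp measurable_snd)))
  rw [lintegral_prod _ m'.aemeasurable, lintegral_prod _ m.aemeasurable,
    ← ha.lintegral_comp m.lintegral_prod_right']
  refine lintegral_congr fun y => ?_
  rw [← lin_lin hA (g := fun v => wt 𝔅 (a y, v) * f (a y, v)) (m.comp measurable_prodMk_left)]
  exact lintegral_congr fun v => by rw [wt_eq hA (hB y), mul_assoc]

theorem inv_fl [SFinite μ] (h : MeasurableSet 𝔅) {Fl : (Fin q → ℝ) → Y → Y}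
    (hm : Measurable fun p : Y × (Fin q → ℝ) => Fl p.2 p.1) (hF : ∀ v, MeasurePreserving (Fl v) μ μ)
    {e : (Fin q → ℝ) → ℝ≥0∞} (he : Measurable e) (hw : ∀ y v, wt 𝔅 (y, v) = e v * wt 𝔅 (Fl v y, v))
    {φ : Y → ℝ≥0∞} (hφ : Measurable φ) :
    ∫⁻ p, wt 𝔅 p * φ (Fl p.2 p.1) ∂μ.prod volume =
      ∫⁻ p, wt 𝔅 p * (φ p.1 * e p.2) ∂μ.prod volume := by
  have m : Measurable fun p : Y × (Fin q → ℝ) => wt 𝔅 p * (φ p.1 * e p.2) :=
    (measurable_wt h).mul ((hφ.comp measurable_fst).mul (he.comp measurable_snd))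
  have m' : Measurable fun p : Y × (Fin q → ℝ) => wt 𝔅 p * φ (Fl p.2 p.1) :=
    (measurable_wt h).mul (hφ.comp hm)
  rw [lintegral_prod_symm' _ m', lintegral_prod_symm' _ m]
  refine lintegral_congr fun v => ?_
  rw [← (hF v).lintegral_comp (f := fun y => wt 𝔅 (y, v) * (φ y * e v))
    (m.comp measurable_prodMk_right)]
  exact lintegral_congr fun y => by rw [hw y v]; ring

end UniAbsAux

open UniAbsAux in
/-- Sketch. `Γ` is countable (`Y` is nonempty and σ-compact, properness with `K = {y₀}`), `μ` is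
σ-finite. `n y = #{γ | a γ y ∈ K} ∈ [1, ∞)` as the `ℝ≥0∞`-valued sum `∑' γ, K.indicator 1 (a γ y)` is
measurable and invariant; `φ = K.indicator 1 / n` has `∑' γ, φ (a γ y) = 1`, `0 < ∫⁻ φ ∂μ < ∞`.
`vol y = volume {v | (y,v) ∈ 𝔅} ∈ (0,∞)`, measurable (`measurable_measure_prodMk_left`);
`vol (a γ y) = |det (A γ)| vol y`, `vol (Fl v y) = exp (-τ v) vol y` (`Measure.addHaar_image_linearMap`).
For measurable `f ≥ 0` put `I f = ∫⁻ y, ∫⁻ v, 𝔅.indicator 1 (y,v) * (vol y)⁻¹ * f (y,v)`.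
(a) `I (fun p => f (a γ p.1, A γ p.2)) = I f`. (b) `I (fun p => φ p.1) = ∫⁻ φ`.
(c) `I (φ p.1) = ∑' γ, I (φ p.1 * φ (a γ (Fl p.2 p.1))) = ∑' γ, I (φ (a γ⁻¹ p.1) * φ (Fl p.2 p.1)) = I (φ (Fl p.2 p.1))`
by (a). (d) Tonelli and invariance of `μ` under `Fl v`, `(Fl v y, v) ∈ 𝔅 ↔ (y,v) ∈ 𝔅`:
`I (φ (Fl p.2 p.1)) = I (φ p.1 * exp (-τ p.2))`, and by `v ↦ -v` also `= I (φ p.1 * exp (τ p.2))`.
So `I (φ * (exp τ + exp (-τ) - 2)) = 0` (finite quantities), hence for some `y`, `τ v = 0` for a.e. `v` in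
the neighbourhood `{v | (y,v) ∈ 𝔅}` of `0`; if `τ ≠ 0` its kernel is null (`Measure.addHaar_submodule`). -/
theorem UniAbs_pf : S_UniAbs := by
  intro Y _ _ _ _ _ q Γ _ a μ Fl 𝔅 A L τ a1 a2 hprop ⟨K, hK, hcov⟩ hfin hμ ha hFc hF _ hB hneg hnb
    hA hAB hFA hL hLv hdet
  have mB : MeasurableSet 𝔅 := hB.measurableSet
  have mw := measurable_wt mB
  have mF : Measurable fun p : Y × (Fin q → ℝ) => Fl p.2 p.1 :=
    (hFc.comp continuous_swap).measurable
  have fin : ∀ {K : Set Y}, IsCompact K → ∀ y, {γ | a γ y ∈ K}.Finite := fun hK y => by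
    simpa using hprop {y} _ isCompact_singleton hK
  have : Countable Γ := by
    rcases isEmpty_or_nonempty Y with h | ⟨⟨y⟩⟩
    · exact absurd (Measure.eq_zero_of_isEmpty μ) hμ
    refine countable_univ_iff.1 ((countable_iUnion fun n =>
      (fin (isCompact_compactCovering Y n) y).countable).mono fun γ _ => ?_)
    exact mem_iUnion.2 (exists_mem_compactCovering (a γ y))
  obtain ⟨φ, mφ, φ1, φ2⟩ := exists_phi (μ := μ) hK.measurableSet hK.measure_ne_top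
    (fun γ => (ha γ).measurable) a2 (fin hK) hcov
  have v0 : ∀ y, volume (Prod.mk y ⁻¹' 𝔅) ≠ 0 := fun y =>
    (Measure.measure_pos_of_mem_nhds _ (hnb y).1).ne'
  have v1 : ∀ y, volume (Prod.mk y ⁻¹' 𝔅) ≠ ∞ := fun y => (hnb y).2.measure_lt_top.ne
  have dA : ∀ γ, LinearMap.det (A γ) ≠ 0 := fun γ =>
    ((A γ).isUnit_det ((Module.End.isUnit_iff _).2 (hA γ))).ne_zero
  have mτ : Measurable τ := τ.continuous_of_finiteDimensional.measurable
  have fub : ∀ {c : (Fin q → ℝ) → ℝ≥0∞}, Measurable c →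
      ∫⁻ p, wt 𝔅 p * (φ p.1 * c p.2) ∂μ.prod volume = ∫⁻ y, φ y * ∫⁻ v, wt 𝔅 (y, v) * c v ∂volume ∂μ :=
    fun {c} hc => by
    have m : Measurable fun p : Y × (Fin q → ℝ) => wt 𝔅 p * (φ p.1 * c p.2) :=
      mw.mul ((mφ.comp measurable_fst).mul (hc.comp measurable_snd))
    rw [lintegral_prod _ m.aemeasurable]
    refine lintegral_congr fun y => ?_
    have m' : Measurable fun v => wt 𝔅 (y, v) * c v := (mw.comp measurable_prodMk_left).mul hc
    rw [← lintegral_const_mul _ m']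
    exact lintegral_congr fun v => mul_left_comm _ _ _
  have hb : ∫⁻ p, wt 𝔅 p * φ p.1 ∂μ.prod volume = ∫⁻ y, φ y ∂μ := by
    simpa only [mul_one, lin_wt mB (v0 _) (v1 _)] using fub (c := fun _ => 1) measurable_const
  have mg : ∀ γ, Measurable fun p : Y × (Fin q → ℝ) => φ (a γ⁻¹ p.1) * φ (Fl p.2 p.1) := fun γ =>
    (mφ.comp ((ha _).measurable.comp measurable_fst)).mul (mφ.comp mF)
  have hc : ∫⁻ p, wt 𝔅 p * φ p.1 ∂μ.prod volume =
      ∫⁻ p, wt 𝔅 p * φ (Fl p.2 p.1) ∂μ.prod volume := by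
    calc _ = ∫⁻ p, ∑' γ, wt 𝔅 p * (φ p.1 * φ (a γ (Fl p.2 p.1))) ∂μ.prod volume := by
          simp only [ENNReal.tsum_mul_left, φ1, mul_one]
      _ = ∑' γ, ∫⁻ p, wt 𝔅 p * (φ p.1 * φ (a γ (Fl p.2 p.1))) ∂μ.prod volume :=
          lintegral_tsum fun γ => (mw.mul ((mφ.comp measurable_fst).mul
            (mφ.comp ((ha γ).measurable.comp mF)))).aemeasurable
      _ = ∑' γ, ∫⁻ p, wt 𝔅 p * (φ (a γ⁻¹ p.1) * φ (Fl p.2 p.1)) ∂μ.prod volume := by
          refine tsum_congr fun γ => ?_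
          rw [← inv_a mB (ha γ) (dA γ) (hAB γ) (mg γ)]
          simp only [← a2, inv_mul_cancel, a1, hFA]
      _ = ∫⁻ p, ∑' γ, wt 𝔅 p * (φ (a γ⁻¹ p.1) * φ (Fl p.2 p.1)) ∂μ.prod volume :=
          (lintegral_tsum fun γ => (mw.mul (mg γ)).aemeasurable).symm
      _ = _ := by
          refine lintegral_congr fun p => ?_
          have e := (Equiv.inv Γ).tsum_eq fun γ => φ (a γ p.1)
          simp only [Equiv.inv_apply] at e
          rw [ENNReal.tsum_mul_left, ENNReal.tsum_mul_right, e, φ1, one_mul]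
  have me : Measurable fun v => ENNReal.ofReal (Real.exp (-τ v)) := by fun_prop
  have me' : Measurable fun v => ENNReal.ofReal (Real.exp (τ v)) := by fun_prop
  have mc : Measurable fun v => ENNReal.ofReal (Real.exp (τ v) + Real.exp (-τ v) - 2) := by fun_prop
  have hd := inv_fl mB mF hF me (fun y v => by
    have := wt_eq (by rw [hdet]; exact (Real.exp_pos _).ne') (hL v y) v
    rwa [hLv, hdet, abs_of_pos (Real.exp_pos _)] at this) mφ
  have wn : ∀ y v, wt 𝔅 (y, -v) = wt 𝔅 (y, v) := fun y v => by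
    unfold wt
    congr 1
    by_cases hv : (y, v) ∈ 𝔅
    · rw [indicator_of_mem hv, indicator_of_mem (hneg y v hv)]; rfl
    · rw [indicator_of_notMem hv, indicator_of_notMem fun h => hv (neg_neg v ▸ hneg y _ h)]
  have he : ∫⁻ p, wt 𝔅 p * (φ p.1 * ENNReal.ofReal (Real.exp (τ p.2))) ∂μ.prod volume =
      ∫⁻ p, wt 𝔅 p * (φ p.1 * ENNReal.ofReal (Real.exp (-τ p.2))) ∂μ.prod volume := by
    rw [fub me, fub me']
    refine lintegral_congr fun y => ?_
    rw [← lintegral_neg_eq_self]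
    simp only [wn, map_neg]
  have two : ∀ t : ℝ, t ≠ 0 → 0 < Real.exp t + Real.exp (-t) - 2 := fun t ht => by
    linarith [Real.add_one_lt_exp ht, Real.add_one_le_exp (-t)]
  have hs : ∫⁻ p, wt 𝔅 p * (φ p.1 * ENNReal.ofReal (Real.exp (τ p.2))) ∂μ.prod volume +
      ∫⁻ p, wt 𝔅 p * (φ p.1 * ENNReal.ofReal (Real.exp (-τ p.2))) ∂μ.prod volume =
      ∫⁻ p, wt 𝔅 p * φ p.1 ∂μ.prod volume + ∫⁻ p, wt 𝔅 p * φ p.1 ∂μ.prod volume +
      ∫⁻ p, wt 𝔅 p * (φ p.1 * ENNReal.ofReal (Real.exp (τ p.2) + Real.exp (-τ p.2) - 2))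
        ∂μ.prod volume := by
    have m0 : Measurable fun p : Y × (Fin q → ℝ) => wt 𝔅 p * φ p.1 :=
      mw.mul (mφ.comp measurable_fst)
    have m1 : Measurable fun p : Y × (Fin q → ℝ) =>
        wt 𝔅 p * (φ p.1 * ENNReal.ofReal (Real.exp (τ p.2))) :=
      mw.mul ((mφ.comp measurable_fst).mul (me'.comp measurable_snd))
    have m2 : Measurable fun p : Y × (Fin q → ℝ) => wt 𝔅 p * φ p.1 + wt 𝔅 p * φ p.1 := m0.add m0
    rw [← lintegral_add_left m1, ← lintegral_add_left m0, ← lintegral_add_left m2]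
    refine lintegral_congr fun p => ?_
    have e : ENNReal.ofReal (Real.exp (τ p.2)) + ENNReal.ofReal (Real.exp (-τ p.2)) =
        1 + 1 + ENNReal.ofReal (Real.exp (τ p.2) + Real.exp (-τ p.2) - 2) := by
      rw [← ENNReal.ofReal_add (Real.exp_pos _).le (Real.exp_pos _).le, ← ENNReal.ofReal_one,
        ← ENNReal.ofReal_add zero_le_one zero_le_one, ← ENNReal.ofReal_add (by norm_num)
          (by linarith [Real.add_one_le_exp (τ p.2), Real.add_one_le_exp (-τ p.2)])]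
      congr 1
      ring
    rw [← mul_add, ← mul_add, e]
    ring
  rw [he, ← hd, ← hc, hb, fub mc] at hs
  have h0 := (ENNReal.add_right_inj (ENNReal.add_ne_top.2 ⟨φ2, φ2⟩)).1
    ((add_zero _).trans hs)
  by_contra hτ
  have hker : ∀ᵐ v : Fin q → ℝ, τ v ≠ 0 :=
    measure_eq_zero_iff_ae_notMem.1
      (Measure.addHaar_submodule volume (LinearMap.ker τ) (mt LinearMap.ker_eq_top.1 hτ))
  have h1 : φ =ᵐ[μ] 0 := by
    have m : Measurable fun p : Y × (Fin q → ℝ) =>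
        wt 𝔅 p * ENNReal.ofReal (Real.exp (τ p.2) + Real.exp (-τ p.2) - 2) :=
      mw.mul (mc.comp measurable_snd)
    have m' : Measurable fun y => φ y * ∫⁻ v, wt 𝔅 (y, v) *
        ENNReal.ofReal (Real.exp (τ v) + Real.exp (-τ v) - 2) := mφ.mul m.lintegral_prod_right'
    filter_upwards [(lintegral_eq_zero_iff m').1 h0.symm] with y hy
    refine (mul_eq_zero.1 hy).resolve_right fun h2 => ?_
    have m'' : Measurable fun v => wt 𝔅 (y, v) *
        ENNReal.ofReal (Real.exp (τ v) + Real.exp (-τ v) - 2) := m.comp measurable_prodMk_left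
    have h3 := (lintegral_eq_zero_iff m'').1 h2
    refine zero_ne_one ((lintegral_eq_zero_of_ae_eq_zero ?_).symm.trans (lin_wt mB (v0 y) (v1 y)))
    filter_upwards [h3, hker] with v h4 h5
    exact (mul_eq_zero.1 h4).resolve_right (ENNReal.ofReal_pos.2 (two _ h5)).ne'
  refine hμ (Measure.measure_univ_eq_zero.1 ?_)
  have m : ∀ γ, AEMeasurable (fun y => φ (a γ y)) μ := fun γ =>
    (mφ.comp (ha γ).measurable).aemeasurable
  rw [← lintegral_one, lintegral_congr fun y => (φ1 y).symm, lintegral_tsum m]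
  simp only [(ha _).lintegral_comp mφ, lintegral_eq_zero_of_ae_eq_zero h1, tsum_zero]

end Vale.Agent.P274
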