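import Vale.Agent.P274.StD
import Vale.Agent.P274.SCV1

open Set Filter Topology Metric MeasureTheory Asymptotics

namespace Vale.Agent.P274

namespace VolAux

variable {E : Type} [NormedAddCommGroup E] [NormedSpace ℂ E] [FiniteDimensional ℂ E]

/-- The real Jacobian of a complex linear map. -/
noncomputable def dt (L : E →L[ℂ] E) : ℝ := |(L.restrictScalars ℝ).det|

omit [FiniteDimensional ℂ E] in
theorem continuous_dt : Continuous (dt : (E →L[ℂ] E) → ℝ) :=
  (ContinuousLinearMap.continuous_det.comp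
    (ContinuousLinearMap.restrictScalarsL ℂ E E ℝ ℝ).continuous).abs

/-- The real Jacobian of a map. -/
noncomputable def J (F : E → E) (x : E) : ENNReal := ENNReal.ofReal (dt (fderiv ℂ F x))

omit [FiniteDimensional ℂ E] in
theorem J_comp {F g : E → E} {x : E} (hF : DifferentiableAt ℂ F (g x))
    (hg : DifferentiableAt ℂ g x) : J (fun y => F (g y)) x = J g x * J F (g x) := by
  unfold J dt
  rw [fderiv_fun_comp x hF hg, ← ENNReal.ofReal_mul (abs_nonneg _), ← abs_mul, mul_comm]
  congr 2
  exact LinearMap.det_comp ((fderiv ℂ F (g x)).restrictScalars ℝ : E →ₗ[ℝ] E)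
    ((fderiv ℂ g x).restrictScalars ℝ : E →ₗ[ℝ] E)

omit [FiniteDimensional ℂ E] in
theorem J_id (x : E) : J (fun y : E => y) x = 1 := by
  unfold J dt
  rw [fderiv_fun_id]
  have : ((ContinuousLinearMap.id ℂ E).restrictScalars ℝ).det = 1 := LinearMap.det_id
  rw [this, abs_one, ENNReal.ofReal_one]

/-- The invariant density. -/
noncomputable def c (B : Set E) (x : E) : ENNReal :=
  ⨆ F : {F : E → E // HolOn B F ∧ ∀ y ∈ B, ‖F y‖ ≤ 1}, J F.1 x

theorem measurable_c [MeasurableSpace E] [BorelSpace E] {B : Set E} (hB : IsOpen B) :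
    Measurable fun x : B => c B x := by
  have := FiniteDimensional.complete ℂ E
  refine LowerSemicontinuous.measurable (lowerSemicontinuous_iSup fun F => ?_)
  refine (ENNReal.continuous_ofReal.comp (continuous_dt.comp ?_)).lowerSemicontinuous
  exact (F.2.1.analyticOnNhd hB).fderiv.continuousOn.domRestrict

omit [FiniteDimensional ℂ E] in
theorem c_ne {B : Set E} (hb : Bornology.IsBounded B) (x : E) : c B x ≠ 0 := by
  obtain ⟨R, hR, h⟩ := hb.exists_pos_norm_le
  have hR' : (R : ℂ) ≠ 0 := by exact_mod_cast hR.ne'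
  have h1 : J (fun y : E => (R : ℂ)⁻¹ • y) x ≠ 0 := by
    intro h0
    have h2 := J_comp (F := fun y : E => (R : ℂ) • y) (g := fun y : E => (R : ℂ)⁻¹ • y) (x := x)
      (by fun_prop) (by fun_prop)
    simp only [smul_inv_smul₀ hR', J_id, h0, zero_mul] at h2
    exact one_ne_zero h2
  refine fun h0 => h1 (le_antisymm (le_trans ?_ h0.le) zero_le)
  refine le_iSup_of_le ⟨fun y : E => (R : ℂ)⁻¹ • y, holOn_of_analyticOnNhd fun y _ => by fun_prop,
    fun y hy => ?_⟩ le_rfl
  rw [norm_smul, norm_inv, Complex.norm_real, Real.norm_of_nonneg hR.le, inv_mul_le_one₀ hR]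
  exact h y hy

theorem c_bdd {B : Set E} (hB : IsOpen B) {x : E} (hx : x ∈ B) :
    ∃ r > 0, ∃ C : ℝ, ∀ y ∈ ball x r, c B y ≤ ENNReal.ofReal C := by
  obtain ⟨r, hr, h⟩ := Metric.isOpen_iff.1 hB x hx
  have := FiniteDimensional.proper ℂ (E →L[ℂ] E)
  obtain ⟨C, hC⟩ := (isCompact_closedBall (0 : E →L[ℂ] E) (2 * 1 / (r / 2))).bddAbove_image
    continuous_dt.continuousOn
  refine ⟨r / 2, half_pos hr, C, fun y hy => iSup_le fun F => ENNReal.ofReal_le_ofReal
    (hC (mem_image_of_mem _ (mem_closedBall_zero_iff.2 ?_)))⟩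
  have h1 : ball y (r / 2) ⊆ B := (ball_subset_ball' (by rw [mem_ball] at hy; linarith)).trans h
  exact norm_fderiv_le_of_bdd (half_pos hr) (F.2.1.differentiableOn.mono h1)
    fun z hz => F.2.2 z (h1 hz)

omit [FiniteDimensional ℂ E] in
theorem c_inv {B : Set E} (hB : IsOpen B) {g g' : E → E} (h : Bihol B B g g') {x : E}
    (hx : x ∈ B) : J g x * c B (g x) = c B x := by
  have d : ∀ {F : E → E}, HolOn B F → ∀ {y}, y ∈ B → DifferentiableAt ℂ F y :=
    fun hF y hy => (hF.analyticAt (hB.mem_nhds hy)).differentiableAt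
  refine le_antisymm ?_ (iSup_le fun F => ?_)
  · rw [c, ENNReal.mul_iSup]
    refine iSup_le fun F => le_iSup_of_le ⟨fun y => F.1 (g y), F.2.1.comp h.hol h.maps,
      fun y hy => F.2.2 _ (h.maps hy)⟩ ?_
    exact (J_comp (d F.2.1 (h.maps hx)) (d h.hol hx)).ge
  · have h1 := F.2.1.comp h.hol' h.maps'
    have h2 : (fun y => F.1 (g' (g y))) =ᶠ[𝓝 x] F.1 := by
      filter_upwards [hB.mem_nhds hx] with y hy
      rw [h.left y hy]
    have h3 : J F.1 x = J g x * J (fun y => F.1 (g' y)) (g x) := by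
      rw [← J_comp (d h1 (h.maps hx)) (d h.hol hx), J, J, h2.fderiv_eq]
    rw [h3]
    refine mul_le_mul_right ?_ _
    exact le_iSup_of_le ⟨fun y => F.1 (g' y), h1, fun y hy => F.2.2 _ (h.maps' hy)⟩ le_rfl

end VolAux

open VolAux in
/-- `μ` has the density `c x = ⨆ F, |det (fderiv ℝ F x)|` over all `F : E → E` holomorphic on `B`
with `‖F‖ ≤ 1` on `B`. -/
theorem Vol_pf : S_Vol := by
  intro E _ _ _ _ _ B hB hb hne
  obtain ⟨ν, hν⟩ : ∃ ν : Measure E, ν.IsAddHaarMeasure := ⟨Measure.addHaar, inferInstance⟩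
  have hm := measurable_c hB
  have key : ∀ t : Set B, MeasurableSet t →
      ((ν.comap Subtype.val).withDensity fun x : B => c B x) t = ∫⁻ x in Subtype.val '' t, c B x ∂ν :=
    fun t ht => by rw [withDensity_apply _ ht, setLIntegral_subtype hB.measurableSet]
  refine ⟨(ν.comap Subtype.val).withDensity fun x : B => c B x, ?_, fun h0 => ?_,
    fun g g' h => ⟨?_, ?_⟩⟩
  · have : IsLocallyFiniteMeasure ((ν.comap Subtype.val).withDensity fun x : B => c B x) := by
      refine ⟨fun x => ?_⟩
      obtain ⟨r, hr, C, hC⟩ := c_bdd hB x.2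
      refine ⟨Subtype.val ⁻¹' ball x.1 r,
        continuous_subtype_val.continuousAt.preimage_mem_nhds (ball_mem_nhds _ hr), ?_⟩
      rw [key _ (measurable_subtype_coe measurableSet_ball)]
      refine lt_of_le_of_lt (lintegral_mono_set (image_preimage_subset _ _)) ?_
      refine lt_of_le_of_lt (setLIntegral_mono' measurableSet_ball hC) ?_
      rw [setLIntegral_const]
      exact ENNReal.mul_lt_top ENNReal.ofReal_lt_top measure_ball_lt_top
    infer_instance
  · rw [withDensity_eq_zero_iff hm.aemeasurable] at h0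
    have h1 : (ν.comap (Subtype.val : B → E)) univ = 0 :=
      measure_mono_null (fun x _ => c_ne hb x.1) h0
    rw [(MeasurableEmbedding.subtype_coe hB.measurableSet).comap_apply, Subtype.coe_image_univ] at h1
    exact (hB.measure_pos ν hne).ne' h1
  · exact (h.hol.continuousOn.mapsToRestrict h.maps).measurable
  · have hg := (h.hol.continuousOn.mapsToRestrict h.maps).measurable
    ext s hs
    have hT := (MeasurableEmbedding.subtype_coe hB.measurableSet).measurableSet_image.2 (hg hs)
    have hsub : Subtype.val '' (h.maps.restrict g B B ⁻¹' s) ⊆ B := Subtype.coe_image_subset _ _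
    have e : Subtype.val '' s = g '' (Subtype.val '' (h.maps.restrict g B B ⁻¹' s)) := by
      ext y
      constructor
      · rintro ⟨z, hz, rfl⟩
        refine ⟨g' z, ⟨⟨g' z, h.maps' z.2⟩, ?_, rfl⟩, h.right z z.2⟩
        have : h.maps.restrict g B B ⟨g' z, h.maps' z.2⟩ = z := Subtype.ext (h.right z z.2)
        rw [mem_preimage, this]
        exact hz
      · rintro ⟨_, ⟨z, hz, rfl⟩, rfl⟩
        exact ⟨_, hz, rfl⟩
    rw [Measure.map_apply hg hs, key _ (hg hs), key _ hs, e,
      lintegral_image_eq_lintegral_abs_det_fderiv_mul ν hT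
        (f' := fun x => (fderiv ℂ g x).restrictScalars ℝ) (fun x hx => ?_) fun x hx y hy hxy => ?_]
    · exact setLIntegral_congr_fun hT fun x hx => (c_inv hB h (hsub hx)).symm
    · exact ((h.hol.analyticAt (hB.mem_nhds (hsub hx))).differentiableAt.hasFDerivAt.restrictScalars
        ℝ).hasFDerivWithinAt
    · rw [← h.left x (hsub hx), hxy, h.left y (hsub hy)]

end Vale.Agent.P274
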