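import Vale.Agent.P274.StC

open Set Filter Topology Metric

namespace Vale.Agent.P274

namespace WallAux

theorem lead_lim {X V α : Type*} [TopologicalSpace X] [NormedAddCommGroup V] [NormedSpace ℝ V]
    {D : V → ℝ} {h : X → V} {x₀ : X} {μ : ℕ} {P : V → ℝ} (H : Lead D h x₀ μ P) {l : Filter α}
    {x : α → X} {s : α → ℝ} {v : α → V} {v₀ : V} (hx : Tendsto x l (𝓝 x₀))
    (hs : Tendsto s l (𝓝[>] 0)) (hv : Tendsto v l (𝓝 v₀)) :
    Tendsto (fun a => (s a ^ μ)⁻¹ * D (h (x a) + s a • v a)) l (𝓝 (P v₀)) := by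
  obtain ⟨hs0, hs1⟩ := tendsto_nhdsWithin_iff.1 hs
  have h1 : Tendsto (fun a => (x a, s a • v a)) l (𝓝 (x₀, 0)) :=
    hx.prodMk_nhds (by simpa using hs0.smul hv)
  have h2 : Tendsto (fun a => (s a ^ μ)⁻¹ * D (h (x a) + s a • v a) - P (v a)) l (𝓝 0) := by
    rw [Metric.tendsto_nhds]
    intro ε hε
    have hC : 0 < ‖v₀‖ ^ μ + 1 := by positivity
    have h3 : ∀ᶠ a in l, ‖v a‖ ^ μ < ‖v₀‖ ^ μ + 1 :=
      (hv.norm.pow μ).eventually (gt_mem_nhds (by linarith))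
    filter_upwards [h1.eventually (H.est (ε / (‖v₀‖ ^ μ + 1)) (by positivity)), hs1, h3]
      with a h4 h5 h6
    have h5' : 0 < s a := h5
    have h7 : 0 < s a ^ μ := by positivity
    simp only [H.hom _ h5', norm_smul, mul_pow, Real.norm_of_nonneg h5'.le] at h4
    have e : (s a ^ μ)⁻¹ * D (h (x a) + s a • v a) - P (v a) =
        (s a ^ μ)⁻¹ * (D (h (x a) + s a • v a) - s a ^ μ * P (v a)) := by field_simp
    rw [dist_zero_right, Real.norm_eq_abs, e, abs_mul, abs_of_pos (inv_pos.2 h7),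
      inv_mul_lt_iff₀ h7]
    refine h4.trans_lt ?_
    have h8 : ε / (‖v₀‖ ^ μ + 1) * ‖v a‖ ^ μ < ε := by
      rw [div_mul_eq_mul_div, div_lt_iff₀ hC]
      exact mul_lt_mul_of_pos_left h6 hε
    calc _ = s a ^ μ * (ε / (‖v₀‖ ^ μ + 1) * ‖v a‖ ^ μ) := by ring
      _ < _ := mul_lt_mul_of_pos_left h8 h7
  simpa using h2.add ((H.cont.tendsto v₀).comp hv)

theorem quad_lim {Y F : Type*} [NormedAddCommGroup Y] [NormedSpace ℝ Y] [NormedAddCommGroup F]
    [NormedSpace ℝ F] {f : Y → F} (hf : AnalyticAt ℝ f 0) (h0 : f 0 = 0)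
    (h1 : fderiv ℝ f 0 = 0) : ∃ B : Y →L[ℝ] Y →L[ℝ] F, (∀ u v, B u v = B v u) ∧
      ∀ {α : Type _} {l : Filter α} {s : α → ℝ} {z : α → Y} {z₀ : Y},
        Tendsto s l (𝓝[>] 0) → Tendsto z l (𝓝 z₀) →
        Tendsto (fun a : α => (s a ^ 2)⁻¹ • f (s a • z a)) l (𝓝 (B z₀ z₀)) := by
  obtain ⟨p, hp⟩ := hf
  let B' : Y →L[ℝ] Y →L[ℝ] F :=
    ((continuousMultilinearCurryFin1 ℝ Y F).toContinuousLinearEquiv : _ →L[ℝ] _).comp
      (p 2).curryLeft
  have hB' : ∀ z, B' z z = p 2 (fun _ => z) := fun z => by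
    change p 2 _ = _
    congr 1
    ext i
    fin_cases i <;> rfl
  have hp1 : ∀ z, p 1 (fun _ => z) = 0 := fun z => by
    have := congrArg (fun L => L z) (hp.fderiv_eq.symm.trans h1)
    simp only [continuousMultilinearCurryFin1_apply, zero_apply] at this
    rw [← this]
    congr 1
  have hO : (fun y => f y - B' y y) =O[𝓝 0] fun y => ‖y‖ ^ 3 := by
    refine (hp.isBigO_sub_partialSum_pow 3).congr_left fun y => ?_
    simp [FormalMultilinearSeries.partialSum, Finset.sum_range_succ, hp.coeff_zero, h0, hp1, hB']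
  refine ⟨(1 / 2 : ℝ) • (B' + B'.flip), fun u v => by simp [add_comm], ?_⟩
  intro α l s z z₀ hs hz
  obtain ⟨hs0, hs1⟩ := tendsto_nhdsWithin_iff.1 hs
  have e : ((1 / 2 : ℝ) • (B' + B'.flip)) z₀ z₀ = B' z₀ z₀ := by
    simp only [smul_apply, add_apply, ContinuousLinearMap.flip_apply, ← two_smul ℝ (B' z₀ z₀),
      smul_smul]
    norm_num
  rw [e]
  have h2 : Tendsto (fun a => s a • z a) l (𝓝 0) := by simpa using hs0.smul hz
  obtain ⟨C, hC⟩ := (hO.comp_tendsto h2).bound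
  have h3 : Tendsto (fun a => (s a ^ 2)⁻¹ • f (s a • z a) - B' (z a) (z a)) l (𝓝 0) := by
    refine squeeze_zero_norm' (a := fun a => C * (s a * ‖z a‖ ^ 3)) ?_ ?_
    · filter_upwards [hC, hs1] with a h4 h5
      have h5' : 0 < s a := h5
      have h7 : 0 < s a ^ 2 := by positivity
      have e2 : (s a ^ 2)⁻¹ • f (s a • z a) - B' (z a) (z a) =
          (s a ^ 2)⁻¹ • (f (s a • z a) - B' (s a • z a) (s a • z a)) := by
        simp only [map_smul, smul_apply, smul_sub, smul_smul]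
        rw [← pow_two, inv_mul_cancel₀ h7.ne', one_smul]
      simp only [Function.comp, norm_pow, norm_norm] at h4
      rw [norm_smul, Real.norm_of_nonneg h5'.le] at h4
      rw [e2, norm_smul, Real.norm_of_nonneg (inv_pos.2 h7).le, inv_mul_le_iff₀ h7]
      refine h4.trans (le_of_eq ?_)
      ring
    · simpa using (hs0.mul (hz.norm.pow 3)).const_mul C
  have h4 : Tendsto (fun a => B' (z a) (z a)) l (𝓝 (B' z₀ z₀)) :=
    ((by fun_prop : Continuous fun z => B' z z).tendsto z₀).comp hz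
  simpa using h3.add h4

variable {k l : ℕ}

theorem gr_add (H : ((Fin k → ℝ) × (Fin l → ℂ)) × ℝ → (Fin k → ℝ)) {ε : ℝ} (hε : ε ≠ 0)
    (t : Fin k → ℝ) (u : Fin l → ℂ) (v : EE k l) :
    gr H (ε • (t, u), 0) + ε • (v - (ofR k (ε⁻¹ • H (ε • (t, u), 0)), 0)) =
      ε • (v + (Complex.I • ofR k t, u)) := by
  refine Prod.ext ?_ ?_
  · simp only [gr, Prod.fst_add, Prod.smul_fst, Prod.fst_sub, smul_sub, map_smul, smul_smul,
      mul_inv_cancel₀ hε, one_smul, smul_add, smul_comm ε Complex.I]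
    abel
  · simp [gr, add_comm]

theorem gr_sc (H : ((Fin k → ℝ) × (Fin l → ℂ)) × ℝ → (Fin k → ℝ)) {δ : ℝ} (hδ : δ ≠ 0)
    (w : EE k l) :
    gr H (δ • (δ • imL k w.1, w.2), 0) + (δ ^ 2) • ((ofR k (reL k w.1 -
      (δ ^ 2)⁻¹ • H (δ • (δ • imL k w.1, w.2), 0)), 0) : EE k l) = sc δ w := by
  refine Prod.ext ?_ ?_
  · have e := ofR_reL_add w.1
    simp only [gr, sc, Prod.fst_add, Prod.smul_fst, smul_sub, map_smul, map_sub, smul_smul,
      mul_inv_cancel₀ (pow_ne_zero 2 hδ), one_smul, ← pow_two, smul_comm Complex.I (δ ^ 2)]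
    conv_rhs => rw [← e]
    rw [smul_add]
    abel
  · simp [gr, sc]

theorem local_inv {E F : Type*} [NormedAddCommGroup E] [NormedSpace ℝ E] [CompleteSpace E]
    [NormedAddCommGroup F] [NormedSpace ℝ F] [CompleteSpace F] {f : E → F} {a : E}
    (hf : AnalyticAt ℝ f a) (hb : Function.Bijective (fderiv ℝ f a)) :
    ∃ J : F → E, AnalyticAt ℝ J (f a) ∧ J (f a) = a ∧ ∀ᶠ p in 𝓝 (f a), f (J p) = p := by
  let i : E ≃L[ℝ] F := ContinuousLinearEquiv.ofBijective (fderiv ℝ f a)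
    (LinearMap.ker_eq_bot.2 hb.1) (LinearMap.range_eq_top.2 hb.2)
  have h1 : HasFDerivAt f (i : E →L[ℝ] F) a := hf.differentiableAt.hasFDerivAt
  have h2 : ContDiffAt ℝ ⊤ f a := hf.contDiffAt
  exact ⟨h2.localInverse h1 (by simp), (h2.to_localInverse h1 (by simp)).analyticAt,
    h2.localInverse_apply_image h1 (by simp),
    (h2.hasStrictFDerivAt' h1 (by simp)).eventually_right_inverse⟩

end WallAux

open WallAux

/-- The limiting quadric and the limiting walls. -/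
theorem Wall_pf : S_Wall := by
  intro k l O W D H μ P hW hF hH h0 h1 hL hd
  have hin : AnalyticAt ℝ (fun y : (Fin k → ℝ) × (Fin l → ℂ) => (y, (0 : ℝ))) 0 :=
    analyticAt_id.prod analyticAt_const
  have hH₀ : AnalyticAt ℝ (fun y => H (y, 0)) 0 := AnalyticAt.comp (g := H) hH hin
  have hD₀ : HasFDerivAt (fun y => H (y, 0))
      (0 : ((Fin k → ℝ) × (Fin l → ℂ)) →L[ℝ] (Fin k → ℝ)) 0 := by
    have := HasFDerivAt.comp (g := H) (0 : (Fin k → ℝ) × (Fin l → ℂ))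
      hH.differentiableAt.hasFDerivAt (hasFDerivAt_prodMk_left (𝕜 := ℝ) _ (0 : ℝ))
    refine HasFDerivAt.congr_fderiv this ?_
    exact ContinuousLinearMap.ext fun y => h1 y
  obtain ⟨B, hB, hlim⟩ := quad_lim hH₀ h0 hD₀.fderiv
  have hg0 : gr H (0, 0) = 0 := by
    have : H (0, 0) = 0 := h0
    simp [gr, this]
  have hinv : ∀ (v : EE k l) (t : Fin k → ℝ) (u : Fin l → ℂ),
      P (v + (Complex.I • ofR k t, u)) = P v := by
    intro v t u
    have a1 := lead_lim hL (l := 𝓝[>] (0 : ℝ)) (s := fun ε => ε) tendsto_const_nhds tendsto_id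
      (tendsto_const_nhds (x := v + (Complex.I • ofR k t, u)))
    have a2 : Tendsto (fun ε : ℝ => ε⁻¹ • H (ε • (t, u), 0)) (𝓝[>] 0) (𝓝 0) := by
      have := (hD₀.hasLineDerivAt (t, u)).tendsto_slope_zero_right
      have e : H (0, 0) = 0 := h0
      simpa [e] using this
    have a3 : Tendsto (fun ε : ℝ => v - ((ofR k (ε⁻¹ • H (ε • (t, u), 0)), 0) : EE k l))
        (𝓝[>] 0) (𝓝 v) := by
      have := tendsto_const_nhds (x := v) |>.sub
        ((((ofR k).continuous.tendsto _).comp a2).prodMk_nhds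
          (tendsto_const_nhds (x := (0 : Fin l → ℂ))))
      simpa [Prod.mk_zero_zero] using this
    have a4 : Tendsto (fun ε : ℝ => ε • (t, u)) (𝓝[>] 0) (𝓝 0) := by
      have := (tendsto_id.mono_left (nhdsWithin_le_nhds (a := (0 : ℝ)) (s := Ioi 0))).smul
        (tendsto_const_nhds (x := (t, u)))
      simpa using this
    have a5 := lead_lim hL (s := fun ε => ε) a4 tendsto_id a3
    refine tendsto_nhds_unique a1 (a5.congr' ?_)
    filter_upwards [self_mem_nhdsWithin] with ε hε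
    rw [gr_add H (ne_of_gt hε), hg0, zero_add]
  have hP : ∀ w : EE k l, P w = P (ofR k (reL k w.1), 0) := fun w => by
    rw [← hinv (ofR k (reL k w.1), 0) (imL k w.1) w.2, Prod.mk_add_mk, ofR_reL_add, zero_add]
  refine ⟨B.bilinearComp (ContinuousLinearMap.inr ℝ _ _) (ContinuousLinearMap.inr ℝ _ _),
    {ν | P (ofR k ν, 0) ≠ 0}, fun u v => hB _ _, ⟨?_, ?_, fun ν hν s hs => ?_⟩, fun w hw => ?_⟩
  · exact isOpen_ne_fun (hL.cont.comp (by fun_prop)) continuous_const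
  · have hs : Function.Surjective fun w : EE k l => reL k w.1 := fun ν => ⟨(ofR k ν, 0), by simp⟩
    refine (hs.denseRange.dense_image (by fun_prop) hd).mono ?_
    rintro _ ⟨w, hw, rfl⟩
    exact fun h => hw ((hP w).trans h)
  · have e : ((ofR k (s • ν), 0) : EE k l) = s • (ofR k ν, 0) := by simp
    change P _ ≠ 0
    rw [e, hL.hom s hs]
    exact mul_ne_zero (pow_ne_zero _ hs.ne') hν
  · have b0 : Tendsto (fun q : ℝ × EE k l => q.1) (𝓝[>] 0 ×ˢ 𝓝 w) (𝓝 0) :=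
      tendsto_fst.mono_right nhdsWithin_le_nhds
    have b0' : Tendsto (fun q : ℝ × EE k l => q) (𝓝[>] 0 ×ˢ 𝓝 w) (𝓝 (0, w)) :=
      b0.prodMk_nhds tendsto_snd
    have b1 : Tendsto (fun q : ℝ × EE k l => (q.1 • imL k q.2.1, q.2.2)) (𝓝[>] 0 ×ˢ 𝓝 w)
        (𝓝 (0, w.2)) := by
      have := ((by fun_prop : Continuous fun q : ℝ × EE k l =>
        (q.1 • imL k q.2.1, q.2.2)).tendsto (0, w)).comp b0'
      simpa [Function.comp_def] using this
    have b2 := hlim tendsto_fst b1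
    have b3 : Tendsto (fun q : ℝ × EE k l => reL k q.2.1) (𝓝[>] 0 ×ˢ 𝓝 w) (𝓝 (reL k w.1)) :=
      ((by fun_prop : Continuous fun q : ℝ × EE k l => reL k q.2.1).tendsto (0, w)).comp b0'
    have b4 := (((ofR k).continuous.tendsto _).comp (b3.sub b2)).prodMk_nhds
      (tendsto_const_nhds (x := (0 : Fin l → ℂ)))
    have b5 : Tendsto (fun q : ℝ × EE k l => q.1 ^ 2) (𝓝[>] 0 ×ˢ 𝓝 w) (𝓝[>] 0) := by
      refine tendsto_nhdsWithin_iff.2 ⟨by simpa using b0.pow 2, ?_⟩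
      filter_upwards [tendsto_fst.eventually (self_mem_nhdsWithin (a := (0 : ℝ)) (s := Ioi 0))]
        with q hq
      exact pow_pos hq 2
    have b6 := lead_lim hL (by simpa using b0.smul b1) b5 b4
    have b7 : Tendsto (fun q : ℝ × EE k l => sc q.1 q.2) (𝓝[>] 0 ×ˢ 𝓝 w) (𝓝 0) := by
      have := (continuous_sc.tendsto (0, w)).comp b0'
      simpa [Function.comp_def, sc, Prod.mk_zero_zero] using this
    have b8 : ∀ᶠ q : ℝ × EE k l in 𝓝[>] 0 ×ˢ 𝓝 w, D (sc q.1 q.2) ≠ 0 ∧ sc q.1 q.2 ∈ W := by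
      filter_upwards [b6.eventually_ne hw, b7.eventually hW,
        tendsto_fst.eventually (self_mem_nhdsWithin (a := (0 : ℝ)) (s := Ioi 0))] with q h2 h3 h4
      refine ⟨fun h5 => h2 ?_, h3⟩
      rw [← gr_sc H (ne_of_gt h4)] at h5
      exact mul_eq_zero_of_right _ h5
    obtain ⟨pa, hpa, pb, hpb, hab⟩ := eventually_prod_iff.1 b8
    obtain ⟨r, hr, hrb⟩ := Metric.eventually_nhds_iff_ball.1 hpb
    refine ⟨r, hr, ?_⟩
    filter_upwards [hpa] with δ hδ
    rintro ⟨w₁, hw₁, hc⟩ w' hw'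
    refine hF.subset (T := sc δ '' ball w r)
      ((convex_ball w r).isPreconnected.image _ (differentiable_sc δ).continuous.continuousOn)
      ?_ ?_ ⟨_, mem_image_of_mem _ hw₁, hc⟩ (mem_image_of_mem _ hw')
    · rintro _ ⟨z, hz, rfl⟩
      exact (hab hδ (hrb z hz)).2
    · rintro _ ⟨z, hz, rfl⟩
      exact (hab hδ (hrb z hz)).1

/-- Graph form of a family of arcs. -/
theorem Graph_pf : S_Graph := by
  intro k l d O D c x₀ e μ P hc h0 hinj hran hm hL
  let pr : EE k l →L[ℝ] (Fin k → ℝ) × (Fin l → ℂ) :=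
    ((imL k).comp (ContinuousLinearMap.fst ℝ _ _)).prod (ContinuousLinearMap.snd ℝ _ _)
  have hpr : ∀ w, pr w = (imL k w.1, w.2) := fun _ => rfl
  have hA : ∀ ξ, fderiv ℝ (fun x => c (x, 0)) x₀ ξ = fderiv ℝ c (x₀, 0) (ξ, 0) := fun ξ => by
    have := HasFDerivAt.comp (g := c) x₀ hc.differentiableAt.hasFDerivAt
      (hasFDerivAt_prodMk_left (𝕜 := ℝ) x₀ (0 : ℝ))
    exact congrArg (fun L => L ξ) this.fderiv
  have hΨ : AnalyticAt ℝ (fun p => (pr (c p), p.2)) (x₀, 0) :=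
    ((pr.analyticAt _).comp hc).prod analyticAt_snd
  have hΨ' : ∀ q, fderiv ℝ (fun p => (pr (c p), p.2)) (x₀, 0) q =
      (pr (fderiv ℝ c (x₀, 0) q), q.2) := fun q =>
    congrArg (fun L => L q) ((pr.hasFDerivAt.comp _ hc.differentiableAt.hasFDerivAt).prodMk
      hasFDerivAt_snd).fderiv
  obtain ⟨J, hJ, hJ0, hJr⟩ := local_inv hΨ (by
    constructor
    · refine (injective_iff_map_eq_zero _).2 fun q hq => ?_
      obtain ⟨ξ, s⟩ := q
      rw [hΨ'] at hq
      obtain rfl : s = 0 := congrArg Prod.snd hq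
      have h1 := congrArg Prod.fst hq
      simp only [← hA, hpr, Prod.fst_zero, Prod.mk_eq_zero] at h1
      have h2 := (hran _).1 (mem_range_self ξ)
      have h3 : fderiv ℝ (fun x => c (x, 0)) x₀ ξ = 0 := by
        refine Prod.ext ?_ h1.2
        rw [← ofR_reL_add (fderiv ℝ (fun x => c (x, 0)) x₀ ξ).1, h1.1, h2]
        simp
      rw [(injective_iff_map_eq_zero _).1 hinj ξ h3]
      rfl
    · rintro ⟨y, s⟩
      set y' := y - pr (fderiv ℝ c (x₀, 0) (0, s)) with hy'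
      obtain ⟨ξ, hξ⟩ := (hran (Complex.I • ofR k y'.1, y'.2)).2 (by simp)
      refine ⟨(ξ, s), ?_⟩
      have e1 : (ξ, s) = (ξ, 0) + (0, s) := by simp
      have e2 : pr (fderiv ℝ c (x₀, 0) (ξ, 0)) = y' := by rw [← hA, hξ, hpr]; simp
      rw [hΨ', e1, map_add, map_add, e2, hy']
      simp)
  have hz : (pr (c (x₀, 0)), (x₀, (0 : ℝ)).2) = 0 := by simp [h0]
  simp only [hz] at hJ hJ0 hJr
  have hcJ : AnalyticAt ℝ c (J 0) := hJ0 ▸ hc
  have hT : Tendsto J (𝓝 0) (𝓝 (x₀, 0)) := hJ0 ▸ hJ.continuousAt.tendsto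
  have h2 : ∀ᶠ p in 𝓝 0, (J p).2 = p.2 := hJr.mono fun p hp => congrArg Prod.snd hp
  have hg : ∀ᶠ p in 𝓝 0, gr (fun p => reL k (c (J p)).1) p = c (J p) := by
    filter_upwards [hJr] with p hp
    have h3 : pr (c (J p)) = p.1 := congrArg Prod.fst hp
    simp only [gr, ← h3, hpr, ofR_reL_add]
  let π : EE k l →L[ℝ] (Fin k → ℝ) := (reL k).comp (ContinuousLinearMap.fst ℝ _ _)
  refine ⟨fun p => reL k (c (J p)).1, ⟨(π.analyticAt _).comp (hcJ.comp hJ), by simp [hJ0, h0],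
    fun y => ?_, ?_⟩, ?_⟩
  · have a1 := (π.hasFDerivAt.comp _ (hcJ.differentiableAt.hasFDerivAt.comp 0
      hJ.differentiableAt.hasFDerivAt)).fderiv
    have a2 : (fderiv ℝ J 0 (y, 0)).2 = 0 :=
      congrArg (fun L => L (y, 0)) ((hJ.differentiableAt.hasFDerivAt.snd.congr_of_eventuallyEq
        (EventuallyEq.symm h2)).unique hasFDerivAt_snd)
    have a3 : fderiv ℝ J 0 (y, 0) = ((fderiv ℝ J 0 (y, 0)).1, 0) := Prod.ext rfl a2
    refine (congrArg (fun L => L (y, 0)) a1).trans ?_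
    change reL k (fderiv ℝ c (J 0) (fderiv ℝ J 0 (y, 0))).1 = 0
    rw [a3, hJ0, ← hA]
    exact (hran _).1 (mem_range_self _)
  · filter_upwards [hT.eventually hm, h2, hg] with p a1 a2 a3 a4 v hv
    rw [a3]
    exact a1 (a2 ▸ a4) v (a2 ▸ hv)
  · have a0 : Tendsto (fun y : (Fin k → ℝ) × (Fin l → ℂ) => (y, (0 : ℝ))) (𝓝 0) (𝓝 0) :=
      (by fun_prop : Continuous fun y : (Fin k → ℝ) × (Fin l → ℂ) => (y, (0 : ℝ))).tendsto 0
    refine hL.reparam (j := fun y => (J (y, 0)).1)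
      ((continuous_fst.tendsto _).comp (hT.comp a0)) ?_
    filter_upwards [a0.eventually h2, a0.eventually hg] with y a1 a2
    rw [a2]
    congr 1
    exact Prod.ext rfl a1

end Vale.Agent.P274
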