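import Vale.Agent.P274.StC

open Set Filter Topology Metric

namespace Vale.Agent.P274

namespace WallsAux

variable {k l : ℕ} (b : Bil k l)

/-- The point with prescribed value of `rho`. -/
noncomputable def pt (p : (Fin k → ℝ) × (Fin k → ℝ) × (Fin l → ℂ)) : EE k l :=
  (ofR k (p.1 + b p.2.2 p.2.2) + Complex.I • ofR k p.2.1, p.2.2)

theorem rho_pt (p : (Fin k → ℝ) × (Fin k → ℝ) × (Fin l → ℂ)) : rho b (pt b p) = p.1 := by
  simp only [rho, pt, map_add, reL_ofR, reL_I_ofR]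
  abel

theorem pt_rho (w : EE k l) : pt b (rho b w, imL k w.1, w.2) = w := by
  simp only [rho, pt, sub_add_cancel, ofR_reL_add]

theorem preconn {C : Set (Fin k → ℝ)} (hC : IsPreconnected C) :
    IsPreconnected (rho b ⁻¹' C) := by
  have hc : Continuous (pt b) := by
    unfold pt
    fun_prop
  have e : rho b ⁻¹' C = pt b '' (C ×ˢ univ) := by
    ext w
    constructor
    · exact fun hw => ⟨(rho b w, imL k w.1, w.2), ⟨hw, trivial⟩, pt_rho b w⟩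
    · rintro ⟨p, hp, rfl⟩
      show rho b (pt b p) ∈ C
      rw [rho_pt]
      exact hp.1
  rw [e]
  exact (hC.prod isPreconnected_univ).image _ hc.continuousOn

theorem lim_subset {X J : Type*} [PseudoMetricSpace X] {F : Filter J} {Ω : J → Set X}
    {Ω' T : Set X}
    (h : ∀ w r, (∀ᶠ j in F, ball w r ⊆ Ω j) → (ball w r ∩ Ω').Nonempty → ball w r ⊆ Ω')
    (hT : IsPreconnected T) (hb : ∀ w ∈ T, ∃ r > 0, ∀ᶠ j in F, ball w r ⊆ Ω j)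
    (hne : (T ∩ Ω').Nonempty) : T ⊆ Ω' := by
  have hF : Fr (fun _ => (1 : ℝ)) T Ω' := by
    intro w hw _
    obtain ⟨r, hr, h1⟩ := hb w hw
    by_cases h2 : (ball w r ∩ Ω').Nonempty
    · exact Or.inl (mem_of_superset (ball_mem_nhds w hr) (h w r h1 h2))
    · exact Or.inr (mem_of_superset (ball_mem_nhds w hr) fun y hy hΩ => h2 ⟨y, hy, hΩ⟩)
  exact hF.subset hT Subset.rfl (fun _ _ => one_ne_zero) (hne.mono (inter_subset_inter_right _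
    subset_closure))

theorem rad_inv {Ω : Set (EE k l)}
    (h : ∀ w ∈ Ω, ∀ s : ℝ, 0 < s → ((w.1 + ofR k ((s - 1) • rho b w), w.2) : EE k l) ∈ Ω)
    (w : EE k l) {s : ℝ} (hs : 0 < s)
    (hw : ((w.1 + ofR k ((s - 1) • rho b w), w.2) : EE k l) ∈ Ω) : w ∈ Ω := by
  have h1 : rho b ((w.1 + ofR k ((s - 1) • rho b w), w.2) : EE k l) = s • rho b w := by
    show reL k (w.1 + ofR k ((s - 1) • rho b w)) - b w.2 w.2 = _
    rw [map_add, reL_ofR, add_sub_right_comm, sub_smul, one_smul]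
    exact add_sub_cancel _ _
  have h2 := h _ hw s⁻¹ (inv_pos.2 hs)
  rw [h1, smul_smul, add_assoc, ← map_add, ← add_smul,
    show s - 1 + (s⁻¹ - 1) * s = 0 by field_simp; ring, zero_smul, map_zero, add_zero] at h2
  exact h2

theorem rho_rad (w : EE k l) (s : ℝ) :
    rho b ((w.1 + ofR k ((s - 1) • rho b w), w.2) : EE k l) = s • rho b w := by
  show reL k (w.1 + ofR k ((s - 1) • rho b w)) - b w.2 w.2 = _
  rw [map_add, reL_ofR, add_sub_right_comm, sub_smul, one_smul]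
  exact add_sub_cancel _ _

theorem near {Ω : Set (EE k l)} (ho : IsOpen Ω)
    (h : ∀ w ∈ Ω, ∀ s : ℝ, 0 < s → ((w.1 + ofR k ((s - 1) • rho b w), w.2) : EE k l) ∈ Ω)
    (w : EE k l) (hw : ((ofR k (rho b w), 0) : EE k l) ∈ Ω) :
    ∃ r > 0, ∀ᶠ j : ℕ in atTop, ball w r ⊆ sc (1 / ((j : ℝ) + 1)) ⁻¹' Ω := by
  have hc : Continuous fun p : ℝ × EE k l =>
      (((sc p.1 p.2).1 + ofR k ((1 - p.1 ^ 2) • rho b p.2), (sc p.1 p.2).2) : EE k l) := by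
    have h1 := continuous_rho b
    have h2 := continuous_sc (k := k) (l := l)
    fun_prop
  have h1 := (hc.tendsto (0, w)).eventually (ho.mem_nhds (by simpa [sc] using hw))
  rw [nhds_prod_eq, eventually_prod_iff] at h1
  obtain ⟨pa, ha, pb, hb, h2⟩ := h1
  obtain ⟨r, hr, h3⟩ := Metric.mem_nhds_iff.1 hb
  refine ⟨r, hr, ?_⟩
  filter_upwards [tendsto_one_div_add_atTop_nhds_zero_nat.eventually ha] with j hj w' hw'
  have h4 := h2 hj (h3 hw')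
  have h5 : (0 : ℝ) < 1 / ((j : ℝ) + 1) := by positivity
  generalize 1 / ((j : ℝ) + 1) = δ at h4 h5
  refine rad_inv b h _ (s := (δ ^ 2)⁻¹) (by positivity) ?_
  rw [rho_sc, smul_smul, show ((δ ^ 2)⁻¹ - 1) * δ ^ 2 = 1 - δ ^ 2 by field_simp]
  exact h4

end WallsAux

open WallsAux in
/-- Sketch. Lemma 1: `rho b ⁻¹' C` is preconnected for preconnected `C` (image of `C ×ˢ univ` under
`(ν, t, u) ↦ (ofR (ν + b u u) + I • ofR t, u)`). Lemma 2: if `Ω'` is a limit as in `S_FamLim`, `T` is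
preconnected, contains `w₀`, and every point of `T` has a ball eventually in `Ω j`, then `T ⊆ Ω'`
(e.g. `Fr.subset` with `D = 1`). Zorn (`zorn_subset_nonempty`) on
`{C | IsOpen C ∧ IsPreconnected C ∧ ν₀ ∈ C ∧ ∃ Ω, Fam U b 𝒢 Ω ∧ rho b ⁻¹' C ⊆ Ω}`, `ν₀ = rho b w₀`: it
contains a ball around `ν₀` inside `𝒢` (`WallP.subset`); for a nonempty chain `c` index by the subtype
`c` with an ultrafilter refining `⨅ C, 𝓟 {C' | C ⊆ C'}`. Let `C` be maximal, with `Ω`. By radial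
invariance `⋃ s > 0, s • C` is also in the family, so `C` is a cone. If `Ω ≠ rho ⁻¹ C`, connectedness of
`Ω` (`Bihol.isConnected`) gives `w₁ ∈ Ω ∩ closure (rho ⁻¹ C)` with `ν₁ = rho b w₁ ∉ C`, `ν₁ ∈ closure C`.
`Ω₁ = tr b (imL w₁.1) w₁.2 ⁻¹' Ω` contains a ball around `(ofR ν₁, 0)`; `Ω j = sc (1/(j+1)) ⁻¹' Ω₁ ⊇ rho ⁻¹ C`.
If `rho b w` is close to `ν₁`, then for `w'` near `w` and small `δ` the point
`((sc δ w').1 + ofR ((1 - δ²) • rho b w'), (sc δ w').2)` is close to `(ofR (rho b w), 0)`, lies in `Ω₁`, has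
`rho = rho b w'`, and radial invariance with `s = δ²` gives `sc δ w' ∈ Ω₁`. So the limit contains
`rho ⁻¹ (C ∪ ball ν₁ r)`, contradicting maximality. -/
theorem Walls_pf (h1 : S_FamLim) (h2 : S_FamSym) : S_Walls := by
  intro N k l Γ _ U act b 𝒢 Ω₀ hD hreg hk hb h𝒢 hΩ₀ ⟨w₀, hw₀, hw₀'⟩
  have hρ := continuous_rho b
  obtain ⟨𝓕, h𝓕⟩ : ∃ 𝓕 : Set (Set (Fin k → ℝ)), ∀ C, C ∈ 𝓕 ↔ IsOpen C ∧ IsPreconnected C ∧
      rho b w₀ ∈ C ∧ ∃ Ω, Fam U b 𝒢 Ω ∧ rho b ⁻¹' C ⊆ Ω := ⟨Set.ofPred _, fun _ => Iff.rfl⟩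
  have ext : ∀ (J : Type) (F : Filter J) [F.NeBot] (Ω : J → Set (EE k l)) (C : Set (Fin k → ℝ)),
      (∀ j, Fam U b 𝒢 (Ω j)) → IsOpen C → IsPreconnected C → rho b w₀ ∈ C →
      (∀ w, rho b w ∈ C → ∃ r > 0, ∀ᶠ j in F, ball w r ⊆ Ω j) → C ∈ 𝓕 := by
    intro J F _ Ω C a1 a2 a3 a4 a5
    obtain ⟨r₀, hr₀, a6⟩ := a5 w₀ a4
    obtain ⟨Ω', a7, a8, a9⟩ := h1 N k l Γ U act b 𝒢 hD hreg hk hb h𝒢.opn J (.of F) Ω w₀ r₀ a1 hr₀
      (Ultrafilter.of_le F a6)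
    refine (h𝓕 C).2 ⟨a2, a3, a4, Ω', a7, lim_subset a9 (preconn b a3) (fun w hw => ?_)
      ⟨w₀, a4, a8⟩⟩
    obtain ⟨r, hr, a10⟩ := a5 w hw
    exact ⟨r, hr, Ultrafilter.of_le F a10⟩
  obtain ⟨r₀, hr₀, hb₀⟩ := Metric.isOpen_iff.1 h𝒢.opn _ hw₀'
  have hstart : ball (rho b w₀) r₀ ∈ 𝓕 :=
    (h𝓕 _).2 ⟨isOpen_ball, (convex_ball _ _).isPreconnected, mem_ball_self hr₀, Ω₀, hΩ₀,
      hΩ₀.wall.subset (preconn b (convex_ball _ _).isPreconnected) (fun w hw => hb₀ hw)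
        ⟨w₀, mem_ball_self hr₀, hw₀⟩⟩
  obtain ⟨C, -, hC⟩ := zorn_subset_nonempty 𝓕 (fun c hc hch hne => by
    refine ⟨⋃₀ c, ?_, fun s hs => subset_sUnion_of_mem hs⟩
    have := hne.to_subtype
    have : IsDirectedOrder c := ⟨directedOn_iff_directed.1 hch.directedOn⟩
    choose Ω a1 a2 using fun C : c => ((h𝓕 C).1 (hc C.2)).2.2.2
    obtain ⟨C₀, hC₀⟩ := hne
    refine ext c atTop Ω _ a1 (isOpen_sUnion fun C hC => ((h𝓕 C).1 (hc hC)).1)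
      (isPreconnected_sUnion (rho b w₀) c (fun C hC => ((h𝓕 C).1 (hc hC)).2.2.1)
        fun C hC => ((h𝓕 C).1 (hc hC)).2.1) ⟨C₀, hC₀, ((h𝓕 C₀).1 (hc hC₀)).2.2.1⟩ ?_
    rintro w ⟨C, hC, hw⟩
    obtain ⟨r, hr, a3⟩ := Metric.isOpen_iff.1 (((h𝓕 C).1 (hc hC)).1.preimage hρ) w hw
    refine ⟨r, hr, (eventually_ge_atTop (⟨C, hC⟩ : c)).mono fun C' hC' => ?_⟩
    exact a3.trans ((preimage_mono hC').trans (a2 C'))) _ hstart
  obtain ⟨c1, c2, c3, Ω, hΩ, c4⟩ := (h𝓕 C).1 hC.prop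
  obtain ⟨s1, -, s3⟩ := h2 N k l Γ U act b 𝒢 Ω hD hb h𝒢 hΩ
  have hcone : ∀ ν ∈ C, ∀ s : ℝ, 0 < s → s • ν ∈ C := by
    have e : {ν | ∃ s : ℝ, 0 < s ∧ s • ν ∈ C} =
        (fun p : ℝ × (Fin k → ℝ) => p.1 • p.2) '' (Ioi 0 ×ˢ C) := by
      ext ν
      constructor
      · rintro ⟨s, hs, h⟩
        exact ⟨(s⁻¹, s • ν), ⟨inv_pos.2 hs, h⟩, inv_smul_smul₀ hs.ne' ν⟩
      · rintro ⟨p, ⟨hs, h⟩, rfl⟩
        exact ⟨p.1⁻¹, inv_pos.2 hs, by rwa [inv_smul_smul₀ (ne_of_gt hs)]⟩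
    have a1 : {ν | ∃ s : ℝ, 0 < s ∧ s • ν ∈ C} ∈ 𝓕 := by
      refine (h𝓕 _).2 ⟨isOpen_iff_mem_nhds.2 ?_, ?_, ⟨1, one_pos, by rwa [one_smul]⟩, Ω, hΩ, ?_⟩
      · rintro ν ⟨s, hs, h⟩
        exact mem_of_superset ((c1.preimage (continuous_const_smul s)).mem_nhds h)
          fun ν' h' => ⟨s, hs, h'⟩
      · rw [e]
        exact (isPreconnected_Ioi.prod c2).image _ (by fun_prop)
      · rintro w ⟨s, hs, h⟩
        refine rad_inv b s3 w hs (c4 ?_)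
        rwa [mem_preimage, rho_rad]
    intro ν hν s hs
    exact hC.le_of_ge a1 (fun ν h => ⟨1, one_pos, by rwa [one_smul]⟩)
      ⟨s⁻¹, inv_pos.2 hs, by rwa [inv_smul_smul₀ hs.ne']⟩
  refine ⟨C, hcone, ?_⟩
  obtain ⟨ψ, θ, hψ⟩ := hΩ.bih
  suffices h : Ω ⊆ rho b ⁻¹' C by rwa [Subset.antisymm c4 h]
  refine (hψ.isConnected hD.conn).isPreconnected.subset_of_closure_inter_subset (c1.preimage hρ)
    ⟨w₀, c4 c3, c3⟩ ?_
  rintro w₁ ⟨a1, a2⟩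
  have a3 : rho b w₁ ∈ closure C := hρ.closure_preimage_subset _ a1
  have hΩ₁ := s1 (imL k w₁.1) w₁.2
  obtain ⟨-, t2, t3⟩ := h2 N k l Γ U act b 𝒢 _ hD hb h𝒢 hΩ₁
  have a4 : ((ofR k (rho b w₁), 0) : EE k l) ∈ tr b (imL k w₁.1) w₁.2 ⁻¹' Ω := by
    have e : tr b (imL k w₁.1) w₁.2 (ofR k (rho b w₁), 0) = w₁ := by
      rw [← pt_rho b w₁]
      simp only [tr, pt_rho, map_zero, add_zero, zero_add, ← map_add]
      exact pt_rho b w₁
    rwa [mem_preimage, e]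
  have a5 : Continuous fun ν => ((ofR k ν, 0) : EE k l) := by fun_prop
  obtain ⟨r, hr, a6⟩ := Metric.isOpen_iff.1 (hΩ₁.opn.preimage a5) _ a4
  have a7 : C ∪ ball (rho b w₁) r ∈ 𝓕 := by
    refine ext ℕ atTop (fun j => sc (1 / ((j : ℝ) + 1)) ⁻¹' (tr b (imL k w₁.1) w₁.2 ⁻¹' Ω)) _
      (fun j => t2 _ (by positivity)) (c1.union isOpen_ball)
      (IsPreconnected.union' ?_ c2 (convex_ball _ _).isPreconnected) (Or.inl c3) ?_
    · rw [inter_comm]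
      exact mem_closure_iff.1 a3 _ isOpen_ball (mem_ball_self hr)
    · rintro w (hw | hw)
      · obtain ⟨r', hr', a8⟩ := Metric.isOpen_iff.1 (c1.preimage hρ) w hw
        refine ⟨r', hr', Eventually.of_forall fun j w' hw' => c4 ?_⟩
        rw [mem_preimage, rho_tr hb.symm, rho_sc]
        exact hcone _ (a8 hw') _ (by positivity)
      · exact near b hΩ₁.opn t3 w (a6 hw)
  exact hC.le_of_ge a7 subset_union_left (Or.inr (mem_ball_self hr))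

end Vale.Agent.P274
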