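import Mathlib

/-! A weighted algebra of real trigonometric polynomials. -/

open Set Filter Topology Metric AddMonoidAlgebra

namespace Vale.Agent.P274.WienAux

/-- Complex Laurent polynomials. -/
abbrev L : Type := AddMonoidAlgebra ℂ ℤ

/-- The weight. -/
noncomputable def w (n : ℤ) : ℝ := 1 + (n.natAbs : ℝ)

theorem one_le_w (n : ℤ) : 1 ≤ w n := le_add_of_nonneg_right (Nat.cast_nonneg _)

theorem w_add (m n : ℤ) : w (m + n) ≤ w m * w n := by
  have h : ((m + n).natAbs : ℝ) ≤ m.natAbs + n.natAbs := by exact_mod_cast Int.natAbs_add_le m n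
  have h1 : (0 : ℝ) ≤ (m.natAbs : ℝ) * n.natAbs := by positivity
  unfold w
  nlinarith

theorem le_w (n : ℤ) (z : ℂ) : ‖z‖ ≤ w n * ‖z‖ := le_mul_of_one_le_left (norm_nonneg _) (one_le_w n)

/-- The weighted norm. -/
noncomputable def N (a : L) : ℝ := a.coeff.sum fun n z => w n * ‖z‖

theorem N_single (n : ℤ) (z : ℂ) : N (single n z) = w n * ‖z‖ := by
  unfold N
  rw [coeff_single, Finsupp.sum_single_index (by simp)]

theorem N_zero : N 0 = 0 := rfl

theorem N_add (a b : L) : N (a + b) ≤ N a + N b := by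
  classical
  unfold N
  rw [coeff_add, Finsupp.sum_of_support_subset _ (s := a.coeff.support ∪ b.coeff.support)
      Finsupp.support_add _ (by simp),
    Finsupp.sum_of_support_subset a.coeff (s := a.coeff.support ∪ b.coeff.support)
      Finset.subset_union_left _ (by simp),
    Finsupp.sum_of_support_subset b.coeff (s := a.coeff.support ∪ b.coeff.support)
      Finset.subset_union_right _ (by simp), ← Finset.sum_add_distrib]
  refine Finset.sum_le_sum fun n _ => ?_
  rw [← mul_add]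
  exact mul_le_mul_of_nonneg_left (norm_add_le _ _) (zero_le_one.trans (one_le_w n))

theorem bound {φ : L → ℝ} {C : ℝ} (h0 : φ 0 ≤ 0) (ha : ∀ a b, φ (a + b) ≤ φ a + φ b)
    (hs : ∀ n z, φ (single n z) ≤ C * (w n * ‖z‖)) (a : L) : φ a ≤ C * N a := by
  conv_lhs => rw [← sum_coeff_single a]
  unfold N Finsupp.sum
  rw [Finset.mul_sum]
  exact (Finset.le_sum_of_subadditive φ h0 ha _ _).trans (Finset.sum_le_sum fun n _ => hs n _)

theorem bound_lin {V : Type*} [SeminormedAddCommGroup V] [NormedSpace ℝ V] {f : L →ₗ[ℝ] V} {C : ℝ}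
    (hs : ∀ n z, ‖f (single n z)‖ ≤ C * (w n * ‖z‖)) (a : L) : ‖f a‖ ≤ C * N a :=
  bound (φ := fun a => ‖f a‖) (by simp) (fun a b => by rw [map_add]; exact norm_add_le _ _) hs a

theorem N_mul (a b : L) : N (a * b) ≤ N a * N b := by
  rw [mul_comm (N a)]
  refine bound (φ := fun a => N (a * b)) (by rw [zero_mul, N_zero])
    (fun x y => by rw [add_mul]; exact N_add _ _) (fun n z => ?_) a
  rw [mul_comm (N b)]
  refine bound (φ := fun b => N (single n z * b)) (by rw [mul_zero, N_zero])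
    (fun x y => by rw [mul_add]; exact N_add _ _) (fun m y => ?_) b
  rw [single_mul_single, N_single, norm_mul, mul_mul_mul_comm]
  exact mul_le_mul_of_nonneg_right (w_add n m) (by positivity)

theorem N_smul (r : ℝ) (a : L) : N (r • a) ≤ ‖r‖ * N a := by
  refine bound (φ := fun a => N (r • a)) (by rw [smul_zero, N_zero])
    (fun x y => by rw [smul_add]; exact N_add _ _) (fun n z => ?_) a
  rw [smul_single, N_single, norm_smul]
  exact le_of_eq (by ring)

theorem N_neg (a : L) : N (-a) = N a := by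
  have h : ∀ a : L, N (-a) ≤ N a := fun a => by simpa using N_smul (-1) a
  exact le_antisymm (h a) (by simpa using h (-a))

/-- The linear map with prescribed values on monomials. -/
noncomputable def lam {V : Type*} [AddCommGroup V] [Module ℝ V] (c : ℤ → ℂ →ₗ[ℝ] V) :
    L →ₗ[ℝ] V := Finsupp.lsum ℕ c ∘ₗ (coeffLinearEquiv ℝ).toLinearMap

theorem lam_single {V : Type*} [AddCommGroup V] [Module ℝ V] (c : ℤ → ℂ →ₗ[ℝ] V) (n : ℤ) (z : ℂ) :
    lam c (single n z) = c n z := Finsupp.lsum_single ℕ c n z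

/-- Evaluation. -/
noncomputable def Ev (ζ : ℂ) : L →ₗ[ℝ] ℂ := lam fun n => LinearMap.mulRight ℝ (ζ ^ n)

theorem Ev_single (ζ : ℂ) (n : ℤ) (z : ℂ) : Ev ζ (single n z) = z * ζ ^ n := lam_single _ n z

theorem Ev_mul {ζ : ℂ} (hζ : ζ ≠ 0) (a b : L) : Ev ζ (a * b) = Ev ζ a * Ev ζ b := by
  induction a using induction_linear with
  | zero => simp
  | add x y hx hy => rw [add_mul, map_add, map_add, hx, hy, add_mul]
  | single n z =>
    induction b using induction_linear with
    | zero => simp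
    | add x y hx hy => rw [mul_add, map_add, map_add, hx, hy, mul_add]
    | single m y =>
      rw [single_mul_single, Ev_single, Ev_single, Ev_single, zpow_add₀ hζ]
      ring

theorem Ev_one (ζ : ℂ) : Ev ζ 1 = 1 := by rw [one_def, Ev_single, zpow_zero, mul_one]

theorem ne_zero_of_norm {ζ : ℂ} (h : ‖ζ‖ = 1) : ζ ≠ 0 := fun h0 => by simp [h0] at h

theorem conj_zpow {ζ : ℂ} (h : ‖ζ‖ = 1) (n : ℤ) : (starRingEnd ℂ) (ζ ^ n) = ζ ^ (-n) := by
  rw [map_zpow₀, ← Complex.inv_eq_conj h, inv_zpow']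

/-- Laurent polynomials which are real on the unit circle. -/
noncomputable def L0 : Subalgebra ℝ L where
  carrier := {a | ∀ ζ : ℂ, ‖ζ‖ = 1 → (Ev ζ a).im = 0}
  mul_mem' := fun {a b} ha hb ζ h => by
    rw [Ev_mul (ne_zero_of_norm h), Complex.mul_im, ha ζ h, hb ζ h, mul_zero, zero_mul, add_zero]
  add_mem' := fun {a b} ha hb ζ h => by rw [map_add, Complex.add_im, ha ζ h, hb ζ h, add_zero]
  algebraMap_mem' := fun r ζ _ => by
    rw [Algebra.algebraMap_eq_smul_one, map_smul, Ev_one]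
    simp

/-- The norm as a ring seminorm. -/
noncomputable def nrm : RingSeminorm L0 where
  toFun a := N a.1
  map_zero' := N_zero
  add_le' a b := N_add a.1 b.1
  neg' a := N_neg a.1
  mul_le' a b := N_mul a.1 b.1

noncomputable instance : SeminormedCommRing L0 :=
  { nrm.toSeminormedRing with mul_comm := mul_comm }

theorem norm_def (a : L0) : ‖a‖ = N a.1 := rfl

noncomputable instance : NormedAlgebra ℝ L0 where
  norm_smul_le r a := N_smul r a.1

/-- The real part of a monomial. -/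
noncomputable def E' (k : ℤ) : ℂ →ₗ[ℝ] L :=
  (1 / 2 : ℝ) • (lsingle k + lsingle (-k) ∘ₗ Complex.conjAe.toLinearMap)

theorem E'_apply (k : ℤ) (z : ℂ) :
    E' k z = (1 / 2 : ℝ) • (single k z + single (-k) ((starRingEnd ℂ) z)) := rfl

theorem Ev_E' {ζ : ℂ} (h : ‖ζ‖ = 1) (k : ℤ) (z : ℂ) : Ev ζ (E' k z) = ((z * ζ ^ k).re : ℂ) := by
  rw [E'_apply, map_smul, map_add, Ev_single, Ev_single, ← conj_zpow h, ← map_mul,
    Complex.add_conj, Complex.real_smul]
  push_cast
  ring

theorem N_E' (k : ℤ) (z : ℂ) : N (E' k z) ≤ w k * ‖z‖ := by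
  have h := N_add (single k z) (single (-k) ((starRingEnd ℂ) z))
  have e : w (-k) = w k := by unfold w; rw [Int.natAbs_neg]
  rw [N_single, N_single, Complex.norm_conj, e] at h
  rw [E'_apply]
  refine (N_smul _ _).trans ?_
  rw [Real.norm_of_nonneg (by norm_num)]
  linarith

/-- The real part of a monomial, in the subalgebra. -/
noncomputable def E (k : ℤ) : ℂ →ₗ[ℝ] L0 :=
  (E' k).codRestrict (Subalgebra.toSubmodule L0) fun z ζ h => by
    rw [Ev_E' h, Complex.ofReal_im]

theorem E_val (k : ℤ) (z : ℂ) : (E k z).1 = E' k z := rfl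

/-- Folding of negative frequencies. -/
noncomputable def g (n : ℤ) : ℂ →ₗ[ℝ] ℂ :=
  if 0 ≤ n then LinearMap.id else Complex.conjAe.toLinearMap

theorem norm_g (n : ℤ) (z : ℂ) : ‖g n z‖ = ‖z‖ := by
  unfold g
  split_ifs
  · rfl
  · exact Complex.norm_conj z

theorem g_re (n : ℤ) (z : ℂ) : (g n z).re = z.re := by
  unfold g
  split_ifs
  · rfl
  · exact Complex.conj_re z

theorem g_zero (z : ℂ) : g 0 z = z := by
  unfold g
  rw [if_pos le_rfl]
  rfl

theorem g_mul_re {ζ : ℂ} (h : ‖ζ‖ = 1) (n : ℤ) (z : ℂ) :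
    (g n z * ζ ^ n.natAbs).re = (z * ζ ^ n).re := by
  unfold g
  rw [← zpow_natCast]
  split_ifs with hn
  · rw [Int.natAbs_of_nonneg hn]
    rfl
  · rw [Int.ofNat_natAbs_of_nonpos (not_le.1 hn).le, ← conj_zpow h]
    exact (congrArg Complex.re (map_mul (starRingEnd ℂ) z (ζ ^ n)).symm).trans (Complex.conj_re _)

/-- Imaginary part. -/
noncomputable def im' : ℂ →ₗ[ℝ] ℂ := Complex.ofRealAm.toLinearMap ∘ₗ Complex.imLm

/-- Holomorphic completion. -/
noncomputable def H (ζ : ℂ) : L →ₗ[ℝ] ℂ :=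
  lam fun n => LinearMap.mulRight ℝ (ζ ^ n.natAbs) ∘ₗ g n
    - LinearMap.mulRight ℝ Complex.I ∘ₗ im' ∘ₗ g n

theorem H_single (ζ : ℂ) (n : ℤ) (z : ℂ) :
    H ζ (single n z) = g n z * ζ ^ n.natAbs - ((g n z).im : ℂ) * Complex.I := lam_single _ n z

/-- Radial derivative. -/
noncomputable def D : L →ₗ[ℝ] ℂ := lam fun n => LinearMap.mulRight ℝ (-(n.natAbs : ℂ)) ∘ₗ g n

theorem D_single (n : ℤ) (z : ℂ) : D (single n z) = g n z * (-(n.natAbs : ℂ)) := lam_single _ n z

/-- Conjugation operator. -/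
noncomputable def T : L →ₗ[ℝ] L0 :=
  lam fun n => E n.natAbs ∘ₗ LinearMap.mulRight ℝ (-Complex.I) ∘ₗ g n - E 0 ∘ₗ im' ∘ₗ g n

theorem T_single (n : ℤ) (z : ℂ) :
    T (single n z) = E n.natAbs (g n z * -Complex.I) - E 0 ((g n z).im : ℂ) := lam_single _ n z

theorem Ev_T_single {ζ : ℂ} (h : ‖ζ‖ = 1) (n : ℤ) (z : ℂ) :
    (Ev ζ (T (single n z)).1).re = (g n z * ζ ^ n.natAbs).im - (g n z).im := by
  rw [T_single, AddSubgroupClass.coe_sub, E_val, E_val, map_sub, Ev_E' h, Ev_E' h, zpow_natCast,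
    zpow_zero, mul_right_comm]
  generalize g n z * ζ ^ n.natAbs = u
  simp

theorem H_bdry {ζ : ℂ} (h : ‖ζ‖ = 1) (a : L) :
    H ζ a = ((Ev ζ a).re : ℂ) + Complex.I * ((Ev ζ (T a).1).re : ℂ) := by
  induction a using induction_linear with
  | zero => simp
  | add x y hx hy =>
    rw [map_add, map_add, map_add, AddMemClass.coe_add, map_add, hx, hy, Complex.add_re,
      Complex.add_re]
    push_cast
    ring
  | single n z =>
    rw [Ev_T_single h, H_single, Ev_single, ← g_mul_re h]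
    generalize g n z * ζ ^ n.natAbs = u
    apply Complex.ext <;> simp

theorem Ev_one_T (a : L) : (Ev 1 (T a).1).re = 0 := by
  induction a using induction_linear with
  | zero => simp
  | add x y hx hy => rw [map_add, AddMemClass.coe_add, map_add, Complex.add_re, hx, hy, add_zero]
  | single n z => rw [Ev_T_single norm_one, one_pow, mul_one, sub_self]

theorem H_one (ζ : ℂ) : H ζ 1 = 1 := by
  rw [one_def, H_single, g_zero]
  simp

theorem T_one : T 1 = 0 := by
  rw [one_def, T_single, g_zero]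
  apply Subtype.ext
  rw [AddSubgroupClass.coe_sub, E_val, E_val, E'_apply, Complex.one_im, Complex.ofReal_zero,
    map_zero, sub_zero]
  simp

theorem H_diff (a : L) : Differentiable ℂ fun ζ => H ζ a := by
  induction a using induction_linear with
  | zero => simp
  | add x y hx hy =>
    simp only [map_add]
    exact hx.fun_add hy
  | single n z =>
    simp only [H_single]
    fun_prop

theorem H_deriv (a : L) : HasDerivAt (fun ζ => H ζ a) (-D a) 1 := by
  induction a using induction_linear with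
  | zero => simpa using hasDerivAt_const (1 : ℂ) (0 : ℂ)
  | add x y hx hy =>
    simp only [map_add, neg_add]
    exact hx.fun_add hy
  | single n z =>
    simp only [H_single, D_single]
    have h := ((hasDerivAt_pow n.natAbs (1 : ℂ)).const_mul (g n z)).sub_const
      (((g n z).im : ℂ) * Complex.I)
    rw [one_pow, mul_one] at h
    rw [mul_neg, neg_neg]
    exact h

theorem H_lim (a : L) : Tendsto (fun η : ℝ => (η : ℂ)⁻¹ * (H (1 - η) a - H 1 a)) (𝓝[>] 0)
    (𝓝 (D a)) := by
  have h1 : HasDerivAt (fun ζ : ℂ => 1 - ζ) (-1) ((0 : ℝ) : ℂ) := (hasDerivAt_id _).const_sub 1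
  have h2 := HasDerivAt.comp ((0 : ℝ) : ℂ) (h₂ := fun ζ => H ζ a)
    (by simpa using H_deriv a) h1
  have h3 := h2.comp_ofReal.tendsto_slope_zero_right
  simpa using h3

theorem Ev_le {ζ : ℂ} (h : ‖ζ‖ = 1) (n : ℤ) (z : ℂ) :
    ‖(Complex.reLm ∘ₗ Ev ζ) (single n z)‖ ≤ 1 * (w n * ‖z‖) := by
  rw [LinearMap.comp_apply, Ev_single, one_mul]
  refine (Complex.abs_re_le_norm _).trans ?_
  rw [norm_mul, norm_zpow, h, one_zpow, mul_one]
  exact le_w n z

theorem norm_im_g (n : ℤ) (z : ℂ) : ‖((g n z).im : ℂ)‖ ≤ ‖z‖ := by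
  rw [Complex.norm_real, ← norm_g n z]
  exact Complex.abs_im_le_norm _

theorem H_le {ζ : ℂ} (h : ‖ζ‖ ≤ 1) (n : ℤ) (z : ℂ) : ‖H ζ (single n z)‖ ≤ 2 * (w n * ‖z‖) := by
  rw [H_single]
  refine (norm_sub_le _ _).trans ?_
  rw [norm_mul, norm_mul, norm_g, norm_pow, Complex.norm_I, mul_one]
  have h1 : ‖z‖ * ‖ζ‖ ^ n.natAbs ≤ ‖z‖ :=
    mul_le_of_le_one_right (norm_nonneg _) (pow_le_one₀ (norm_nonneg _) h)
  linarith [norm_im_g n z, le_w n z]

theorem abs_le_w (n : ℤ) (z : ℂ) : ‖z‖ * (n.natAbs : ℝ) ≤ w n * ‖z‖ := by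
  unfold w
  linarith [norm_nonneg z]

theorem D_le (n : ℤ) (z : ℂ) : ‖D (single n z)‖ ≤ 1 * (w n * ‖z‖) := by
  rw [D_single, norm_mul, norm_g, norm_neg, Complex.norm_natCast, one_mul]
  exact abs_le_w n z

theorem T_le (n : ℤ) (z : ℂ) : ‖T (single n z)‖ ≤ 2 * (w n * ‖z‖) := by
  rw [T_single]
  refine (norm_sub_le _ _).trans ?_
  have h1 : ‖E n.natAbs (g n z * -Complex.I)‖ ≤ w n * ‖z‖ := by
    refine (N_E' _ _).trans (le_of_eq ?_)
    rw [norm_mul, norm_neg, Complex.norm_I, mul_one, norm_g]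
    rfl
  have h2 : ‖E 0 ((g n z).im : ℂ)‖ ≤ ‖z‖ := by
    refine (N_E' _ _).trans ?_
    have e : w 0 = 1 := by simp [w]
    rw [e, one_mul]
    exact norm_im_g n z
  linarith [le_w n z]

theorem Q_le {η : ℝ} (h0 : 0 < η) (h1 : η ≤ 1) (a : L) :
    ‖(η : ℂ)⁻¹ * (H (1 - η) a - H 1 a)‖ ≤ N a := by
  have h := bound_lin (f := H (1 - η) - H 1) (C := η) (fun n z => by
    rw [LinearMap.sub_apply, H_single, H_single, sub_sub_sub_cancel_right, ← mul_sub, norm_mul,
      norm_g, one_pow]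
    have h2 : (1 - (η : ℂ)) ^ n.natAbs - 1 = (((1 - η) ^ n.natAbs - 1 : ℝ) : ℂ) := by
      push_cast
      rfl
    have h3 := one_add_mul_le_pow (a := -η) (by linarith) n.natAbs
    have h4 : (1 - η) ^ n.natAbs ≤ 1 := pow_le_one₀ (by linarith) (by linarith)
    rw [← sub_eq_add_neg] at h3
    have h5 : |(1 - η) ^ n.natAbs - 1| ≤ n.natAbs * η := by
      rw [abs_le]
      constructor
      · linarith
      · have : 0 ≤ n.natAbs * η := by positivity
        linarith
    rw [h2, Complex.norm_real]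
    refine (mul_le_mul_of_nonneg_left h5 (norm_nonneg _)).trans ?_
    rw [← mul_assoc, mul_comm]
    exact mul_le_mul_of_nonneg_left (abs_le_w n z) h0.le) a
  rw [norm_mul, norm_inv, Complex.norm_real, Real.norm_of_nonneg h0.le, inv_mul_le_iff₀ h0]
  exact h

/-- The function `1 - cos`. -/
noncomputable def s0 : L0 := 1 - E 1 1

theorem s0_mul (a : L) : s0.1 * a
    = a - (1 / 2 : ℝ) • (single 1 1 * a + single (-1) 1 * a) := by
  have e : s0.1 = 1 - (1 / 2 : ℝ) • (single 1 1 + single (-1) 1) := by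
    rw [s0, AddSubgroupClass.coe_sub, E_val, E'_apply, map_one]
    rfl
  rw [e, sub_mul, one_mul, smul_mul_assoc, add_mul]

theorem D_s0 (a : L) : (D (s0.1 * a)).re = (a.coeff 0).re := by
  induction a using induction_linear with
  | zero => simp
  | add x y hx hy => rw [mul_add, map_add, Complex.add_re, hx, hy, coeff_add, Finsupp.add_apply,
      Complex.add_re]
  | single n z =>
    have h : ∀ m : ℤ, (D (single m z)).re = -(z.re * |(m : ℝ)|) := fun m => by
      rw [D_single, ← Int.cast_abs, ← Int.natCast_natAbs, Int.cast_natCast, ← g_re m z]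
      simp
    rw [s0_mul, map_sub, map_smul, map_add, single_mul_single, single_mul_single, one_mul,
      Complex.sub_re, Complex.smul_re, Complex.add_re, h, h, h, coeff_single, Finsupp.single_apply,
      smul_eq_mul]
    push_cast
    rcases lt_trichotomy n 0 with hn | rfl | hn
    · have h1 : (n : ℝ) ≤ -1 := by exact_mod_cast Int.le_sub_one_of_lt hn
      rw [if_neg hn.ne, abs_of_nonpos (by linarith), abs_of_nonpos (by linarith),
        abs_of_nonpos (by linarith), Complex.zero_re]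
      ring
    · norm_num
      ring
    · have h1 : (1 : ℝ) ≤ n := by exact_mod_cast Int.add_one_le_of_lt hn
      rw [if_neg hn.ne', abs_of_nonneg (by linarith), abs_of_nonneg (by linarith),
        abs_of_nonneg (by linarith), Complex.zero_re]
      ring

theorem s0_coeff (a : L) (n : ℤ) : ((s0.1 * a).coeff n).re
    = (a.coeff n).re - 1 / 2 * ((a.coeff (n - 1)).re + (a.coeff (n + 1)).re) := by
  rw [s0_mul, coeff_sub, Finsupp.sub_apply, coeff_smul_apply, coeff_add, Finsupp.add_apply,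
    coeff_single_mul_apply, coeff_single_mul_apply, one_mul, one_mul, neg_neg, neg_add_eq_sub,
    add_comm 1 n, Complex.sub_re, Complex.smul_re, Complex.add_re, smul_eq_mul]

theorem s0_pow (e : ℕ) : (∀ n : ℤ, 0 ≤ (-1 : ℝ) ^ n * ((s0.1 ^ e).coeff n).re) ∧
    1 ≤ ((s0.1 ^ e).coeff 0).re := by
  induction e with
  | zero =>
    rw [pow_zero, one_def, coeff_single]
    refine ⟨fun n => ?_, by simp⟩
    rw [Finsupp.single_apply]
    split_ifs with h
    · simp [← h]
    · simp
  | succ e ih =>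
    rw [pow_succ']
    have h : ∀ n : ℤ, (-1 : ℝ) ^ n * ((s0.1 ^ e).coeff n).re
        ≤ (-1 : ℝ) ^ n * ((s0.1 * s0.1 ^ e).coeff n).re := by
      intro n
      have h1 := ih.1 (n - 1)
      have h2 := ih.1 (n + 1)
      rw [zpow_sub_one₀ (by norm_num), inv_neg_one] at h1
      rw [zpow_add_one₀ (by norm_num)] at h2
      rw [s0_coeff]
      linarith
    refine ⟨fun n => (ih.1 n).trans (h n), ih.2.trans ?_⟩
    simpa using h 0

end Vale.Agent.P274.WienAux
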