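import Vale.Agent.P274.StC
import Vale.Agent.P274.WienA

open Set Filter Topology Metric

namespace Vale.Agent.P274

namespace WienAux

open UniformSpace

/-- The completed algebra. -/
abbrev W : Type := Completion L0

section

variable {V : Type*} [NormedAddCommGroup V] [NormedSpace ℝ V] [CompleteSpace V]

open Classical in
/-- Extension by continuity. -/
noncomputable def ext (f : L →ₗ[ℝ] V) : W →L[ℝ] V :=
  if h : ∃ C, ∀ a : L0, ‖(f ∘ₗ L0.val.toLinearMap) a‖ ≤ C * ‖a‖ then
    ((f ∘ₗ L0.val.toLinearMap).mkContinuousOfExistsBound h).fromCompletion else 0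

theorem ext_coe {f : L →ₗ[ℝ] V} {C : ℝ}
    (hs : ∀ n z, ‖f (AddMonoidAlgebra.single n z)‖ ≤ C * (w n * ‖z‖)) (a : L0) :
    ext f (a : W) = f a.1 := by
  unfold ext
  rw [dif_pos ⟨C, fun a => bound_lin hs a.1⟩, ContinuousLinearMap.fromCompletion_apply_coe]
  rfl

theorem ext_le {f : L →ₗ[ℝ] V} {C : ℝ}
    (hs : ∀ n z, ‖f (AddMonoidAlgebra.single n z)‖ ≤ C * (w n * ‖z‖)) (x : W) :
    ‖ext f x‖ ≤ C * ‖x‖ := by
  refine Completion.induction_on x
    (isClosed_le (ext f).continuous.norm (continuous_const.mul continuous_norm)) fun a => ?_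
  rw [ext_coe hs, Completion.norm_coe]
  exact bound_lin hs a.1

end

/-- Evaluation. -/
noncomputable def evW (ζ : ℂ) : W →L[ℝ] ℝ := ext (Complex.reLm ∘ₗ Ev ζ)

/-- Holomorphic completion. -/
noncomputable def holW (ζ : ℂ) : W →L[ℝ] ℂ := ext (H ζ)

/-- Conjugation. -/
noncomputable def TW : W →L[ℝ] W :=
  ext ((Completion.toComplL : L0 →L[ℝ] W).toLinearMap ∘ₗ T)

/-- Radial derivative. -/
noncomputable def derW : W →L[ℝ] ℂ := ext D

theorem evW_coe {ζ : ℂ} (h : ‖ζ‖ = 1) (a : L0) : evW ζ (a : W) = (Ev ζ a.1).re :=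
  ext_coe (Ev_le h) a

theorem holW_coe {ζ : ℂ} (h : ‖ζ‖ ≤ 1) (a : L0) : holW ζ (a : W) = H ζ a.1 :=
  ext_coe (H_le h) a

theorem holW_le {ζ : ℂ} (h : ‖ζ‖ ≤ 1) (x : W) : ‖holW ζ x‖ ≤ 2 * ‖x‖ := ext_le (H_le h) x

theorem TW_coe (a : L0) : TW (a : W) = (T a.1 : W) :=
  ext_coe (C := 2) (fun n z => (Completion.norm_coe _).trans_le (T_le n z)) a

theorem derW_coe (a : L0) : derW (a : W) = D a.1 := ext_coe D_le a

theorem hol_dist {ζ : ℂ} (h : ‖ζ‖ ≤ 1) (x y : W) : dist (holW ζ x) (holW ζ y) ≤ 2 * dist x y := by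
  rw [dist_eq_norm, dist_eq_norm, ← map_sub]
  exact holW_le h _

theorem hol_diff (x : W) : DifferentiableOn ℂ (fun ζ => holW ζ x) (ball 0 1) := by
  refine Completion.induction_on x (isClosed_of_closure_subset fun x hx => ?_) fun a => ?_
  · have := mem_closure_iff_nhdsWithin_neBot.1 hx
    refine TendstoLocallyUniformlyOn.differentiableOn (F := fun y ζ => holW ζ y)
      (φ := 𝓝[{x | DifferentiableOn ℂ (fun ζ => holW ζ x) (ball 0 1)}] x)
      (TendstoUniformlyOn.tendstoLocallyUniformlyOn ?_) self_mem_nhdsWithin isOpen_ball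
    refine Metric.tendstoUniformlyOn_iff.2 fun ε hε => ?_
    filter_upwards [mem_nhdsWithin_of_mem_nhds (ball_mem_nhds x (half_pos hε))] with y hy ζ hζ
    have h1 := hol_dist (mem_ball_zero_iff.1 hζ).le x y
    rw [mem_ball, dist_comm] at hy
    linarith
  · exact (H_diff a.1).differentiableOn.congr fun ζ hζ => holW_coe (mem_ball_zero_iff.1 hζ).le a

theorem hol_cont : ContinuousOn (fun p : W × ℂ => holW p.2 p.1) (univ ×ˢ closedBall 0 1) := by
  refine continuousOn_prod_of_subset_closure_continuousOn_lipschitzOnWith _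
    (s' := range ((↑) : L0 → W)) (subset_univ _) (fun x _ => Completion.denseRange_coe x)
    (Real.toNNReal 2) ?_ fun ζ hζ => LipschitzOnWith.of_dist_le' fun x _ y _ =>
      hol_dist (mem_closedBall_zero_iff.1 hζ) x y
  rintro _ ⟨a, rfl⟩
  exact (H_diff a.1).continuous.continuousOn.congr fun ζ hζ =>
    holW_coe (mem_closedBall_zero_iff.1 hζ) a

theorem norm_one_sub {η : ℝ} (h0 : 0 < η) (h1 : η ≤ 1) : ‖1 - (η : ℂ)‖ ≤ 1 := by
  rw [← Complex.ofReal_one, ← Complex.ofReal_sub, Complex.norm_real,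
    Real.norm_of_nonneg (by linarith)]
  linarith

theorem QW_le {η : ℝ} (h0 : 0 < η) (h1 : η ≤ 1) (x : W) :
    ‖(η : ℂ)⁻¹ * (holW (1 - η) x - holW 1 x)‖ ≤ ‖x‖ := by
  refine Completion.induction_on x (isClosed_le (continuous_const.mul
    ((holW _).continuous.sub (holW _).continuous)).norm continuous_norm) fun a => ?_
  rw [holW_coe (norm_one_sub h0 h1), holW_coe norm_one.le, Completion.norm_coe]
  exact Q_le h0 h1 a.1

theorem der_lim (x : W) : Tendsto (fun η : ℝ => (η : ℂ)⁻¹ * (holW (1 - η) x - holW 1 x))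
    (𝓝[>] 0) (𝓝 (derW x)) := by
  refine Metric.tendsto_nhds.2 fun ε hε => ?_
  obtain ⟨a, ha⟩ := Completion.denseRange_coe.exists_dist_lt x (show 0 < ε / 3 by linarith)
  filter_upwards [Metric.tendsto_nhds.1 (H_lim a.1) (ε / 3) (by linarith),
    Ioc_mem_nhdsGT one_pos] with η h1 h2
  have h3 := QW_le h2.1 h2.2 (x - a)
  have h4 : ‖derW (x - a)‖ ≤ 1 * ‖x - a‖ := ext_le D_le _
  rw [← holW_coe (norm_one_sub h2.1 h2.2), ← holW_coe norm_one.le, ← derW_coe] at h1
  rw [map_sub, map_sub] at h3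
  rw [map_sub] at h4
  rw [dist_eq_norm] at h1 ha ⊢
  have e : (η : ℂ)⁻¹ * (holW (1 - η) x - holW 1 x) - derW x
      = (η : ℂ)⁻¹ * (holW (1 - η) x - holW (1 - η) a - (holW 1 x - holW 1 a))
        + ((η : ℂ)⁻¹ * (holW (1 - η) a - holW 1 a) - derW a) - (derW x - derW a) := by ring
  rw [e]
  refine ((norm_sub_le _ _).trans (add_le_add_left (norm_add_le _ _) _)).trans_lt ?_
  linarith

end WienAux

open WienAux UniformSpace in
/-- Sketch. Let `L` be (a type synonym of) `AddMonoidAlgebra ℂ ℤ` with the norm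
`‖a‖ = ∑ n ∈ a.support, (1 + |n|) * ‖a n‖` (submultiplicative as `1 + |m+n| ≤ (1+|m|)(1+|n|)`), a
`NormedCommRing` and `NormedAlgebra ℝ`; `L₀` the real subalgebra `{a | ∀ n, a (-n) = conj (a n)}`;
`W = UniformSpace.Completion L₀` (Mathlib has the `NormedCommRing`, `NormedAlgebra` instances). On `L₀`:
`ev ζ a = re (∑ a n ζ^n)` for `‖ζ‖ = 1` (the sum is real; `0` for other `ζ`),
`hol ζ a = a 0 + 2 ∑_{n>0} a n ζ^n - I * im (2 ∑_{n>0} a n)` for `‖ζ‖ ≤ 1` (`0` otherwise),
`(T a) n = -I sgn(n) a n` for `n ≠ 0`, `(T a) 0 = - im (2 ∑_{n>0} a n)`, `der a = -2 ∑_{n>0} n a n`,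
`σ₀ = 1 - (single 1 (1/2) + single (-1) (1/2))`. All are bounded; extend by continuity
(`ContinuousLinearMap.extend` along `UniformSpace.Completion.toComplL`, or `ContinuousLinearMap.fromCompletion`),
prove identities by density (`UniformSpace.Completion.induction_on`). `hol_diff`: uniform limit of
polynomials (`TendstoLocallyUniformlyOn.differentiableOn`); `hol_cont`: uniform bound `hol_le` and
density; `der_lim`: `‖η⁻¹ (hol (1-η) a - hol 1 a)‖ ≤ 2 ‖a‖` because `|(1-η)^n - 1| ≤ n η`, and density.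
`der_pow`: `re (der a) = - ∑ |n| re (a n)`; for `a = σ₀ * g`, `g = σ₀^e` with coefficients `g n`,
`∑ |n| a n = ∑ g n (|n| - (|n+1| + |n-1|)/2) = - g 0`, and `g 0 > 0` because `σ₀ = (1/2) h h*` with
`h = 1 - single 1 1`, `h* = 1 - single (-1) 1`, so `g 0 = 2^(-e) ∑ |coefficients of h^e|²` (or because
`(-1)^n (σ₀^e) n ≥ 0` for all `n` and `(σ₀^(e+1)) 0 ≥ (σ₀^e) 0`, by induction). Any other model is fine. -/
theorem Wien_pf : S_Wien := by
  refine ⟨W, inferInstance, inferInstance, inferInstance, evW, holW, TW, derW, (s0 : W), ?_⟩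
  refine ⟨fun ζ h => ?_, fun ζ h x y => ?_, fun ζ h x => ?_, hol_diff, hol_cont,
    ⟨2, fun ζ h x => holW_le h x⟩, fun ζ h x => ?_, fun ζ h => ?_, ?_, fun x => ?_, der_lim,
    fun ζ h => ?_, fun e => ?_⟩
  · rw [← Completion.coe_one, evW_coe h, OneMemClass.coe_one, Ev_one, Complex.one_re]
  · refine Completion.induction_on₂ x y (isClosed_eq
      ((evW ζ).continuous.comp (continuous_fst.mul continuous_snd))
      (((evW ζ).continuous.comp continuous_fst).mul ((evW ζ).continuous.comp continuous_snd)))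
      fun a b => ?_
    rw [← Completion.coe_mul, evW_coe h, evW_coe h, evW_coe h, MulMemClass.coe_mul,
      Ev_mul (ne_zero_of_norm h), Complex.mul_re, a.2 ζ h, zero_mul, sub_zero]
  · have := ext_le (Ev_le h) x
    rwa [one_mul] at this
  · refine Completion.induction_on x (isClosed_eq (holW ζ).continuous
      ((Complex.continuous_ofReal.comp (evW ζ).continuous).add (continuous_const.mul
        (Complex.continuous_ofReal.comp ((evW ζ).continuous.comp TW.continuous))))) fun a => ?_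
    rw [holW_coe h.le, TW_coe, evW_coe h, evW_coe h]
    exact H_bdry h a.1
  · rw [← Completion.coe_one, holW_coe h, OneMemClass.coe_one, H_one]
  · rw [← Completion.coe_one, TW_coe, OneMemClass.coe_one, T_one, Completion.coe_zero]
  · refine Completion.induction_on x (isClosed_eq ((evW 1).continuous.comp TW.continuous)
      continuous_const) fun a => ?_
    rw [TW_coe, evW_coe norm_one]
    exact Ev_one_T a.1
  · rw [evW_coe h, s0, AddSubgroupClass.coe_sub, OneMemClass.coe_one, E_val, map_sub, Ev_one,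
      Ev_E' h, zpow_one, one_mul, Complex.sub_re, Complex.one_re, Complex.ofReal_re]
  · have e1 : ((s0 : W)) ^ (e + 1) = ((s0 ^ (e + 1) : L0) : W) :=
      (map_pow (Completion.coeRingHom (α := L0)) s0 (e + 1)).symm
    rw [e1, derW_coe, SubmonoidClass.coe_pow, pow_succ', D_s0]
    exact (one_pos.trans_le (s0_pow e).2).ne'

end Vale.Agent.P274
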