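import Vale.Agent.P274.GRalg
import Vale.Agent.P274.GR
import Vale.Agent.P274.HLp
import Vale.Agent.P274.Smooth
import Vale.Agent.P274.Front
import Vale.Agent.P274.Ess
import Vale.Agent.P274.Mon
import Vale.Agent.P274.ST1
import Vale.Agent.P274.AN0
import Vale.Agent.P274.DI
import Vale.Agent.P274.HN
import Vale.Agent.P274.PU
import Vale.Agent.P274.Band
import Vale.Agent.P274.ST2
import Vale.Agent.P274.Gen
import Vale.Agent.P274.Supp
import Vale.Agent.P274.Point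
import Vale.Agent.P274.Car
import Vale.Agent.P274.TC
import Vale.Agent.P274.Sum
import Vale.Agent.P274.Vol
import Vale.Agent.P274.UniAbs
import Vale.Agent.P274.FlowC
import Vale.Agent.P274.Uni
import Vale.Agent.P274.Jet
import Vale.Agent.P274.F2
import Vale.Agent.P274.Sym
import Vale.Agent.P274.Wien
import Vale.Agent.P274.FC
import Vale.Agent.P274.Bishop
import Vale.Agent.P274.Wall
import Vale.Agent.P274.Coord
import Vale.Agent.P274.KL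
import Vale.Agent.P274.First
import Vale.Agent.P274.Herm
import Vale.Agent.P274.Walls
import Vale.Agent.P274.Model

/-! Assembly of the proof. -/

open Set Filter Topology Metric

namespace Vale.Agent.P274

theorem SymD_pf : S_SymD := by
  intro E _ _ _ Γ _ B act hD hB
  obtain ⟨d, r₀, hC⟩ := Car_pf E Γ B act hD hB
  obtain ⟨𝔤, h𝔤⟩ := Sum_pf TC_pf E B d r₀ hB hD.bdd hC
  have hI := Iso_pf Cartan_pf
  obtain ⟨e₀, he₀⟩ := hD.conn.nonempty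
  have hfd : FiniteDimensional ℝ 𝔤 :=
    (hI E B hB hD.conn.isPreconnected hD.bdd e₀ he₀).2.2 𝔤 h𝔤
  obtain ⟨ad, had, hdet⟩ := Br_pf E B hB hD.bdd 𝔤 h𝔤 hfd
  have hτ := Uni_pf Vol_pf UniAbs_pf FlowC_pf Ball_pf E Γ B act d r₀ hD hB hC 𝔤 h𝔤 hfd
    ((LinearMap.trace ℝ 𝔤).comp ad) hdet
  refine ⟨𝔤, h𝔤, Sym_pf Cartan_pf hI Jet_pf (F2_pf hI Jet_pf) E B hB hD.conn.isPreconnected
    hD.bdd 𝔤 h𝔤 hfd ad had fun X => ?_⟩
  exact LinearMap.congr_fun hτ X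

theorem point_pf' : S_Point :=
  Point_pf (GR_pf GRalg_pf) Front_pf (Sel_pf Ess_pf) (ST1_pf Mon_pf PL_pf) Loc_pf Supp_pf
    (Gen_pf AN0_pf)
    (Arc_pf (ST2_pf Mon_pf PL_pf AN0_pf (DI_pf AN0_pf) (PU_pf (DI_pf AN0_pf) HN_pf) Band_pf)
      (DI_pf AN0_pf)) (Lead_pf AN0_pf) LeadT_pf PeakB_pf

/-- The zero-dimensional case. -/
theorem main_zero {N : ℕ} {U : Set (Fin N → ℂ)} (hc : IsConnected U)
    (hR : ∀ x ∈ U, Reg (Fin 0 → ℂ) U x) :
    ∃ (n : ℕ) (D : Set (Fin n → ℂ)) (ψ : (Fin N → ℂ) → (Fin n → ℂ))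
      (θ : (Fin n → ℂ) → (Fin N → ℂ)), IsBSD D ∧ Bihol U D ψ θ := by
  obtain ⟨p, hp⟩ := hc.nonempty
  have hloc : ∀ x ∈ U, ∀ᶠ y in 𝓝[U] x, y = x := by
    intro x hx
    obtain ⟨G, χ, -, -, h3, -, h5⟩ := hR x hx
    filter_upwards [h5] with y hy
    rw [← hy, Subsingleton.elim (χ y) (χ x), h3]
  have hall : ∀ x ∈ U, p = x := fun x hx =>
    hc.isPreconnected.induction₂' (fun a b => a = b)
      (fun a ha => (hloc a ha).mono fun y hy => ⟨hy.symm, hy⟩) (fun _ _ _ _ _ _ h h' => h.trans h') hp hx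
  refine ⟨0, univ, fun _ => 0, fun _ => p, ⟨isOpen_univ, isConnected_univ,
    (Set.toFinite _).isBounded, fun x _ => ⟨id, differentiableOn_id, mapsTo_univ _ _,
      fun _ _ => rfl, rfl, ?_⟩⟩, ⟨mapsTo_univ _ _, fun _ _ => hp, fun x hx => hall x hx,
      fun w _ => Subsingleton.elim _ _, holOn_const, holOn_const⟩⟩
  filter_upwards [self_mem_nhdsWithin] with y hy
  exact absurd (Subsingleton.elim y x) hy

theorem Main_pf : S_Main := by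
  intro N Γ _ U act hD hU hS
  obtain ⟨𝔭, n, π, Δ, h𝔭, hG, hO, hg, hR⟩ :=
    Smooth_pf (GR_pf GRalg_pf) (HL_pf (GR_pf GRalg_pf) HLp_pf) N Γ U act hD hU
  rcases Nat.eq_zero_or_pos n with rfl | hn
  · exact main_zero hD.conn hR
  obtain ⟨d, G, D, W, φ, x₀, hP⟩ := point_pf' N n 𝔭 π Δ U h𝔭 hG hS hD.bdd hO hg
  obtain ⟨k, l, Θ, χ, b, 𝒢, hk, hkl, hPk⟩ := Coord_pf Lin_pf Graph_pf LeadT_pf Wall_pf
    (Bishop_pf Wien_pf FC_pf) N n d Γ U act (ev π) G D W φ x₀ hD hn hP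
  have hR' : ∀ x ∈ U, Reg (EE k l) U x := fun x hx =>
    (hR x hx).equiv (ContinuousLinearEquiv.ofFinrankEq (by simp [hkl]))
  obtain ⟨Ω, h1, h2, h3, h4, h5⟩ := First_pf KL_pf N k l Γ U act Θ χ b 𝒢 hD hR' hk hPk
  obtain ⟨b', Ω', hb', hF, h6⟩ := Herm_pf N k l U b 𝒢 Ω hPk.symm hPk.cone h1 h2 h3 h4 h5
  obtain ⟨C, hC, hF'⟩ := Walls_pf (FamLim_pf KL_pf) FamSym_pf N k l Γ U act b' 𝒢 Ω' hD hR' hk hb'
    hPk.cone hF h6
  exact PartD_pf Cayley_pf MF_pf SymD_pf N k l Γ U act b' 𝒢 C hD hk hb' hC hF'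

end Vale.Agent.P274
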