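import Vale.Agent.P274.StB

open Set Filter Topology Metric MvPolynomial MeasureTheory

namespace Vale.Agent.P274

namespace PointAux

theorem inj_of_left {E F : Type*} [NormedAddCommGroup E] [NormedSpace ℝ E] [NormedAddCommGroup F]
    [NormedSpace ℝ F] {f : E → F} {g : F → E} {x : E} (hf : DifferentiableAt ℝ f x)
    (hg : DifferentiableAt ℝ g (f x)) (h : ∀ᶠ y in 𝓝 x, g (f y) = y) :
    Function.Injective (fderiv ℝ f x) := by
  have h1 : HasFDerivAt (g ∘ f) ((fderiv ℝ g (f x)).comp (fderiv ℝ f x)) x :=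
    hg.hasFDerivAt.comp x hf.hasFDerivAt
  have h2 : HasFDerivAt (g ∘ f) (ContinuousLinearMap.id ℝ E) x :=
    (hasFDerivAt_id x).congr_of_eventuallyEq h
  have h3 := h1.unique h2
  exact Function.LeftInverse.injective (g := fderiv ℝ g (f x)) fun v => DFunLike.congr_fun h3 v

theorem analyticAt_Phi {N : ℕ} (Q : MvPolynomial (Fin N) ℂ) (z : Fin N → ℂ) :
    AnalyticAt ℂ (Phi Q) z := by
  refine analyticAt_pi_iff.2 fun o => ?_
  cases o with
  | none => exact analyticAt_eval Q z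
  | some i => exact (ContinuousLinearMap.proj (R := ℂ) (φ := fun _ : Fin N => ℂ) i).analyticAt z

theorem diff_back {N n L : ℕ} (π : Fin n → MvPolynomial (Fin N) ℂ)
    (j : (Option (Fin N) → ℂ) ≃L[ℝ] EuclideanSpace ℝ (Fin L)) :
    Differentiable ℝ fun w => ev π fun i => j.symm w (some i) := fun w =>
  ((analyticAt_ev π _).restrictScalars (𝕜 := ℝ)).differentiableAt.comp w
    (differentiableAt_pi.2 fun i => differentiableAt_pi.1 j.symm.differentiableAt (some i))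

theorem exists_of_cover {X A : Type*} [TopologicalSpace X] [SecondCountableTopology X]
    [MeasurableSpace A] {μ : Measure A} {Z : Set X} {M : A → Set X}
    (h : ∀ z ∈ Z, ∃ V ∈ 𝓝[Z] z, ∀ᵐ a ∂μ, ∀ y ∈ V, y ∉ M a) : ∀ᵐ a ∂μ, ∀ z ∈ Z, z ∉ M a := by
  choose! V hV hV' using h
  obtain ⟨s, hs, hc, hcov⟩ := TopologicalSpace.countable_cover_nhdsWithin hV
  filter_upwards [(ae_ball_iff hc).2 fun z hz => hV' z (hs hz)] with a ha z hz
  obtain ⟨y, hy, hzy⟩ := mem_iUnion₂.1 (hcov hz)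
  exact ha y hy z hzy

theorem re_fderiv {N n L : ℕ} {G : (Fin n → ℂ) → (Fin N → ℂ)} {t : Fin n → ℂ}
    (hG : DifferentiableAt ℂ G t) {g : (Fin N → ℂ) → ℂ} (hg : Differentiable ℂ g)
    {F : (Fin n → ℂ) → EuclideanSpace ℝ (Fin L)} (hF : DifferentiableAt ℝ F t)
    {c b : EuclideanSpace ℝ (Fin L)} (h : ∀ s, (g (G s)).re = -2 * inner ℝ (F s - c) b)
    (v : Fin n → ℂ) :
    (fderiv ℂ (fun s => g (G s)) t v).re = -2 * inner ℝ (fderiv ℝ F t v) b := by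
  have h1 := Complex.reCLM.hasFDerivAt.comp t
    (((hg _).comp t hG).hasFDerivAt.restrictScalars ℝ)
  have h2 := (((innerSL ℝ b).hasFDerivAt).comp t (hF.hasFDerivAt.sub_const c)).const_mul (-2)
  have h3 : (Complex.reCLM ∘ g ∘ G) = fun s => -2 * (innerSL ℝ b ∘ fun s => F s - c) s := by
    funext s
    simp only [Function.comp, Complex.reCLM_apply, h, innerSL_apply_apply, real_inner_comm]
  rw [h3] at h1
  have h4 := DFunLike.congr_fun (h1.unique h2) v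
  rw [real_inner_comm]
  exact h4

theorem exists_ι (n : ℕ) : ∃ m, Nonempty ((Fin m → ℝ) ≃L[ℝ] (Fin n → ℂ)) :=
  ⟨2 * n, ⟨ContinuousLinearEquiv.ofFinrankEq (by
    simp [Module.finrank_pi_fintype, Complex.finrank_real_complex, mul_comm])⟩⟩

theorem exists_j (N : ℕ) :
    ∃ L, Nonempty ((Option (Fin N) → ℂ) ≃L[ℝ] EuclideanSpace ℝ (Fin L)) :=
  ⟨_, ⟨toEuclidean⟩⟩

end PointAux

open PointAux

/-- Local charts around a good point. -/
theorem Loc_pf : S_Loc := by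
  intro N n m d 𝔭 π Δ 𝔮 κ Δ' ι U O₀ D z₀ hp hq hO hU hfr hz hξ h1 h2 hcl
  have hUZ : U ⊆ ZV 𝔭 := hU ▸ inter_subset_left
  obtain ⟨G, G1, G2, G3, G4⟩ := hp.chart z₀ (closure_minimal hUZ (isClosed_ZV 𝔭) hz) h1
  obtain ⟨h, k1, k2, k3, k4⟩ := hq.chart _ hξ h2
  have G5 : Tendsto G (𝓝 (ev π z₀)) (𝓝 z₀) := by simpa [G2] using G1.continuousAt.tendsto
  have k5 : Tendsto h (𝓝 (ev κ (ι.symm (ev π z₀)))) (𝓝 (ι.symm (ev π z₀))) := by
    simpa [k2] using k1.continuousAt.tendsto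
  obtain ⟨W, hW, Wo, Wm⟩ := _root_.eventually_nhds_iff.1
    (G1.eventually_analyticAt.and (G3.and (G5.eventually G4.eventually_nhds)))
  have hc : ∀ ξ, ι ξ ∈ W → ContinuousAt (fun ξ => G (ι ξ)) ξ := fun ξ hξ =>
    (hW _ hξ).1.continuousAt.comp ι.continuous.continuousAt
  have Wo' : IsOpen (ι ⁻¹' W) := Wo.preimage ι.continuous
  have Oo : IsOpen {ξ | ι ξ ∈ W ∧ G (ι ξ) ∈ U} := by
    have := ContinuousOn.isOpen_inter_preimage (fun ξ hξ => (hc ξ hξ).continuousWithinAt) Wo' hO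
    convert this using 1
    ext ξ
    exact and_congr_right fun hξ => by rw [hU]; exact and_iff_right (hW _ hξ).2.1.1
  have Of : Fr (fun ξ => eval ξ D) (ι ⁻¹' W) {ξ | ι ξ ∈ W ∧ G (ι ξ) ∈ U} := by
    intro ξ hξ hD
    have := hfr G ξ (by
      filter_upwards [Wo.mem_nhds hξ] with t ht using ⟨(hW t ht).1.continuousAt, (hW t ht).2.1⟩) hD
    by_cases hm : G (ι ξ) ∈ U
    · left
      filter_upwards [this, Wo'.mem_nhds hξ] with ξ' a b using ⟨b, a.2 hm⟩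
    · right
      filter_upwards [this] with ξ' a b using hm (a.1 b.2)
  have hπ : Tendsto (ev π) (𝓝 z₀) (𝓝 (ev π z₀)) := (continuous_ev π).tendsto z₀
  have hπ' : Tendsto (fun z => ι.symm (ev π z)) (𝓝 z₀) (𝓝 (ι.symm (ev π z₀))) :=
    (ι.symm.continuous.comp (continuous_ev π)).tendsto z₀
  have hm : ι.symm (ev π z₀) ∈ ι ⁻¹' W := by simpa using Wm
  have hcl0 : ι.symm (ev π z₀) ∈ closure {ξ | ι ξ ∈ W ∧ G (ι ξ) ∈ U} := by
    refine mem_closure_iff_frequently.2 (hπ'.frequently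
      ((mem_closure_iff_frequently.1 hz).mp ?_))
    filter_upwards [G4, hπ.eventually (Wo.mem_nhds Wm)] with z a b c
    simpa [a (hUZ c)] using ⟨b, c⟩
  obtain ⟨NX, hN, No, Nm⟩ := _root_.eventually_nhds_iff.1 (k1.eventually_analyticAt.and
    (k3.and (k5.eventually ((hcl _ _ Oo Wo' Of hm hcl0).and (Wo'.mem_nhds hm)))))
  refine ⟨W, G, NX, h, Wo, No, fun t ht => (hW t ht).1,
    fun t ht => ⟨(hW t ht).2.1.1, (hW t ht).2.1.2, (hW t ht).2.2⟩, Oo, Of,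
    fun x hx => (hN x hx).1, fun x hx => ?_, ?_⟩
  · obtain ⟨-, ⟨a, b⟩, c, e⟩ := hN x hx
    exact ⟨a, b, e, c a, (hc _ e).continuousWithinAt.mem_closure (c a) fun _ hξ => hξ.2⟩
  · filter_upwards [G4, hπ'.eventually k4,
      (((continuous_ev κ).tendsto _).comp hπ').eventually (No.mem_nhds Nm)] with z a b c e f
    refine ⟨_, c, ?_⟩
    simp only [Function.comp, b f, ContinuousLinearEquiv.apply_symm_apply, a e]

/-- A generic point of the essential boundary. -/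
theorem Point_pf (h1 : S_GR) (h2 : S_Front) (h3 : S_Sel) (h4 : S_ST1) (h5 : S_Loc) (h6 : S_Supp)
    (h7 : S_Gen) (h8 : S_Arc) (h9 : S_Lead) (h10 : S_LeadT) (h11 : S_PeakB) : S_Point := by
  intro N n 𝔭 π Δ U _ hp hsemi hb ⟨O₀, hO, hU⟩ hden
  have hUZ : U ⊆ ZV 𝔭 := hU ▸ inter_subset_left
  obtain ⟨m, ⟨ι⟩⟩ := exists_ι n
  obtain ⟨L, ⟨j⟩⟩ := exists_j N
  obtain ⟨D, hD0, hfr⟩ := h2 N n _ 𝔭 π Δ hp ι U hsemi
  obtain ⟨𝔮, hq, hq1, hq2⟩ := h3 N n _ _ U π ι j hb fun Q₁ hQ => by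
    simpa only [eval_aeval_ev] using hden _ fun h => hQ (hp.indep Q₁ h)
  obtain ⟨d, κ, Δ', hκ⟩ := h1 ℝ _ 𝔮 hq
  have hvan : ∀ E, (∀ ξ ∈ ZV 𝔮, eval ξ E = 0) → E ∈ 𝔮 := fun E hE => by
    by_contra h
    obtain ⟨Q, hQ⟩ := hq2 E h
    exact hQ (Eventually.of_forall fun a z _ hz => hE _ hz)
  have hirr : Irr (ZV 𝔮) := by
    refine ⟨nonempty_iff_ne_empty.2 fun h => hq.ne_top ((Ideal.eq_top_iff_one _).2
      (hvan 1 (by simp [h]))), fun f g h => ?_⟩
    exact (hq.mem_or_mem (hvan _ h)).imp (fun a y hy => hy f a) fun a y hy => hy g a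
  have hreim : ∀ Q : MvPolynomial (Fin n) ℂ, Q ≠ 0 → ∃ R, R ∉ 𝔮 ∧
      ∀ ξ, eval ξ R = 0 ↔ eval (ι ξ) Q = 0 := fun Q hQ => by
    obtain ⟨R₁, R₂, hR⟩ := poly_reim ι.toContinuousLinearMap Q
    have e : ∀ ξ, eval ξ (R₁ * R₁ + R₂ * R₂) = 0 ↔ eval (ι ξ) Q = 0 := fun ξ => by
      rw [map_add, map_mul, map_mul, ← (hR ξ).1, ← (hR ξ).2, ← Complex.normSq_apply,
        Complex.normSq_eq_zero]
      rfl
    exact ⟨_, fun h => hQ (hq1 Q fun ξ hξ => (e ξ).1 (hξ _ h)), e⟩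
  obtain ⟨E₁, ⟨y, hy, hy'⟩, hE₁⟩ := h4 _ D hD0 _ hirr
  obtain ⟨R, hR, hR'⟩ := hreim Δ hp.ne
  obtain ⟨Q, hQ⟩ := hq2 (E₁ * aeval κ Δ' * R) fun h => (hq.mem_or_mem h).elim
    (fun h => (hq.mem_or_mem h).elim (fun h => hy' (hy _ h)) fun h => hκ.ne (hκ.indep _ h)) hR
  have hex : ∃ z₀ ∈ {z | z ∈ closure U ∧ ι.symm (ev π z) ∈ ZV 𝔮 ∧
      eval (ι.symm (ev π z)) (E₁ * aeval κ Δ' * R) ≠ 0}, ∀ V ∈ 𝓝[{z | z ∈ closure U ∧
        ι.symm (ev π z) ∈ ZV 𝔮 ∧ eval (ι.symm (ev π z)) (E₁ * aeval κ Δ' * R) ≠ 0}] z₀,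
      ¬ ∀ᵐ a, ∀ y ∈ V, y ∉ Mx U j Q a := by
    by_contra hc
    push Not at hc
    refine hQ ((exists_of_cover hc).mono fun a ha z hz hz' => ?_)
    by_contra h0
    exact ha z ⟨hz.1, hz', h0⟩ hz
  obtain ⟨z₀, ⟨z1, z2, z3⟩, hz₀⟩ := hex
  rw [map_mul, map_mul, eval_aeval_ev] at z3
  obtain ⟨W, G, NX, h, Wo, No, hG, hW, Oo, Of, hh, hN, hloc⟩ := h5 N n _ d 𝔭 π Δ 𝔮 κ Δ' ι U O₀ D z₀
    hp hκ hO hU hfr z1 z2 (by simpa using mt (hR' _).2 (right_ne_zero_of_mul z3))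
    (right_ne_zero_of_mul (left_ne_zero_of_mul z3))
    fun O W a b c e f => hE₁ O W a b c _ e z2 f (left_ne_zero_of_mul (left_ne_zero_of_mul z3))
  have hF : ∀ t ∈ W, AnalyticAt ℝ (fun t => j (Phi Q (G t))) t := fun t ht =>
    (j.analyticAt _).comp (((analyticAt_Phi Q _).comp (hG t ht)).restrictScalars (𝕜 := ℝ))
  have hφ : ∀ x ∈ NX, AnalyticAt ℝ (fun x => ι (h x)) x := fun x hx =>
    (ι.analyticAt _).comp (hh x hx)
  have hψ : ∀ x ∈ NX, AnalyticAt ℝ (fun x => j (Phi Q (G (ι (h x))))) x := fun x hx =>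
    AnalyticAt.comp (f := fun x => ι (h x)) (hF _ (hN x hx).2.2.1) (hφ x hx)
  have iF : ∀ t ∈ W, Function.Injective (fderiv ℝ (fun t => j (Phi Q (G t))) t) := fun t ht =>
    inj_of_left (hF t ht).differentiableAt (diff_back π j _) (by
      filter_upwards [Wo.mem_nhds ht] with s hs
      simpa [Phi] using (hW s hs).2.1)
  have iφ : ∀ x ∈ NX, Function.Injective (fderiv ℝ (fun x => ι (h x)) x) := fun x hx =>
    inj_of_left (g := fun t => ev κ (ι.symm t)) (hφ x hx).differentiableAt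
      ((analyticAt_ev κ _).differentiableAt.comp _ ι.symm.differentiableAt) (by
      filter_upwards [No.mem_nhds hx] with s hs
      simpa using (hN s hs).2.1)
  have chain : ∀ x ∈ NX, fderiv ℝ (fun x => j (Phi Q (G (ι (h x))))) x =
      (fderiv ℝ (fun t => j (Phi Q (G t))) (ι (h x))).comp (fderiv ℝ (fun x => ι (h x)) x) :=
    fun x hx => fderiv_comp (g := fun t => j (Phi Q (G t))) (f := fun x => ι (h x)) x
      (hF _ (hN x hx).2.2.1).differentiableAt (hφ x hx).differentiableAt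
  have hsupp := h6 d _ (fun x => j (Phi Q (G (ι (h x))))) NX ((fun z => j (Phi Q z)) '' closure U)
    No hψ (fun x hx => by
      rw [chain x hx]
      exact (iF _ (hN x hx).2.2.1).comp (iφ x hx))
    (fun x hx => mem_image_of_mem _ (hN x hx).2.2.2.2) fun hc => by
      refine hz₀ {z | ∃ x ∈ NX, z = G (ι (h x))} ?_ (hc.mono ?_)
      · filter_upwards [mem_nhdsWithin_of_mem_nhds hloc, self_mem_nhdsWithin] with z a b
        exact a (closure_minimal hUZ (isClosed_ZV 𝔭) b.1) b.2.1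
      · rintro a ha _ ⟨x, hx, rfl⟩ hm
        exact ha x hx (by rintro _ ⟨z, hz, rfl⟩; exact hm.2 z hz)
  have hgen := h7 _ n d ι.toContinuousLinearMap h NX No hh
    (fun i => by
      obtain ⟨M, hM, hM'⟩ := hκ.integral_eval (X i)
      refine ⟨M, hM, fun x hx => ?_⟩
      have := hM' _ (hN x hx).1
      rwa [(hN x hx).2.1, eval_X] at this)
    (fun Q' x hx hQ' => by
      by_contra h0
      obtain ⟨R₀, a, b⟩ := hreim Q' h0
      obtain ⟨c, c0, hc⟩ := hκ.zd hq a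
      refine c0 (eq_zero_of_eventually_eval (z := x) ?_)
      filter_upwards [hQ', No.mem_nhds hx] with x' e f
      have := hc _ (hN x' f).1 ((b _).2 e)
      rwa [(hN x' f).2.1] at this)
  have harc := h8 _ d D hD0 h NX _ _ No hh Oo (Wo.preimage ι.continuous) Of
  have hlead := h9 _ d D hD0 h NX No hh
  by_contra hcon
  refine hsupp ?_
  filter_upwards [hgen, harc, hlead] with x g1 g2 g3 hx ⟨⟨b₀, hb₀⟩, hspan⟩
  obtain ⟨c, e, c1, c2, c3⟩ := g2 hx (hN x hx).2.2.1 (hN x hx).2.2.2.1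
  obtain ⟨μ, P, l1, l2⟩ := g3 hx
  have hmem := (hN x hx).2.2.1
  have hset : {t | t ∈ W ∧ G t ∈ U} = ι.symm ⁻¹' {ξ | ι ξ ∈ W ∧ G (ι ξ) ∈ U} := by
    ext t
    simp
  have hpk : ∀ b, (∀ w ∈ (fun z => j (Phi Q z)) '' closure U,
      ‖w - (j (Phi Q (G (ι (h x)))) - b)‖ ≤ ‖b‖) → _ := fun b hb =>
    h11 N _ U j Q (G (ι (h x))) b fun z hz => hb _ (mem_image_of_mem _ (subset_closure hz))
  refine hcon ⟨d, G, fun t => eval (ι.symm t) D, W, fun x => ι (h x), x,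
    fun z => (analyticAt_ev π z).differentiableAt, Wo, hmem, hG, fun t ht => (hW t ht).2.1,
    (hW _ hmem).2.2.mono fun z a b => a (hUZ b), hset ▸ Oo.preimage ι.symm.continuous, ?_, hφ x hx,
    iφ x hx, fun lam hl => g1 hx lam fun ξ => ?_, ⟨fun p => ι (c p), e + 1,
      (ι.analyticAt _).comp c1, c2.mono fun x' hx' => congrArg ι hx', ?_⟩, ?_,
    ⟨μ, fun v => P (ι.symm v), ?_, l2.preimage ι.symm.isOpenMap⟩,
    (hpk b₀ hb₀).imp fun g hg => hg.1, fun v hv => ?_⟩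
  · convert Of.comp Wo ι.symm.continuous.continuousOn (fun t ht => by simpa using ht) using 1
    ext t
    simp
  · have := hl ξ
    rwa [show (fun x => ι (h x)) = ι ∘ h from rfl, ι.comp_fderiv] at this
  · have hs : ∀ᶠ p : (Fin d → ℝ) × ℝ in 𝓝 (x, 0), ‖ι.symm.toContinuousLinearMap‖ * p.2 < 1 :=
      ContinuousAt.eventually_lt (by fun_prop) continuousAt_const (by simp)
    filter_upwards [c3, hs] with p a b hp0 v hv
    have h0 : ‖ι.symm v‖ ≤ p.2 ^ e := by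
      refine (ι.symm.toContinuousLinearMap.le_of_opNorm_le_of_le le_rfl hv).trans ?_
      rw [pow_succ', ← mul_assoc]
      exact mul_le_of_le_one_left (by positivity) b.le
    simpa using a hp0 _ h0
  · filter_upwards [No.mem_nhds hx] with x' hx' using (hN x' hx').2.2.2.2
  · exact h10 _ _ _ _ h x μ P ι.symm ι.symm (fun x => ι (h x)) l1 ι.symm.hasStrictFDerivAt
      (hφ x hx).continuousAt (Eventually.of_forall fun _ => by simp)
  · obtain ⟨ξ, hξ⟩ := hspan (fderiv ℝ (fun t => j (Phi Q (G t))) (ι (h x)) v) fun b hb => by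
      obtain ⟨g, k1, k2⟩ := hpk b hb
      have := hv g k1
      rw [re_fderiv (hG _ hmem).differentiableAt k1.1 (hF _ hmem).differentiableAt
        fun s => k2 (G s)] at this
      linarith
    rw [chain x hx] at hξ
    exact ⟨ξ, iF _ hmem hξ⟩

end Vale.Agent.P274
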