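import Vale.Agent.P274.Alg

/-! Statements of part B (real algebraic and analytic geometry near a generic boundary point). -/

open Set Filter Topology Metric MvPolynomial MeasureTheory

namespace Vale.Agent.P274

/-- `P` is the leading term, of order `μ`, of `D` along the family of points `h x`, `x → x₀`. -/
structure Lead {X V : Type*} [TopologicalSpace X] [NormedAddCommGroup V] [NormedSpace ℝ V]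
    (D : V → ℝ) (h : X → V) (x₀ : X) (μ : ℕ) (P : V → ℝ) : Prop where
  cont : Continuous P
  hom : ∀ c : ℝ, 0 < c → ∀ v, P (c • v) = c ^ μ * P v
  est : ∀ ε : ℝ, 0 < ε → ∀ᶠ p : X × V in 𝓝 (x₀, 0), |D (h p.1 + p.2) - P p.2| ≤ ε * ‖p.2‖ ^ μ

theorem Lead.reparam {X X' V : Type*} [TopologicalSpace X] [TopologicalSpace X']
    [NormedAddCommGroup V] [NormedSpace ℝ V] {D : V → ℝ} {h : X → V} {x₀ : X} {μ : ℕ} {P : V → ℝ}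
    (H : Lead D h x₀ μ P) {j : X' → X} {h' : X' → V} {y₀ : X'} (hj : Tendsto j (𝓝 y₀) (𝓝 x₀))
    (he : ∀ᶠ y in 𝓝 y₀, h' y = h (j y)) : Lead D h' y₀ μ P := by
  refine ⟨H.cont, H.hom, fun ε hε => ?_⟩
  have h1 : Tendsto (fun p : X' × V => (j p.1, p.2)) (𝓝 (y₀, 0)) (𝓝 (x₀, 0)) :=
    (hj.comp (continuous_fst.tendsto (y₀, (0 : V)))).prodMk_nhds
      (continuous_snd.tendsto (y₀, (0 : V)))
  filter_upwards [h1.eventually (H.est ε hε),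
    (continuous_fst.tendsto (y₀, (0 : V))).eventually he] with p h2 h3
  rw [h3]; exact h2

/-- Irreducibility of a set with respect to real polynomials. -/
def Irr {m : ℕ} (Y : Set (Fin m → ℝ)) : Prop :=
  Y.Nonempty ∧ ∀ f g : MvPolynomial (Fin m) ℝ, (∀ y ∈ Y, eval y (f * g) = 0) →
    (∀ y ∈ Y, eval y f = 0) ∨ ∀ y ∈ Y, eval y g = 0

/-- Evaluation of a polynomial in a distinguished last variable. -/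
noncomputable def pev {m : ℕ} (D : Polynomial (MvPolynomial (Fin m) ℝ))
    (p : (Fin m → ℝ) × ℝ) : ℝ := (D.map (eval p.1)).eval p.2

theorem analyticAt_pev {m : ℕ} (D : Polynomial (MvPolynomial (Fin m) ℝ))
    (p : (Fin m → ℝ) × ℝ) : AnalyticAt ℝ (pev D) p := by
  have : pev D = fun p => ∑ i ∈ Finset.range (D.natDegree + 1), eval p.1 (D.coeff i) * p.2 ^ i := by
    funext p
    rw [pev, Polynomial.eval_map, Polynomial.eval₂_eq_sum_range]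
  rw [this]
  exact Finset.analyticAt_fun_sum _ fun i _ =>
    ((analyticAt_eval _ _).comp analyticAt_fst).fun_mul (analyticAt_snd.fun_pow i)

theorem continuous_pev {m : ℕ} (D : Polynomial (MvPolynomial (Fin m) ℝ)) : Continuous (pev D) :=
  continuous_iff_continuousAt.2 fun p => (analyticAt_pev D p).continuousAt

/-- In the charts of a variety, the frontier of a semialgebraic set lies in a fixed proper real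
algebraic set. -/
def S_Front : Prop :=
  ∀ (N n m : ℕ) (𝔭 : Ideal (MvPolynomial (Fin N) ℂ)) (π : Fin n → MvPolynomial (Fin N) ℂ)
    (Δ : MvPolynomial (Fin n) ℂ), GRData 𝔭 n π Δ → ∀ (ι : (Fin m → ℝ) ≃L[ℝ] (Fin n → ℂ))
    (U : Set (Fin N → ℂ)), Semialg U → ∃ D : MvPolynomial (Fin m) ℝ, D ≠ 0 ∧
      ∀ (G : (Fin n → ℂ) → (Fin N → ℂ)) (ξ₀ : Fin m → ℝ),
        (∀ᶠ t in 𝓝 (ι ξ₀), ContinuousAt G t ∧ G t ∈ ZV 𝔭 ∧ ev π (G t) = t) → eval ξ₀ D ≠ 0 →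
        ∀ᶠ ξ in 𝓝 ξ₀, (G (ι ξ) ∈ U ↔ G (ι ξ₀) ∈ U)

/-- The essential Zariski closure of a family of sets depending on a random parameter. -/
def S_Ess : Prop :=
  ∀ (m : ℕ) (A : Type) [MeasurableSpace A] (μ : Measure A) (𝒬 : Type)
    (S : 𝒬 → A → Set (Fin m → ℝ)), ∃ Pr : Set (Ideal (MvPolynomial (Fin m) ℝ)), Pr.Finite ∧
      (∀ 𝔮 ∈ Pr, 𝔮.IsPrime) ∧ (∀ Q, ∀ᵐ a ∂μ, ∀ ξ ∈ S Q a, ∃ 𝔮 ∈ Pr, ξ ∈ ZV 𝔮) ∧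
      ∀ 𝔮 ∈ Pr, ∀ E, E ∉ 𝔮 → ∃ Q, ¬ ∀ᵐ a ∂μ, ∀ ξ ∈ S Q a, ξ ∈ ZV 𝔮 → eval ξ E = 0

/-- A linear change of coordinates makes a nonzero polynomial monic in one variable. -/
def S_Mon : Prop :=
  ∀ (m : ℕ) (D : MvPolynomial (Fin (m + 1)) ℝ), D ≠ 0 →
    ∃ (σ : ((Fin m → ℝ) × ℝ) ≃L[ℝ] (Fin (m + 1) → ℝ)) (D' : Polynomial (MvPolynomial (Fin m) ℝ))
      (c : ℝ), c ≠ 0 ∧ D'.Monic ∧ (∀ p, eval (σ p) D = c * pev D' p) ∧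
      ∀ E' : Polynomial (MvPolynomial (Fin m) ℝ), ∃ E : MvPolynomial (Fin (m + 1)) ℝ,
        ∀ p, eval (σ p) E = pev E' p

/-- Projection lemma. -/
def S_PL : Prop :=
  ∀ (m : ℕ) (D : Polynomial (MvPolynomial (Fin m) ℝ)), D.Monic →
    ∃ D' : MvPolynomial (Fin m) ℝ, D' ≠ 0 ∧ ∀ O W : Set ((Fin m → ℝ) × ℝ), IsOpen O →
      Fr (pev D) W O → ∀ (B : Set (Fin m → ℝ)) (a b : ℝ), IsOpen B → a < b →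
      B ×ˢ Icc a b ⊆ W → (∀ w ∈ B, pev D (w, a) ≠ 0 ∧ pev D (w, b) ≠ 0) →
      Fr (fun w => eval w D') B {w | ∃ t ∈ Ioo a b, (w, t) ∈ O}

/-- Off a proper algebraic subset of `Y`, the closure of `O` meets `Y` in a relatively open set. -/
def S_ST1 : Prop :=
  ∀ (m : ℕ) (D : MvPolynomial (Fin m) ℝ), D ≠ 0 → ∀ Y : Set (Fin m → ℝ), Irr Y →
    ∃ E : MvPolynomial (Fin m) ℝ, (∃ y ∈ Y, eval y E ≠ 0) ∧ ∀ O W : Set (Fin m → ℝ), IsOpen O →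
      IsOpen W → Fr (fun ξ => eval ξ D) W O → ∀ ξ₀ ∈ W, ξ₀ ∈ Y → ξ₀ ∈ closure O →
      eval ξ₀ E ≠ 0 → ∀ᶠ ξ in 𝓝 ξ₀, ξ ∈ Y → ξ ∈ closure O

/-- Zeros of analytic functions. -/
def S_AN0 : Prop :=
  ∀ (d : ℕ) (F : Type) [NormedAddCommGroup F] [NormedSpace ℝ F] (f : (Fin d → ℝ) → F)
    (N : Set (Fin d → ℝ)), IsOpen N → AnalyticOnNhd ℝ f N →
    ∀ᵐ x, x ∈ N → (f x ≠ 0 ∨ ∀ᶠ y in 𝓝 x, f y = 0)

/-- For almost every parameter, an analytic function is a power of `s` times a unit. -/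
def S_DI : Prop :=
  ∀ (d : ℕ) (F : Type) [NormedAddCommGroup F] [NormedSpace ℝ F] [CompleteSpace F]
    (f : (Fin d → ℝ) × ℝ → F) (N : Set (Fin d → ℝ)), IsOpen N →
    (∀ x ∈ N, AnalyticAt ℝ f (x, 0)) → ∀ᵐ x, x ∈ N →
      ((∀ᶠ p in 𝓝 (x, (0 : ℝ)), f p = 0) ∨ ∃ (e : ℕ) (g : (Fin d → ℝ) × ℝ → F),
        AnalyticAt ℝ g (x, 0) ∧ g (x, 0) ≠ 0 ∧ ∀ᶠ p in 𝓝 (x, (0 : ℝ)), f p = p.2 ^ e • g p)

/-- A family of monic complex polynomials of degree `d` with coefficients analytic at `y₀`. -/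
def PF {Y : Type*} [NormedAddCommGroup Y] [NormedSpace ℝ Y] (d : ℕ) (P : Y → Polynomial ℂ)
    (y₀ : Y) : Prop :=
  (∀ᶠ y in 𝓝 y₀, (P y).Monic ∧ (P y).natDegree = d) ∧
    ∀ i, AnalyticAt ℝ (fun y => (P y).coeff i) y₀

/-- Analytic Hensel lemma. -/
def S_HN : Prop :=
  ∀ (Y : Type) [NormedAddCommGroup Y] [NormedSpace ℝ Y] (d : ℕ) (P : Y → Polynomial ℂ) (y₀ : Y)
    (A₀ B₀ : Polynomial ℂ), PF d P y₀ → A₀.Monic → B₀.Monic → IsCoprime A₀ B₀ → P y₀ = A₀ * B₀ →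
    ∃ A B : Y → Polynomial ℂ, PF A₀.natDegree A y₀ ∧ PF B₀.natDegree B y₀ ∧
      ∀ᶠ y in 𝓝 y₀, P y = A y * B y

/-- Puiseux expansion with parameters. -/
def S_PU : Prop :=
  ∀ (d k : ℕ) (P : (Fin d → ℝ) × ℝ → Polynomial ℂ) (N : Set (Fin d → ℝ)), IsOpen N →
    (∀ x ∈ N, PF k P (x, 0)) → ∀ᵐ x, x ∈ N → ∃ (q : ℕ) (L : List ((Fin d → ℝ) × ℝ → ℂ)),
      0 < q ∧ (∀ r ∈ L, AnalyticAt ℝ r (x, 0)) ∧ ∀ᶠ p in 𝓝 (x, (0 : ℝ)),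
        P (p.1, p.2 ^ q) = (L.map fun r => Polynomial.X - Polynomial.C (r p)).prod

/-- Lifting a family of arcs through a band between consecutive roots. -/
def S_Band : Prop :=
  ∀ (m d : ℕ) (D : Polynomial (MvPolynomial (Fin m) ℝ)) (O W : Set ((Fin m → ℝ) × ℝ))
    (c : (Fin d → ℝ) × ℝ → (Fin m → ℝ)) (η : (Fin d → ℝ) → ℝ) (x : Fin d → ℝ) (a b : ℝ)
    (L : List ((Fin d → ℝ) × ℝ → ℂ)), IsOpen O → Fr (pev D) W O → AnalyticAt ℝ c (x, 0) →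
    AnalyticAt ℝ η x → a < η x → η x < b → (∀ r ∈ L, AnalyticAt ℝ r (x, 0)) →
    (∀ᶠ p in 𝓝 (x, (0 : ℝ)), ∀ t : ℝ, pev D (c p, t) = 0 → ∃ r ∈ L, r p = t) →
    (∀ r ∈ L, (∀ᶠ x' in 𝓝 x, (r (x', 0)).re = η x') ∨ (r (x, 0)).re ∉ Icc a b) →
    (∃ r ∈ L, (r (x, 0)).re = η x) →
    (∀ r ∈ L, ∀ r' ∈ L, (∀ᶠ p in 𝓝 (x, (0 : ℝ)), 0 < p.2 → (r p).re ≤ (r' p).re) ∨
      ∀ᶠ p in 𝓝 (x, (0 : ℝ)), 0 < p.2 → (r' p).re < (r p).re) →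
    (∀ᶠ p in 𝓝 (x, (0 : ℝ)), ∀ t ∈ Icc a b, (c p, t) ∈ W) →
    (∀ᶠ p in 𝓝 (x, (0 : ℝ)), 0 < p.2 → ∃ t ∈ Ioo a b, (c p, t) ∈ O) →
    ∃ τ : (Fin d → ℝ) × ℝ → ℝ, AnalyticAt ℝ τ (x, 0) ∧ (∀ᶠ x' in 𝓝 x, τ (x', 0) = η x') ∧
      ∀ᶠ p in 𝓝 (x, (0 : ℝ)), 0 < p.2 → (c p, τ p) ∈ O

/-- Analytic families of arcs entering `O`. -/
def S_ST2 : Prop :=
  ∀ (m d : ℕ) (D : MvPolynomial (Fin m) ℝ), D ≠ 0 → ∀ (h : (Fin d → ℝ) → (Fin m → ℝ))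
    (N : Set (Fin d → ℝ)) (O W : Set (Fin m → ℝ)), IsOpen N → AnalyticOnNhd ℝ h N → IsOpen O →
    IsOpen W → Fr (fun ξ => eval ξ D) W O → ∀ᵐ x, x ∈ N → h x ∈ W → h x ∈ closure O →
      ∃ c : (Fin d → ℝ) × ℝ → (Fin m → ℝ), AnalyticAt ℝ c (x, 0) ∧
        (∀ᶠ x' in 𝓝 x, c (x', 0) = h x') ∧ ∀ᶠ p in 𝓝 (x, (0 : ℝ)), 0 < p.2 → c p ∈ O

/-- Analytic families of arcs entering `O`, with a polynomial margin. -/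
def S_Arc : Prop :=
  ∀ (m d : ℕ) (D : MvPolynomial (Fin m) ℝ), D ≠ 0 → ∀ (h : (Fin d → ℝ) → (Fin m → ℝ))
    (N : Set (Fin d → ℝ)) (O W : Set (Fin m → ℝ)), IsOpen N → AnalyticOnNhd ℝ h N → IsOpen O →
    IsOpen W → Fr (fun ξ => eval ξ D) W O → ∀ᵐ x, x ∈ N → h x ∈ W → h x ∈ closure O →
      ∃ (c : (Fin d → ℝ) × ℝ → (Fin m → ℝ)) (e : ℕ), AnalyticAt ℝ c (x, 0) ∧
        (∀ᶠ x' in 𝓝 x, c (x', 0) = h x') ∧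
        ∀ᶠ p in 𝓝 (x, (0 : ℝ)), 0 < p.2 → ∀ v, ‖v‖ ≤ p.2 ^ e → c p + v ∈ O

def S_Lead : Prop :=
  ∀ (m d : ℕ) (D : MvPolynomial (Fin m) ℝ), D ≠ 0 → ∀ (h : (Fin d → ℝ) → (Fin m → ℝ))
    (N : Set (Fin d → ℝ)), IsOpen N → AnalyticOnNhd ℝ h N → ∀ᵐ x, x ∈ N →
      ∃ (μ : ℕ) (P : (Fin m → ℝ) → ℝ), Lead (fun ξ => eval ξ D) h x μ P ∧ Dense {v | P v ≠ 0}

/-- The leading term under a change of coordinates. -/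
def S_LeadT : Prop :=
  ∀ (X V V' : Type) [TopologicalSpace X] [NormedAddCommGroup V] [NormedSpace ℝ V]
    [FiniteDimensional ℝ V] [NormedAddCommGroup V'] [NormedSpace ℝ V'] (D : V → ℝ) (φ : X → V)
    (x₀ : X) (μ : ℕ) (P : V → ℝ) (Θ : V' → V) (L : V' →L[ℝ] V) (φ' : X → V'),
    Lead D φ x₀ μ P → HasStrictFDerivAt Θ L (φ' x₀) → ContinuousAt φ' x₀ →
    (∀ᶠ x in 𝓝 x₀, Θ (φ' x) = φ x) → Lead (fun w => D (Θ w)) φ' x₀ μ (fun v => P (L v))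

/-- Jacobian criterion: an algebraic family not contained in a complex hypersurface is generic. -/
def S_Gen : Prop :=
  ∀ (m n d : ℕ) (ι : (Fin m → ℝ) →L[ℝ] (Fin n → ℂ)) (h : (Fin d → ℝ) → (Fin m → ℝ))
    (N : Set (Fin d → ℝ)), IsOpen N → AnalyticOnNhd ℝ h N →
    (∀ i, ∃ M : Polynomial (MvPolynomial (Fin d) ℝ), M.Monic ∧ ∀ x ∈ N, pev M (x, h x i) = 0) →
    (∀ Q : MvPolynomial (Fin n) ℂ, ∀ x ∈ N, (∀ᶠ x' in 𝓝 x, eval (ι (h x')) Q = 0) → Q = 0) →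
    ∀ᵐ x, x ∈ N → ∀ lam : (Fin n → ℂ) →L[ℂ] ℂ, (∀ ξ, lam (ι (fderiv ℝ h x ξ)) = 0) → lam = 0

/-- If farthest points lie on a submanifold for a non-null set of centres, then at a non-null set
of points the supporting spheres span the normal space. -/
def S_Supp : Prop :=
  ∀ (d L : ℕ) (ψ : (Fin d → ℝ) → EuclideanSpace ℝ (Fin L)) (N : Set (Fin d → ℝ))
    (K : Set (EuclideanSpace ℝ (Fin L))), IsOpen N → AnalyticOnNhd ℝ ψ N →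
    (∀ x ∈ N, Function.Injective (fderiv ℝ ψ x)) → (∀ x ∈ N, ψ x ∈ K) →
    (¬ ∀ᵐ a, ∀ x ∈ N, ¬ ∀ w ∈ K, ‖w - a‖ ≤ ‖ψ x - a‖) →
    ¬ ∀ᵐ x, x ∈ N → ¬ ((∃ b, ∀ w ∈ K, ‖w - (ψ x - b)‖ ≤ ‖b‖) ∧
      ∀ u, (∀ b, (∀ w ∈ K, ‖w - (ψ x - b)‖ ≤ ‖b‖) → inner ℝ u b = 0) → u ∈ range (fderiv ℝ ψ x))

/-- `g` is an entire peak function for `U` at `p`. -/
def IsPeak {N : ℕ} (U : Set (Fin N → ℂ)) (p : Fin N → ℂ) (g : (Fin N → ℂ) → ℂ) : Prop :=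
  Differentiable ℂ g ∧ g p = 0 ∧ ∃ c : ℝ, 0 < c ∧ ∀ z ∈ U, c * ‖z - p‖ ^ 2 ≤ (g z).re

/-- The graph embedding `z ↦ (z, Q z)`. -/
noncomputable def Phi {N : ℕ} (Q : MvPolynomial (Fin N) ℂ) (z : Fin N → ℂ) :
    Option (Fin N) → ℂ := fun o => o.elim (eval z Q) z

/-- Farthest points of the embedded closure of `U` from `a`. -/
def Mx {N L : ℕ} (U : Set (Fin N → ℂ)) (j : (Option (Fin N) → ℂ) ≃L[ℝ] EuclideanSpace ℝ (Fin L))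
    (Q : MvPolynomial (Fin N) ℂ) (a : EuclideanSpace ℝ (Fin L)) : Set (Fin N → ℂ) :=
  {z | z ∈ closure U ∧ ∀ z' ∈ closure U, ‖j (Phi Q z') - a‖ ≤ ‖j (Phi Q z) - a‖}

/-- Supporting spheres give peak functions. -/
def S_PeakB : Prop :=
  ∀ (N L : ℕ) (U : Set (Fin N → ℂ)) (j : (Option (Fin N) → ℂ) ≃L[ℝ] EuclideanSpace ℝ (Fin L))
    (Q : MvPolynomial (Fin N) ℂ) (p : Fin N → ℂ) (b : EuclideanSpace ℝ (Fin L)),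
    (∀ z ∈ U, ‖j (Phi Q z) - (j (Phi Q p) - b)‖ ≤ ‖b‖) →
    ∃ g, IsPeak U p g ∧ ∀ z, (g z).re = -2 * inner ℝ (j (Phi Q z) - j (Phi Q p)) b

/-- Selection of the essential component of the set of farthest points. -/
def S_Sel : Prop :=
  ∀ (N n m L : ℕ) (U : Set (Fin N → ℂ)) (π : Fin n → MvPolynomial (Fin N) ℂ)
    (ι : (Fin m → ℝ) ≃L[ℝ] (Fin n → ℂ))
    (j : (Option (Fin N) → ℂ) ≃L[ℝ] EuclideanSpace ℝ (Fin L)), Bornology.IsBounded U →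
    (∀ Q₁ : MvPolynomial (Fin n) ℂ, Q₁ ≠ 0 → ∃ z ∈ U, eval (ev π z) Q₁ ≠ 0) →
    ∃ 𝔮 : Ideal (MvPolynomial (Fin m) ℝ), 𝔮.IsPrime ∧
      (∀ Q₁ : MvPolynomial (Fin n) ℂ, (∀ ξ ∈ ZV 𝔮, eval (ι ξ) Q₁ = 0) → Q₁ = 0) ∧
      ∀ E, E ∉ 𝔮 → ∃ Q, ¬ ∀ᵐ a, ∀ z ∈ Mx U j Q a, ι.symm (ev π z) ∈ ZV 𝔮 →
        eval (ι.symm (ev π z)) E = 0

/-- Local charts around a good point of the closure of `U`. -/
def S_Loc : Prop :=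
  ∀ (N n m d : ℕ) (𝔭 : Ideal (MvPolynomial (Fin N) ℂ)) (π : Fin n → MvPolynomial (Fin N) ℂ)
    (Δ : MvPolynomial (Fin n) ℂ) (𝔮 : Ideal (MvPolynomial (Fin m) ℝ))
    (κ : Fin d → MvPolynomial (Fin m) ℝ) (Δ' : MvPolynomial (Fin d) ℝ)
    (ι : (Fin m → ℝ) ≃L[ℝ] (Fin n → ℂ)) (U O₀ : Set (Fin N → ℂ)) (D : MvPolynomial (Fin m) ℝ)
    (z₀ : Fin N → ℂ), GRData 𝔭 n π Δ → GRData 𝔮 d κ Δ' → IsOpen O₀ → U = ZV 𝔭 ∩ O₀ →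
    (∀ (G : (Fin n → ℂ) → (Fin N → ℂ)) (ξ₀ : Fin m → ℝ),
      (∀ᶠ t in 𝓝 (ι ξ₀), ContinuousAt G t ∧ G t ∈ ZV 𝔭 ∧ ev π (G t) = t) → eval ξ₀ D ≠ 0 →
      ∀ᶠ ξ in 𝓝 ξ₀, (G (ι ξ) ∈ U ↔ G (ι ξ₀) ∈ U)) →
    z₀ ∈ closure U → ι.symm (ev π z₀) ∈ ZV 𝔮 → eval (ev π z₀) Δ ≠ 0 →
    eval (ev κ (ι.symm (ev π z₀))) Δ' ≠ 0 →
    (∀ O W : Set (Fin m → ℝ), IsOpen O → IsOpen W → Fr (fun ξ => eval ξ D) W O →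
      ι.symm (ev π z₀) ∈ W → ι.symm (ev π z₀) ∈ closure O →
      ∀ᶠ ξ in 𝓝 (ι.symm (ev π z₀)), ξ ∈ ZV 𝔮 → ξ ∈ closure O) →
    ∃ (W : Set (Fin n → ℂ)) (G : (Fin n → ℂ) → (Fin N → ℂ)) (NX : Set (Fin d → ℝ))
      (h : (Fin d → ℝ) → (Fin m → ℝ)), IsOpen W ∧ IsOpen NX ∧ AnalyticOnNhd ℂ G W ∧
      (∀ t ∈ W, G t ∈ ZV 𝔭 ∧ ev π (G t) = t ∧ ∀ᶠ z in 𝓝 (G t), z ∈ ZV 𝔭 → G (ev π z) = z) ∧
      IsOpen {ξ | ι ξ ∈ W ∧ G (ι ξ) ∈ U} ∧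
      Fr (fun ξ => eval ξ D) (ι ⁻¹' W) {ξ | ι ξ ∈ W ∧ G (ι ξ) ∈ U} ∧
      AnalyticOnNhd ℝ h NX ∧
      (∀ x ∈ NX, h x ∈ ZV 𝔮 ∧ ev κ (h x) = x ∧ ι (h x) ∈ W ∧
        h x ∈ closure {ξ | ι ξ ∈ W ∧ G (ι ξ) ∈ U} ∧ G (ι (h x)) ∈ closure U) ∧
      ∀ᶠ z in 𝓝 z₀, z ∈ ZV 𝔭 → ι.symm (ev π z) ∈ ZV 𝔮 → ∃ x ∈ NX, z = G (ι (h x))

/-- The data at a generic point of the essential boundary, in the chart `G`. -/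
structure PtData {N n d : ℕ} (U : Set (Fin N → ℂ)) (pr : (Fin N → ℂ) → (Fin n → ℂ))
    (G : (Fin n → ℂ) → (Fin N → ℂ)) (D : (Fin n → ℂ) → ℝ) (W : Set (Fin n → ℂ))
    (φ : (Fin d → ℝ) → (Fin n → ℂ)) (x₀ : Fin d → ℝ) : Prop where
  hpr : Differentiable ℂ pr
  hW : IsOpen W
  mem : φ x₀ ∈ W
  hG : AnalyticOnNhd ℂ G W
  sec : ∀ t ∈ W, pr (G t) = t
  uniq : ∀ᶠ z in 𝓝 (G (φ x₀)), z ∈ U → G (pr z) = z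
  opn : IsOpen {t | t ∈ W ∧ G t ∈ U}
  fr : Fr D W {t | t ∈ W ∧ G t ∈ U}
  hφ : AnalyticAt ℝ φ x₀
  inj : Function.Injective (fderiv ℝ φ x₀)
  gen : ∀ lam : (Fin n → ℂ) →L[ℂ] ℂ, (∀ ξ, lam (fderiv ℝ φ x₀ ξ) = 0) → lam = 0
  arc : ∃ (c : (Fin d → ℝ) × ℝ → (Fin n → ℂ)) (e : ℕ), AnalyticAt ℝ c (x₀, 0) ∧
    (∀ᶠ x in 𝓝 x₀, c (x, 0) = φ x) ∧ ∀ᶠ p in 𝓝 (x₀, (0 : ℝ)), 0 < p.2 → ∀ v, ‖v‖ ≤ p.2 ^ e →
      c p + v ∈ {t | t ∈ W ∧ G t ∈ U}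
  clos : ∀ᶠ x in 𝓝 x₀, G (φ x) ∈ closure U
  lead : ∃ (μ : ℕ) (P : (Fin n → ℂ) → ℝ), Lead D φ x₀ μ P ∧ Dense {v | P v ≠ 0}
  peak : ∃ g, IsPeak U (G (φ x₀)) g
  span : ∀ v, (∀ g, IsPeak U (G (φ x₀)) g → (fderiv ℂ (fun t => g (G t)) (φ x₀) v).re = 0) →
    v ∈ range (fderiv ℝ φ x₀)

def S_Point : Prop :=
  ∀ (N n : ℕ) (𝔭 : Ideal (MvPolynomial (Fin N) ℂ)) (π : Fin n → MvPolynomial (Fin N) ℂ)
    (Δ : MvPolynomial (Fin n) ℂ) (U : Set (Fin N → ℂ)), 𝔭.IsPrime → GRData 𝔭 n π Δ →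
    Semialg U → Bornology.IsBounded U → (∃ O, IsOpen O ∧ U = ZV 𝔭 ∩ O) →
    (∀ g, g ∉ 𝔭 → ∃ z ∈ U, eval z g ≠ 0) →
    ∃ (d : ℕ) (G : (Fin n → ℂ) → (Fin N → ℂ)) (D : (Fin n → ℂ) → ℝ) (W : Set (Fin n → ℂ))
      (φ : (Fin d → ℝ) → (Fin n → ℂ)) (x₀ : Fin d → ℝ), PtData U (ev π) G D W φ x₀

end Vale.Agent.P274
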