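import Vale.Agent.P274.Base

/-! Complete holomorphic vector fields on bounded domains; statements of part D. -/

open Set Filter Topology Metric MeasureTheory Asymptotics

namespace Vale.Agent.P274

section

variable {E F : Type*} [NormedAddCommGroup E] [NormedSpace ℂ E] [NormedAddCommGroup F]
  [NormedSpace ℂ F]

/-- `φ` is a global flow of `X` on `B` by holomorphic maps. -/
structure Flow (B : Set E) (X : E → E) (φ : ℝ → E → E) : Prop where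
  maps : ∀ t, MapsTo (φ t) B B
  hol : ∀ t, DifferentiableOn ℂ (φ t) B
  zero : ∀ x ∈ B, φ 0 x = x
  add : ∀ s t, ∀ x ∈ B, φ (s + t) x = φ s (φ t x)
  deriv : ∀ x ∈ B, ∀ t, HasDerivAt (fun s => φ s x) (X (φ t x)) t

/-- Complete holomorphic vector fields on `B`, normalized to vanish outside `B`. -/
def Cpl (B : Set E) (X : E → E) : Prop :=
  DifferentiableOn ℂ X B ∧ (∀ x, x ∉ B → X x = 0) ∧ ∃ φ, Flow B X φ

/-- Push-forward of the vector field `X` by `g` (with inverse `g'`) to `B`. -/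
noncomputable def Ad (B : Set F) (g : E → F) (g' : F → E) (X : E → E) : F → F :=
  B.indicator fun y => fderiv ℂ g (g' y) (X (g' y))

/-- Bracket of vector fields on `B`. -/
noncomputable def br (B : Set E) (X Y : E → E) : E → E :=
  B.indicator fun x => fderiv ℂ Y x (X x) - fderiv ℂ X x (Y x)

/-- An invariant distance of Carathéodory type whose small balls are compact. -/
structure Car (B : Set E) (d : E → E → ℝ) (r₀ : ℝ) : Prop where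
  pos : 0 < r₀
  refl : ∀ x ∈ B, d x x = 0
  symm : ∀ x ∈ B, ∀ y ∈ B, d x y = d y x
  nonneg : ∀ x ∈ B, ∀ y ∈ B, 0 ≤ d x y
  tri : ∀ x ∈ B, ∀ y ∈ B, ∀ z ∈ B, d x z ≤ d x y + d y z
  contr : ∀ g : E → E, DifferentiableOn ℂ g B → MapsTo g B B → ∀ x ∈ B, ∀ y ∈ B,
    d (g x) (g y) ≤ d x y
  lower : ∃ R : ℝ, 0 < R ∧ ∀ x ∈ B, ∀ y ∈ B, ‖x - y‖ ≤ R * d x y
  upper : ∀ x ∈ B, ∃ r : ℝ, 0 < r ∧ ∃ L : ℝ, 0 ≤ L ∧ ball x r ⊆ B ∧
    ∀ y ∈ ball x r, ∀ z ∈ ball x r, d y z ≤ L * ‖y - z‖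
  cont : ContinuousOn (fun p : E × E => d p.1 p.2) (B ×ˢ B)
  cpt : ∀ K, IsCompact K → K ⊆ B → IsCompact {y | y ∈ B ∧ ∃ x ∈ K, d x y ≤ r₀}

/-- Chains of small steps starting in a compact set stay in a compact set. -/
theorem Car.reach {B : Set E} {d : E → E → ℝ} {r₀ : ℝ} (h : Car B d r₀) {K : Set E}
    (hK : IsCompact K) (hKB : K ⊆ B) (n : ℕ) : ∃ K', IsCompact K' ∧ K' ⊆ B ∧
      ∀ y : ℕ → E, y 0 ∈ K → (∀ i < n, y (i + 1) ∈ B ∧ d (y i) (y (i + 1)) ≤ r₀) → y n ∈ K' := by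
  induction n with
  | zero => exact ⟨K, hK, hKB, fun y h0 _ => h0⟩
  | succ n ih =>
    obtain ⟨K', h1, h2, h3⟩ := ih
    refine ⟨_, h.cpt K' h1 h2, fun y hy => hy.1, fun y h0 hs => ?_⟩
    exact ⟨(hs n n.lt_succ_self).1, y n, h3 y h0 fun i hi => hs i (hi.trans n.lt_succ_self),
      (hs n n.lt_succ_self).2⟩

end

def S_Car : Prop :=
  ∀ (E : Type) [NormedAddCommGroup E] [NormedSpace ℂ E] [FiniteDimensional ℂ E] (Γ : Type)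
    [Group Γ] (B : Set E) (act : Γ → E → E), Div B act → IsOpen B → ∃ d r₀, Car B d r₀

/-- Vector fields tangent to the automorphism group are complete. -/
def S_TC : Prop :=
  ∀ (E : Type) [NormedAddCommGroup E] [NormedSpace ℂ E] [FiniteDimensional ℂ E] (B : Set E)
    (d : E → E → ℝ) (r₀ : ℝ), IsOpen B → Bornology.IsBounded B → Car B d r₀ →
    ∀ (g g' : ℕ → E → E) (X : E → E), (∀ j, Bihol B B (g j) (g' j)) → ContinuousOn X B →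
      TendstoLocallyUniformlyOn (fun (j : ℕ) x => (j : ℝ) • (g j x - x)) X atTop B →
      ∃ φ, Flow B X φ

/-- The complete fields form a real vector space. -/
def S_Sum : Prop :=
  ∀ (E : Type) [NormedAddCommGroup E] [NormedSpace ℂ E] [FiniteDimensional ℂ E] (B : Set E)
    (d : E → E → ℝ) (r₀ : ℝ), IsOpen B → Bornology.IsBounded B → Car B d r₀ →
    ∃ 𝔤 : Submodule ℝ (E → E), ∀ X, X ∈ 𝔤 ↔ Cpl B X

/-- Cartan's uniqueness theorem. -/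
def S_Cartan : Prop :=
  ∀ (E : Type) [NormedAddCommGroup E] [NormedSpace ℂ E] [FiniteDimensional ℂ E] (B : Set E),
    IsOpen B → IsPreconnected B → Bornology.IsBounded B → ∀ (f : E → E), ∀ e ∈ B,
    DifferentiableOn ℂ f B → MapsTo f B B → f e = e →
    fderiv ℂ f e = ContinuousLinearMap.id ℂ E → ∀ x ∈ B, f x = x

/-- Isotropy: flows of fields vanishing at `e`; a complete field is determined by its 1-jet. -/
def S_Iso : Prop :=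
  ∀ (E : Type) [NormedAddCommGroup E] [NormedSpace ℂ E] [FiniteDimensional ℂ E] (B : Set E),
    IsOpen B → IsPreconnected B → Bornology.IsBounded B → ∀ e ∈ B,
    (∀ X φ, DifferentiableOn ℂ X B → Flow B X φ → X e = 0 →
      (∀ t, φ t e = e ∧ fderiv ℂ (φ t) e = NormedSpace.exp ((t : ℂ) • fderiv ℂ X e)) ∧
      ∃ C : ℝ, ∀ t : ℝ, ‖NormedSpace.exp ((t : ℂ) • fderiv ℂ X e)‖ ≤ C) ∧
    (∀ X, Cpl B X → X e = 0 → fderiv ℂ X e = 0 → X = 0) ∧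
    ∀ 𝔤 : Submodule ℝ (E → E), (∀ X, X ∈ 𝔤 ↔ Cpl B X) → FiniteDimensional ℝ 𝔤

/-- The complete fields form a Lie algebra, and the determinant of the adjoint action. -/
def S_Br : Prop :=
  ∀ (E : Type) [NormedAddCommGroup E] [NormedSpace ℂ E] [FiniteDimensional ℂ E] (B : Set E),
    IsOpen B → Bornology.IsBounded B → ∀ 𝔤 : Submodule ℝ (E → E), (∀ X, X ∈ 𝔤 ↔ Cpl B X) →
    FiniteDimensional ℝ 𝔤 → ∃ ad : 𝔤 →ₗ[ℝ] 𝔤 →ₗ[ℝ] 𝔤, (∀ X Y : 𝔤, (ad X Y : E → E) = br B X Y) ∧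
      ∀ (X : 𝔤) (φ : ℝ → E → E), Flow B X φ → ∀ L : 𝔤 →ₗ[ℝ] 𝔤,
        (∀ Y : 𝔤, (L Y : E → E) = Ad B (φ 1) (φ (-1)) Y) →
        LinearMap.det L = Real.exp (-LinearMap.trace ℝ 𝔤 (ad X))

/-- Invariant volume. -/
def S_Vol : Prop :=
  ∀ (E : Type) [NormedAddCommGroup E] [NormedSpace ℂ E] [FiniteDimensional ℂ E]
    [MeasurableSpace E] [BorelSpace E] (B : Set E), IsOpen B → Bornology.IsBounded B →
    B.Nonempty → ∃ μ : Measure B, IsFiniteMeasureOnCompacts μ ∧ μ ≠ 0 ∧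
      ∀ (g g' : E → E) (h : Bihol B B g g'), MeasurePreserving (h.maps.restrict g B B) μ μ

/-- Abstract unimodularity in the presence of a cocompact discrete group. -/
def S_UniAbs : Prop :=
  ∀ (Y : Type) [MetricSpace Y] [LocallyCompactSpace Y] [SecondCountableTopology Y]
    [MeasurableSpace Y] [BorelSpace Y] (q : ℕ) (Γ : Type) [Group Γ] (a : Γ → Y → Y)
    (μ : Measure Y) (Fl : (Fin q → ℝ) → Y → Y) (𝔅 : Set (Y × (Fin q → ℝ)))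
    (A : Γ → (Fin q → ℝ) →ₗ[ℝ] (Fin q → ℝ)) (L : (Fin q → ℝ) → (Fin q → ℝ) →ₗ[ℝ] (Fin q → ℝ))
    (τ : (Fin q → ℝ) →ₗ[ℝ] ℝ),
    (∀ y, a 1 y = y) → (∀ γ δ y, a (γ * δ) y = a γ (a δ y)) →
    (∀ K K' : Set Y, IsCompact K → IsCompact K' → {γ | ∃ x ∈ K, a γ x ∈ K'}.Finite) →
    (∃ K : Set Y, IsCompact K ∧ ∀ y, ∃ γ, a γ y ∈ K) →
    IsFiniteMeasureOnCompacts μ → μ ≠ 0 → (∀ γ, MeasurePreserving (a γ) μ μ) →
    Continuous (fun p : (Fin q → ℝ) × Y => Fl p.1 p.2) → (∀ v, MeasurePreserving (Fl v) μ μ) →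
    (∀ v y, Fl (-v) (Fl v y) = y) → IsClosed 𝔅 → (∀ y v, (y, v) ∈ 𝔅 → (y, -v) ∈ 𝔅) →
    (∀ y, {v | (y, v) ∈ 𝔅} ∈ 𝓝 (0 : Fin q → ℝ) ∧ Bornology.IsBounded {v | (y, v) ∈ 𝔅}) →
    (∀ γ, Function.Bijective (A γ)) → (∀ γ y v, (a γ y, A γ v) ∈ 𝔅 ↔ (y, v) ∈ 𝔅) →
    (∀ γ y v, Fl (A γ v) (a γ y) = a γ (Fl v y)) →
    (∀ v y w, (Fl v y, L v w) ∈ 𝔅 ↔ (y, w) ∈ 𝔅) → (∀ v, L v v = v) →
    (∀ v, LinearMap.det (L v) = Real.exp (-τ v)) → τ = 0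

/-- Joint continuity of time-one maps in the field and the point. -/
def S_FlowC : Prop :=
  ∀ (E : Type) [NormedAddCommGroup E] [NormedSpace ℂ E] [FiniteDimensional ℂ E] (B : Set E)
    (d : E → E → ℝ) (r₀ : ℝ), IsOpen B → Car B d r₀ → ∀ (q : ℕ)
    (β : (Fin q → ℝ) →ₗ[ℝ] (E → E)) (Φ : (Fin q → ℝ) → ℝ → E → E),
    (∀ v, DifferentiableOn ℂ (β v) B ∧ Flow B (β v) (Φ v)) →
    ContinuousOn (fun p : (Fin q → ℝ) × E => Φ p.1 1 p.2) (univ ×ˢ B)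

/-- An equivariant family of unit balls in the Lie algebra. -/
def S_Ball : Prop :=
  ∀ (E : Type) [NormedAddCommGroup E] [NormedSpace ℂ E] [FiniteDimensional ℂ E] (B : Set E)
    (d : E → E → ℝ) (r₀ : ℝ), IsOpen B → IsPreconnected B → Bornology.IsBounded B → Car B d r₀ →
    ∀ (q : ℕ) (β : (Fin q → ℝ) →ₗ[ℝ] (E → E)), Function.Injective β → (∀ v, Cpl B (β v)) →
    ∃ 𝔅 : Set (B × (Fin q → ℝ)), IsClosed 𝔅 ∧ (∀ y v, (y, v) ∈ 𝔅 → (y, -v) ∈ 𝔅) ∧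
      (∀ y, {v | (y, v) ∈ 𝔅} ∈ 𝓝 (0 : Fin q → ℝ) ∧ Bornology.IsBounded {v | (y, v) ∈ 𝔅}) ∧
      ∀ (g g' : E → E) (h : Bihol B B g g') (y : B) (v w : Fin q → ℝ), β w = Ad B g g' (β v) →
        ((h.maps.restrict g B B y, w) ∈ 𝔅 ↔ (y, v) ∈ 𝔅)

/-- Unimodularity. -/
def S_Uni : Prop :=
  ∀ (E : Type) [NormedAddCommGroup E] [NormedSpace ℂ E] [FiniteDimensional ℂ E] (Γ : Type)
    [Group Γ] (B : Set E) (act : Γ → E → E) (d : E → E → ℝ) (r₀ : ℝ), Div B act → IsOpen B →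
    Car B d r₀ → ∀ 𝔤 : Submodule ℝ (E → E), (∀ X, X ∈ 𝔤 ↔ Cpl B X) → FiniteDimensional ℝ 𝔤 →
    ∀ τ : 𝔤 →ₗ[ℝ] ℝ, (∀ (X : 𝔤) (φ : ℝ → E → E), Flow B X φ → ∀ L : 𝔤 →ₗ[ℝ] 𝔤,
      (∀ Y : 𝔤, (L Y : E → E) = Ad B (φ 1) (φ (-1)) Y) → LinearMap.det L = Real.exp (-τ X)) →
    τ = 0

/-- Jets of brackets of analytic vector fields at a point. -/
def S_Jet : Prop :=
  ∀ (E : Type) [NormedAddCommGroup E] [NormedSpace ℂ E] [FiniteDimensional ℂ E] (e : E),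
    (∀ W : E → E, AnalyticAt ℂ W e →
      ((W =O[𝓝 e] fun x => ‖x - e‖ ^ 1) ↔ W e = 0) ∧
      ((W =O[𝓝 e] fun x => ‖x - e‖ ^ 2) ↔ W e = 0 ∧ fderiv ℂ W e = 0)) ∧
    (∀ W V : E → E, AnalyticAt ℂ W e → AnalyticAt ℂ V e → (W =O[𝓝 e] fun x => ‖x - e‖ ^ 3) →
      (fun x => fderiv ℂ V x (W x) - fderiv ℂ W x (V x)) =O[𝓝 e] fun x => ‖x - e‖ ^ 2) ∧
    ∀ W Eu : E → E, AnalyticAt ℂ W e → AnalyticAt ℂ Eu e → Eu e = 0 →
      fderiv ℂ Eu e = ContinuousLinearMap.id ℂ E → ∀ r : ℕ, r ≤ 2 →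
      (W =O[𝓝 e] fun x => ‖x - e‖ ^ r) →
      (fun x => fderiv ℂ W x (Eu x) - fderiv ℂ Eu x (W x) - ((r : ℝ) - 1) • W x) =O[𝓝 e]
        fun x => ‖x - e‖ ^ (r + 1)

/-- Rigidity in the complexified Lie algebra. -/
def S_F2 : Prop :=
  ∀ (E : Type) [NormedAddCommGroup E] [NormedSpace ℂ E] [FiniteDimensional ℂ E] (B : Set E),
    IsOpen B → IsPreconnected B → Bornology.IsBounded B →
    (∀ X Y, Cpl B X → Cpl B Y → Cpl B (br B X Y)) → ∀ e ∈ B, ∀ X Y, Cpl B X → Cpl B Y →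
    (∀ c : ℝ, X e = 0 → Y e = 0 →
      fderiv ℂ X e + Complex.I • fderiv ℂ Y e = (c : ℂ) • ContinuousLinearMap.id ℂ E →
      fderiv ℂ Y e = (-Complex.I * c) • ContinuousLinearMap.id ℂ E) ∧
    (((fun x => X x + Complex.I • Y x) =O[𝓝 e] fun x => ‖x - e‖ ^ 3) → X = 0 ∧ Y = 0)

/-- A point admitting an Euler field in the complexified Lie algebra is a symmetry point. -/
def S_Sym : Prop :=
  ∀ (E : Type) [NormedAddCommGroup E] [NormedSpace ℂ E] [FiniteDimensional ℂ E] (B : Set E),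
    IsOpen B → IsPreconnected B → Bornology.IsBounded B → ∀ 𝔤 : Submodule ℝ (E → E),
    (∀ X, X ∈ 𝔤 ↔ Cpl B X) → FiniteDimensional ℝ 𝔤 → ∀ ad : 𝔤 →ₗ[ℝ] 𝔤 →ₗ[ℝ] 𝔤,
    (∀ X Y : 𝔤, (ad X Y : E → E) = br B X Y) → (∀ X, LinearMap.trace ℝ 𝔤 (ad X) = 0) →
    ∀ e ∈ B, (∃ X Y, Cpl B X ∧ Cpl B Y ∧ X e + Complex.I • Y e = 0 ∧
      fderiv ℂ X e + Complex.I • fderiv ℂ Y e = ContinuousLinearMap.id ℂ E) →
    (∀ v, ∃ X Y, Cpl B X ∧ Cpl B Y ∧ X e + Complex.I • Y e = v) →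
    ∃ σ : E → E, DifferentiableOn ℂ σ B ∧ MapsTo σ B B ∧ (∀ y ∈ B, σ (σ y) = y) ∧ σ e = e ∧
      ∀ᶠ y in 𝓝[≠] e, σ y ≠ y

/-- The same for divisible bounded domains. -/
def S_SymD : Prop :=
  ∀ (E : Type) [NormedAddCommGroup E] [NormedSpace ℂ E] [FiniteDimensional ℂ E] (Γ : Type)
    [Group Γ] (B : Set E) (act : Γ → E → E), Div B act → IsOpen B →
    ∃ 𝔤 : Submodule ℝ (E → E), (∀ X, X ∈ 𝔤 ↔ Cpl B X) ∧
    ∀ e ∈ B, (∃ X Y, Cpl B X ∧ Cpl B Y ∧ X e + Complex.I • Y e = 0 ∧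
      fderiv ℂ X e + Complex.I • fderiv ℂ Y e = ContinuousLinearMap.id ℂ E) →
    (∀ v, ∃ X Y, Cpl B X ∧ Cpl B Y ∧ X e + Complex.I • Y e = v) →
    ∃ σ : E → E, DifferentiableOn ℂ σ B ∧ MapsTo σ B B ∧ (∀ y ∈ B, σ (σ y) = y) ∧ σ e = e ∧
      ∀ᶠ y in 𝓝[≠] e, σ y ≠ y

end Vale.Agent.P274
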