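import Vale.Agent.P274.StB
import Vale.Agent.P274.StD

/-! Model space, edge data, rescaling; statements of parts B2, C and of the final glue. -/

open Set Filter Topology Metric

namespace Vale.Agent.P274

/-- The model space `ℂ^k × ℂ^l`. -/
abbrev EE (k l : ℕ) : Type := (Fin k → ℂ) × (Fin l → ℂ)

/-- Real bilinear maps `ℂ^l × ℂ^l → ℝ^k`. -/
abbrev Bil (k l : ℕ) : Type := (Fin l → ℂ) →L[ℝ] (Fin l → ℂ) →L[ℝ] (Fin k → ℝ)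

section

variable {k l : ℕ}

noncomputable def reL (k : ℕ) : (Fin k → ℂ) →L[ℝ] (Fin k → ℝ) :=
  ContinuousLinearMap.pi fun i => Complex.reCLM.comp (ContinuousLinearMap.proj i)

noncomputable def imL (k : ℕ) : (Fin k → ℂ) →L[ℝ] (Fin k → ℝ) :=
  ContinuousLinearMap.pi fun i => Complex.imCLM.comp (ContinuousLinearMap.proj i)

noncomputable def ofR (k : ℕ) : (Fin k → ℝ) →L[ℝ] (Fin k → ℂ) :=
  ContinuousLinearMap.pi fun i => Complex.ofRealCLM.comp (ContinuousLinearMap.proj i)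

@[simp] theorem reL_apply (Z : Fin k → ℂ) (i : Fin k) : reL k Z i = (Z i).re := rfl

@[simp] theorem imL_apply (Z : Fin k → ℂ) (i : Fin k) : imL k Z i = (Z i).im := rfl

@[simp] theorem ofR_apply (a : Fin k → ℝ) (i : Fin k) : ofR k a i = (a i : ℂ) := rfl

@[simp] theorem reL_ofR (a : Fin k → ℝ) : reL k (ofR k a) = a := by ext i; simp

@[simp] theorem imL_ofR (a : Fin k → ℝ) : imL k (ofR k a) = 0 := by ext i; simp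

@[simp] theorem reL_I_ofR (a : Fin k → ℝ) : reL k (Complex.I • ofR k a) = 0 := by ext i; simp

@[simp] theorem imL_I_ofR (a : Fin k → ℝ) : imL k (Complex.I • ofR k a) = a := by ext i; simp

theorem ofR_reL_add (Z : Fin k → ℂ) : ofR k (reL k Z) + Complex.I • ofR k (imL k Z) = Z := by
  ext i; simp [mul_comm Complex.I]

/-- The defining map `re Z - b u u` of the model quadric. -/
noncomputable def rho (b : Bil k l) (w : EE k l) : Fin k → ℝ := reL k w.1 - b w.2 w.2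

theorem continuous_rho (b : Bil k l) : Continuous (rho b) := by
  unfold rho; fun_prop

/-- Parabolic dilation. -/
noncomputable def sc (δ : ℝ) (w : EE k l) : EE k l := ((δ ^ 2) • w.1, δ • w.2)

theorem rho_sc (b : Bil k l) (δ : ℝ) (w : EE k l) : rho b (sc δ w) = (δ ^ 2) • rho b w := by
  simp only [rho, sc, map_smul, _root_.smul_apply, smul_sub, smul_smul, pow_two]

theorem sc_sc (δ δ' : ℝ) (w : EE k l) : sc δ (sc δ' w) = sc (δ * δ') w := by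
  simp only [sc, smul_smul, mul_pow]

@[simp] theorem sc_one (w : EE k l) : sc 1 w = w := by simp [sc]

theorem differentiable_sc (δ : ℝ) : Differentiable ℂ (sc δ : EE k l → EE k l) := by
  unfold sc; fun_prop

theorem continuous_sc : Continuous (fun p : ℝ × EE k l => sc p.1 p.2) := by
  unfold sc; fun_prop

/-- The complex linear map with real part `2 b a`. -/
noncomputable def ell (b : Bil k l) (a : Fin l → ℂ) : (Fin l → ℂ) →L[ℂ] (Fin k → ℂ) :=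
  LinearMap.toContinuousLinearMap
    { toFun := fun u => (2 : ℂ) • (ofR k (b a u) - Complex.I • ofR k (b a (Complex.I • u)))
      map_add' := fun u v => by
        simp only [smul_add, map_add, smul_sub]; abel
      map_smul' := fun c u => by
        have hc : c • u = c.re • u + c.im • (Complex.I • u) := by
          ext i; apply Complex.ext <;> simp <;> ring
        have hI : Complex.I • (c • u) = c.re • (Complex.I • u) - c.im • u := by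
          ext i; apply Complex.ext <;> simp <;> ring
        have e1 : b a (c • u) = c.re • b a u + c.im • b a (Complex.I • u) := by
          rw [hc, map_add, (b a).map_smul, (b a).map_smul]
        have e2 : b a (Complex.I • (c • u)) = c.re • b a (Complex.I • u) - c.im • b a u := by
          rw [hI, map_sub, (b a).map_smul, (b a).map_smul]
        rw [e1, e2]
        ext i; apply Complex.ext <;> simp <;> ring }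

theorem ell_apply (b : Bil k l) (a u : Fin l → ℂ) :
    ell b a u = (2 : ℂ) • (ofR k (b a u) - Complex.I • ofR k (b a (Complex.I • u))) := rfl

theorem reL_ell (b : Bil k l) (a u : Fin l → ℂ) : reL k (ell b a u) = (2 : ℝ) • b a u := by
  ext i; simp [ell_apply]

/-- Heisenberg translation. -/
noncomputable def tr (b : Bil k l) (t : Fin k → ℝ) (a : Fin l → ℂ) (w : EE k l) : EE k l :=
  (w.1 + ell b a w.2 + ofR k (b a a) + Complex.I • ofR k t, w.2 + a)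

theorem rho_tr {b : Bil k l} (hb : ∀ u v, b u v = b v u) (t : Fin k → ℝ) (a : Fin l → ℂ)
    (w : EE k l) : rho b (tr b t a w) = rho b w := by
  simp only [rho, tr, map_add, reL_ell, reL_ofR, reL_I_ofR, _root_.add_apply, hb w.2 a, two_smul]
  abel

theorem differentiable_tr (b : Bil k l) (t : Fin k → ℝ) (a : Fin l → ℂ) :
    Differentiable ℂ (tr b t a) := by
  unfold tr; fun_prop

/-- `b` is the real part of a positive definite Hermitian form in every component. -/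
structure Herm (b : Bil k l) : Prop where
  symm : ∀ u v, b u v = b v u
  rot : ∀ u v, b (Complex.I • u) (Complex.I • v) = b u v
  pos : ∃ c : ℝ, 0 < c ∧ ∀ u i, c * ‖u‖ ^ 2 ≤ b u u i

theorem Herm.self_I {b : Bil k l} (h : Herm b) (a : Fin l → ℂ) : b a (Complex.I • a) = 0 := by
  have h1 := h.rot a (Complex.I • a)
  rw [smul_smul, Complex.I_mul_I, neg_one_smul, map_neg, h.symm] at h1
  ext i
  have := congrFun h1 i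
  simp only [Pi.neg_apply] at this
  simp only [Pi.zero_apply]
  linarith

theorem Herm.tr_neg {b : Bil k l} (h : Herm b) (t : Fin k → ℝ) (a : Fin l → ℂ) (w : EE k l) :
    tr b (-t) (-a) (tr b t a w) = w := by
  have h1 : ell b (-a) = -ell b a := by
    ext1 u; simp only [ell_apply, map_neg, _root_.neg_apply, smul_neg, smul_sub]; abel
  have h2 : ell b a a = (2 : ℂ) • ofR k (b a a) := by simp [ell_apply, h.self_I]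
  refine Prod.ext ?_ (by simp [tr])
  simp only [tr, h1, map_add, map_neg, _root_.neg_apply, neg_neg, h2, smul_neg, two_smul]
  abel

/-- An open dense cone. -/
structure Cone (𝒢 : Set (Fin k → ℝ)) : Prop where
  opn : IsOpen 𝒢
  dense : Dense 𝒢
  smul : ∀ ν ∈ 𝒢, ∀ s : ℝ, 0 < s → s • ν ∈ 𝒢

/-- The boundary of `Ω` does not meet `rho ⁻¹ 𝒢`. -/
def WallP (b : Bil k l) (𝒢 : Set (Fin k → ℝ)) (Ω : Set (EE k l)) : Prop :=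
  ∀ w, rho b w ∈ 𝒢 → ∃ r > 0, (ball w r ∩ Ω).Nonempty → ball w r ⊆ Ω

theorem WallP.subset {b : Bil k l} {𝒢 : Set (Fin k → ℝ)} {Ω T : Set (EE k l)}
    (h : WallP b 𝒢 Ω) (hT : IsPreconnected T) (h𝒢 : ∀ w ∈ T, rho b w ∈ 𝒢)
    (hne : (T ∩ Ω).Nonempty) : T ⊆ Ω := by
  have hF : Fr (fun _ => (1 : ℝ)) (rho b ⁻¹' 𝒢) Ω := by
    intro w hw _
    obtain ⟨r, hr, h1⟩ := h w hw
    by_cases h2 : (ball w r ∩ Ω).Nonempty
    · exact Or.inl (mem_of_superset (ball_mem_nhds w hr) (h1 h2))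
    · exact Or.inr (mem_of_superset (ball_mem_nhds w hr) fun y hy hΩ => h2 ⟨y, hy, hΩ⟩)
  exact hF.subset hT h𝒢 (fun _ _ => one_ne_zero) (hne.mono (inter_subset_inter_right _
    subset_closure))

/-- The family of model realizations of `U`. -/
structure Fam {E₀ : Type*} [NormedAddCommGroup E₀] [NormedSpace ℂ E₀] (U : Set E₀) (b : Bil k l)
    (𝒢 : Set (Fin k → ℝ)) (Ω : Set (EE k l)) : Prop where
  bih : ∃ ψ θ, Bihol U Ω ψ θ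
  opn : IsOpen Ω
  pos : ∀ w ∈ Ω, ∀ i, 0 ≤ rho b w i
  wall : WallP b 𝒢 Ω

/-- The point of the model space with real part `H p` over the parameters `p.1`. -/
noncomputable def gr (H : ((Fin k → ℝ) × (Fin l → ℂ)) × ℝ → (Fin k → ℝ))
    (p : ((Fin k → ℝ) × (Fin l → ℂ)) × ℝ) : EE k l :=
  (ofR k (H p) + Complex.I • ofR k p.1.1, p.1.2)

/-- A family of arcs in graph form entering `O` with a polynomial margin. -/
structure EdgeM (O : Set (EE k l)) (H : ((Fin k → ℝ) × (Fin l → ℂ)) × ℝ → (Fin k → ℝ))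
    (e : ℕ) : Prop where
  an : AnalyticAt ℝ H 0
  zero : H 0 = 0
  der : ∀ y, fderiv ℝ H 0 (y, 0) = 0
  margin : ∀ᶠ p in 𝓝 (0 : ((Fin k → ℝ) × (Fin l → ℂ)) × ℝ), 0 < p.2 → ∀ v, ‖v‖ ≤ p.2 ^ e →
    gr H p + v ∈ O

/-- Coordinates at a boundary point adapted to peak functions, with the limiting quadric. -/
structure Peak {N : ℕ} (U : Set (Fin N → ℂ)) (Θ : EE k l → (Fin N → ℂ))
    (χ : (Fin N → ℂ) → EE k l) (b : Bil k l) (𝒢 : Set (Fin k → ℝ)) : Prop where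
  hΘ : AnalyticAt ℂ Θ 0
  hχ : Differentiable ℂ χ
  left : ∀ᶠ w in 𝓝 (0 : EE k l), χ (Θ w) = w
  right : ∀ᶠ z in 𝓝 (Θ 0), z ∈ U → Θ (χ z) = z
  opn : ∀ᶠ w in 𝓝 (0 : EE k l), Θ w ∈ U → ∀ᶠ w' in 𝓝 w, Θ w' ∈ U
  peak : ∃ c : ℝ, 0 < c ∧ ∀ z ∈ U, ∀ i, c * ‖z - Θ 0‖ ^ 2 ≤ ((χ z).1 i).re
  symm : ∀ u v, b u v = b v u
  cone : Cone 𝒢
  wall : ∀ w, rho b w ∈ 𝒢 → ∃ r > 0, ∀ᶠ δ in 𝓝[>] (0 : ℝ),
    (∃ w' ∈ ball w r, Θ (sc δ w') ∈ U) → ∀ w' ∈ ball w r, Θ (sc δ w') ∈ U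
  sector : ∃ w₀, rho b w₀ ∈ 𝒢 ∧ ∃ r > 0, ∀ᶠ δ in 𝓝[>] (0 : ℝ), ∀ w ∈ ball w₀ r, Θ (sc δ w) ∈ U

end

/-- Properties of a weighted real Wiener algebra on the unit circle: evaluations, holomorphic
completion `hol`, conjugation operator `T` normalized at `1`, radial derivative `der` at `1`. -/
structure IsWien (W : Type) [NormedCommRing W] [NormedAlgebra ℝ W] (ev : ℂ → W →L[ℝ] ℝ)
    (hol : ℂ → W →L[ℝ] ℂ) (T : W →L[ℝ] W) (der : W →L[ℝ] ℂ) (σ₀ : W) : Prop where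
  ev_one : ∀ ζ : ℂ, ‖ζ‖ = 1 → ev ζ 1 = 1
  ev_mul : ∀ ζ : ℂ, ‖ζ‖ = 1 → ∀ a b, ev ζ (a * b) = ev ζ a * ev ζ b
  ev_le : ∀ ζ : ℂ, ‖ζ‖ = 1 → ∀ a, |ev ζ a| ≤ ‖a‖
  hol_diff : ∀ a, DifferentiableOn ℂ (fun ζ => hol ζ a) (ball 0 1)
  hol_cont : ContinuousOn (fun p : W × ℂ => hol p.2 p.1) (univ ×ˢ closedBall 0 1)
  hol_le : ∃ C : ℝ, ∀ ζ : ℂ, ‖ζ‖ ≤ 1 → ∀ a, ‖hol ζ a‖ ≤ C * ‖a‖
  hol_bdry : ∀ ζ : ℂ, ‖ζ‖ = 1 → ∀ a, hol ζ a = (ev ζ a : ℂ) + Complex.I * (ev ζ (T a) : ℂ)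
  hol_one : ∀ ζ : ℂ, ‖ζ‖ ≤ 1 → hol ζ 1 = 1
  T_one : T 1 = 0
  ev_T : ∀ a, ev 1 (T a) = 0
  der_lim : ∀ a, Tendsto (fun η : ℝ => (η : ℂ)⁻¹ * (hol (1 - η) a - hol 1 a)) (𝓝[>] 0)
    (𝓝 (der a))
  sig : ∀ ζ : ℂ, ‖ζ‖ = 1 → ev ζ σ₀ = 1 - ζ.re
  der_pow : ∀ e : ℕ, (der (σ₀ ^ (e + 1))).re ≠ 0

def S_Wien : Prop :=
  ∃ (W : Type) (_ : NormedCommRing W) (_ : NormedAlgebra ℝ W) (_ : CompleteSpace W)
    (ev : ℂ → W →L[ℝ] ℝ) (hol : ℂ → W →L[ℝ] ℂ) (T : W →L[ℝ] W) (der : W →L[ℝ] ℂ) (σ₀ : W),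
    IsWien W ev hol T der σ₀

/-- Analytic functional calculus in a commutative real Banach algebra. -/
def S_FC : Prop :=
  ∀ (W : Type) [NormedCommRing W] [NormedAlgebra ℝ W] [CompleteSpace W] (J : Type) [Fintype J]
    [DecidableEq J] (f : (J → ℝ) → ℝ), AnalyticAt ℝ f 0 → ∃ F : (J → W) → W, AnalyticAt ℝ F 0 ∧
      (∀ᶠ a in 𝓝 (0 : J → W), ∀ φ : W →L[ℝ] ℝ, φ 1 = 1 → (∀ u v, φ (u * v) = φ u * φ v) →
        (∀ u, |φ u| ≤ ‖u‖) → φ (F a) = f (fun i => φ (a i))) ∧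
      (∀ᶠ y in 𝓝 (0 : J → ℝ), F (fun i => algebraMap ℝ W (y i)) = algebraMap ℝ W (f y)) ∧
      ∀ a, fderiv ℝ F 0 a = ∑ i, fderiv ℝ f 0 (Pi.single i 1) • a i

/-- Bishop discs: the tangent cone of a taut set along a generic edge has generic directions. -/
def S_Bishop : Prop :=
  ∀ (k l : ℕ) (O W : Set (EE k l)) (H : ((Fin k → ℝ) × (Fin l → ℂ)) × ℝ → (Fin k → ℝ)) (e : ℕ)
    (𝒢 : Set (Fin k → ℝ)), IsOpen O → W ∈ 𝓝 (0 : EE k l) → TautIn O W → EdgeM O H e → Dense 𝒢 →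
    ∃ Z₀ : Fin k → ℂ, reL k Z₀ ∈ 𝒢 ∧ ∃ A : ℝ → (Fin k → ℂ),
      (∀ᶠ η in 𝓝[>] (0 : ℝ), ((A η, 0) : EE k l) ∈ closure O) ∧
      Tendsto (fun η : ℝ => η⁻¹ • A η) (𝓝[>] 0) (𝓝 Z₀)

/-- The limiting quadric and the limiting walls. -/
def S_Wall : Prop :=
  ∀ (k l : ℕ) (O W : Set (EE k l)) (D : EE k l → ℝ)
    (H : ((Fin k → ℝ) × (Fin l → ℂ)) × ℝ → (Fin k → ℝ)) (μ : ℕ) (P : EE k l → ℝ),
    W ∈ 𝓝 (0 : EE k l) → Fr D W O → AnalyticAt ℝ H 0 → H 0 = 0 → (∀ y, fderiv ℝ H 0 (y, 0) = 0) →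
    Lead D (fun y => gr H (y, 0)) 0 μ P → Dense {v | P v ≠ 0} →
    ∃ (b : Bil k l) (𝒢 : Set (Fin k → ℝ)), (∀ u v, b u v = b v u) ∧ Cone 𝒢 ∧
      ∀ w, rho b w ∈ 𝒢 → ∃ r > 0, ∀ᶠ δ in 𝓝[>] (0 : ℝ),
        (∃ w' ∈ ball w r, sc δ w' ∈ closure O) → ∀ w' ∈ ball w r, sc δ w' ∈ O

/-- Graph form of a family of arcs. -/
def S_Graph : Prop :=
  ∀ (k l d : ℕ) (O : Set (EE k l)) (D : EE k l → ℝ) (c : (Fin d → ℝ) × ℝ → EE k l)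
    (x₀ : Fin d → ℝ) (e μ : ℕ) (P : EE k l → ℝ), AnalyticAt ℝ c (x₀, 0) → c (x₀, 0) = 0 →
    Function.Injective (fderiv ℝ (fun x => c (x, 0)) x₀) →
    (∀ w, w ∈ range (fderiv ℝ (fun x => c (x, 0)) x₀) ↔ reL k w.1 = 0) →
    (∀ᶠ p in 𝓝 (x₀, (0 : ℝ)), 0 < p.2 → ∀ v, ‖v‖ ≤ p.2 ^ e → c p + v ∈ O) →
    Lead D (fun x => c (x, 0)) x₀ μ P →
    ∃ H, EdgeM O H e ∧ Lead D (fun y => gr H (y, 0)) 0 μ P

/-- Linear algebra of generic subspaces. -/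
def S_Lin : Prop :=
  ∀ (n d : ℕ) (A : (Fin d → ℝ) →L[ℝ] (Fin n → ℂ)) (Λ : Set ((Fin n → ℂ) →L[ℂ] ℂ)),
    (∀ lam : (Fin n → ℂ) →L[ℂ] ℂ, (∀ ξ, lam (A ξ) = 0) → lam = 0) →
    (∀ lam ∈ Λ, ∀ ξ, (lam (A ξ)).re = 0) → (∀ v, (∀ lam ∈ Λ, (lam v).re = 0) → v ∈ range A) →
    ∃ (k l : ℕ) (lam : Fin k → ((Fin n → ℂ) →L[ℂ] ℂ)) (L : (Fin n → ℂ) ≃L[ℂ] EE k l),
      k + l = n ∧ (∀ i, lam i ∈ Λ) ∧ (∀ v i, (L v).1 i = lam i v) ∧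
      ∀ v, v ∈ range A ↔ reL k (L v).1 = 0

def S_Coord : Prop :=
  ∀ (N n d : ℕ) (Γ : Type) [Group Γ] (U : Set (Fin N → ℂ))
    (act : Γ → (Fin N → ℂ) → (Fin N → ℂ)) (pr : (Fin N → ℂ) → (Fin n → ℂ))
    (G : (Fin n → ℂ) → (Fin N → ℂ)) (D : (Fin n → ℂ) → ℝ) (W : Set (Fin n → ℂ))
    (φ : (Fin d → ℝ) → (Fin n → ℂ)) (x₀ : Fin d → ℝ), Div U act → 0 < n →
    PtData U pr G D W φ x₀ → ∃ (k l : ℕ) (Θ : EE k l → (Fin N → ℂ)) (χ : (Fin N → ℂ) → EE k l)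
      (b : Bil k l) (𝒢 : Set (Fin k → ℝ)), 0 < k ∧ k + l = n ∧ Peak U Θ χ b 𝒢

/-- Kernel convergence of realizations of `U`. -/
def S_KL : Prop :=
  ∀ (E₀ E : Type) [NormedAddCommGroup E₀] [NormedSpace ℂ E₀] [FiniteDimensional ℂ E₀]
    [NormedAddCommGroup E] [NormedSpace ℂ E] [FiniteDimensional ℂ E] (Γ : Type) [Group Γ]
    (U : Set E₀) (act : Γ → E₀ → E₀), Div U act → (∀ x ∈ U, Reg E U x) →
    ∀ (J : Type) (𝔲 : Ultrafilter J) (ψ : J → E₀ → E) (θ : J → E → E₀) (Ω : J → Set E)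
      (w₀ : E) (r₀ : ℝ) (K : Set E₀),
    (∀ᶠ j in 𝔲, IsOpen (Ω j) ∧ DifferentiableOn ℂ (θ j) (Ω j) ∧ MapsTo (θ j) (Ω j) U ∧
      ∀ w ∈ Ω j, ψ j (θ j w) = w) →
    (∀ x ∈ U, ∃ O, IsOpen O ∧ x ∈ O ∧ ∃ M : ℝ, ∀ᶠ j in 𝔲, HolOn (U ∩ O) (ψ j) ∧
      ∀ y ∈ U ∩ O, ψ j y ∈ Ω j ∧ θ j (ψ j y) = y ∧ ‖ψ j y‖ ≤ M) →
    0 < r₀ → IsCompact K → K ⊆ U → (∀ᶠ j in 𝔲, ball w₀ r₀ ⊆ Ω j ∧ θ j w₀ ∈ K) →
    ∃ (ψ' : E₀ → E) (θ' : E → E₀) (Ω' : Set E), IsOpen Ω' ∧ Bihol U Ω' ψ' θ' ∧ w₀ ∈ Ω' ∧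
      (∀ x ∈ U, Tendsto (fun j => ψ j x) 𝔲 (𝓝 (ψ' x))) ∧
      (∀ w ∈ Ω', ∃ r > 0, ∀ᶠ j in 𝔲, ball w r ⊆ Ω j) ∧
      ∀ w r, (∀ᶠ j in 𝔲, ball w r ⊆ Ω j) → (ball w r ∩ Ω').Nonempty → ball w r ⊆ Ω'

/-- The first rescaling limit. -/
def S_First : Prop :=
  ∀ (N k l : ℕ) (Γ : Type) [Group Γ] (U : Set (Fin N → ℂ))
    (act : Γ → (Fin N → ℂ) → (Fin N → ℂ)) (Θ : EE k l → (Fin N → ℂ))
    (χ : (Fin N → ℂ) → EE k l) (b : Bil k l) (𝒢 : Set (Fin k → ℝ)), Div U act →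
    (∀ x ∈ U, Reg (EE k l) U x) → 0 < k → Peak U Θ χ b 𝒢 →
    ∃ Ω : Set (EE k l), (∃ ψ θ, Bihol U Ω ψ θ) ∧ IsOpen Ω ∧
      (∃ c : ℝ, 0 < c ∧ ∀ w ∈ Ω, ∀ i, c * ‖w.2‖ ^ 2 ≤ (w.1 i).re) ∧ WallP b 𝒢 Ω ∧
      ∃ w₀ ∈ Ω, rho b w₀ ∈ 𝒢

/-- Normalization of the quadric. -/
def S_Herm : Prop :=
  ∀ (N k l : ℕ) (U : Set (Fin N → ℂ)) (b : Bil k l) (𝒢 : Set (Fin k → ℝ)) (Ω : Set (EE k l)),
    (∀ u v, b u v = b v u) → Cone 𝒢 → (∃ ψ θ, Bihol U Ω ψ θ) → IsOpen Ω →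
    (∃ c : ℝ, 0 < c ∧ ∀ w ∈ Ω, ∀ i, c * ‖w.2‖ ^ 2 ≤ (w.1 i).re) → WallP b 𝒢 Ω →
    (∃ w₀ ∈ Ω, rho b w₀ ∈ 𝒢) →
    ∃ (b' : Bil k l) (Ω' : Set (EE k l)), Herm b' ∧ Fam U b' 𝒢 Ω' ∧ ∃ w₀ ∈ Ω', rho b' w₀ ∈ 𝒢

/-- The family is closed under kernel limits. -/
def S_FamLim : Prop :=
  ∀ (N k l : ℕ) (Γ : Type) [Group Γ] (U : Set (Fin N → ℂ))
    (act : Γ → (Fin N → ℂ) → (Fin N → ℂ)) (b : Bil k l) (𝒢 : Set (Fin k → ℝ)), Div U act →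
    (∀ x ∈ U, Reg (EE k l) U x) → 0 < k → Herm b → IsOpen 𝒢 →
    ∀ (J : Type) (𝔲 : Ultrafilter J) (Ω : J → Set (EE k l)) (w₀ : EE k l) (r₀ : ℝ),
    (∀ j, Fam U b 𝒢 (Ω j)) → 0 < r₀ → (∀ᶠ j in 𝔲, ball w₀ r₀ ⊆ Ω j) →
    ∃ Ω', Fam U b 𝒢 Ω' ∧ w₀ ∈ Ω' ∧
      ∀ w r, (∀ᶠ j in 𝔲, ball w r ⊆ Ω j) → (ball w r ∩ Ω').Nonempty → ball w r ⊆ Ω'

/-- Symmetries of the family, and radial invariance of its members. -/
def S_FamSym : Prop :=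
  ∀ (N k l : ℕ) (Γ : Type) [Group Γ] (U : Set (Fin N → ℂ))
    (act : Γ → (Fin N → ℂ) → (Fin N → ℂ)) (b : Bil k l) (𝒢 : Set (Fin k → ℝ))
    (Ω : Set (EE k l)), Div U act → Herm b → Cone 𝒢 → Fam U b 𝒢 Ω →
    (∀ t a, Fam U b 𝒢 (tr b t a ⁻¹' Ω)) ∧ (∀ δ : ℝ, 0 < δ → Fam U b 𝒢 (sc δ ⁻¹' Ω)) ∧
    ∀ w ∈ Ω, ∀ s : ℝ, 0 < s → ((w.1 + ofR k ((s - 1) • rho b w), w.2) : EE k l) ∈ Ω

/-- Removal of the walls: `U` is biholomorphic to a Siegel domain. -/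
def S_Walls : Prop :=
  ∀ (N k l : ℕ) (Γ : Type) [Group Γ] (U : Set (Fin N → ℂ))
    (act : Γ → (Fin N → ℂ) → (Fin N → ℂ)) (b : Bil k l) (𝒢 : Set (Fin k → ℝ))
    (Ω : Set (EE k l)), Div U act → (∀ x ∈ U, Reg (EE k l) U x) → 0 < k → Herm b → Cone 𝒢 →
    Fam U b 𝒢 Ω → (∃ w₀ ∈ Ω, rho b w₀ ∈ 𝒢) →
    ∃ C : Set (Fin k → ℝ), (∀ ν ∈ C, ∀ s : ℝ, 0 < s → s • ν ∈ C) ∧ Fam U b 𝒢 (rho b ⁻¹' C)

/-- Bounded realization. -/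
def S_Cayley : Prop :=
  ∀ (k l : ℕ) (b : Bil k l) (Ω : Set (EE k l)), 0 < k → Herm b → IsOpen Ω →
    (∀ w ∈ Ω, ∀ i, 0 ≤ rho b w i) → ∃ (B : Set (Fin (k + l) → ℂ)) (g : EE k l → (Fin (k + l) → ℂ))
      (g' : (Fin (k + l) → ℂ) → EE k l), IsOpen B ∧ Bornology.IsBounded B ∧ Bihol Ω B g g'

/-- Constant fields and the Euler field lie in the complexified Lie algebra of a Siegel domain. -/
def S_MF : Prop :=
  ∀ (k l : ℕ) (b : Bil k l) (C : Set (Fin k → ℝ)), Herm b →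
    (∀ ν ∈ C, ∀ s : ℝ, 0 < s → s • ν ∈ C) →
    (∀ v : EE k l, ∃ X Y φ ψ, Differentiable ℂ X ∧ Differentiable ℂ Y ∧
      Flow (rho b ⁻¹' C) X φ ∧ Flow (rho b ⁻¹' C) Y ψ ∧ ∀ w, X w + Complex.I • Y w = v) ∧
    ∃ X Y φ ψ, Differentiable ℂ X ∧ Differentiable ℂ Y ∧
      Flow (rho b ⁻¹' C) X φ ∧ Flow (rho b ⁻¹' C) Y ψ ∧ ∀ w, X w + Complex.I • Y w = w

/-- A divisible Siegel domain is symmetric. -/
def S_PartD : Prop :=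
  ∀ (N k l : ℕ) (Γ : Type) [Group Γ] (U : Set (Fin N → ℂ))
    (act : Γ → (Fin N → ℂ) → (Fin N → ℂ)) (b : Bil k l) (𝒢 C : Set (Fin k → ℝ)), Div U act →
    0 < k → Herm b → (∀ ν ∈ C, ∀ s : ℝ, 0 < s → s • ν ∈ C) → Fam U b 𝒢 (rho b ⁻¹' C) →
    ∃ (n : ℕ) (D : Set (Fin n → ℂ)) (ψ : (Fin N → ℂ) → (Fin n → ℂ))
      (θ : (Fin n → ℂ) → (Fin N → ℂ)), IsBSD D ∧ Bihol U D ψ θ

/-- The theorem in internal form. -/
def S_Main : Prop :=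
  ∀ (N : ℕ) (Γ : Type) [Group Γ] (U : Set (Fin N → ℂ)) (act : Γ → (Fin N → ℂ) → (Fin N → ℂ)),
    Div U act → (∃ I O, IsOpen O ∧ U = ZV I ∩ O) → Semialg U →
    ∃ (n : ℕ) (D : Set (Fin n → ℂ)) (ψ : (Fin N → ℂ) → (Fin n → ℂ))
      (θ : (Fin n → ℂ) → (Fin N → ℂ)), IsBSD D ∧ Bihol U D ψ θ

end Vale.Agent.P274
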